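import Vale.Agent.CT.AbsA

/-! # Abstract spectral lemmas (piece ABS) -/

namespace CT

open Finset
open scoped Classical

/-- Solvability: a symmetric operator whose kernel is the constants hits every mean zero function.
`w` are positive weights on the finite set `X`, `B` the bilinear form of `-L`. -/
theorem solve {α : Type} (X : Finset α) (w : α → ℝ) (hw : ∀ x ∈ X, 0 < w x)
    (L : (α → ℝ) →ₗ[ℝ] (α → ℝ))
    (hloc : ∀ u v, (∀ x ∈ X, u x = v x) → ∀ x ∈ X, L u x = L v x)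
    (hsym : ∀ u v, ∑ x ∈ X, w x * (L u x * v x) = ∑ x ∈ X, w x * (u x * L v x))
    (hconst : ∀ x ∈ X, L (fun _ => 1) x = 0)
    (hker : ∀ u, (∀ x ∈ X, L u x = 0) → ∀ x ∈ X, ∀ y ∈ X, u x = u y)
    (f : α → ℝ) (hf : ∑ x ∈ X, w x * f x = 0) :
    ∃ u : α → ℝ, ∀ x ∈ X, L u x = f x :=
  solveA X w hw L hloc hsym hconst hker f hf

/-- `‖L u‖² ≥ c ⟨u, -L u⟩` for all `u` gives the Poincare inequality with constant `1/c`. -/
theorem gap_of_square {α : Type} (X : Finset α) (w : α → ℝ) (hw : ∀ x ∈ X, 0 < w x)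
    (L : (α → ℝ) →ₗ[ℝ] (α → ℝ))
    (hloc : ∀ u v, (∀ x ∈ X, u x = v x) → ∀ x ∈ X, L u x = L v x)
    (hsym : ∀ u v, ∑ x ∈ X, w x * (L u x * v x) = ∑ x ∈ X, w x * (u x * L v x))
    (hneg : ∀ u, 0 ≤ - ∑ x ∈ X, w x * (u x * L u x))
    (hconst : ∀ x ∈ X, L (fun _ => 1) x = 0)
    (hker : ∀ u, (∀ x ∈ X, L u x = 0) → ∀ x ∈ X, ∀ y ∈ X, u x = u y)
    (c : ℝ) (hc : 0 < c)
    (hsq : ∀ u, c * (- ∑ x ∈ X, w x * (u x * L u x)) ≤ ∑ x ∈ X, w x * (L u x) ^ 2)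
    (f : α → ℝ) :
    (∑ x ∈ X, w x) * (∑ x ∈ X, w x * f x ^ 2) - (∑ x ∈ X, w x * f x) ^ 2
      ≤ (1 / c) * (∑ x ∈ X, w x) * (- ∑ x ∈ X, w x * (f x * L f x)) :=
  gap_of_squareA X w hw L hloc hsym hneg hconst hker c hc hsq f

end CT
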