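import Mathlib

/-! # Abstract spectral lemmas (piece ABS) -/

namespace CT

open Finset
open scoped Classical

theorem solveA {α : Type} (X : Finset α) (w : α → ℝ) (hw : ∀ x ∈ X, 0 < w x)
    (L : (α → ℝ) →ₗ[ℝ] (α → ℝ))
    (_hloc : ∀ u v, (∀ x ∈ X, u x = v x) → ∀ x ∈ X, L u x = L v x)
    (hsym : ∀ u v, ∑ x ∈ X, w x * (L u x * v x) = ∑ x ∈ X, w x * (u x * L v x))
    (hconst : ∀ x ∈ X, L (fun _ => 1) x = 0)
    (hker : ∀ u, (∀ x ∈ X, L u x = 0) → ∀ x ∈ X, ∀ y ∈ X, u x = u y)
    (f : α → ℝ) (hf : ∑ x ∈ X, w x * f x = 0) :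
    ∃ u : α → ℝ, ∀ x ∈ X, L u x = f x := by
  rcases X.eq_empty_or_nonempty with hX | ⟨x0, hx0⟩
  · subst hX
    exact ⟨0, by simp⟩
  -- extension by zero
  let ext : (X → ℝ) →ₗ[ℝ] (α → ℝ) :=
    { toFun := fun u a => if h : a ∈ X then u ⟨a, h⟩ else 0
      map_add' := by
        intro u v
        funext a
        by_cases h : a ∈ X <;> simp [h]
      map_smul' := by
        intro c u
        funext a
        by_cases h : a ∈ X <;> simp [h] }
  have ext_apply : ∀ (u : X → ℝ) (x : X), ext u x = u x := by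
    intro u x
    show (if h : (x : α) ∈ X then u ⟨x, h⟩ else 0) = u x
    simp
  let res : (α → ℝ) →ₗ[ℝ] (X → ℝ) :=
    { toFun := fun u x => u x
      map_add' := fun _ _ => rfl
      map_smul' := fun _ _ => rfl }
  let M : (X → ℝ) →ₗ[ℝ] (X → ℝ) := res ∘ₗ L ∘ₗ ext
  have M_apply : ∀ u x, M u x = L (ext u) x := fun _ _ => rfl
  let φ : (X → ℝ) →ₗ[ℝ] ℝ :=
    { toFun := fun g => ∑ x : X, w x * g x
      map_add' := by
        intro g h
        simp only [Pi.add_apply, mul_add, Finset.sum_add_distrib]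
      map_smul' := by
        intro c g
        simp only [Pi.smul_apply, smul_eq_mul, RingHom.id_apply, Finset.mul_sum]
        exact Finset.sum_congr rfl fun x _ => by ring }
  have hφ : ∀ g, φ g = ∑ x : X, w x * g x := fun _ => rfl
  have hle : LinearMap.range M ≤ LinearMap.ker φ := by
    rintro _ ⟨u, rfl⟩
    rw [LinearMap.mem_ker, hφ]
    have h1 := hsym (ext u) (fun _ => 1)
    simp only [mul_one] at h1
    calc ∑ x : X, w x * M u x = ∑ x : X, (fun a => w a * L (ext u) a) x :=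
          Finset.sum_congr rfl fun x _ => by rw [M_apply]
      _ = ∑ x ∈ X, w x * L (ext u) x := Finset.sum_coe_sort X (fun a => w a * L (ext u) a)
      _ = _ := h1
      _ = 0 := Finset.sum_eq_zero fun x hx => by rw [hconst x hx]; ring
  have hker1 : Module.finrank ℝ (LinearMap.ker M) ≤ 1 := by
    have hsub : LinearMap.ker M ≤ Submodule.span ℝ {(fun _ => 1 : X → ℝ)} := by
      intro u hu
      rw [LinearMap.mem_ker] at hu
      rw [Submodule.mem_span_singleton]
      refine ⟨u ⟨x0, hx0⟩, ?_⟩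
      funext x
      have h0 : ∀ y ∈ X, L (ext u) y = 0 := by
        intro y hy
        have := congrFun hu ⟨y, hy⟩
        rw [M_apply] at this
        exact this
      have := hker (ext u) h0 x0 hx0 x x.2
      have e1 := ext_apply u ⟨x0, hx0⟩
      have e2 := ext_apply u x
      simp only [Pi.smul_apply, smul_eq_mul, mul_one]
      rw [← e1, ← e2]
      exact this
    calc Module.finrank ℝ (LinearMap.ker M)
        ≤ Module.finrank ℝ (Submodule.span ℝ {(fun _ => 1 : X → ℝ)}) :=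
          Submodule.finrank_mono hsub
      _ ≤ 1 := by
          have h := finrank_span_le_card (R := ℝ) ({(fun _ => 1 : X → ℝ)} : Set (X → ℝ))
          simpa using h
  have hne : LinearMap.ker φ ≠ ⊤ := by
    intro htop
    have h1 : (fun _ => 1 : X → ℝ) ∈ LinearMap.ker φ := by rw [htop]; trivial
    rw [LinearMap.mem_ker, hφ] at h1
    have h2 : 0 < ∑ x : X, w x * (1:ℝ) := by
      apply Finset.sum_pos
      · intro x _
        rw [mul_one]
        exact hw x x.2
      · exact ⟨⟨x0, hx0⟩, Finset.mem_univ _⟩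
    linarith
  have hlt : Module.finrank ℝ (LinearMap.ker φ) < Module.finrank ℝ (X → ℝ) :=
    Submodule.finrank_lt hne
  have hrn := LinearMap.finrank_range_add_finrank_ker M
  have heq : LinearMap.range M = LinearMap.ker φ := by
    apply Submodule.eq_of_le_of_finrank_le hle
    omega
  have hfm : res f ∈ LinearMap.ker φ := by
    rw [LinearMap.mem_ker, hφ]
    calc ∑ x : X, w x * res f x = ∑ x : X, (fun a => w a * f a) x := rfl
      _ = ∑ x ∈ X, w x * f x := Finset.sum_coe_sort X (fun a => w a * f a)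
      _ = 0 := hf
  rw [← heq] at hfm
  obtain ⟨u, hu⟩ := hfm
  refine ⟨ext u, fun x hx => ?_⟩
  have := congrFun hu ⟨x, hx⟩
  rw [M_apply] at this
  exact this

theorem gap_of_squareA {α : Type} (X : Finset α) (w : α → ℝ) (hw : ∀ x ∈ X, 0 < w x)
    (L : (α → ℝ) →ₗ[ℝ] (α → ℝ))
    (hloc : ∀ u v, (∀ x ∈ X, u x = v x) → ∀ x ∈ X, L u x = L v x)
    (hsym : ∀ u v, ∑ x ∈ X, w x * (L u x * v x) = ∑ x ∈ X, w x * (u x * L v x))
    (hneg : ∀ u, 0 ≤ - ∑ x ∈ X, w x * (u x * L u x))
    (hconst : ∀ x ∈ X, L (fun _ => 1) x = 0)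
    (hker : ∀ u, (∀ x ∈ X, L u x = 0) → ∀ x ∈ X, ∀ y ∈ X, u x = u y)
    (c : ℝ) (hc : 0 < c)
    (hsq : ∀ u, c * (- ∑ x ∈ X, w x * (u x * L u x)) ≤ ∑ x ∈ X, w x * (L u x) ^ 2)
    (f : α → ℝ) :
    (∑ x ∈ X, w x) * (∑ x ∈ X, w x * f x ^ 2) - (∑ x ∈ X, w x * f x) ^ 2
      ≤ (1 / c) * (∑ x ∈ X, w x) * (- ∑ x ∈ X, w x * (f x * L f x)) := by
  rcases X.eq_empty_or_nonempty with hX | hX
  · subst hX
    simp
  have hW : 0 < ∑ x ∈ X, w x := Finset.sum_pos hw hX
  set W := ∑ x ∈ X, w x with hWdef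
  set m := (∑ x ∈ X, w x * f x) / W with hm
  set g : α → ℝ := f - m • (fun _ => 1) with hg
  have hgx : ∀ x, g x = f x - m := by
    intro x
    simp [hg]
  have hmW : m * W = ∑ x ∈ X, w x * f x := by
    rw [hm, div_mul_cancel₀ _ hW.ne']
  have hgmean : ∑ x ∈ X, w x * g x = 0 := by
    calc ∑ x ∈ X, w x * g x = ∑ x ∈ X, (w x * f x - m * w x) :=
          Finset.sum_congr rfl fun x _ => by rw [hgx]; ring
      _ = (∑ x ∈ X, w x * f x) - m * W := by rw [Finset.sum_sub_distrib, ← Finset.mul_sum]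
      _ = 0 := by rw [hmW]; ring
  have hLg : ∀ x ∈ X, L g x = L f x := by
    intro x hx
    rw [hg, map_sub, map_smul]
    simp only [Pi.sub_apply, Pi.smul_apply, smul_eq_mul]
    rw [hconst x hx]
    ring
  obtain ⟨u, hu⟩ := solveA X w hw L hloc hsym hconst hker g hgmean
  -- B(g,g) = B(f,f)
  have hBfg : ∑ x ∈ X, w x * (g x * L g x) = ∑ x ∈ X, w x * (f x * L f x) := by
    have h1 : ∑ x ∈ X, w x * L f x = 0 := by
      have h2 := hsym f (fun _ => 1)
      simp only [mul_one] at h2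
      rw [h2]
      exact Finset.sum_eq_zero fun x hx => by rw [hconst x hx]; ring
    calc ∑ x ∈ X, w x * (g x * L g x) = ∑ x ∈ X, (w x * (f x * L f x) - m * (w x * L f x)) :=
          Finset.sum_congr rfl fun x hx => by rw [hLg x hx, hgx]; ring
      _ = _ := by rw [Finset.sum_sub_distrib, ← Finset.mul_sum, h1]; ring
  set G := ∑ x ∈ X, w x * g x ^ 2 with hG
  -- the quadratic form at g + c u
  have hq := hneg (g + c • u)
  have hexp : ∑ x ∈ X, w x * ((g + c • u) x * L (g + c • u) x)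
      = (∑ x ∈ X, w x * (g x * L g x)) + 2 * c * G + c ^ 2 * ∑ x ∈ X, w x * (u x * L u x) := by
    have h1 : ∑ x ∈ X, w x * (L g x * u x) = G := by
      rw [hsym g u]
      exact Finset.sum_congr rfl fun x hx => by rw [hu x hx]; ring
    calc ∑ x ∈ X, w x * ((g + c • u) x * L (g + c • u) x)
        = ∑ x ∈ X, (w x * (g x * L g x) + c * (w x * (L g x * u x)) + c * (w x * g x ^ 2)
            + c ^ 2 * (w x * (u x * L u x))) := by
          apply Finset.sum_congr rfl
          intro x hx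
          rw [map_add, map_smul]
          simp only [Pi.add_apply, Pi.smul_apply, smul_eq_mul]
          rw [hu x hx]
          ring
      _ = _ := by
          rw [Finset.sum_add_distrib, Finset.sum_add_distrib, Finset.sum_add_distrib,
            ← Finset.mul_sum, ← Finset.mul_sum, ← Finset.mul_sum, h1]
          ring
  rw [hexp] at hq
  have hs := hsq u
  have hs2 : ∑ x ∈ X, w x * (L u x) ^ 2 = G :=
    Finset.sum_congr rfl fun x hx => by rw [hu x hx]
  rw [hs2] at hs
  have hmain : c * G ≤ - ∑ x ∈ X, w x * (f x * L f x) := by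
    rw [← hBfg]
    nlinarith
  have hleft : W * (∑ x ∈ X, w x * f x ^ 2) - (∑ x ∈ X, w x * f x) ^ 2 = W * G := by
    have h1 : G = (∑ x ∈ X, w x * f x ^ 2) - 2 * m * (∑ x ∈ X, w x * f x) + m ^ 2 * W := by
      calc G = ∑ x ∈ X, (w x * f x ^ 2 - 2 * m * (w x * f x) + m ^ 2 * w x) :=
            Finset.sum_congr rfl fun x _ => by rw [hgx]; ring
        _ = _ := by
          rw [Finset.sum_add_distrib, Finset.sum_sub_distrib, ← Finset.mul_sum, ← Finset.mul_sum]
    rw [h1, ← hmW]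
    ring
  rw [hleft]
  have h3 : G ≤ (1 / c) * (- ∑ x ∈ X, w x * (f x * L f x)) := by
    rw [one_div, ← div_eq_inv_mul, le_div_iff₀ hc]
    linarith
  calc W * G ≤ W * ((1 / c) * (- ∑ x ∈ X, w x * (f x * L f x))) :=
        mul_le_mul_of_nonneg_left h3 hW.le
    _ = _ := by ring

end CT
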