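import Vale.Agent.CT.Rx

/-! # Connectivity (pieces CONN and the connectivity part of LOR) -/

namespace CT

open Finset
open scoped Classical

variable {J : Type} [Fintype J] [DecidableEq J]
variable {K : Type} [Fintype K] [DecidableEq K]

/-- distance of two rows -/
def d1 (s t : J → ℕ) : ℕ := ∑ j, ((s j - t j) + (t j - s j))

/-- distance of two configurations -/
def d2 (x x' : K → J → ℕ) : ℕ := ∑ k, d1 (x k) (x' k)

omit [DecidableEq J] in
theorem d1_eq_zero {s t : J → ℕ} (h : d1 s t = 0) : s = t := by
  funext j
  have := (Finset.sum_eq_zero_iff.1 h) j (mem_univ j)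
  omega

omit [DecidableEq J] [DecidableEq K] in
theorem d2_eq_zero {x x' : K → J → ℕ} (h : d2 x x' = 0) : x = x' := by
  funext k
  exact d1_eq_zero ((Finset.sum_eq_zero_iff.1 h) k (mem_univ k))

/-- a decreasing move -/
theorem d1_dec {s t : J → ℕ} {a b : J} (ha : t a < s a) (hb : s b < t b) :
    d1 (s - e a + e b) t + 2 = d1 s t := by
  have hab : a ≠ b := by
    rintro rfl
    omega
  have h : ∀ j, (((s - e a + e b) j - t j) + (t j - (s - e a + e b) j))
      + ((if j = a then 1 else 0) + (if j = b then 1 else 0)) = (s j - t j) + (t j - s j) := by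
    intro j
    simp only [Pi.add_apply, Pi.sub_apply, e, Pi.single_apply]
    by_cases h1 : j = a
    · subst h1
      simp only [if_true, hab, if_false]
      omega
    · by_cases h2 : j = b
      · subst h2
        simp only [if_true, h1, if_false]
        omega
      · simp only [h1, h2, if_false]
        omega
  have hs := Finset.sum_congr rfl (fun j (_ : j ∈ (univ : Finset J)) => h j)
  rw [Finset.sum_add_distrib] at hs
  have h2 : ∑ j : J, ((if j = a then 1 else 0) + (if j = b then 1 else 0)) = 2 := by
    rw [Finset.sum_add_distrib]
    simp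
  rw [h2] at hs
  exact hs

/-- a neutral move -/
theorem d1_neut {s t : J → ℕ} {b d : J} (hb : t b < s b) (hbd : b ≠ d) :
    d1 (s - e b + e d) t ≤ d1 s t := by
  have h : ∀ j, (((s - e b + e d) j - t j) + (t j - (s - e b + e d) j))
      + (if j = b then 1 else 0) ≤ ((s j - t j) + (t j - s j)) + (if j = d then 1 else 0) := by
    intro j
    simp only [Pi.add_apply, Pi.sub_apply, e, Pi.single_apply]
    by_cases h1 : j = b
    · subst h1
      simp only [if_true, hbd, if_false]
      omega
    · by_cases h2 : j = d
      · subst h2
        simp only [if_true, h1, if_false]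
        omega
      · simp only [h1, h2, if_false]
        omega
  have h2 := Finset.sum_le_sum (fun j (_ : j ∈ (univ : Finset J)) => h j)
  rw [Finset.sum_add_distrib] at h2
  have e1 : ∑ j : J, (if j = b then 1 else 0) = 1 := by simp
  have e2 : ∑ j : J, ((s j - t j) + (t j - s j) + (if j = d then 1 else 0)) = d1 s t + 1 := by
    rw [Finset.sum_add_distrib]
    simp [d1]
  rw [e1, e2] at h2
  exact Nat.le_of_add_le_add_right h2

omit [DecidableEq J] in
theorem d2_update (x x' : K → J → ℕ) (k : K) (t : J → ℕ) :
    d2 (Function.update x k t) x' + d1 (x k) (x' k) = d2 x x' + d1 t (x' k) := by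
  unfold d2
  rw [← Finset.add_sum_erase _ _ (mem_univ k), ← Finset.add_sum_erase univ
    (fun k => d1 (x k) (x' k)) (mem_univ k)]
  rw [Function.update_self]
  have : ∑ l ∈ univ.erase k, d1 (Function.update x k t l) (x' l)
      = ∑ l ∈ univ.erase k, d1 (x l) (x' l) := by
    apply Finset.sum_congr rfl
    intro l hl
    rw [Function.update_of_ne (Finset.ne_of_mem_erase hl)]
  rw [this]
  ring

omit [DecidableEq J] in
/-- if the totals agree and the rows differ, there is a column with an excess -/
theorem exists_gt {s t : J → ℕ} (h : sz s = sz t) (hne : s ≠ t) : ∃ a, t a < s a := by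
  by_contra hc
  push Not at hc
  apply hne
  funext j
  have := (Finset.sum_eq_sum_iff_of_le (fun i (_ : i ∈ (univ : Finset J)) => hc i)).1 h j
    (mem_univ j)
  exact this

/-- connectivity of the box level set -/
theorem box_connA (y : J → ℕ) (r : ℕ) (F : (J → ℕ) → ℝ)
    (h : ∀ w ∈ box y (r + 1), ∀ a ∈ sp w, ∀ b ∈ sp w, F (w - e a) = F (w - e b)) :
    ∀ x ∈ box y r, ∀ x' ∈ box y r, F x = F x' := by
  intro x hx x' hx'
  induction hn : d1 x x' using Nat.strong_induction_on generalizing x with
  | _ n ih =>
    by_cases hne : x = x'
    · rw [hne]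
    · rw [mem_box] at hx
      have hx'2 := mem_box.1 hx'
      obtain ⟨a, ha⟩ := exists_gt (hx.2.trans hx'2.2.symm) hne
      obtain ⟨b, hb⟩ := exists_gt (hx'2.2.trans hx.2.symm) (Ne.symm hne)
      have hab : a ≠ b := by
        rintro rfl
        omega
      have hw : x + e b ∈ box y (r + 1) := by
        rw [mem_box]
        refine ⟨fun j => ?_, by rw [sz_add, sz_e, hx.2]⟩
        have h1 : x j ≤ y j := hx.1 j
        have h2 : x' j ≤ y j := hx'2.1 j
        simp only [Pi.add_apply, e, Pi.single_apply]
        by_cases hj : j = b
        · subst hj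
          simp only [if_true]
          omega
        · simp only [hj, if_false]
          omega
      have hF := h _ hw a (by
        rw [mem_sp]
        simp only [Pi.add_apply]
        omega) b (by
        rw [mem_sp]
        simp [e])
      rw [add_tsub_cancel_right] at hF
      have hEq : x + e b - e a = x - e a + e b := by
        funext j
        simp only [Pi.add_apply, Pi.sub_apply, e, Pi.single_apply]
        by_cases hj : j = a
        · subst hj
          simp only [if_true, hab, if_false]
          omega
        · simp only [hj, if_false]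
          omega
      rw [hEq] at hF
      have hmem : x - e a + e b ∈ box y r := by
        rw [← hEq, mem_box]
        refine ⟨tsub_le_self.trans (mem_box.1 hw).1, ?_⟩
        rw [sz_sub, (mem_box.1 hw).2, sz_e]
        · omega
        · rw [e_le_iff]
          simp only [Pi.add_apply]
          omega
      have hd := d1_dec ha hb
      rw [← hF]
      exact ih _ (by omega) _ hmem rfl

theorem mem_XX {c : J → ℕ} {rho : K → ℕ} {x : K → J → ℕ} :
    x ∈ XX c rho ↔ (∀ k, sz (x k) = rho k) ∧ ∑ k, x k ≤ c := by
  unfold XX
  rw [Finset.mem_filter, Fintype.mem_piFinset]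
  constructor
  · rintro ⟨h1, h2⟩
    exact ⟨fun k => (mem_box.1 (h1 k)).2, h2⟩
  · rintro ⟨h1, h2⟩
    refine ⟨fun k => mem_box.2 ⟨?_, h1 k⟩, h2⟩
    intro j
    have h3 := h2 j
    rw [Finset.sum_apply] at h3
    exact (Finset.single_le_sum (f := fun k => x k j) (fun k _ => Nat.zero_le _)
      (mem_univ k)).trans h3

omit [Fintype J] [DecidableEq J] in
theorem sum_update (x : K → J → ℕ) (k : K) (t : J → ℕ) (j : J) :
    (∑ l, Function.update x k t l) j + x k j = (∑ l, x l) j + t j := by
  rw [Finset.sum_apply, Finset.sum_apply, ← Finset.add_sum_erase _ _ (mem_univ k),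
    ← Finset.add_sum_erase univ (fun l => x l j) (mem_univ k), Function.update_self]
  have : ∑ l ∈ univ.erase k, Function.update x k t l j = ∑ l ∈ univ.erase k, x l j := by
    apply Finset.sum_congr rfl
    intro l hl
    rw [Function.update_of_ne (Finset.ne_of_mem_erase hl)]
  rw [this]
  ring

/-- the elementary move stays in the configuration set -/
theorem move_mem {c : J → ℕ} {rho : K → ℕ} {x : K → J → ℕ} (hx : x ∈ XX c rho) (k : K)
    {a b : J} (ha : 0 < (x k + e b) a) (hb : 0 < yy c x b) :
    Function.update x k (x k + e b - e a) ∈ XX c rho := by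
  rw [mem_XX] at hx ⊢
  obtain ⟨h1, h2⟩ := hx
  have hle : e a ≤ x k + e b := e_le_iff.2 ha
  refine ⟨fun l => ?_, fun j => ?_⟩
  · by_cases hl : l = k
    · subst hl
      rw [Function.update_self, sz_sub hle, sz_add, sz_e, sz_e, h1 l]
      omega
    · rw [Function.update_of_ne hl, h1 l]
  · change (∑ l, Function.update x k (x k + e b - e a) l) j ≤ c j
    have h3 := sum_update x k (x k + e b - e a) j
    have h4 : (∑ l, x l) j ≤ c j := h2 j
    have h5 : (x k + e b - e a) j ≤ x k j + (e b : J → ℕ) j := by
      simp only [Pi.add_apply, Pi.sub_apply]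
      omega
    have hb' : 0 < c b - (∑ l, x l) b := hb
    by_cases hj : j = b
    · subst hj
      have h6 : (e j : J → ℕ) j = 1 := by simp [e]
      rw [h6] at h5
      omega
    · have h6 : (e b : J → ℕ) j = 0 := by simp [e, hj]
      rw [h6] at h5
      omega

/-- if the Dirichlet form of row `k` vanishes, moves of row `k` do not change `u` -/
theorem move_eq {c : J → ℕ} {rho : K → ℕ} {r1 r2 : ℕ} (hc : sz c = r1 + r2 + ∑ k, rho k)
    (h1 : 1 ≤ r1) {u : (K → J → ℕ) → ℝ} {k : K} (h : EX c rho r2 u k = 0)
    {x : K → J → ℕ} (hx : x ∈ XX c rho) {a b : J} (ha : 0 < (x k + e b) a)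
    (hb : 0 < yy c x b) :
    u (Function.update x k (x k + e b - e a)) = u x := by
  have hszy : ∀ x ∈ XX c rho, sz (yy c x) = r1 + r2 := by
    intro x hx
    rw [mem_XX] at hx
    unfold yy
    rw [sz_sub hx.2, hc]
    have : sz (∑ k, x k) = ∑ k, rho k := by
      unfold sz
      simp only [Finset.sum_apply]
      rw [Finset.sum_comm]
      exact Finset.sum_congr rfl (fun k _ => hx.1 k)
    rw [this]
    omega
  -- all `GK` vanish
  have hGK : ∀ x ∈ XX c rho, ∀ b, e b ≤ yy c x → GK u x k b = 0 := by
    intro x hx b hb
    have hnn : ∀ x ∈ XX c rho, 0 ≤ ∑ b, if e b ≤ yy c x then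
        N2 r2 (yy c x - e b) * GK u x k b ^ 2 else 0 := by
      intro x _
      apply Finset.sum_nonneg
      intro b _
      split_ifs
      · exact mul_nonneg (by unfold N2; positivity) (sq_nonneg _)
      · exact le_rfl
    have h2 := (Finset.sum_eq_zero_iff_of_nonneg hnn).1 h x hx
    have h3 := (Finset.sum_eq_zero_iff_of_nonneg (fun b _ => by
      split_ifs
      · exact mul_nonneg (by unfold N2; positivity) (sq_nonneg _)
      · exact le_rfl)).1 h2 b (mem_univ b)
    rw [if_pos hb] at h3
    have h4 : 0 < N2 r2 (yy c x - e b) := by
      apply N2_pos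
      rw [sz_sub hb, hszy x hx, sz_e]
      omega
    rcases mul_eq_zero.1 h3 with h5 | h5
    · exact absurd h5 h4.ne'
    · exact pow_eq_zero_iff (two_ne_zero) |>.1 h5
  have key : ∀ a' : J, 0 < (x k + e b) a' →
      u (Function.update x k (x k + e b - e a'))
        = DD (fun t => u (Function.update x k t)) (x k + e b) := by
    intro a' ha'
    have hm := move_mem hx k ha' hb
    have hle : e a' ≤ x k + e b := e_le_iff.2 ha'
    have hyy : e a' ≤ yy c (Function.update x k (x k + e b - e a')) := by
      rw [e_le_iff]
      unfold yy
      rw [Pi.sub_apply]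
      have h3 := sum_update x k (x k + e b - e a') a'
      have h4 : (∑ l, x l) a' ≤ c a' := (mem_XX.1 hx).2 a'
      have hb' : 0 < c b - (∑ l, x l) b := hb
      have h5 : (x k + e b - e a') a' + 1 = x k a' + (e b : J → ℕ) a' := by
        have h6 : (e a' : J → ℕ) a' = 1 := by simp [e]
        simp only [Pi.add_apply, Pi.sub_apply, h6] at ha' ⊢
        omega
      by_cases hj : a' = b
      · subst hj
        have h6 : (e a' : J → ℕ) a' = 1 := by simp [e]
        rw [h6] at h5
        omega
      · have h6 : (e b : J → ℕ) a' = 0 := by simp [e, hj]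
        rw [h6] at h5
        omega
    have h7 := hGK _ hm a' hyy
    unfold GK GG at h7
    rw [Function.update_self, tsub_add_cancel_of_le hle] at h7
    simp only [Function.update_idem] at h7
    linarith
  have hk1 := key a ha
  have hk2 := key b (by simp [e])
  rw [add_tsub_cancel_right, Function.update_eq_self] at hk2
  rw [hk1, hk2]

/-- CONN: connectivity. -/
theorem connA (c : J → ℕ) (rho : K → ℕ) (r1 r2 : ℕ) (hc : sz c = r1 + r2 + ∑ k, rho k)
    (h1 : 1 ≤ r1) (u : (K → J → ℕ) → ℝ) (h : ∀ k, EX c rho r2 u k = 0) :
    ∀ x ∈ XX c rho, ∀ x' ∈ XX c rho, u x = u x' := by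
  intro x hx x' hx'
  induction hn : d2 x x' using Nat.strong_induction_on generalizing x with
  | _ n ih =>
    by_cases hne : x = x'
    · rw [hne]
    · obtain ⟨k, hk⟩ : ∃ k, x k ≠ x' k := by
        by_contra hc'
        push Not at hc'
        exact hne (funext hc')
      have hxm := mem_XX.1 hx
      have hxm' := mem_XX.1 hx'
      obtain ⟨a, ha⟩ := exists_gt ((hxm.1 k).trans (hxm'.1 k).symm) hk
      obtain ⟨b, hb⟩ := exists_gt ((hxm'.1 k).trans (hxm.1 k).symm) (Ne.symm hk)
      have hab : a ≠ b := by
        rintro rfl
        omega
      -- the decreasing step, from any configuration with the same row `k`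
      have step : ∀ z ∈ XX c rho, z k = x k → d2 z x' ≤ d2 x x' → 0 < yy c z b →
          u z = u x' := by
        intro z hz hzk hzd hzb
        have ha' : x' k a < z k a := by rw [hzk]; exact ha
        have hb' : z k b < x' k b := by rw [hzk]; exact hb
        have hpa : 0 < (z k + e b) a := by
          simp only [Pi.add_apply]
          omega
        have hEq : z k + e b - e a = z k - e a + e b := by
          funext j
          simp only [Pi.add_apply, Pi.sub_apply, e, Pi.single_apply]
          by_cases hj : j = a
          · subst hj
            simp only [if_true, hab, if_false]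
            omega
          · simp only [hj, if_false]
            omega
        have hmem := move_mem hz k hpa hzb
        have hu := move_eq hc h1 (h k) hz hpa hzb
        have hd := d1_dec ha' hb'
        have hd2 := d2_update z x' k (z k + e b - e a)
        rw [← hu]
        refine ih _ ?_ _ hmem rfl
        rw [hEq] at hd2 ⊢
        omega
      by_cases hyb : 0 < yy c x b
      · exact step x hx rfl le_rfl hyb
      · -- another row has an excess in column `b`
        have hyb0 : yy c x b = 0 := by omega
        have hcb : c b ≤ ∑ l, x l b := by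
          unfold yy at hyb0
          rw [Pi.sub_apply, Finset.sum_apply] at hyb0
          omega
        have hcb' : ∑ l, x' l b ≤ c b := by
          have := hxm'.2 b
          rwa [Finset.sum_apply] at this
        obtain ⟨l, hl⟩ : ∃ l, x' l b < x l b := by
          by_contra hc'
          push Not at hc'
          have : ∑ l, x l b < ∑ l, x' l b :=
            Finset.sum_lt_sum (fun l _ => hc' l) ⟨k, mem_univ k, hb⟩
          omega
        have hlk : l ≠ k := by
          rintro rfl
          omega
        -- a column with room in the hub
        obtain ⟨d, hd⟩ : ∃ d, 0 < yy c x d := by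
          by_contra hc'
          push Not at hc'
          have h3 : sz (yy c x) = 0 := by
            unfold sz
            exact Finset.sum_eq_zero (fun j _ => by have := hc' j; omega)
          unfold yy at h3
          rw [sz_sub hxm.2, hc] at h3
          have h4 : sz (∑ k, x k) = ∑ k, rho k := by
            unfold sz
            simp only [Finset.sum_apply]
            rw [Finset.sum_comm]
            exact Finset.sum_congr rfl (fun k _ => hxm.1 k)
          rw [h4] at h3
          omega
        have hbd : b ≠ d := by
          rintro rfl
          omega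
        have hpb : 0 < (x l + e d) b := by
          simp only [Pi.add_apply]
          omega
        have hmem := move_mem hx l hpb hd
        have hu := move_eq hc h1 (h l) hx hpb hd
        have hEq : x l + e d - e b = x l - e b + e d := by
          funext j
          simp only [Pi.add_apply, Pi.sub_apply, e, Pi.single_apply]
          by_cases hj : j = b
          · subst hj
            simp only [if_true, hbd, if_false]
            omega
          · simp only [hj, if_false]
            omega
        rw [← hu]
        refine step _ hmem (Function.update_of_ne (Ne.symm hlk) _ _) ?_ ?_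
        · have h5 := d2_update x x' l (x l + e d - e b)
          have h6 := d1_neut hl hbd
          rw [hEq] at h5 ⊢
          omega
        · have h5 := sum_update x l (x l + e d - e b) b
          have h6 : (x l + e d - e b) b + 1 = x l b := by
            have h7 : (e b : J → ℕ) b = 1 := by simp [e]
            have h8 : (e d : J → ℕ) b = 0 := by simp [e, hbd]
            simp only [Pi.add_apply, Pi.sub_apply, h7, h8]
            omega
          unfold yy
          rw [Pi.sub_apply]
          have h9 : (∑ k, x k) b ≤ c b := hxm.2 b
          omega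

end CT
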