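import Vale.Agent.CT.Rx

/-! # Sectioning of the non-hub configurations along one row (piece GX, first part) -/

namespace CT

open Finset
open scoped Classical

variable {J : Type} [Fintype J] [DecidableEq J]
variable {K : Type} [Fintype K] [DecidableEq K]

theorem sum_update_row (z : K → J → ℕ) (k : K) (hz : z k = 0) (t : J → ℕ) :
    ∑ l, Function.update z k t l = ∑ l, z l + t := by
  rw [Finset.sum_update_of_mem (Finset.mem_univ k)]
  have h : ∑ l, z l = z k + ∑ l ∈ univ \ {k}, z l := by
    rw [← Finset.sum_singleton z k, add_comm, Finset.sum_sdiff (Finset.subset_univ _)]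
  rw [h, hz, zero_add, add_comm]

theorem yy_update (c : J → ℕ) (z : K → J → ℕ) (k : K) (hz : z k = 0) (t : J → ℕ) :
    yy c (Function.update z k t) = yy c z - t := by
  unfold yy
  rw [sum_update_row z k hz]
  funext j
  simp only [Pi.sub_apply, Pi.add_apply]
  omega

/-- configurations with row `k` erased -/
noncomputable def secs (c : J → ℕ) (rho : K → ℕ) (k : K) : Finset (K → J → ℕ) :=
  (XX c rho).image (fun x => Function.update x k 0)

theorem gx_mem_XX {c : J → ℕ} {rho : K → ℕ} {x : K → J → ℕ} :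
    x ∈ XX c rho ↔ (∀ k, x k ≤ c ∧ sz (x k) = rho k) ∧ ∑ k, x k ≤ c := by
  simp [XX, mem_box]

theorem mem_secs {c : J → ℕ} {rho : K → ℕ} {k : K} {z : K → J → ℕ} (hz : z ∈ secs c rho k) :
    z k = 0 ∧ (∀ l, l ≠ k → z l ≤ c ∧ sz (z l) = rho l) ∧ ∑ l, z l ≤ c := by
  unfold secs at hz
  rw [Finset.mem_image] at hz
  obtain ⟨x, hx, rfl⟩ := hz
  rw [gx_mem_XX] at hx
  refine ⟨Function.update_self _ _ _, ?_, ?_⟩
  · intro l hl
    rw [Function.update_of_ne hl]
    exact hx.1 l
  · refine le_trans ?_ hx.2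
    refine Finset.sum_le_sum fun l _ => ?_
    by_cases h : l = k
    · subst h
      rw [Function.update_self]
      exact fun j => Nat.zero_le _
    · rw [Function.update_of_ne h]

theorem update_mem_XX {c : J → ℕ} {rho : K → ℕ} {k : K} {z : K → J → ℕ}
    (hz : z ∈ secs c rho k) {t : J → ℕ} (ht : t ∈ box (yy c z) (rho k)) :
    Function.update z k t ∈ XX c rho := by
  obtain ⟨h0, h1, h2⟩ := mem_secs hz
  rw [mem_box] at ht
  rw [gx_mem_XX]
  have hyy : yy c z ≤ c := fun j => Nat.sub_le _ _
  constructor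
  · intro l
    by_cases h : l = k
    · subst h
      rw [Function.update_self]
      exact ⟨ht.1.trans hyy, ht.2⟩
    · rw [Function.update_of_ne h]
      exact h1 l h
  · rw [sum_update_row z k h0]
    intro j
    have h3 : t j ≤ c j - (∑ l, z l) j := ht.1 j
    have h4 : (∑ l, z l) j ≤ c j := h2 j
    show (∑ l, z l) j + t j ≤ c j
    omega

theorem sum_sec (c : J → ℕ) (rho : K → ℕ) (k : K) (Φ : (K → J → ℕ) → ℝ) :
    ∑ x ∈ XX c rho, Φ x =
      ∑ z ∈ secs c rho k, ∑ t ∈ box (yy c z) (rho k), Φ (Function.update z k t) := by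
  rw [← Finset.sum_fiberwise_of_maps_to (g := fun x => Function.update x k 0)
    (t := secs c rho k) (fun x hx => Finset.mem_image_of_mem _ hx)]
  refine Finset.sum_congr rfl fun z hz => ?_
  obtain ⟨h0, h1, h2⟩ := mem_secs hz
  refine Finset.sum_nbij' (fun x => x k) (fun t => Function.update z k t) ?_ ?_ ?_ ?_ ?_
  · intro x hx
    rw [Finset.mem_filter, gx_mem_XX] at hx
    obtain ⟨⟨hx1, hx2⟩, hx3⟩ := hx
    rw [mem_box]
    refine ⟨?_, (hx1 k).2⟩
    have h3 : x = Function.update z k (x k) := by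
      rw [← hx3, Function.update_idem, Function.update_eq_self]
    have h4 : ∑ l, x l = ∑ l, z l + x k := by
      conv_lhs => rw [h3]
      exact sum_update_row z k h0 (x k)
    intro j
    rw [h4] at hx2
    have h5 : (∑ l, z l) j + x k j ≤ c j := hx2 j
    show x k j ≤ c j - (∑ l, z l) j
    omega
  · intro t ht
    rw [Finset.mem_filter]
    refine ⟨update_mem_XX hz ht, ?_⟩
    show Function.update (Function.update z k t) k 0 = z
    rw [Function.update_idem]
    conv_rhs => rw [← Function.update_eq_self k z]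
    rw [h0]
  · intro x hx
    rw [Finset.mem_filter] at hx
    show Function.update z k (x k) = x
    rw [← hx.2, Function.update_idem, Function.update_eq_self]
  · intro t _
    simp only [Function.update_self]
  · intro x hx
    rw [Finset.mem_filter] at hx
    have : Function.update z k (x k) = x := by
      rw [← hx.2, Function.update_idem, Function.update_eq_self]
    rw [this]

theorem GK_update (u : (K → J → ℕ) → ℝ) (z : K → J → ℕ) (k : K) (t : J → ℕ) (b : J) :
    GK u (Function.update z k t) k b = GG (fun s => u (Function.update z k s)) t b := by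
  unfold GK
  simp only [Function.update_self, Function.update_idem]

theorem gx_GG_at (F : (J → ℕ) → ℝ) {w : J → ℕ} {b : J} (hb : b ∈ sp w) :
    GG F (w - e b) b = DD F w - F (w - e b) := by
  unfold GG
  rw [tsub_add_cancel_of_le (e_le_iff.2 (mem_sp.1 hb))]

theorem gx_sub_sub_e {v w : J → ℕ} {b : J} (hb : b ∈ sp w) : v - (w - e b) - e b = v - w := by
  rw [tsub_tsub, tsub_add_cancel_of_le (e_le_iff.2 (mem_sp.1 hb))]

/-- `DD` is the average over the support -/
theorem gx_sum_sub_DD (F : (J → ℕ) → ℝ) (w : J → ℕ) : ∑ b ∈ sp w, (DD F w - F (w - e b)) = 0 := by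
  rw [Finset.sum_sub_distrib, Finset.sum_const, nsmul_eq_mul]
  by_cases h : (sp w).card = 0
  · rw [Finset.card_eq_zero] at h
    simp [h]
  · unfold DD
    have h' : ((sp w).card : ℝ) ≠ 0 := by exact_mod_cast h
    field_simp
    simp

theorem gx_pol (F G : (J → ℕ) → ℝ) (w : J → ℕ) :
    ∑ b ∈ sp w, F (w - e b) * (DD G w - G (w - e b)) =
      - ∑ b ∈ sp w, (F (w - e b) - DD F w) * (G (w - e b) - DD G w) := by
  have h : ∑ b ∈ sp w, DD F w * (DD G w - G (w - e b)) = 0 := by
    rw [← Finset.mul_sum, gx_sum_sub_DD, mul_zero]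
  rw [← Finset.sum_neg_distrib]
  calc ∑ b ∈ sp w, F (w - e b) * (DD G w - G (w - e b))
      = ∑ b ∈ sp w, F (w - e b) * (DD G w - G (w - e b))
        - ∑ b ∈ sp w, DD F w * (DD G w - G (w - e b)) := by rw [h, sub_zero]
    _ = _ := by
        rw [← Finset.sum_sub_distrib]
        refine Finset.sum_congr rfl fun b _ => by ring

/-- polarised form of one row -/
noncomputable def EP (v : J → ℕ) (r2 r : ℕ) (F G : (J → ℕ) → ℝ) : ℝ :=
  ∑ w ∈ box v (r + 1), N2 r2 (v - w) *
    ∑ b ∈ sp w, (F (w - e b) - DD F w) * (G (w - e b) - DD G w)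

theorem EP_self (v : J → ℕ) (r2 r : ℕ) (F : (J → ℕ) → ℝ) : EP v r2 r F F = EE v r2 r F := by
  unfold EP EE
  refine Finset.sum_congr rfl fun w _ => ?_
  congr 1
  refine Finset.sum_congr rfl fun b _ => by ring

theorem EP_comm (v : J → ℕ) (r2 r : ℕ) (F G : (J → ℕ) → ℝ) : EP v r2 r F G = EP v r2 r G F := by
  unfold EP
  refine Finset.sum_congr rfl fun w _ => ?_
  congr 1
  refine Finset.sum_congr rfl fun b _ => by ring

theorem LX_pol (c : J → ℕ) (rho : K → ℕ) (r2 : ℕ) (u v : (K → J → ℕ) → ℝ) :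
    ∑ x ∈ XX c rho, u x * LX c r2 v x =
      - ∑ k, ∑ z ∈ secs c rho k, EP (yy c z) r2 (rho k)
        (fun s => u (Function.update z k s)) (fun s => v (Function.update z k s)) := by
  unfold LX
  have h1 : ∑ x ∈ XX c rho, u x * (∑ k, ∑ b,
      if e b ≤ yy c x then N2 r2 (yy c x - e b) * GK v x k b else 0) =
      ∑ k, ∑ x ∈ XX c rho, ∑ b,
        if e b ≤ yy c x then N2 r2 (yy c x - e b) * (u x * GK v x k b) else 0 := by
    rw [Finset.sum_comm]
    refine Finset.sum_congr rfl fun x _ => ?_
    rw [Finset.mul_sum]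
    refine Finset.sum_congr rfl fun k _ => ?_
    rw [Finset.mul_sum]
    refine Finset.sum_congr rfl fun b _ => ?_
    split_ifs
    · ring
    · ring
  rw [h1, ← Finset.sum_neg_distrib]
  refine Finset.sum_congr rfl fun k _ => ?_
  rw [sum_sec c rho k, ← Finset.sum_neg_distrib]
  refine Finset.sum_congr rfl fun z hz => ?_
  have h0 := (mem_secs hz).1
  have h2 : ∀ t ∈ box (yy c z) (rho k), (∑ b, if e b ≤ yy c (Function.update z k t) then
      N2 r2 (yy c (Function.update z k t) - e b) * (u (Function.update z k t) *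
        GK v (Function.update z k t) k b) else 0) =
      ∑ b, if e b ≤ yy c z - t then (fun (t : J → ℕ) (b : J) => N2 r2 (yy c z - t - e b) *
        (u (Function.update z k t) * GG (fun s => v (Function.update z k s)) t b)) t b else 0 := by
    intro t _
    refine Finset.sum_congr rfl fun b _ => ?_
    rw [yy_update c z k h0 t, GK_update]
  rw [Finset.sum_congr rfl h2, reidx1]
  unfold EP
  rw [← Finset.sum_neg_distrib]
  refine Finset.sum_congr rfl fun w _ => ?_
  rw [← mul_neg, ← gx_pol (fun s => u (Function.update z k s)) (fun s => v (Function.update z k s)) w,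
    Finset.mul_sum]
  refine Finset.sum_congr rfl fun b hb => ?_
  rw [gx_sub_sub_e hb, gx_GG_at _ hb]

theorem EX_sec (c : J → ℕ) (rho : K → ℕ) (r2 : ℕ) (u : (K → J → ℕ) → ℝ) (k : K) :
    EX c rho r2 u k = ∑ z ∈ secs c rho k, EE (yy c z) r2 (rho k)
      (fun s => u (Function.update z k s)) := by
  unfold EX
  rw [sum_sec c rho k]
  refine Finset.sum_congr rfl fun z hz => ?_
  have h0 := (mem_secs hz).1
  have h2 : ∀ t ∈ box (yy c z) (rho k), (∑ b, if e b ≤ yy c (Function.update z k t) then
      N2 r2 (yy c (Function.update z k t) - e b) *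
        GK u (Function.update z k t) k b ^ 2 else 0) =
      ∑ b, if e b ≤ yy c z - t then (fun (t : J → ℕ) (b : J) => N2 r2 (yy c z - t - e b) *
        GG (fun s => u (Function.update z k s)) t b ^ 2) t b else 0 := by
    intro t _
    refine Finset.sum_congr rfl fun b _ => ?_
    rw [yy_update c z k h0 t, GK_update]
  rw [Finset.sum_congr rfl h2, reidx1]
  unfold EE
  refine Finset.sum_congr rfl fun w _ => ?_
  rw [Finset.mul_sum]
  refine Finset.sum_congr rfl fun b hb => ?_
  rw [gx_sub_sub_e hb, gx_GG_at _ hb]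
  ring

theorem AX_sec (c : J → ℕ) (rho : K → ℕ) (r2 : ℕ) (u : (K → J → ℕ) → ℝ) (k : K) :
    AX c rho r2 u k = ∑ z ∈ secs c rho k, AA (yy c z) r2 (rho k)
      (fun s => u (Function.update z k s)) := by
  unfold AX
  rw [sum_sec c rho k]
  refine Finset.sum_congr rfl fun z hz => ?_
  have h0 := (mem_secs hz).1
  have h2 : ∀ t ∈ box (yy c z) (rho k), (∑ b, ∑ d,
      if e b + e d ≤ yy c (Function.update z k t) then
      N2 r2 (yy c (Function.update z k t) - e b - e d) *
        (GK u (Function.update z k t) k b * GK u (Function.update z k t) k d) else 0) =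
      ∑ b, ∑ d, if e b + e d ≤ yy c z - t then (fun (t : J → ℕ) (b d : J) =>
        N2 r2 (yy c z - t - e b - e d) * (GG (fun s => u (Function.update z k s)) t b *
          GG (fun s => u (Function.update z k s)) t d)) t b d else 0 := by
    intro t _
    refine Finset.sum_congr rfl fun b _ => ?_
    refine Finset.sum_congr rfl fun d _ => ?_
    rw [yy_update c z k h0 t, GK_update, GK_update]
  rw [Finset.sum_congr rfl h2, reidx2]
  unfold AA QQ
  refine Finset.sum_congr rfl fun w _ => ?_
  rw [Finset.mul_sum]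
  refine Finset.sum_congr rfl fun b _ => ?_
  rw [Finset.mul_sum]
  refine Finset.sum_congr rfl fun d _ => ?_
  by_cases h : e b + e d ≤ w
  · rw [if_pos h, if_pos h]
    have h3 : yy c z - (w - e b - e d) - e b - e d = yy c z - w := by
      rw [tsub_tsub, tsub_tsub, tsub_tsub w, tsub_add_cancel_of_le h]
    rw [h3]
  · rw [if_neg h, if_neg h, mul_zero]

theorem LX_formA (c : J → ℕ) (rho : K → ℕ) (r2 : ℕ) (u : (K → J → ℕ) → ℝ) :
    - ∑ x ∈ XX c rho, u x * LX c r2 u x = ∑ k, EX c rho r2 u k := by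
  rw [LX_pol, neg_neg]
  refine Finset.sum_congr rfl fun k _ => ?_
  rw [EX_sec]
  refine Finset.sum_congr rfl fun z _ => ?_
  rw [EP_self]

theorem LX_symmA (c : J → ℕ) (rho : K → ℕ) (r2 : ℕ) (u v : (K → J → ℕ) → ℝ) :
    ∑ x ∈ XX c rho, LX c r2 u x * v x = ∑ x ∈ XX c rho, u x * LX c r2 v x := by
  have h : ∑ x ∈ XX c rho, LX c r2 u x * v x = ∑ x ∈ XX c rho, v x * LX c r2 u x :=
    Finset.sum_congr rfl fun x _ => mul_comm _ _
  rw [h, LX_pol, LX_pol]
  congr 1
  refine Finset.sum_congr rfl fun k _ => ?_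
  refine Finset.sum_congr rfl fun z _ => ?_
  rw [EP_comm]

theorem sz_yy_sec {c : J → ℕ} {rho : K → ℕ} {k : K} {z : K → J → ℕ} (hz : z ∈ secs c rho k) :
    sz (yy c z) + ∑ l, rho l = sz c + rho k := by
  obtain ⟨h0, h1, h2⟩ := mem_secs hz
  have h3 : sz (yy c z) + ∑ l, sz (z l) = sz c := by
    unfold sz yy
    rw [Finset.sum_comm, ← Finset.sum_add_distrib]
    refine Finset.sum_congr rfl fun j _ => ?_
    have h4 : (∑ l, z l) j ≤ c j := h2 j
    have h4' : (∑ l, z l) j = ∑ l, z l j := Finset.sum_apply j univ z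
    show c j - (∑ l, z l) j + ∑ l, z l j = c j
    omega
  have h5 : ∑ l, rho l = ∑ l, sz (z l) + rho k := by
    have h6 : ∀ l, rho l = sz (z l) + if l = k then rho k else 0 := by
      intro l
      by_cases h : l = k
      · subst h
        rw [if_pos rfl, h0]
        simp [sz]
      · rw [if_neg h, (h1 l h).2, add_zero]
    calc ∑ l, rho l = ∑ l, (sz (z l) + if l = k then rho k else 0) :=
          Finset.sum_congr rfl fun l _ => h6 l
      _ = _ := by
          rw [Finset.sum_add_distrib, Finset.sum_ite_eq' univ k, if_pos (Finset.mem_univ k)]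
  omega

theorem AX_geA (c : J → ℕ) (rho : K → ℕ) (r2 : ℕ) (u : (K → J → ℕ) → ℝ) (k : K) (C : ℝ)
    (h : ∀ v : J → ℕ, v ≤ c → sz v + ∑ l, rho l = sz c + rho k → ∀ F : (J → ℕ) → ℝ,
      EE v r2 (rho k) F ≤ C * AA v r2 (rho k) F) :
    EX c rho r2 u k ≤ C * AX c rho r2 u k := by
  rw [EX_sec, AX_sec, Finset.mul_sum]
  refine Finset.sum_le_sum fun z hz => ?_
  exact h (yy c z) (fun j => Nat.sub_le _ _) (sz_yy_sec hz) _

end CT
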