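import Vale.Agent.CT.Db18b

/-! # Counting bound (piece DB)

`v' = v - e b`, rows `(z1, z2, x)` of totals `(r1 - 1, r2, r)`; `s` is a column at least as large as
`b` in `v`.  At least a fraction `1/(2 (N+1)^2)` of the tables has `x b = 0` and `z1` not concentrated
in column `b`.  (Given `z1`: `x` in the columns `{b,s}` has at most half of the capacity with
probability at least 1/2 (unimodality); then refill the `3 x 2` subtable of columns `b, s`.) -/

namespace CT

open Finset
open scoped Classical

variable {J : Type} [Fintype J] [DecidableEq J]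

theorem db (v : J → ℕ) (r1 r2 r : ℕ) (hv : sz v = r1 + r2 + r) (h2 : 2 ≤ r1) (h21 : r2 ≤ r1)
    (hr : r ≤ r2) (b s : J) (hbs : b ≠ s) (hvb : 0 < v b) (hle : v b ≤ v s) :
    (∑ x ∈ box (v - e b) r, N2 r2 (v - e b - x))
      ≤ 2 * ((sz v : ℝ) + 1) ^ 2 *
        ∑ x ∈ (box (v - e b) r).filter (fun x => x b = 0),
          ∑ d, if d ≠ b ∧ e d ≤ v - e b - x then N2 r2 (v - e b - x - e d) else 0 := by
  refine le_of_le_of_eq (db' v r1 r2 r hv h2 h21 hr b s hbs hvb hle) ?_
  congr!

end CT
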