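import Vale.Agent.CT.Q
import Vale.Agent.CT.Db

/-! # From the scalar Poincare inequality to `A ≥ c E` (piece PP)

For `b ≠ s` (`s` a largest column of `v`): `φ_b(x) = GG F x b` on the system `v - e b`:
`∑_{w ∋ b} N2(v-w) (G_b(w - e b))^2 = ∑_{x ∈ box (v-e b) r} N2 (v - e b - x) φ_b(x)^2`, which is
bounded by the energy (`EE (v - e b) r2 r φ_b ≤ AA v r2 r F`) and the killing (`≤ n AA`);
for `b = s` use `∑_{b ∈ sp w} GG F (w - e b) b = 0`. -/

namespace CT

open Finset
open scoped Classical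

variable {J : Type} [Fintype J] [DecidableEq J]

/-- weights, variance, killing -/
theorem pp_abs {α : Type} (X Z : Finset α) (hZ : Z ⊆ X) (μ ν φ : α → ℝ) (hμ : ∀ x ∈ X, 0 ≤ μ x)
    (hν0 : ∀ x ∈ Z, 0 ≤ ν x) (n c V Kl : ℝ) (hn : 0 ≤ n) (hc : 0 ≤ c)
    (hν : ∀ x ∈ Z, ν x ≤ n * μ x) (hT : 0 < ∑ x ∈ X, μ x) (hc' : ∑ x ∈ X, μ x ≤ c * ∑ x ∈ Z, ν x)
    (hV : (∑ x ∈ X, μ x) * (∑ x ∈ X, μ x * φ x ^ 2) - (∑ x ∈ X, μ x * φ x) ^ 2
      ≤ (∑ x ∈ X, μ x) * V)
    (hK : ∑ x ∈ Z, ν x * φ x ^ 2 ≤ Kl) :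
    ∑ x ∈ X, μ x * φ x ^ 2 ≤ V + 2 * c * (Kl + n * V) := by
  set T := ∑ x ∈ X, μ x with hTdef
  set m := (∑ x ∈ X, μ x * φ x) / T with hm
  have h1 : ∑ x ∈ X, μ x * (φ x - m) ^ 2 = (∑ x ∈ X, μ x * φ x ^ 2) - T * m ^ 2 := by
    have : ∀ x ∈ X, μ x * (φ x - m) ^ 2 = μ x * φ x ^ 2 - 2 * m * (μ x * φ x) + m ^ 2 * μ x :=
      fun x _ => by ring
    rw [Finset.sum_congr rfl this, Finset.sum_add_distrib, Finset.sum_sub_distrib,
      ← Finset.mul_sum, ← Finset.mul_sum, ← hTdef]
    have : ∑ x ∈ X, μ x * φ x = m * T := by rw [hm]; field_simp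
    rw [this]; ring
  have h2 : (∑ x ∈ X, μ x * φ x ^ 2) - T * m ^ 2 ≤ V := by
    have : ∑ x ∈ X, μ x * φ x = m * T := by rw [hm]; field_simp
    rw [this] at hV
    have h3 : T * ((∑ x ∈ X, μ x * φ x ^ 2) - T * m ^ 2) ≤ T * V := by nlinarith
    exact le_of_mul_le_mul_left h3 hT
  have h4 : T * m ^ 2 ≤ 2 * c * (Kl + n * V) := by
    have h5 : T * m ^ 2 ≤ c * ∑ x ∈ Z, ν x * m ^ 2 := by
      rw [← Finset.sum_mul, ← mul_assoc]
      exact mul_le_mul_of_nonneg_right hc' (sq_nonneg m)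
    have h6 : ∑ x ∈ Z, ν x * m ^ 2 ≤ ∑ x ∈ Z, (2 * (ν x * φ x ^ 2) + 2 * (n * (μ x * (φ x - m) ^ 2))) := by
      apply Finset.sum_le_sum
      intro x hx
      have h7 : ν x * m ^ 2 ≤ ν x * (2 * φ x ^ 2 + 2 * (φ x - m) ^ 2) :=
        mul_le_mul_of_nonneg_left (by nlinarith [sq_nonneg (2 * φ x - m)]) (hν0 x hx)
      have h8 : ν x * (φ x - m) ^ 2 ≤ n * μ x * (φ x - m) ^ 2 :=
        mul_le_mul_of_nonneg_right (hν x hx) (sq_nonneg _)
      nlinarith
    have h9 : ∑ x ∈ Z, μ x * (φ x - m) ^ 2 ≤ V := by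
      calc ∑ x ∈ Z, μ x * (φ x - m) ^ 2 ≤ ∑ x ∈ X, μ x * (φ x - m) ^ 2 :=
            Finset.sum_le_sum_of_subset_of_nonneg hZ fun x hx _ => mul_nonneg (hμ x hx) (sq_nonneg _)
        _ ≤ V := by rw [h1]; exact h2
    rw [Finset.sum_add_distrib, ← Finset.mul_sum, ← Finset.mul_sum, ← Finset.mul_sum] at h6
    have h10 : ∑ x ∈ Z, ν x * m ^ 2 ≤ 2 * (Kl + n * V) := by
      have := mul_le_mul_of_nonneg_left h9 hn
      linarith
    calc T * m ^ 2 ≤ c * ∑ x ∈ Z, ν x * m ^ 2 := h5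
      _ ≤ c * (2 * (Kl + n * V)) := mul_le_mul_of_nonneg_left h10 hc
      _ = _ := by ring
  linarith

theorem pp_shift (v g : J → ℕ) (hg : g ≤ v) (r k : ℕ) (hk : sz g = k) (f : (J → ℕ) → ℝ) :
    ∑ x ∈ box (v - g) r, f x = ∑ w ∈ box v (r + k), if g ≤ w then f (w - g) else 0 := by
  subst hk
  rw [← reidx_gen v g r f, ← Finset.sum_filter]
  congr 1
  ext x
  simp only [Finset.mem_filter, mem_box]
  constructor
  · rintro ⟨h1, h2⟩
    refine ⟨⟨h1.trans tsub_le_self, h2⟩, ?_⟩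
    intro j
    have a := h1 j
    have b := hg j
    simp only [Pi.sub_apply] at a b ⊢
    omega
  · rintro ⟨⟨h1, h2⟩, h3⟩
    refine ⟨?_, h2⟩
    intro j
    have a := h1 j
    have b := h3 j
    have c := hg j
    simp only [Pi.sub_apply] at a b c ⊢
    omega

theorem pp_sub_sub_e {v w g : J → ℕ} (hg : g ≤ w) (hgv : w ≤ v) : v - g - (w - g) = v - w := by
  funext j
  have a : g j ≤ w j := hg j
  have b : w j ≤ v j := hgv j
  simp only [Pi.sub_apply]
  omega

theorem pp_N2_nonneg (r2 : ℕ) (y : J → ℕ) : 0 ≤ N2 r2 y := by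
  rw [N2]; positivity

theorem pp_N2_mono {r2 : ℕ} {y y' : J → ℕ} (h : y ≤ y') : N2 r2 y ≤ N2 r2 y' := by
  rw [N2, N2]
  exact_mod_cast Finset.card_le_card fun x hx => by
    rw [mem_box] at hx ⊢
    exact ⟨hx.1.trans h, hx.2⟩

theorem pp_AA_nonneg (v : J → ℕ) (r2 r : ℕ) (F : (J → ℕ) → ℝ) : 0 ≤ AA v r2 r F := by
  rw [AA]
  refine Finset.sum_nonneg fun w hw => mul_nonneg (pp_N2_nonneg _ _) (QQ_nonneg F w ?_)
  rw [mem_box] at hw
  omega

theorem pp_energy (v : J → ℕ) (r2 r : ℕ) (F : (J → ℕ) → ℝ) (b : J) (hb : 0 < v b) :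
    EE (v - e b) r2 r (fun t => GG F t b) ≤ AA v r2 r F := by
  rw [EE, pp_shift v (e b) (e_le_iff.2 hb) (r + 1) 1 (sz_e b), AA]
  refine Finset.sum_le_sum fun w hw => ?_
  have hw' := mem_box.1 hw
  have hsz : 2 ≤ sz w := by omega
  split_ifs with h
  · rw [pp_sub_sub_e h hw'.1]
    exact mul_le_mul_of_nonneg_left (QQ_ge_energy F w hsz b (e_le_iff.1 h)) (pp_N2_nonneg _ _)
  · exact mul_nonneg (pp_N2_nonneg _ _) (QQ_nonneg F w hsz)

theorem pp_kill (v : J → ℕ) (r2 r : ℕ) (F : (J → ℕ) → ℝ) (b : J) (hb : 0 < v b) :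
    ∑ x ∈ (box (v - e b) r).filter (fun x => x b = 0),
      (∑ d, if d ≠ b ∧ e d ≤ v - e b - x then N2 r2 (v - e b - x - e d) else 0) * GG F x b ^ 2
    ≤ (Fintype.card J : ℝ) * AA v r2 r F := by
  have h1 : ∑ x ∈ (box (v - e b) r).filter (fun x => x b = 0),
      (∑ d, if d ≠ b ∧ e d ≤ v - e b - x then N2 r2 (v - e b - x - e d) else 0) * GG F x b ^ 2
      = ∑ x ∈ box (v - e b) r, ∑ d, if e d ≤ v - e b - x then
          (if x b = 0 ∧ d ≠ b then N2 r2 (v - e b - x - e d) * GG F x b ^ 2 else 0) else 0 := by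
    rw [Finset.sum_filter]
    refine Finset.sum_congr rfl fun x _ => ?_
    by_cases hx : x b = 0
    · rw [if_pos hx, Finset.sum_mul]
      refine Finset.sum_congr rfl fun d _ => ?_
      by_cases hd : d ≠ b <;> by_cases he : e d ≤ v - e b - x <;> simp [hd, he, hx]
    · rw [if_neg hx]
      symm
      apply Finset.sum_eq_zero
      intro d _
      simp [hx]
  rw [h1, reidx1 (v - e b) r (fun x d => if x b = 0 ∧ d ≠ b then
    N2 r2 (v - e b - x - e d) * GG F x b ^ 2 else 0),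
    pp_shift v (e b) (e_le_iff.2 hb) (r + 1) 1 (sz_e b), AA, Finset.mul_sum]
  refine Finset.sum_le_sum fun w hw => ?_
  have hw' := mem_box.1 hw
  have hsz : 2 ≤ sz w := by omega
  have hnn : 0 ≤ (Fintype.card J : ℝ) * (N2 r2 (v - w) * QQ F w) :=
    mul_nonneg (Nat.cast_nonneg _) (mul_nonneg (pp_N2_nonneg _ _) (QQ_nonneg F w hsz))
  split_ifs with h
  · by_cases h3 : w b = 1
    · calc _ ≤ ∑ d ∈ sp (w - e b), N2 r2 (v - w) * GG F (w - e b - e d) b ^ 2 := by
            refine Finset.sum_le_sum fun d hd => ?_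
            rw [mem_sp] at hd
            split_ifs with h4
            · have : v - e b - (w - e b - e d) - e d = v - w := by
                funext j
                have a1 : w j ≤ v j := hw'.1 j
                have a2 : e b j ≤ w j := h j
                by_cases hj : j = d
                · subst hj
                  simp only [Pi.sub_apply] at hd ⊢
                  have : e j j = 1 := by simp [e]
                  rw [this] at *
                  have a3 : e b j ≤ w j := a2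
                  omega
                · have : e d j = 0 := by simp [e, hj]
                  simp only [Pi.sub_apply]
                  rw [this]
                  omega
              rw [this]
            · exact mul_nonneg (pp_N2_nonneg _ _) (sq_nonneg _)
        _ = N2 r2 (v - w) * ∑ d ∈ sp (w - e b), GG F (w - e b - e d) b ^ 2 := by
            rw [Finset.mul_sum]
        _ ≤ N2 r2 (v - w) * ((Fintype.card J : ℝ) * QQ F w) :=
            mul_le_mul_of_nonneg_left (QQ_ge_kill F w hsz b h3) (pp_N2_nonneg _ _)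
        _ = _ := by ring
    · refine le_trans (le_of_eq ?_) hnn
      apply Finset.sum_eq_zero
      intro d hd
      rw [if_neg]
      rintro ⟨h5, h6⟩
      have h7 : 0 < w b := e_le_iff.1 h
      have h8 : e d b = 0 := by simp [e, Ne.symm h6]
      simp only [Pi.sub_apply] at h5
      rw [h8] at h5
      have h9 : e b b = 1 := by simp [e]
      rw [h9] at h5
      omega
  · exact hnn

theorem pp_one (v : J → ℕ) (r1 r2 r : ℕ) (hv : sz v = r1 + r2 + r) (h2 : 2 ≤ r1) (h21 : r2 ≤ r1)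
    (hr : r ≤ r2) (L : ℝ) (hL : 1 ≤ L) (hSP : ∀ b, 0 < v b → SP (v - e b) r2 r L)
    (F : (J → ℕ) → ℝ) (b s : J) (hbs : b ≠ s) (hvb : 0 < v b) (hle : v b ≤ v s) :
    ∑ x ∈ box (v - e b) r, N2 r2 (v - e b - x) * GG F x b ^ 2
      ≤ (1 + 8 * (Fintype.card J : ℝ) * ((sz v : ℝ) + 1) ^ 2) * L * AA v r2 r F := by
  have hA := pp_AA_nonneg v r2 r F
  have hE := pp_energy v r2 r F b hvb
  have hK := pp_kill v r2 r F b hvb
  have hszv : sz (v - e b) = (r1 - 1) + r2 + r := by
    rw [sz_sub (e_le_iff.2 hvb), sz_e]; omega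
  have hT : 0 < ∑ x ∈ box (v - e b) r, N2 r2 (v - e b - x) := by
    apply Finset.sum_pos
    · intro x hx
      have hx' := mem_box.1 hx
      apply N2_pos
      rw [sz_sub hx'.1]
      omega
    · exact box_nonempty (by omega)
  have h := pp_abs (box (v - e b) r) ((box (v - e b) r).filter (fun x => x b = 0))
    (Finset.filter_subset _ _) (fun x => N2 r2 (v - e b - x))
    (fun x => ∑ d, if d ≠ b ∧ e d ≤ v - e b - x then N2 r2 (v - e b - x - e d) else 0)
    (fun x => GG F x b) (fun x _ => pp_N2_nonneg _ _)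
    (fun x _ => Finset.sum_nonneg fun d _ => by split_ifs; exacts [pp_N2_nonneg _ _, le_refl _])
    (Fintype.card J : ℝ) (2 * ((sz v : ℝ) + 1) ^ 2)
    (L * AA v r2 r F) ((Fintype.card J : ℝ) * AA v r2 r F)
    (Nat.cast_nonneg _) (by positivity)
    (fun x _ => by
      calc (∑ d, if d ≠ b ∧ e d ≤ v - e b - x then N2 r2 (v - e b - x - e d) else 0)
          ≤ ∑ d : J, N2 r2 (v - e b - x) := by
            refine Finset.sum_le_sum fun d _ => ?_
            split_ifs
            · exact pp_N2_mono tsub_le_self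
            · exact pp_N2_nonneg _ _
        _ = _ := by simp)
    hT (db v r1 r2 r hv h2 h21 hr b s hbs hvb hle)
    (by
      refine le_trans (hSP b hvb (fun x => GG F x b)) ?_
      have : L * EE (v - e b) r2 r (fun t => GG F t b) ≤ L * AA v r2 r F :=
        mul_le_mul_of_nonneg_left hE (by linarith)
      calc L * (∑ x ∈ box (v - e b) r, N2 r2 (v - e b - x)) * EE (v - e b) r2 r (fun t => GG F t b)
          = (∑ x ∈ box (v - e b) r, N2 r2 (v - e b - x)) *
            (L * EE (v - e b) r2 r (fun t => GG F t b)) := by ring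
        _ ≤ _ := mul_le_mul_of_nonneg_left this hT.le)
    hK
  refine le_trans h ?_
  have hLA : AA v r2 r F ≤ L * AA v r2 r F := by nlinarith
  have hn : (0 : ℝ) ≤ (Fintype.card J : ℝ) := Nat.cast_nonneg _
  set n : ℝ := (Fintype.card J : ℝ)
  set M : ℝ := ((sz v : ℝ) + 1) ^ 2
  have hM : 0 ≤ M := by positivity
  have h5 : 4 * M * (n * AA v r2 r F) ≤ 4 * M * (n * (L * AA v r2 r F)) :=
    mul_le_mul_of_nonneg_left (mul_le_mul_of_nonneg_left hLA hn) (by positivity)
  nlinarith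

theorem pp (v : J → ℕ) (r1 r2 r : ℕ) (hv : sz v = r1 + r2 + r) (h2 : 2 ≤ r1) (h21 : r2 ≤ r1)
    (hr : r ≤ r2) (L : ℝ) (hL : 1 ≤ L) (hSP : ∀ b, 0 < v b → SP (v - e b) r2 r L)
    (F : (J → ℕ) → ℝ) :
    EE v r2 r F ≤ 40 * ((Fintype.card J : ℝ) + 1) ^ 4 * ((sz v : ℝ) + 1) ^ 2 * L * AA v r2 r F := by
  have hA := pp_AA_nonneg v r2 r F
  have hn : (0 : ℝ) ≤ (Fintype.card J : ℝ) := Nat.cast_nonneg _
  set n : ℝ := (Fintype.card J : ℝ) with hndef
  set M : ℝ := ((sz v : ℝ) + 1) ^ 2 with hM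
  have hM1 : 1 ≤ M := by
    have : (0 : ℝ) ≤ (sz v : ℝ) := Nat.cast_nonneg _
    rw [hM]; nlinarith
  -- a largest column
  have hJ : Nonempty J := by
    by_contra h
    rw [not_nonempty_iff] at h
    have : sz v = 0 := by simp [sz]
    omega
  obtain ⟨s, -, hs⟩ := Finset.exists_max_image (Finset.univ : Finset J) v Finset.univ_nonempty
  -- the function `S b`
  set S : J → ℝ := fun b => ∑ w ∈ box v (r + 1),
    if e b ≤ w then N2 r2 (v - w) * GG F (w - e b) b ^ 2 else 0 with hS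
  have hS0 : ∀ b, 0 ≤ S b := fun b => Finset.sum_nonneg fun w _ => by
    split_ifs; exacts [mul_nonneg (pp_N2_nonneg _ _) (sq_nonneg _), le_refl _]
  have hSb : ∀ b, b ≠ s → S b ≤ (1 + 8 * n * M) * L * AA v r2 r F := by
    intro b hb
    by_cases hvb : 0 < v b
    · have h1 := pp_one v r1 r2 r hv h2 h21 hr L hL hSP F b s hb hvb (hs b (Finset.mem_univ b))
      refine le_trans (le_of_eq ?_) h1
      rw [pp_shift v (e b) (e_le_iff.2 hvb) r 1 (sz_e b)]
      refine Finset.sum_congr rfl fun w hw => ?_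
      have hw' := mem_box.1 hw
      split_ifs with h
      · rw [pp_sub_sub_e h hw'.1]
      · rfl
    · have : S b = 0 := by
        apply Finset.sum_eq_zero
        intro w hw
        have hw' := mem_box.1 hw
        rw [if_neg]
        intro h
        exact hvb (lt_of_lt_of_le (e_le_iff.1 h) (hw'.1 b))
      rw [this]
      have : 0 ≤ (1 + 8 * n * M) * L := by positivity
      exact mul_nonneg this hA
  -- EE as a sum
  have hEE : EE v r2 r F = ∑ b, S b := by
    rw [EE, hS, Finset.sum_comm]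
    refine Finset.sum_congr rfl fun w _ => ?_
    rw [sp, Finset.sum_filter, Finset.mul_sum]
    refine Finset.sum_congr rfl fun b _ => ?_
    simp only [e_le_iff]
    split_ifs with h
    · have : w - e b + e b = w := tsub_add_cancel_of_le (e_le_iff.2 h)
      rw [GG, this]; ring
    · simp
  -- the largest column is controlled by the others
  have hSs : S s ≤ n * ∑ b ∈ Finset.univ.erase s, S b := by
    rw [hS]
    rw [Finset.sum_comm, Finset.mul_sum]
    refine Finset.sum_le_sum fun w _ => ?_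
    split_ifs with h
    · have h0 : ∑ b ∈ sp w, GG F (w - e b) b = 0 := by
        have h1 : ∀ b ∈ sp w, GG F (w - e b) b = DD F w - F (w - e b) := by
          intro b hb
          have : w - e b + e b = w := tsub_add_cancel_of_le (e_le_iff.2 (mem_sp.1 hb))
          rw [GG, this]
        rw [Finset.sum_congr rfl h1, Finset.sum_sub_distrib, Finset.sum_const, nsmul_eq_mul, DD]
        have hc : ((sp w).card : ℝ) ≠ 0 := by
          have : (sp w).Nonempty := ⟨s, mem_sp.2 (e_le_iff.1 h)⟩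
          exact_mod_cast this.card_pos.ne'
        field_simp
        ring
      have hsm : s ∈ sp w := mem_sp.2 (e_le_iff.1 h)
      have h1 : GG F (w - e s) s = - ∑ b ∈ (sp w).erase s, GG F (w - e b) b := by
        have := Finset.add_sum_erase (sp w) (fun b => GG F (w - e b) b) hsm
        linarith
      have h3 : (∑ b ∈ (sp w).erase s, GG F (w - e b) b) ^ 2
          ≤ n * ∑ b ∈ (sp w).erase s, GG F (w - e b) b ^ 2 := by
        refine le_trans (sq_sum_le_card_mul_sum_sq) ?_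
        apply mul_le_mul_of_nonneg_right _ (Finset.sum_nonneg fun _ _ => sq_nonneg _)
        rw [hndef]
        exact_mod_cast Finset.card_le_univ _
      have h4 : ∑ b ∈ Finset.univ.erase s, (if e b ≤ w then N2 r2 (v - w) * GG F (w - e b) b ^ 2 else 0)
          = N2 r2 (v - w) * ∑ b ∈ (sp w).erase s, GG F (w - e b) b ^ 2 := by
        rw [Finset.mul_sum, ← Finset.sum_filter]
        congr 1
        ext b
        simp [mem_sp, e_le_iff]
      rw [h4, h1, neg_sq]
      have := mul_le_mul_of_nonneg_left h3 (pp_N2_nonneg r2 (v - w))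
      linarith
    · exact mul_nonneg hn (Finset.sum_nonneg fun b _ => by
        split_ifs; exacts [mul_nonneg (pp_N2_nonneg _ _) (sq_nonneg _), le_refl _])
  have hsum : ∑ b ∈ Finset.univ.erase s, S b ≤ n * ((1 + 8 * n * M) * L * AA v r2 r F) := by
    have hnn : 0 ≤ (1 + 8 * n * M) * L * AA v r2 r F :=
      mul_nonneg (by positivity) hA
    calc ∑ b ∈ Finset.univ.erase s, S b
        ≤ ∑ b ∈ Finset.univ.erase s, (1 + 8 * n * M) * L * AA v r2 r F :=
          Finset.sum_le_sum fun b hb => hSb b (Finset.ne_of_mem_erase hb)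
      _ = (((Finset.univ.erase s).card : ℕ) : ℝ) * ((1 + 8 * n * M) * L * AA v r2 r F) := by
          rw [Finset.sum_const, nsmul_eq_mul]
      _ ≤ _ := by
          apply mul_le_mul_of_nonneg_right _ hnn
          rw [hndef]
          exact_mod_cast Finset.card_le_univ _
  have hfin : EE v r2 r F ≤ (n + 1) * (n * ((1 + 8 * n * M) * L * AA v r2 r F)) := by
    rw [hEE, ← Finset.add_sum_erase Finset.univ S (Finset.mem_univ s)]
    nlinarith
  refine le_trans hfin ?_
  have h7 : (n + 1) * (n * (1 + 8 * n * M)) ≤ 40 * (n + 1) ^ 4 * M := by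
    have h8 : n * (1 + 8 * n * M) ≤ 9 * (n + 1) ^ 2 * M := by
      nlinarith [mul_nonneg hn hn, mul_nonneg hn (by linarith : (0:ℝ) ≤ M - 1),
        mul_nonneg (mul_nonneg hn hn) (by linarith : (0:ℝ) ≤ M)]
    have h9 : (n + 1) * (n * (1 + 8 * n * M)) ≤ (n + 1) * (9 * (n + 1) ^ 2 * M) :=
      mul_le_mul_of_nonneg_left h8 (by linarith)
    have h10 : (n + 1) ^ 3 * M ≤ (n + 1) ^ 4 * M := by
      apply mul_le_mul_of_nonneg_right _ (by linarith)
      exact pow_le_pow_right₀ (by linarith) (by norm_num)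
    nlinarith [mul_nonneg (pow_nonneg (by linarith : (0:ℝ) ≤ n + 1) 4) (by linarith : (0:ℝ) ≤ M)]
  have hLA : 0 ≤ L * AA v r2 r F := mul_nonneg (by linarith) hA
  calc (n + 1) * (n * ((1 + 8 * n * M) * L * AA v r2 r F))
      = ((n + 1) * (n * (1 + 8 * n * M))) * (L * AA v r2 r F) := by ring
    _ ≤ (40 * (n + 1) ^ 4 * M) * (L * AA v r2 r F) := mul_le_mul_of_nonneg_right h7 hLA
    _ = _ := by ring

end CT
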