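import Vale.Agent.CT.MainIneq
import Vale.Agent.CT.Pp
import Vale.Agent.CT.GapSec

/-! # Spectral gap of the non-hub configurations (piece GX, second part) -/

namespace CT

open Finset
open scoped Classical

variable {J : Type} [Fintype J] [DecidableEq J]
variable {K : Type} [Fintype K] [DecidableEq K]

theorem gx_DD_add (F G : (J → ℕ) → ℝ) (w : J → ℕ) :
    DD (fun t => F t + G t) w = DD F w + DD G w := by
  unfold DD
  rw [Finset.sum_add_distrib, add_div]

theorem gx_DD_mul (a : ℝ) (F : (J → ℕ) → ℝ) (w : J → ℕ) :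
    DD (fun t => a * F t) w = a * DD F w := by
  unfold DD
  rw [← Finset.mul_sum, mul_div_assoc]

theorem gx_GK_add (u v : (K → J → ℕ) → ℝ) (x : K → J → ℕ) (k : K) (b : J) :
    GK (fun y => u y + v y) x k b = GK u x k b + GK v x k b := by
  unfold GK GG
  rw [gx_DD_add (fun t => u (Function.update x k t)) (fun t => v (Function.update x k t))]
  ring

theorem gx_GK_mul (a : ℝ) (u : (K → J → ℕ) → ℝ) (x : K → J → ℕ) (k : K) (b : J) :
    GK (fun y => a * u y) x k b = a * GK u x k b := by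
  unfold GK GG
  rw [gx_DD_mul a (fun t => u (Function.update x k t))]
  ring

theorem gx_LX_add (c : J → ℕ) (r2 : ℕ) (u v : (K → J → ℕ) → ℝ) (x : K → J → ℕ) :
    LX c r2 (fun y => u y + v y) x = LX c r2 u x + LX c r2 v x := by
  unfold LX
  rw [← Finset.sum_add_distrib]
  refine Finset.sum_congr rfl fun k _ => ?_
  rw [← Finset.sum_add_distrib]
  refine Finset.sum_congr rfl fun b _ => ?_
  rw [gx_GK_add]
  split_ifs
  · ring
  · ring

theorem gx_LX_mul (c : J → ℕ) (r2 : ℕ) (a : ℝ) (u : (K → J → ℕ) → ℝ) (x : K → J → ℕ) :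
    LX c r2 (fun y => a * u y) x = a * LX c r2 u x := by
  unfold LX
  rw [Finset.mul_sum]
  refine Finset.sum_congr rfl fun k _ => ?_
  rw [Finset.mul_sum]
  refine Finset.sum_congr rfl fun b _ => ?_
  rw [gx_GK_mul]
  split_ifs
  · ring
  · ring

/-- the generator as a linear map -/
noncomputable def Lmap (c : J → ℕ) (r2 : ℕ) :
    ((K → J → ℕ) → ℝ) →ₗ[ℝ] ((K → J → ℕ) → ℝ) where
  toFun u := fun x => LX c r2 u x / N2 r2 (yy c x)
  map_add' u v := by
    funext x
    have := gx_LX_add c r2 u v x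
    show LX c r2 (fun y => u y + v y) x / _ = _ / _ + _ / _
    rw [this, add_div]
  map_smul' a u := by
    funext x
    have := gx_LX_mul c r2 a u x
    show LX c r2 (fun y => a * u y) x / _ = a * (_ / _)
    rw [this, mul_div_assoc]

theorem gx_sz_add (x y : J → ℕ) : sz (x + y) = sz x + sz y := by
  unfold sz
  simp only [Pi.add_apply]
  exact Finset.sum_add_distrib

theorem gx_sz_e (b : J) : sz (e b) = 1 := by
  unfold sz e
  simp [Finset.sum_pi_single']

theorem gx_sz_sub_e {w : J → ℕ} {a : J} (ha : a ∈ sp w) : sz (w - e a) + 1 = sz w := by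
  have h : w - e a + e a = w := tsub_add_cancel_of_le (e_le_iff.2 (mem_sp.1 ha))
  calc sz (w - e a) + 1 = sz (w - e a) + sz (e a) := by rw [gx_sz_e]
    _ = sz (w - e a + e a) := (gx_sz_add _ _).symm
    _ = sz w := by rw [h]

theorem gx_move_mem {c : J → ℕ} {rho : K → ℕ} {x : K → J → ℕ} (hx : x ∈ XX c rho) {k : K} {a b : J}
    (hb : e b ≤ yy c x) (ha : a ∈ sp (x k + e b)) :
    Function.update x k (x k + e b - e a) ∈ XX c rho := by
  set z := Function.update x k 0 with hz
  have hzm : z ∈ secs c rho k := Finset.mem_image_of_mem _ hx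
  have hz0 : z k = 0 := Function.update_self _ _ _
  have hxz : Function.update z k (x k) = x := by
    rw [hz, Function.update_idem, Function.update_eq_self]
  have h1 : Function.update x k (x k + e b - e a) = Function.update z k (x k + e b - e a) := by
    rw [hz, Function.update_idem]
  rw [h1]
  refine update_mem_XX hzm ?_
  rw [gx_mem_XX] at hx
  have h2 : yy c x = yy c z - x k := by
    rw [← yy_update c z k hz0, hxz]
  have hsum : ∑ l, x l = ∑ l, z l + x k := by
    conv_lhs => rw [← hxz]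
    exact sum_update_row z k hz0 (x k)
  rw [mem_box]
  constructor
  · intro j
    rw [h2] at hb
    have h3 : e b j ≤ yy c z j - x k j := hb j
    have hx2 := hx.2
    rw [hsum] at hx2
    have h4 : (∑ l, z l) j + x k j ≤ c j := hx2 j
    have h5 : yy c z j = c j - (∑ l, z l) j := rfl
    show x k j + e b j - e a j ≤ yy c z j
    omega
  · have h6 := gx_sz_sub_e ha
    rw [gx_sz_add, gx_sz_e, (hx.1 k).2] at h6
    omega

theorem gx_sz_yy {c : J → ℕ} {rho : K → ℕ} {x : K → J → ℕ} (hx : x ∈ XX c rho) {m : ℕ}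
    (hc : sz c = m + ∑ k, rho k) : sz (yy c x) = m := by
  rw [gx_mem_XX] at hx
  have h3 : sz (yy c x) + ∑ l, sz (x l) = sz c := by
    unfold sz yy
    rw [Finset.sum_comm, ← Finset.sum_add_distrib]
    refine Finset.sum_congr rfl fun j _ => ?_
    have h4 : (∑ l, x l) j ≤ c j := hx.2 j
    have h4' : (∑ l, x l) j = ∑ l, x l j := Finset.sum_apply j univ x
    show c j - (∑ l, x l) j + ∑ l, x l j = c j
    omega
  have h5 : ∑ l, sz (x l) = ∑ l, rho l := Finset.sum_congr rfl fun l _ => (hx.1 l).2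
  omega

theorem gx_N2_nonneg (r : ℕ) (y : J → ℕ) : 0 ≤ N2 r y := Nat.cast_nonneg _

theorem gx_EX_nonneg (c : J → ℕ) (rho : K → ℕ) (r2 : ℕ) (u : (K → J → ℕ) → ℝ) (k : K) :
    0 ≤ EX c rho r2 u k := by
  unfold EX
  refine Finset.sum_nonneg fun x _ => Finset.sum_nonneg fun b _ => ?_
  split_ifs
  · exact mul_nonneg (gx_N2_nonneg _ _) (sq_nonneg _)
  · exact le_rfl

theorem gx_AA_nonneg (v : J → ℕ) (r2 r : ℕ) (F : (J → ℕ) → ℝ) : 0 ≤ AA v r2 r F := by
  unfold AA
  refine Finset.sum_nonneg fun w hw => mul_nonneg (gx_N2_nonneg _ _) (QQ_nonneg F w ?_)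
  rw [mem_box] at hw
  omega

theorem gapXA (c : J → ℕ) (rho : K → ℕ) (r1 r2 : ℕ) (hc : sz c = r1 + r2 + ∑ k, rho k)
    (h2 : 2 ≤ r1) (h21 : r2 ≤ r1) (hrho : ∀ k, rho k ≤ r2) (L : ℝ) (hL : 1 ≤ L)
    (hSP : ∀ v : J → ℕ, sz v ≤ sz c → ∀ r, r + r2 < sz v → SP v r2 r L)
    (hconn : ∀ u : (K → J → ℕ) → ℝ, (∀ k, EX c rho r2 u k = 0) →
      ∀ x ∈ XX c rho, ∀ x' ∈ XX c rho, u x = u x')
    (u : (K → J → ℕ) → ℝ) :
    (∑ x ∈ XX c rho, N2 r2 (yy c x)) * (∑ x ∈ XX c rho, N2 r2 (yy c x) * u x ^ 2)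
      - (∑ x ∈ XX c rho, N2 r2 (yy c x) * u x) ^ 2
      ≤ (40 * ((Fintype.card J : ℝ) + 1) ^ 4 * ((sz c : ℝ) + 1) ^ 2 * L)
        * (∑ x ∈ XX c rho, N2 r2 (yy c x)) * ∑ k, EX c rho r2 u k := by
  set C : ℝ := 40 * ((Fintype.card J : ℝ) + 1) ^ 4 * ((sz c : ℝ) + 1) ^ 2 * L with hC
  have hCpos : 0 < C := by positivity
  have hw : ∀ x ∈ XX c rho, 0 < N2 r2 (yy c x) := by
    intro x hx
    refine N2_pos ?_
    rw [gx_sz_yy hx hc]
    omega
  have hmul : ∀ (u : (K → J → ℕ) → ℝ), ∀ x ∈ XX c rho,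
      N2 r2 (yy c x) * Lmap c r2 u x = LX c r2 u x := by
    intro u x hx
    have h := (hw x hx).ne'
    show N2 r2 (yy c x) * (LX c r2 u x / N2 r2 (yy c x)) = LX c r2 u x
    field_simp
  have hform : ∀ u : (K → J → ℕ) → ℝ,
      - ∑ x ∈ XX c rho, N2 r2 (yy c x) * (u x * Lmap c r2 u x) = ∑ k, EX c rho r2 u k := by
    intro u
    rw [← LX_formA]
    congr 1
    refine Finset.sum_congr rfl fun x hx => ?_
    rw [← hmul u x hx]
    ring
  have hAE : ∀ (u : (K → J → ℕ) → ℝ) (k : K), EX c rho r2 u k ≤ C * AX c rho r2 u k := by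
    intro u k
    refine AX_geA c rho r2 u k C fun v hv hsz F => ?_
    have hle : sz v ≤ sz c := Finset.sum_le_sum (fun j _ => hv j)
    have hvs : sz v = r1 + r2 + rho k := by omega
    have h1 := pp v r1 r2 (rho k) hvs h2 h21 (hrho k) L hL (fun b hb => by
      have h3 : b ∈ sp v := mem_sp.2 hb
      have h4 := gx_sz_sub_e h3
      refine hSP (v - e b) ?_ (rho k) ?_
      · omega
      · omega) F
    refine h1.trans ?_
    refine mul_le_mul_of_nonneg_right ?_ (gx_AA_nonneg _ _ _ _)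
    rw [hC]
    have h5 : (sz v : ℝ) ≤ sz c := by
      exact_mod_cast hle
    gcongr
  have key := gap_of_square (XX c rho) (fun x => N2 r2 (yy c x)) hw (Lmap c r2)
    ?_ ?_ ?_ ?_ ?_ (1 / C) (by positivity) ?_ u
  · rw [hform u] at key
    rw [one_div_one_div] at key
    exact key
  · -- locality
    intro u v huv x hx
    show LX c r2 u x / _ = LX c r2 v x / _
    congr 1
    unfold LX
    refine Finset.sum_congr rfl fun k _ => ?_
    refine Finset.sum_congr rfl fun b _ => ?_
    by_cases hb : e b ≤ yy c x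
    · rw [if_pos hb, if_pos hb]
      congr 1
      unfold GK GG DD
      beta_reduce
      rw [Function.update_eq_self, huv x hx]
      congr 2
      refine Finset.sum_congr rfl fun a ha => ?_
      exact huv _ (gx_move_mem hx hb ha)
    · rw [if_neg hb, if_neg hb]
  · -- symmetry
    intro u v
    have h1 : ∑ x ∈ XX c rho, N2 r2 (yy c x) * (Lmap c r2 u x * v x) =
        ∑ x ∈ XX c rho, LX c r2 u x * v x := by
      refine Finset.sum_congr rfl fun x hx => ?_
      rw [← hmul u x hx]; ring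
    have h2 : ∑ x ∈ XX c rho, N2 r2 (yy c x) * (u x * Lmap c r2 v x) =
        ∑ x ∈ XX c rho, u x * LX c r2 v x := by
      refine Finset.sum_congr rfl fun x hx => ?_
      rw [← hmul v x hx]; ring
    rw [h1, h2]
    exact LX_symmA c rho r2 u v
  · intro u
    rw [hform u]
    exact Finset.sum_nonneg fun k _ => gx_EX_nonneg c rho r2 u k
  · -- constants
    intro x hx
    show LX c r2 (fun _ => 1) x / _ = 0
    have h1 : LX c r2 (fun _ : K → J → ℕ => (1:ℝ)) x = 0 := by
      unfold LX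
      refine Finset.sum_eq_zero fun k _ => Finset.sum_eq_zero fun b _ => ?_
      split_ifs
      · have h3 : GK (fun _ : K → J → ℕ => (1:ℝ)) x k b = 0 := by
          unfold GK GG DD
          have h4 : 0 < (sp (x k + e b)).card := by
            rw [Finset.card_pos]
            refine ⟨b, mem_sp.2 ?_⟩
            simp [e]
          have h5 : ((sp (x k + e b)).card : ℝ) ≠ 0 := by exact_mod_cast h4.ne'
          rw [Finset.sum_const, nsmul_eq_mul, mul_one, div_self h5, sub_self]
        rw [h3, mul_zero]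
      · rfl
    rw [h1, zero_div]
  · -- kernel
    intro u hu
    refine hconn u ?_
    have h1 : ∑ k, EX c rho r2 u k = 0 := by
      rw [← hform u, neg_eq_zero]
      refine Finset.sum_eq_zero fun x hx => ?_
      rw [hu x hx]; ring
    intro k
    exact (Finset.sum_eq_zero_iff_of_nonneg fun k _ => gx_EX_nonneg c rho r2 u k).1 h1 k
      (Finset.mem_univ k)
  · -- square
    intro u
    rw [hform u]
    have h1 : ∑ k, EX c rho r2 u k ≤ C * ∑ k, AX c rho r2 u k := by
      rw [Finset.mul_sum]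
      exact Finset.sum_le_sum fun k _ => hAE u k
    have h2 := main_ineq c rho r1 r2 hc u
    have h3 : ∑ x ∈ XX c rho, (LX c r2 u x) ^ 2 / N2 r2 (yy c x) =
        ∑ x ∈ XX c rho, N2 r2 (yy c x) * (Lmap c r2 u x) ^ 2 := by
      refine Finset.sum_congr rfl fun x hx => ?_
      have h := (hw x hx).ne'
      show _ = N2 r2 (yy c x) * (LX c r2 u x / N2 r2 (yy c x)) ^ 2
      field_simp
    rw [← h3]
    refine le_trans ?_ h2
    rw [one_div, inv_mul_le_iff₀ hCpos]
    exact h1

end CT
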