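import Vale.Agent.CT.MainIneq
import Vale.Agent.CT.Pp
import Vale.Agent.CT.GapXA
import Vale.Agent.CT.ConnA

/-! # Spectral gap of the non-hub configurations (pieces CONN, GX) -/

namespace CT

open Finset
open scoped Classical

variable {J : Type} [Fintype J] [DecidableEq J]
variable {K : Type} [Fintype K] [DecidableEq K]

/-- CONN: connectivity. If all `EX` vanish then `u` is constant. (If `x ≠ x'`: some `k, a, b` with
`x k a > x' k a`, `x k b < x' k b`; if `yy b ≥ 1` move row `k` from `a` to `b`; otherwise some row `l`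
has `x l b > x' l b`: first move row `l` from `b` to a column `d` with `yy d ≥ 1`. The distance
`∑ |x k j - x' k j|` decreases.) -/
theorem conn (c : J → ℕ) (rho : K → ℕ) (r1 r2 : ℕ) (hc : sz c = r1 + r2 + ∑ k, rho k)
    (h1 : 1 ≤ r1) (u : (K → J → ℕ) → ℝ) (h : ∀ k, EX c rho r2 u k = 0) :
    ∀ x ∈ XX c rho, ∀ x' ∈ XX c rho, u x = u x' :=
  connA c rho r1 r2 hc h1 u h

/-- the operator is symmetric with form `∑_k EX` (polarised) -/
theorem LX_form (c : J → ℕ) (rho : K → ℕ) (r2 : ℕ) (u : (K → J → ℕ) → ℝ) :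
    - ∑ x ∈ XX c rho, u x * LX c r2 u x = ∑ k, EX c rho r2 u k :=
  LX_formA c rho r2 u

theorem LX_symm (c : J → ℕ) (rho : K → ℕ) (r2 : ℕ) (u v : (K → J → ℕ) → ℝ) :
    ∑ x ∈ XX c rho, LX c r2 u x * v x = ∑ x ∈ XX c rho, u x * LX c r2 v x :=
  LX_symmA c rho r2 u v

/-- sectioning: `EX` and `AX` are sums of the 3-row forms over the other rows -/
theorem AX_ge (c : J → ℕ) (rho : K → ℕ) (r2 : ℕ) (u : (K → J → ℕ) → ℝ) (k : K) (C : ℝ)
    (h : ∀ v : J → ℕ, v ≤ c → sz v + ∑ l, rho l = sz c + rho k → ∀ F : (J → ℕ) → ℝ,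
      EE v r2 (rho k) F ≤ C * AA v r2 (rho k) F) :
    EX c rho r2 u k ≤ C * AX c rho r2 u k :=
  AX_geA c rho r2 u k C h

/-- GX: Poincare inequality for functions of the non-hub rows. -/
theorem gapX (c : J → ℕ) (rho : K → ℕ) (r1 r2 : ℕ) (hc : sz c = r1 + r2 + ∑ k, rho k)
    (h2 : 2 ≤ r1) (h21 : r2 ≤ r1) (hrho : ∀ k, rho k ≤ r2) (L : ℝ) (hL : 1 ≤ L)
    (hSP : ∀ v : J → ℕ, sz v ≤ sz c → ∀ r, r + r2 < sz v → SP v r2 r L)
    (u : (K → J → ℕ) → ℝ) :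
    (∑ x ∈ XX c rho, N2 r2 (yy c x)) * (∑ x ∈ XX c rho, N2 r2 (yy c x) * u x ^ 2)
      - (∑ x ∈ XX c rho, N2 r2 (yy c x) * u x) ^ 2
      ≤ (40 * ((Fintype.card J : ℝ) + 1) ^ 4 * ((sz c : ℝ) + 1) ^ 2 * L)
        * (∑ x ∈ XX c rho, N2 r2 (yy c x)) * ∑ k, EX c rho r2 u k :=
  gapXA c rho r1 r2 hc h2 h21 hrho L hL hSP
    (fun u h => conn c rho r1 r2 hc (by omega) u h) u

end CT
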