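import Vale.Agent.CT.FullB
import Vale.Agent.CT.GapX

/-! # Piece FULL, part C: assembly -/

namespace CT

open Finset
open scoped Classical

variable {J : Type} [Fintype J] [DecidableEq J]
variable {K : Type} [Fintype K] [DecidableEq K]

/-- average over the hub -/
noncomputable def ubar (c : J → ℕ) (r1 r2 : ℕ) (f : (Option (Option K) → J → ℕ) → ℝ)
    (x : K → J → ℕ) : ℝ :=
  (∑ z ∈ box (yy c x) r1, f (mkT c x z)) / N2 r2 (yy c x)

theorem fl_DF_ge (r : Option (Option K) → ℕ) (c : J → ℕ) (f : (Option (Option K) → J → ℕ) → ℝ) :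
    2 * (Dij r c f none (some none) + ∑ k, Dij r c f none (some (some k))) ≤ DF r c f := by
  rw [DF_eq, Fintype.sum_option, Fintype.sum_option]
  have h1 : ∑ i : Option K, Dij r c f none (some i)
      = Dij r c f none (some none) + ∑ k, Dij r c f none (some (some k)) := Fintype.sum_option _
  rw [← h1]
  have h2 : (if (none : Option (Option K)) ≠ none then Dij r c f none none else 0) = 0 := by simp
  have h3 : ∑ i : Option K, (if (none : Option (Option K)) ≠ some i then Dij r c f none (some i)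
      else 0) = ∑ i : Option K, Dij r c f none (some i) := by
    refine sum_congr rfl fun i _ => ?_
    rw [if_pos (by simp)]
  have h4 : ∑ i : Option K, Dij r c f none (some i) ≤ ∑ i : Option K, ∑ j : Option (Option K),
      (if (some i : Option (Option K)) ≠ j then Dij r c f (some i) j else 0) := by
    refine sum_le_sum fun i _ => ?_
    have := single_le_sum (f := fun j : Option (Option K) =>
      (if (some i : Option (Option K)) ≠ j then Dij r c f (some i) j else 0)) (s := univ)
      (fun j _ => by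
        show 0 ≤ (if (some i : Option (Option K)) ≠ j then Dij r c f (some i) j else 0)
        split_ifs
        · exact Dij_nonneg _ _ _ _ _
        · exact le_rfl) (mem_univ none)
    refine le_trans (le_of_eq ?_) this
    show _ = (if (some i : Option (Option K)) ≠ none then Dij r c f (some i) none else 0)
    rw [if_pos (by simp)]
    exact (Dij_comm r c f (by simp)).symm
  rw [h2, h3]
  linarith

theorem full_proof (c : J → ℕ) (rho : K → ℕ) (r1 r2 : ℕ) (hc : sz c = r1 + r2 + ∑ k, rho k)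
    (h2 : 2 ≤ r1) (h21 : r2 ≤ r1) (hrho : ∀ k, rho k ≤ r2) (L : ℝ) (hL : 1 ≤ L)
    (hSP : ∀ v : J → ℕ, sz v ≤ sz c → ∀ s r, r + s < sz v → SP v s r L) :
    PIn (rr r1 r2 rho) c (100 * ((Fintype.card K : ℝ) + 1) * ((Fintype.card J : ℝ) + 1) ^ 6
      * ((sz c : ℝ) + 1) ^ 2 * L ^ 2) := by
  intro f
  set r : Option (Option K) → ℕ := rr r1 r2 rho with hr
  set U : (Option (Option K) → J → ℕ) → ℝ := fun T => ubar c r1 r2 f (fun k => T (some (some k)))
    with hU
  set g : (Option (Option K) → J → ℕ) → ℝ := fun T => f T - U T with hg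
  have hL0 : 0 ≤ L := by linarith
  -- basic facts for every x
  have hn : ∀ x ∈ XX c rho, 0 < N2 r2 (yy c x) := by
    intro x hx
    exact N2_pos (by have := fl_sz_yy hc hx; omega)
  have hcard : ∀ x ∈ XX c rho, ((box (yy c x) r1).card : ℝ) = N2 r2 (yy c x) := by
    intro x hx
    unfold N2
    rw [card_box_compl (fl_sz_yy hc hx)]
  have hUm : ∀ x z, U (mkT c x z) = ubar c r1 r2 f x := fun x z => rfl
  have hsum : ∀ x ∈ XX c rho, ∑ z ∈ box (yy c x) r1, f (mkT c x z)
      = N2 r2 (yy c x) * ubar c r1 r2 f x := by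
    intro x hx
    unfold ubar
    rw [mul_div_cancel₀ _ (hn x hx).ne']
  have hg2 : ∀ x ∈ XX c rho, ∑ z ∈ box (yy c x) r1, g (mkT c x z) ^ 2
      = ∑ z ∈ box (yy c x) r1, f (mkT c x z) ^ 2 - N2 r2 (yy c x) * ubar c r1 r2 f x ^ 2 := by
    intro x hx
    have : ∀ z ∈ box (yy c x) r1, g (mkT c x z) ^ 2 = f (mkT c x z) ^ 2
        - 2 * ubar c r1 r2 f x * f (mkT c x z) + ubar c r1 r2 f x ^ 2 := by
      intro z _
      simp only [hg, hUm]
      ring
    rw [sum_congr rfl this, sum_add_distrib, sum_sub_distrib, ← mul_sum, hsum x hx, sum_const,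
      nsmul_eq_mul, hcard x hx]
    ring
  -- totals
  have hT : ((TT r c).card : ℝ) = ∑ x ∈ XX c rho, N2 r2 (yy c x) := by
    have := fl_sum_TT c rho r1 r2 hc (fun _ => 1)
    rw [sum_const, nsmul_eq_mul, mul_one] at this
    rw [this]
    refine sum_congr rfl fun x hx => ?_
    rw [sum_const, nsmul_eq_mul, mul_one, hcard x hx]
  have hS1 : ∑ T ∈ TT r c, f T = ∑ x ∈ XX c rho, N2 r2 (yy c x) * ubar c r1 r2 f x := by
    rw [fl_sum_TT c rho r1 r2 hc]
    exact sum_congr rfl hsum
  set G2 : ℝ := ∑ T ∈ TT r c, g T ^ 2 with hG2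
  have hG2' : G2 = ∑ x ∈ XX c rho, ∑ z ∈ box (yy c x) r1, g (mkT c x z) ^ 2 := by
    rw [hG2, fl_sum_TT c rho r1 r2 hc]
  have hS2 : ∑ T ∈ TT r c, f T ^ 2
      = G2 + ∑ x ∈ XX c rho, N2 r2 (yy c x) * ubar c r1 r2 f x ^ 2 := by
    rw [fl_sum_TT c rho r1 r2 hc, hG2', ← sum_add_distrib]
    refine sum_congr rfl fun x hx => ?_
    rw [hg2 x hx]
    ring
  -- the hub part
  have hhub : G2 ≤ L / 2 * Dij r c f none (some none) := by
    rw [hG2']
    unfold Dij
    rw [fl_sum_TT c rho r1 r2 hc, mul_sum]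
    refine sum_le_sum fun x hx => ?_
    have hy := fl_sz_yy hc hx
    have hszle : sz (yy c x) ≤ sz c := by
      rw [hy, hc]; omega
    have h0 := fl_hub (yy c x) hy (fun z => f (mkT c x z)) L hL0
      (hSP (yy c x) hszle 0 r2 (by omega))
    have hpos := hn x hx
    rw [hg2 x hx]
    have h1 : ∑ z ∈ box (yy c x) r1, ∑ a, ∑ b,
        (if 0 < mkT c x z none a ∧ 0 < mkT c x z (some none) b then
          (f (sw (mkT c x z) none (some none) a b) - f (mkT c x z)) ^ 2 else 0)
        = ∑ z ∈ box (yy c x) r1, ∑ a, ∑ b,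
        (if 0 < z a ∧ 0 < (yy c x - z) b then
          (f (mkT c x (z - e a + e b)) - f (mkT c x z)) ^ 2 else 0) := by
      refine sum_congr rfl fun z hz => sum_congr rfl fun a _ => sum_congr rfl fun b _ => ?_
      have e1 : mkT c x z none = z := rfl
      have e2 : mkT c x z (some none) = yy c x - z := rfl
      rw [e1, e2]
      by_cases hab : 0 < z a ∧ 0 < (yy c x - z) b
      · rw [if_pos hab, if_pos hab, fl_mk_hub c x z a b (mem_box.1 hz).1 hab.1 hab.2]
      · rw [if_neg hab, if_neg hab]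
    rw [h1]
    rw [hsum x hx] at h0
    have h3 : N2 r2 (yy c x) * (∑ z ∈ box (yy c x) r1, f (mkT c x z) ^ 2
        - N2 r2 (yy c x) * ubar c r1 r2 f x ^ 2)
        ≤ N2 r2 (yy c x) * (L / 2 * ∑ z ∈ box (yy c x) r1, ∑ a, ∑ b,
        (if 0 < z a ∧ 0 < (yy c x - z) b then
          (f (mkT c x (z - e a + e b)) - f (mkT c x z)) ^ 2 else 0)) := by
      refine le_trans (le_of_eq ?_) (h0.trans (le_of_eq ?_)) <;> ring
    exact le_of_mul_le_mul_left h3 hpos
  -- the non-hub part
  have hrow : ∀ k, EX c rho r2 (ubar c r1 r2 f) k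
      ≤ 3 * Dij r c f none (some (some k)) + 6 * (Fintype.card J : ℝ) ^ 2 * G2 := by
    intro k
    refine (fl_EX c rho r1 r2 hc _ k).trans ?_
    have hne : (none : Option (Option K)) ≠ some (some k) := by simp
    have hA := fl_sw_sum r c hne (fun T => g T ^ 2)
    have hB : (∑ T ∈ TT r c, ∑ a, ∑ b, if 0 < T none a ∧ 0 < T (some (some k)) b then g T ^ 2 else 0)
        ≤ (Fintype.card J : ℝ) ^ 2 * G2 := by
      rw [hG2, mul_sum]
      refine sum_le_sum fun T _ => ?_
      calc ∑ a, ∑ b, (if 0 < T none a ∧ 0 < T (some (some k)) b then g T ^ 2 else 0)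
          ≤ ∑ _a : J, ∑ _b : J, g T ^ 2 := by
            refine sum_le_sum fun a _ => sum_le_sum fun b _ => ?_
            split_ifs
            · exact le_rfl
            · positivity
        _ = (Fintype.card J : ℝ) ^ 2 * g T ^ 2 := by
            simp [sum_const]
            ring
    have hC : (∑ T ∈ TT r c, ∑ a, ∑ b,
        if 0 < T none a ∧ 0 < T (some (some k)) b then
          (U (sw T none (some (some k)) a b) - U T) ^ 2 else 0)
        ≤ 3 * Dij r c f none (some (some k))
          + 3 * (∑ T ∈ TT r c, ∑ a, ∑ b, if 0 < T none a ∧ 0 < T (some (some k)) b then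
              g (sw T none (some (some k)) a b) ^ 2 else 0)
          + 3 * (∑ T ∈ TT r c, ∑ a, ∑ b, if 0 < T none a ∧ 0 < T (some (some k)) b then
              g T ^ 2 else 0) := by
      unfold Dij
      rw [mul_sum, mul_sum, mul_sum, ← sum_add_distrib, ← sum_add_distrib]
      refine sum_le_sum fun T _ => ?_
      rw [mul_sum, mul_sum, mul_sum, ← sum_add_distrib, ← sum_add_distrib]
      refine sum_le_sum fun a _ => ?_
      rw [mul_sum, mul_sum, mul_sum, ← sum_add_distrib, ← sum_add_distrib]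
      refine sum_le_sum fun b _ => ?_
      by_cases hab : 0 < T none a ∧ 0 < T (some (some k)) b
      · simp only [if_pos hab]
        have e1 : U (sw T none (some (some k)) a b) = f (sw T none (some (some k)) a b)
            - g (sw T none (some (some k)) a b) := by simp only [hg]; ring
        have e2 : U T = f T - g T := by simp only [hg]; ring
        rw [e1, e2]
        set A := f (sw T none (some (some k)) a b) - f T
        set B := g (sw T none (some (some k)) a b)
        set C := g T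
        have e3 : f (sw T none (some (some k)) a b) - B - (f T - C) = A - B + C := by ring
        rw [e3]
        nlinarith [sq_nonneg (A + B), sq_nonneg (A - C), sq_nonneg (B + C)]
      · simp only [if_neg hab]
        norm_num
    rw [hA] at hC
    refine hC.trans ?_
    linarith
  have hEX : ∑ k, EX c rho r2 (ubar c r1 r2 f) k
      ≤ 3 * ∑ k, Dij r c f none (some (some k)) + 6 * (Fintype.card K : ℝ) * (Fintype.card J : ℝ) ^ 2 * G2 := by
    refine (sum_le_sum fun k _ => hrow k).trans ?_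
    rw [sum_add_distrib, ← mul_sum, sum_const, nsmul_eq_mul, card_univ]
    apply le_of_eq
    ring
  have hgap := gapX c rho r1 r2 hc h2 h21 hrho L hL
    (fun v hv s hs => hSP v hv r2 s hs) (ubar c r1 r2 f)
  have hDF := fl_DF_ge r c f
  have hDh := Dij_nonneg r c f none (some none)
  have hDs : 0 ≤ ∑ k, Dij r c f none (some (some k)) := sum_nonneg fun k _ => Dij_nonneg _ _ _ _ _
  have hnum := fl_num (Fintype.card K : ℝ) (Fintype.card J : ℝ) ((sz c : ℝ) + 1) L
    (Dij r c f none (some none)) (∑ k, Dij r c f none (some (some k))) G2 (by positivity)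
    (by positivity) (by linarith [Nat.cast_nonneg (α := ℝ) (sz c)]) hL hDh hDs hhub
  rw [hS1, hS2, ← hT] at *
  set N : ℝ := ((TT r c).card : ℝ) with hN
  have hN0 : 0 ≤ N := by rw [hN]; positivity
  set S2 : ℝ := ∑ x ∈ XX c rho, N2 r2 (yy c x) * ubar c r1 r2 f x ^ 2
  set S1 : ℝ := ∑ x ∈ XX c rho, N2 r2 (yy c x) * ubar c r1 r2 f x
  set Q : ℝ := 100 * ((Fintype.card K : ℝ) + 1) * ((Fintype.card J : ℝ) + 1) ^ 6
      * ((sz c : ℝ) + 1) ^ 2 * L ^ 2 with hQ
  have hQ0 : 0 ≤ Q := by rw [hQ]; positivity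
  set C1 : ℝ := 40 * ((Fintype.card J : ℝ) + 1) ^ 4 * ((sz c : ℝ) + 1) ^ 2 * L with hC1
  have hC10 : 0 ≤ C1 := by rw [hC1]; positivity
  have s1 : C1 * N * ∑ k, EX c rho r2 (ubar c r1 r2 f) k ≤ C1 * N *
      (3 * ∑ k, Dij r c f none (some (some k)) + 6 * (Fintype.card K : ℝ) * (Fintype.card J : ℝ) ^ 2 * G2) :=
    mul_le_mul_of_nonneg_left hEX (mul_nonneg hC10 hN0)
  have s2 : N * (G2 + C1 * (3 * ∑ k, Dij r c f none (some (some k))
      + 6 * (Fintype.card K : ℝ) * (Fintype.card J : ℝ) ^ 2 * G2)) ≤ N * (Q * DF r c f) := by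
    refine mul_le_mul_of_nonneg_left (hnum.trans ?_) hN0
    exact mul_le_mul_of_nonneg_left hDF hQ0
  calc N * (G2 + S2) - S1 ^ 2 = N * G2 + (N * S2 - S1 ^ 2) := by ring
    _ ≤ N * G2 + C1 * N * ∑ k, EX c rho r2 (ubar c r1 r2 f) k := by linarith
    _ ≤ N * G2 + C1 * N * (3 * ∑ k, Dij r c f none (some (some k))
      + 6 * (Fintype.card K : ℝ) * (Fintype.card J : ℝ) ^ 2 * G2) := by linarith
    _ = N * (G2 + C1 * (3 * ∑ k, Dij r c f none (some (some k))
      + 6 * (Fintype.card K : ℝ) * (Fintype.card J : ℝ) ^ 2 * G2)) := by ring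
    _ ≤ N * (Q * DF r c f) := s2
    _ = Q * N * DF r c f := by ring

end CT
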