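import Vale.Agent.CT.BTen
import Vale.Agent.CT.FullC

/-! # Piece BLK: three-row blocks from the tensorization of the non-hub rows -/

namespace CT

open Finset
open scoped Classical

variable {J : Type} [Fintype J] [DecidableEq J]
variable {K : Type} [Fintype K] [DecidableEq K]
variable {I : Type} [Fintype I] [DecidableEq I]

theorem bk_VV_nonneg (r : I → ℕ) (c : J → ℕ) (B : Finset (I × J)) (f : (I → J → ℕ) → ℝ) :
    0 ≤ VV r c B f := sum_nonneg fun _ _ => sq_nonneg _

theorem bk_hsum (c : J → ℕ) (rho : K → ℕ) (r1 r2 : ℕ) (hc : sz c = r1 + r2 + ∑ k, rho k)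
    (f : (Option (Option K) → J → ℕ) → ℝ) {x : K → J → ℕ} (hx : x ∈ XX c rho) :
    ∑ z ∈ box (yy c x) r1, f (mkT c x z) = N2 r2 (yy c x) * ubar c r1 r2 f x := by
  have hn : 0 < N2 r2 (yy c x) := N2_pos (by have := fl_sz_yy hc hx; omega)
  unfold ubar
  rw [mul_div_cancel₀ _ hn.ne']

theorem bk_fib_sum (c : J → ℕ) (rho : K → ℕ) (r1 r2 : ℕ) (hc : sz c = r1 + r2 + ∑ k, rho k)
    (B : Finset (Option (Option K) × J)) (x : K → J → ℕ) (z : J → ℕ)
    (Q : (K → J → ℕ) → Prop) [DecidablePred Q]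
    (hQ : ∀ x' z', (∀ i j, (i, j) ∉ B → mkT c x' z' i j = mkT c x z i j) ↔ Q x')
    (f : (Option (Option K) → J → ℕ) → ℝ) :
    ∑ T' ∈ fib (rr r1 r2 rho) c B (mkT c x z), f T'
      = ∑ x' ∈ (XX c rho).filter Q, N2 r2 (yy c x') * ubar c r1 r2 f x' := by
  unfold fib
  rw [sum_filter, fl_sum_TT c rho r1 r2 hc, sum_filter]
  refine sum_congr rfl fun x' hx' => ?_
  by_cases h : Q x'
  · rw [if_pos h, ← bk_hsum c rho r1 r2 hc f hx']
    refine sum_congr rfl fun z' _ => ?_
    rw [if_pos ((hQ x' z').2 h)]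
  · rw [if_neg h]
    refine sum_eq_zero fun z' _ => ?_
    rw [if_neg fun h' => h ((hQ x' z').1 h')]

theorem bk_ubar_one (c : J → ℕ) (rho : K → ℕ) (r1 r2 : ℕ) (hc : sz c = r1 + r2 + ∑ k, rho k)
    {x : K → J → ℕ} (hx : x ∈ XX c rho) : ubar c r1 r2 (fun _ => 1) x = 1 := by
  have hn : 0 < N2 r2 (yy c x) := N2_pos (by have := fl_sz_yy hc hx; omega)
  have hcard : ((box (yy c x) r1).card : ℝ) = N2 r2 (yy c x) := by
    unfold N2
    rw [card_box_compl (fl_sz_yy hc hx)]
  unfold ubar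
  rw [sum_const, nsmul_eq_mul, mul_one, hcard, div_self hn.ne']

/-- the block average over a block containing the hub -/
theorem bk_CE (c : J → ℕ) (rho : K → ℕ) (r1 r2 : ℕ) (hc : sz c = r1 + r2 + ∑ k, rho k)
    (B : Finset (Option (Option K) × J)) (x : K → J → ℕ) (z : J → ℕ)
    (Q : (K → J → ℕ) → Prop) [DecidablePred Q]
    (hQ : ∀ x' z', (∀ i j, (i, j) ∉ B → mkT c x' z' i j = mkT c x z i j) ↔ Q x')
    (f : (Option (Option K) → J → ℕ) → ℝ) :
    CE (rr r1 r2 rho) c B f (mkT c x z)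
      = (∑ x' ∈ (XX c rho).filter Q, N2 r2 (yy c x') * ubar c r1 r2 f x')
        / (∑ x' ∈ (XX c rho).filter Q, N2 r2 (yy c x')) := by
  have h1 := bk_fib_sum c rho r1 r2 hc B x z Q hQ f
  have h2 := bk_fib_sum c rho r1 r2 hc B x z Q hQ (fun _ => 1)
  rw [sum_const, nsmul_eq_mul, mul_one] at h2
  have h3 : ∑ x' ∈ (XX c rho).filter Q, N2 r2 (yy c x') * ubar c r1 r2 (fun _ => 1) x'
      = ∑ x' ∈ (XX c rho).filter Q, N2 r2 (yy c x') := by
    refine sum_congr rfl fun x' hx' => ?_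
    rw [bk_ubar_one c rho r1 r2 hc (mem_filter.1 hx').1, mul_one]
  unfold CE
  rw [h1, h2, h3]

/-- variance over a block containing the hub -/
theorem bk_VV (c : J → ℕ) (rho : K → ℕ) (r1 r2 : ℕ) (hc : sz c = r1 + r2 + ∑ k, rho k)
    (B : Finset (Option (Option K) × J)) (f : (Option (Option K) → J → ℕ) → ℝ)
    (m : (K → J → ℕ) → ℝ)
    (hm : ∀ x ∈ XX c rho, ∀ z ∈ box (yy c x) r1, CE (rr r1 r2 rho) c B f (mkT c x z) = m x) :
    VV (rr r1 r2 rho) c B f
      = (∑ x ∈ XX c rho, ∑ z ∈ box (yy c x) r1, (f (mkT c x z) - ubar c r1 r2 f x) ^ 2)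
        + ∑ x ∈ XX c rho, N2 r2 (yy c x) * (ubar c r1 r2 f x - m x) ^ 2 := by
  unfold VV
  rw [fl_sum_TT c rho r1 r2 hc, ← sum_add_distrib]
  refine sum_congr rfl fun x hx => ?_
  have hcard : ((box (yy c x) r1).card : ℝ) = N2 r2 (yy c x) := by
    unfold N2
    rw [card_box_compl (fl_sz_yy hc hx)]
  have hs := bk_hsum c rho r1 r2 hc f hx
  have h1 : ∀ z ∈ box (yy c x) r1, (f (mkT c x z) - CE (rr r1 r2 rho) c B f (mkT c x z)) ^ 2
      = (f (mkT c x z) - ubar c r1 r2 f x) ^ 2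
        + 2 * (ubar c r1 r2 f x - m x) * (f (mkT c x z) - ubar c r1 r2 f x)
        + (ubar c r1 r2 f x - m x) ^ 2 := by
    intro z hz
    rw [hm x hx z hz]
    ring
  rw [sum_congr rfl h1, sum_add_distrib, sum_add_distrib, ← mul_sum, sum_sub_distrib, hs,
    sum_const, sum_const, nsmul_eq_mul, nsmul_eq_mul, hcard]
  ring

theorem bk_V0 (c : J → ℕ) (rho : K → ℕ) (r1 r2 : ℕ) (hc : sz c = r1 + r2 + ∑ k, rho k)
    (f : (Option (Option K) → J → ℕ) → ℝ) :
    (∑ x ∈ XX c rho, ∑ z ∈ box (yy c x) r1, (f (mkT c x z) - ubar c r1 r2 f x) ^ 2)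
      ≤ VV (rr r1 r2 rho) c (({none, some none, none} : Finset (Option (Option K))) ×ˢ
      (univ : Finset J)) f := by
  have hm : ∀ x ∈ XX c rho, ∀ z ∈ box (yy c x) r1,
      CE (rr r1 r2 rho) c (({none, some none, none} : Finset (Option (Option K))) ×ˢ
      (univ : Finset J)) f (mkT c x z)
      = (∑ x' ∈ (XX c rho).filter (fun x' => x' = x), N2 r2 (yy c x') * ubar c r1 r2 f x')
        / (∑ x' ∈ (XX c rho).filter (fun x' => x' = x), N2 r2 (yy c x')) := by
    intro x _ z _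
    refine bk_CE c rho r1 r2 hc _ x z (fun x' => x' = x) ?_ f
    intro x' z'
    constructor
    · intro h
      funext k j
      exact h (some (some k)) j (by simp)
    · intro hx i j hij
      subst hx
      match i with
      | none => exact absurd (by simp) hij
      | some none => exact absurd (by simp) hij
      | some (some k) => rfl
  have h1 := bk_VV c rho r1 r2 hc _ f _ hm
  rw [h1]
  have h0 : 0 ≤ ∑ x ∈ XX c rho, N2 r2 (yy c x) * (ubar c r1 r2 f x
      - (∑ x' ∈ (XX c rho).filter (fun x' => x' = x), N2 r2 (yy c x') * ubar c r1 r2 f x')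
        / (∑ x' ∈ (XX c rho).filter (fun x' => x' = x), N2 r2 (yy c x'))) ^ 2 :=
    sum_nonneg fun x _ => mul_nonneg (Nat.cast_nonneg _) (sq_nonneg _)
  linarith

theorem bk_Vk (c : J → ℕ) (rho : K → ℕ) (r1 r2 : ℕ) (hc : sz c = r1 + r2 + ∑ k, rho k)
    (f : (Option (Option K) → J → ℕ) → ℝ) (k : K) :
    VV (rr r1 r2 rho) c (({none, some none, some (some k)} : Finset (Option (Option K))) ×ˢ
      (univ : Finset J)) f
      = (∑ x ∈ XX c rho, ∑ z ∈ box (yy c x) r1, (f (mkT c x z) - ubar c r1 r2 f x) ^ 2)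
        + VX c rho r2 (ubar c r1 r2 f) k := by
  have hm : ∀ x ∈ XX c rho, ∀ z ∈ box (yy c x) r1,
      CE (rr r1 r2 rho) c (({none, some none, some (some k)} : Finset (Option (Option K))) ×ˢ
      (univ : Finset J)) f (mkT c x z)
      = (∑ x' ∈ (XX c rho).filter (fun x' => ∀ l, l ≠ k → x' l = x l),
          N2 r2 (yy c x') * ubar c r1 r2 f x')
        / (∑ x' ∈ (XX c rho).filter (fun x' => ∀ l, l ≠ k → x' l = x l), N2 r2 (yy c x')) := by
    intro x _ z _
    refine bk_CE c rho r1 r2 hc _ x z (fun x' => ∀ l, l ≠ k → x' l = x l) ?_ f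
    intro x' z'
    constructor
    · intro h l hl
      funext j
      exact h (some (some l)) j (by simp [hl])
    · intro h i j hij
      match i with
      | none => exact absurd (by simp) hij
      | some none => exact absurd (by simp) hij
      | some (some l) =>
        have hl : l ≠ k := by
          intro hlk
          subst hlk
          exact hij (by simp)
        exact congrFun (h l hl) j
  have h1 := bk_VV c rho r1 r2 hc _ f _ hm
  rw [h1]
  unfold VX CX
  rfl

/-- BLK -/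
theorem blkA (c : J → ℕ) (rho : Option (Option K) → ℕ) (r1 r2 : ℕ) (hr1 : rho none = r1)
    (hr2 : rho (some none) = r2) (hc : sz c = ∑ i, rho i)
    (h1 : 2 ≤ r1) (h21 : r2 ≤ r1) (hrho : ∀ k : K, rho (some (some k)) ≤ r2) :
    PR rho c (10 ^ 8 * ((Fintype.card J : ℝ) + 1) ^ 11 * lg (sz c) ^ 2) := by
  have hrr : rho = rr r1 r2 (fun k => rho (some (some k))) := by
    funext i
    match i with
    | none => exact hr1
    | some none => exact hr2
    | some (some k) => rfl
  generalize hro : (fun k => rho (some (some k))) = ro at hrr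
  have hrho' : ∀ k, ro k ≤ r2 := by
    intro k
    rw [← hro]
    exact hrho k
  have hc' : sz c = r1 + r2 + ∑ k, ro k := by
    rw [hc, hrr, Fintype.sum_option, Fintype.sum_option, add_assoc]
    rfl
  clear hrho hc hr1 hr2 hro
  subst hrr
  intro f
  set r : Option (Option K) → ℕ := rr r1 r2 ro with hr
  set U : (K → J → ℕ) → ℝ := ubar c r1 r2 f with hU
  set G2 : ℝ := ∑ x ∈ XX c ro, ∑ z ∈ box (yy c x) r1, (f (mkT c x z) - U x) ^ 2 with hG2
  have hG20 : 0 ≤ G2 := sum_nonneg fun _ _ => sum_nonneg fun _ _ => sq_nonneg _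
  have hV0 := bk_V0 c ro r1 r2 hc' f
  have hV := bk_Vk c ro r1 r2 hc' f
  rw [← hr, ← hU, ← hG2] at hV0
  simp only [← hr, ← hU, ← hG2] at hV
  -- lower bound of the sum over the blocks
  have hsum : G2 + ∑ k, VX c ro r2 U k ≤ ∑ i : Option (Option K), ∑ j : Option (Option K),
      ∑ k : Option (Option K), VV r c (({i, j, k} : Finset (Option (Option K))) ×ˢ
        (univ : Finset J)) f := by
    have e1 : ∑ k : Option (Option K), VV r c (({none, some none, k} : Finset (Option (Option K)))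
        ×ˢ (univ : Finset J)) f ≤ ∑ i : Option (Option K), ∑ j : Option (Option K),
      ∑ k : Option (Option K), VV r c (({i, j, k} : Finset (Option (Option K))) ×ˢ
        (univ : Finset J)) f := by
      have a1 := single_le_sum (f := fun i : Option (Option K) => ∑ j : Option (Option K),
        ∑ k : Option (Option K), VV r c (({i, j, k} : Finset (Option (Option K))) ×ˢ
        (univ : Finset J)) f) (s := univ) (fun i _ => sum_nonneg fun j _ => sum_nonneg fun k _ =>
          bk_VV_nonneg _ _ _ _) (mem_univ none)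
      have a2 := single_le_sum (f := fun j : Option (Option K) =>
        ∑ k : Option (Option K), VV r c (({none, j, k} : Finset (Option (Option K))) ×ˢ
        (univ : Finset J)) f) (s := univ) (fun j _ => sum_nonneg fun k _ =>
          bk_VV_nonneg _ _ _ _) (mem_univ (some none))
      exact a2.trans a1
    refine le_trans ?_ e1
    rw [Fintype.sum_option, Fintype.sum_option]
    have e2 : ∑ k, VX c ro r2 U k ≤ ∑ k : K, VV r c (({none, some none, some (some k)} :
        Finset (Option (Option K))) ×ˢ (univ : Finset J)) f :=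
      sum_le_sum fun k _ => by rw [hV k]; linarith
    have e3 := bk_VV_nonneg r c (({none, some none, some none} : Finset (Option (Option K))) ×ˢ
      (univ : Finset J)) f
    linarith
  -- totals
  have hT : ((TT r c).card : ℝ) = ∑ x ∈ XX c ro, N2 r2 (yy c x) := by
    have := fl_sum_TT c ro r1 r2 hc' (fun _ => 1)
    rw [sum_const, nsmul_eq_mul, mul_one] at this
    rw [hr, this]
    refine sum_congr rfl fun x hx => ?_
    rw [sum_const, nsmul_eq_mul, mul_one]
    unfold N2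
    rw [card_box_compl (fl_sz_yy hc' hx)]
  have hS1 : ∑ T ∈ TT r c, f T = ∑ x ∈ XX c ro, N2 r2 (yy c x) * U x := by
    rw [hr, fl_sum_TT c ro r1 r2 hc']
    exact sum_congr rfl fun x hx => bk_hsum c ro r1 r2 hc' f hx
  have hS2 : ∑ T ∈ TT r c, f T ^ 2 = G2 + ∑ x ∈ XX c ro, N2 r2 (yy c x) * U x ^ 2 := by
    rw [hr, fl_sum_TT c ro r1 r2 hc', hG2, ← sum_add_distrib]
    refine sum_congr rfl fun x hx => ?_
    have hcard : ((box (yy c x) r1).card : ℝ) = N2 r2 (yy c x) := by
      unfold N2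
      rw [card_box_compl (fl_sz_yy hc' hx)]
    have hs := bk_hsum c ro r1 r2 hc' f hx
    have h3 : ∀ z ∈ box (yy c x) r1, (f (mkT c x z) - U x) ^ 2
        = f (mkT c x z) ^ 2 - 2 * U x * f (mkT c x z) + U x ^ 2 := by
      intro z _
      ring
    rw [sum_congr rfl h3, sum_add_distrib, sum_sub_distrib, ← mul_sum, hs, sum_const,
      nsmul_eq_mul, hcard, ← hU]
    ring
  have hten := ten c ro r1 r2 hc' h1 h21 hrho' U
  rw [hS1, hS2]
  rw [← hT] at hten
  have hlg : 1 ≤ lg (sz c) := by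
    unfold lg
    have : 0 ≤ Real.log ((sz c : ℝ) + 1) := Real.log_nonneg (by
      have : (0 : ℝ) ≤ (sz c : ℝ) := Nat.cast_nonneg _
      linarith)
    linarith
  have hn1 : 1 ≤ ((Fintype.card J : ℝ) + 1) ^ 11 := one_le_pow₀ (by
    have : (0 : ℝ) ≤ (Fintype.card J : ℝ) := Nat.cast_nonneg _
    linarith)
  have hlg2 : 1 ≤ lg (sz c) ^ 2 := one_le_pow₀ hlg
  have hW : 1 ≤ ((Fintype.card J : ℝ) + 1) ^ 11 * lg (sz c) ^ 2 := by nlinarith
  set W : ℝ := ((Fintype.card J : ℝ) + 1) ^ 11 * lg (sz c) ^ 2 with hWdef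
  have hVX : 0 ≤ ∑ k, VX c ro r2 U k := sum_nonneg fun k _ => by
    unfold VX
    exact sum_nonneg fun x _ => mul_nonneg (Nat.cast_nonneg _) (sq_nonneg _)
  set N : ℝ := ((TT r c).card : ℝ) with hN
  have hN0 : 0 ≤ N := Nat.cast_nonneg _
  set S : ℝ := ∑ i : Option (Option K), ∑ j : Option (Option K),
      ∑ k : Option (Option K), VV r c (({i, j, k} : Finset (Option (Option K))) ×ˢ
        (univ : Finset J)) f with hS
  have f1 : N * (∑ x ∈ XX c ro, N2 r2 (yy c x) * U x ^ 2)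
      - (∑ x ∈ XX c ro, N2 r2 (yy c x) * U x) ^ 2 ≤ 10 ^ 7 * W * N * ∑ k, VX c ro r2 U k := by
    refine hten.trans (le_of_eq ?_)
    rw [hWdef]
    ring
  have f2 : N * G2 ≤ 10 ^ 8 * W * N * G2 := by
    have : 0 ≤ N * G2 := mul_nonneg hN0 hG20
    nlinarith
  have f3 : 10 ^ 7 * W * N * ∑ k, VX c ro r2 U k ≤ 10 ^ 8 * W * N * ∑ k, VX c ro r2 U k := by
    have : 0 ≤ W * N * ∑ k, VX c ro r2 U k := mul_nonneg (mul_nonneg (by linarith) hN0) hVX
    nlinarith
  have f4 : 10 ^ 8 * W * N * (G2 + ∑ k, VX c ro r2 U k) ≤ 10 ^ 8 * W * N * S :=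
    mul_le_mul_of_nonneg_left hsum (by positivity)
  calc N * (G2 + ∑ x ∈ XX c ro, N2 r2 (yy c x) * U x ^ 2)
        - (∑ x ∈ XX c ro, N2 r2 (yy c x) * U x) ^ 2
      ≤ 10 ^ 8 * W * N * (G2 + ∑ k, VX c ro r2 U k) := by linarith
    _ ≤ 10 ^ 8 * W * N * S := f4
    _ = 10 ^ 8 * ((Fintype.card J : ℝ) + 1) ^ 11 * lg (sz c) ^ 2 * N * S := by
        rw [hWdef]; ring

end CT
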