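import Vale.Agent.CT.Rx

/-! # Piece FULL, part A: general facts on tables and switches -/

namespace CT

open Finset
open scoped Classical

section tab
variable {J : Type} [Fintype J] [DecidableEq J] {I : Type} [Fintype I] [DecidableEq I]

theorem fl_sz_add (x y : J → ℕ) : sz (x + y) = sz x + sz y := by
  simp [sz, sum_add_distrib]

theorem fl_sz_e (b : J) : sz (e b) = 1 := by
  simp [sz, e]

theorem fl_sz_sum {K : Type} [Fintype K] (x : K → J → ℕ) : sz (∑ k, x k) = ∑ k, sz (x k) := by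
  unfold sz
  rw [sum_comm]
  exact sum_congr rfl fun j _ => by rw [Finset.sum_apply]

theorem fl_sub_add {x y : J → ℕ} (h : y ≤ x) : x - y + y = x := by
  ext l
  have h1 : y l ≤ x l := h l
  show x l - y l + y l = x l
  omega

theorem fl_sz_sub {x y : J → ℕ} (h : y ≤ x) : sz (x - y) + sz y = sz x := by
  rw [← fl_sz_add, fl_sub_add h]

theorem fl_mem_TT {r : I → ℕ} {c : J → ℕ} {T : I → J → ℕ} :
    T ∈ TT r c ↔ (∀ i, sz (T i) = r i) ∧ ∑ i, T i = c := by
  unfold TT
  rw [mem_filter, Fintype.mem_piFinset]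
  constructor
  · rintro ⟨h1, h2⟩
    exact ⟨fun i => (mem_box.1 (h1 i)).2, h2⟩
  · rintro ⟨h1, h2⟩
    refine ⟨fun i => mem_box.2 ⟨?_, h1 i⟩, h2⟩
    rw [← h2]
    intro j
    rw [Finset.sum_apply]
    exact single_le_sum (f := fun i => T i j) (fun _ _ => Nat.zero_le _) (mem_univ i)

theorem fl_sw_fst {T : I → J → ℕ} {i j : I} (hij : i ≠ j) (a b : J) :
    sw T i j a b i = T i - e a + e b := by
  unfold sw
  rw [Function.update_of_ne hij, Function.update_self]

theorem fl_sw_snd {T : I → J → ℕ} {i j : I} (a b : J) :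
    sw T i j a b j = T j - e b + e a := by
  unfold sw
  rw [Function.update_self]

theorem fl_sw_oth {T : I → J → ℕ} {i j l : I} (hi : l ≠ i) (hj : l ≠ j) (a b : J) :
    sw T i j a b l = T l := by
  unfold sw
  rw [Function.update_of_ne hj, Function.update_of_ne hi]

theorem fl_sw_comm {T : I → J → ℕ} {i j : I} (hij : i ≠ j) (a b : J) :
    sw T j i b a = sw T i j a b := by
  unfold sw
  rw [Function.update_comm hij]

theorem fl_sz_move {x : J → ℕ} {a : J} (h : 0 < x a) (b : J) : sz (x - e a + e b) = sz x := by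
  rw [fl_sz_add, fl_sz_e, ← fl_sz_e a, fl_sz_sub (e_le_iff.2 h)]

theorem fl_sw_mem {r : I → ℕ} {c : J → ℕ} {T : I → J → ℕ} (hT : T ∈ TT r c) {i j : I} (hij : i ≠ j)
    {a b : J} (ha : 0 < T i a) (hb : 0 < T j b) : sw T i j a b ∈ TT r c := by
  rw [fl_mem_TT] at hT ⊢
  obtain ⟨h1, h2⟩ := hT
  constructor
  · intro l
    by_cases hli : l = i
    · rw [hli, fl_sw_fst hij, fl_sz_move ha, h1]
    · by_cases hlj : l = j
      · rw [hlj, fl_sw_snd, fl_sz_move hb, h1]
      · rw [fl_sw_oth hli hlj, h1]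
  · rw [← h2]
    rw [← add_sum_erase univ _ (mem_univ i), ← add_sum_erase univ T (mem_univ i)]
    rw [← add_sum_erase (univ.erase i) _ (mem_erase.2 ⟨hij.symm, mem_univ j⟩),
      ← add_sum_erase (univ.erase i) T (mem_erase.2 ⟨hij.symm, mem_univ j⟩)]
    rw [fl_sw_fst hij, fl_sw_snd]
    have h3 : ∑ x ∈ (univ.erase i).erase j, sw T i j a b x = ∑ x ∈ (univ.erase i).erase j, T x := by
      refine sum_congr rfl fun l hl => ?_
      rw [mem_erase, mem_erase] at hl
      exact fl_sw_oth hl.2.1 hl.1 a b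
    rw [h3]
    have h4 := e_le_iff.2 ha
    have h5 := e_le_iff.2 hb
    have key : (T i - e a + e b) + (T j - e b + e a) = T i + T j := by
      ext l
      have h6 : e a l ≤ T i l := h4 l
      have h7 : e b l ≤ T j l := h5 l
      show T i l - e a l + e b l + (T j l - e b l + e a l) = T i l + T j l
      omega
    rw [← add_assoc (T i - e a + e b), key, add_assoc]

theorem fl_sw_sw {T : I → J → ℕ} {i j : I} (hij : i ≠ j)
    {a b : J} (ha : 0 < T i a) (hb : 0 < T j b) : sw (sw T i j a b) i j b a = T := by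
  have h4 := e_le_iff.2 ha
  have h5 := e_le_iff.2 hb
  funext l
  by_cases hli : l = i
  · subst hli
    rw [fl_sw_fst hij, fl_sw_fst hij]
    ext t
    have h6 : e a t ≤ T l t := h4 t
    show T l t - e a t + e b t - e b t + e a t = T l t
    omega
  · by_cases hlj : l = j
    · subst hlj
      rw [fl_sw_snd, fl_sw_snd]
      ext t
      have h6 : e b t ≤ T l t := h5 t
      show T l t - e b t + e a t - e a t + e b t = T l t
      omega
    · rw [fl_sw_oth hli hlj, fl_sw_oth hli hlj]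

omit [Fintype J] in
theorem fl_pos_add_e (x : J → ℕ) (b : J) : 0 < (x + e b) b := by
  simp [e]

/-- the switch is a bijection of the admissible triples -/
theorem fl_sw_sum (r : I → ℕ) (c : J → ℕ) {i j : I} (hij : i ≠ j) (h : (I → J → ℕ) → ℝ) :
    (∑ T ∈ TT r c, ∑ a, ∑ b, if 0 < T i a ∧ 0 < T j b then h (sw T i j a b) else 0)
      = ∑ T ∈ TT r c, ∑ a, ∑ b, if 0 < T i a ∧ 0 < T j b then h T else 0 := by
  have key : ∀ H : (I → J → ℕ) → J → J → ℝ,
      (∑ T ∈ TT r c, ∑ a, ∑ b, if 0 < T i a ∧ 0 < T j b then H T a b else 0)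
        = ∑ p ∈ ((TT r c) ×ˢ (univ ×ˢ univ : Finset (J × J))).filter
            (fun p => 0 < p.1 i p.2.1 ∧ 0 < p.1 j p.2.2), H p.1 p.2.1 p.2.2 := by
    intro H
    rw [sum_filter, sum_product]
    refine sum_congr rfl fun T _ => ?_
    rw [sum_product]
  rw [key (fun T a b => h (sw T i j a b)), key (fun T _ _ => h T)]
  refine sum_nbij' (fun p => (sw p.1 i j p.2.1 p.2.2, (p.2.2, p.2.1)))
    (fun p => (sw p.1 i j p.2.1 p.2.2, (p.2.2, p.2.1))) ?_ ?_ ?_ ?_ ?_
  · rintro ⟨T, a, b⟩ hp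
    simp only [mem_filter, mem_product, mem_univ, and_true] at hp ⊢
    obtain ⟨hT, ha, hb⟩ := hp
    refine ⟨fl_sw_mem hT hij ha hb, ?_, ?_⟩
    · rw [fl_sw_fst hij]; exact fl_pos_add_e _ _
    · rw [fl_sw_snd]; exact fl_pos_add_e _ _
  · rintro ⟨T, a, b⟩ hp
    simp only [mem_filter, mem_product, mem_univ, and_true] at hp ⊢
    obtain ⟨hT, ha, hb⟩ := hp
    refine ⟨fl_sw_mem hT hij ha hb, ?_, ?_⟩
    · rw [fl_sw_fst hij]; exact fl_pos_add_e _ _
    · rw [fl_sw_snd]; exact fl_pos_add_e _ _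
  · rintro ⟨T, a, b⟩ hp
    simp only [mem_filter, mem_product, mem_univ, and_true] at hp
    obtain ⟨hT, ha, hb⟩ := hp
    simp only [fl_sw_sw hij ha hb]
  · rintro ⟨T, a, b⟩ hp
    simp only [mem_filter, mem_product, mem_univ, and_true] at hp
    obtain ⟨hT, ha, hb⟩ := hp
    simp only [fl_sw_sw hij ha hb]
  · rintro ⟨T, a, b⟩ hp
    rfl

/-- Dirichlet form of the switches in two given rows -/
noncomputable def Dij (r : I → ℕ) (c : J → ℕ) (f : (I → J → ℕ) → ℝ) (i j : I) : ℝ :=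
  ∑ T ∈ TT r c, ∑ a, ∑ b, if 0 < T i a ∧ 0 < T j b then (f (sw T i j a b) - f T) ^ 2 else 0

theorem Dij_nonneg (r : I → ℕ) (c : J → ℕ) (f : (I → J → ℕ) → ℝ) (i j : I) : 0 ≤ Dij r c f i j := by
  unfold Dij
  refine sum_nonneg fun T _ => sum_nonneg fun a _ => sum_nonneg fun b _ => ?_
  split_ifs
  · positivity
  · exact le_rfl

theorem Dij_comm (r : I → ℕ) (c : J → ℕ) (f : (I → J → ℕ) → ℝ) {i j : I} (hij : i ≠ j) :
    Dij r c f j i = Dij r c f i j := by
  unfold Dij
  refine sum_congr rfl fun T _ => ?_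
  rw [sum_comm]
  refine sum_congr rfl fun a _ => sum_congr rfl fun b _ => ?_
  rw [fl_sw_comm hij]
  simp only [and_comm]

theorem DF_eq (r : I → ℕ) (c : J → ℕ) (f : (I → J → ℕ) → ℝ) :
    DF r c f = ∑ i, ∑ j, if i ≠ j then Dij r c f i j else 0 := by
  unfold DF Dij
  rw [sum_comm]
  refine sum_congr rfl fun i _ => ?_
  rw [sum_comm]
  refine sum_congr rfl fun j _ => ?_
  by_cases hij : i = j
  · simp [hij]
  · simp [hij]

end tab

end CT
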