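import Vale.Agent.CT.BDefs
import Vale.Agent.CT.FullA

/-! # From three-row blocks to 3 x 3 blocks by transposition (piece P3) -/

namespace CT

open Finset
open scoped Classical

variable {J : Type} [Fintype J] [DecidableEq J]
variable {I : Type} [Fintype I] [DecidableEq I]

theorem p3_mem {r : I → ℕ} {c : J → ℕ} {T : I → J → ℕ} :
    T ∈ TT r c ↔ (∀ i, ∑ j, T i j = r i) ∧ (∀ j, ∑ i, T i j = c j) := by
  rw [fl_mem_TT]
  constructor
  · rintro ⟨h1, h2⟩
    refine ⟨h1, fun j => ?_⟩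
    rw [← h2, Finset.sum_apply]
  · rintro ⟨h1, h2⟩
    refine ⟨h1, ?_⟩
    funext j
    rw [Finset.sum_apply]
    exact h2 j

/-- restriction to the rows in `S`, transposed -/
def p3_res (S : Finset I) (T : I → J → ℕ) : J → {x // x ∈ S} → ℕ := fun j s => T s.1 j

/-- extension by `T0` -/
def p3_ext (S : Finset I) (T0 : I → J → ℕ) (U : J → {x // x ∈ S} → ℕ) : I → J → ℕ :=
  fun i j => if h : i ∈ S then U j ⟨i, h⟩ else T0 i j

/-- row sums of the transposed block -/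
def p3_row (S : Finset I) (T0 : I → J → ℕ) : J → ℕ := fun j => ∑ s : {x // x ∈ S}, T0 s.1 j

theorem p3_split (S : Finset I) (f : I → ℕ) :
    ∑ i, f i = (∑ s : {x // x ∈ S}, f s.1) + ∑ i ∈ univ.filter (fun i => i ∉ S), f i := by
  rw [← Finset.sum_filter_add_sum_filter_not univ (fun i => i ∈ S) f]
  congr 1
  rw [Finset.sum_coe_sort S f]
  congr 1
  ext x
  simp

theorem p3_ext_mem {r : I → ℕ} {c : J → ℕ} (S : Finset I) {T0 : I → J → ℕ} (hT0 : T0 ∈ TT r c)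
    {U : J → {x // x ∈ S} → ℕ}
    (hU : U ∈ TT (p3_row S T0) (fun s : {x // x ∈ S} => r s.1)) :
    p3_ext S T0 U ∈ TT r c := by
  rw [p3_mem] at hU hT0 ⊢
  refine ⟨fun i => ?_, fun j => ?_⟩
  · by_cases h : i ∈ S
    · simp only [p3_ext, h, dif_pos]
      exact hU.2 ⟨i, h⟩
    · simp only [p3_ext, h, dif_neg, not_false_eq_true]
      exact hT0.1 i
  · rw [p3_split S]
    have h1 : ∑ s : {x // x ∈ S}, p3_ext S T0 U s.1 j = ∑ s : {x // x ∈ S}, T0 s.1 j := by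
      have : ∀ s : {x // x ∈ S}, p3_ext S T0 U s.1 j = U j s := by
        intro s
        simp only [p3_ext, s.2, dif_pos]
      simp only [this]
      exact hU.1 j
    have h2 : ∑ i ∈ univ.filter (fun i => i ∉ S), p3_ext S T0 U i j
        = ∑ i ∈ univ.filter (fun i => i ∉ S), T0 i j := by
      refine Finset.sum_congr rfl fun i hi => ?_
      have hi' := (Finset.mem_filter.mp hi).2
      simp only [p3_ext, hi', dif_neg, not_false_eq_true]
    rw [h1, h2, ← p3_split S (fun i => T0 i j)]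
    exact hT0.2 j

theorem p3_res_mem {r : I → ℕ} {c : J → ℕ} (S : Finset I) {T0 T : I → J → ℕ} (hT0 : T0 ∈ TT r c)
    (hT : T ∈ TT r c) (hag : ∀ i, i ∉ S → ∀ j, T i j = T0 i j) :
    p3_res S T ∈ TT (p3_row S T0) (fun s : {x // x ∈ S} => r s.1) := by
  rw [p3_mem] at hT hT0 ⊢
  refine ⟨fun j => ?_, fun s => hT.1 s.1⟩
  have h1 := hT.2 j
  have h2 := hT0.2 j
  rw [p3_split S] at h1 h2
  have h3 : ∑ i ∈ univ.filter (fun i => i ∉ S), T i j
      = ∑ i ∈ univ.filter (fun i => i ∉ S), T0 i j := by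
    refine Finset.sum_congr rfl fun i hi => ?_
    exact hag i (Finset.mem_filter.mp hi).2 j
  show ∑ s : {x // x ∈ S}, T s.1 j = ∑ s : {x // x ∈ S}, T0 s.1 j
  omega

theorem p3_ext_res (S : Finset I) {T0 T : I → J → ℕ} (hag : ∀ i, i ∉ S → ∀ j, T i j = T0 i j) :
    p3_ext S T0 (p3_res S T) = T := by
  funext i j
  by_cases h : i ∈ S
  · simp only [p3_ext, p3_res, h, dif_pos]
  · simp only [p3_ext, h, dif_neg, not_false_eq_true]
    exact (hag i h j).symm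

theorem p3_res_ext (S : Finset I) (T0 : I → J → ℕ) (U : J → {x // x ∈ S} → ℕ) :
    p3_res S (p3_ext S T0 U) = U := by
  funext j s
  simp only [p3_ext, p3_res, s.2, dif_pos]

theorem p3_ext_off (S : Finset I) (T0 : I → J → ℕ) (U : J → {x // x ∈ S} → ℕ) {i : I}
    (h : i ∉ S) (j : J) : p3_ext S T0 U i j = T0 i j := by
  simp only [p3_ext, h, dif_neg, not_false_eq_true]

theorem p3_fib_sum {r : I → ℕ} {c : J → ℕ} (S : Finset I) (A : Finset J) {T0 T : I → J → ℕ}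
    (hT0 : T0 ∈ TT r c) (hag : ∀ i, i ∉ S → ∀ j, T i j = T0 i j) (g : (I → J → ℕ) → ℝ) :
    ∑ T' ∈ fib r c (S ×ˢ A) T, g T'
      = ∑ U ∈ fib (p3_row S T0) (fun s : {x // x ∈ S} => r s.1)
          (A ×ˢ (univ : Finset {x // x ∈ S})) (p3_res S T), g (p3_ext S T0 U) := by
  refine Finset.sum_nbij' (fun T' => p3_res S T') (fun U => p3_ext S T0 U) ?_ ?_ ?_ ?_ ?_
  · intro T' hT'
    rw [fib, Finset.mem_filter] at hT' ⊢
    have hag' : ∀ i, i ∉ S → ∀ j, T' i j = T0 i j := by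
      intro i hi j
      rw [hT'.2 i j (by rw [Finset.mem_product]; tauto), hag i hi j]
    refine ⟨p3_res_mem S hT0 hT'.1 hag', ?_⟩
    intro j s hjs
    have hj : j ∉ A := by
      intro h
      exact hjs (by rw [Finset.mem_product]; exact ⟨h, Finset.mem_univ _⟩)
    exact hT'.2 s.1 j (by rw [Finset.mem_product]; tauto)
  · intro U hU
    rw [fib, Finset.mem_filter] at hU ⊢
    refine ⟨p3_ext_mem S hT0 hU.1, ?_⟩
    intro i j hij
    by_cases h : i ∈ S
    · have hj : j ∉ A := by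
        intro h'
        exact hij (by rw [Finset.mem_product]; exact ⟨h, h'⟩)
      have := hU.2 j ⟨i, h⟩ (by rw [Finset.mem_product]; tauto)
      simp only [p3_ext, h, dif_pos]
      exact this
    · rw [p3_ext_off S T0 U h, hag i h j]
  · intro T' hT'
    rw [fib, Finset.mem_filter] at hT'
    refine p3_ext_res S ?_
    intro i hi j
    rw [hT'.2 i j (by rw [Finset.mem_product]; tauto), hag i hi j]
  · intro U _
    exact p3_res_ext S T0 U
  · intro T' hT'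
    rw [fib, Finset.mem_filter] at hT'
    rw [p3_ext_res S]
    intro i hi j
    rw [hT'.2 i j (by rw [Finset.mem_product]; tauto), hag i hi j]

theorem p3_fib_card {r : I → ℕ} {c : J → ℕ} (S : Finset I) (A : Finset J) {T0 T : I → J → ℕ}
    (hT0 : T0 ∈ TT r c) (hag : ∀ i, i ∉ S → ∀ j, T i j = T0 i j) :
    ((fib r c (S ×ˢ A) T).card : ℝ)
      = ((fib (p3_row S T0) (fun s : {x // x ∈ S} => r s.1)
          (A ×ˢ (univ : Finset {x // x ∈ S})) (p3_res S T)).card : ℝ) := by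
  have h := p3_fib_sum S A hT0 hag (fun _ => 1)
  simpa using h

theorem p3_CE {r : I → ℕ} {c : J → ℕ} (S : Finset I) (A : Finset J) {T0 T : I → J → ℕ}
    (hT0 : T0 ∈ TT r c) (hag : ∀ i, i ∉ S → ∀ j, T i j = T0 i j) (f : (I → J → ℕ) → ℝ) :
    CE r c (S ×ˢ A) f T
      = CE (p3_row S T0) (fun s : {x // x ∈ S} => r s.1)
          (A ×ˢ (univ : Finset {x // x ∈ S})) (fun U => f (p3_ext S T0 U)) (p3_res S T) := by
  rw [CE, CE, p3_fib_sum S A hT0 hag, p3_fib_card S A hT0 hag]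

/-- the whole block -/
theorem p3_fib_univ {r : I → ℕ} {c : J → ℕ} (S : Finset I) {T0 : I → J → ℕ}
    (hT0 : T0 ∈ TT r c) (g : (I → J → ℕ) → ℝ) :
    ∑ T' ∈ fib r c (S ×ˢ (univ : Finset J)) T0, g T'
      = ∑ U ∈ TT (p3_row S T0) (fun s : {x // x ∈ S} => r s.1), g (p3_ext S T0 U) := by
  rw [p3_fib_sum S univ hT0 (fun _ _ _ => rfl)]
  refine Finset.sum_congr ?_ fun _ _ => rfl
  rw [fib, Finset.filter_true_of_mem]
  intro U _ i j hij
  exact absurd (by rw [Finset.mem_product]; exact ⟨Finset.mem_univ _, Finset.mem_univ _⟩) hij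

theorem p3_fib_eq {r : I → ℕ} {c : J → ℕ} (B : Finset (I × J)) {T0 T : I → J → ℕ}
    (hT : T ∈ fib r c B T0) : fib r c B T = fib r c B T0 := by
  rw [fib, Finset.mem_filter] at hT
  rw [fib, fib]
  refine Finset.filter_congr fun T' _ => ?_
  constructor
  · intro h i j hij
    rw [h i j hij, hT.2 i j hij]
  · intro h i j hij
    rw [h i j hij, hT.2 i j hij]

theorem p3_self {r : I → ℕ} {c : J → ℕ} (B : Finset (I × J)) {T0 : I → J → ℕ}
    (hT0 : T0 ∈ TT r c) : T0 ∈ fib r c B T0 := by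
  rw [fib, Finset.mem_filter]
  exact ⟨hT0, fun _ _ _ => rfl⟩

theorem p3_card_pos {r : I → ℕ} {c : J → ℕ} (B : Finset (I × J)) {T0 : I → J → ℕ}
    (hT0 : T0 ∈ TT r c) : (0 : ℝ) < ((fib r c B T0).card : ℝ) := by
  exact_mod_cast Finset.card_pos.mpr ⟨T0, p3_self B hT0⟩

/-- one fibre -/
theorem p3_one {r : I → ℕ} {c : J → ℕ} (S : Finset I) {T0 : I → J → ℕ} (hT0 : T0 ∈ TT r c)
    (C : ℝ) (hPR : PR (p3_row S T0) (fun s : {x // x ∈ S} => r s.1) C)
    (f : (I → J → ℕ) → ℝ) :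
    ∑ T ∈ fib r c (S ×ˢ (univ : Finset J)) T0, (f T - CE r c (S ×ˢ (univ : Finset J)) f T) ^ 2
      ≤ C * ∑ a : J, ∑ b : J, ∑ d : J,
        ∑ T ∈ fib r c (S ×ˢ (univ : Finset J)) T0,
          (f T - CE r c (S ×ˢ ({a, b, d} : Finset J)) f T) ^ 2 := by
  set X := fib r c (S ×ˢ (univ : Finset J)) T0 with hX
  have hXpos : (0 : ℝ) < (X.card : ℝ) := p3_card_pos _ hT0
  have h1 := hPR (fun U => f (p3_ext S T0 U))
  have hcard : ((TT (p3_row S T0) (fun s : {x // x ∈ S} => r s.1)).card : ℝ) = (X.card : ℝ) := by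
    have := p3_fib_univ S hT0 (fun _ => 1)
    rw [← hX] at this
    simpa using this.symm
  rw [hcard, ← p3_fib_univ S hT0 (fun T => f T ^ 2), ← p3_fib_univ S hT0 f, ← hX] at h1
  have h2 : ∀ a b d : J,
      VV (p3_row S T0) (fun s : {x // x ∈ S} => r s.1)
        (({a, b, d} : Finset J) ×ˢ (univ : Finset {x // x ∈ S})) (fun U => f (p3_ext S T0 U))
      = ∑ T ∈ X, (f T - CE r c (S ×ˢ ({a, b, d} : Finset J)) f T) ^ 2 := by
    intro a b d
    rw [hX, p3_fib_univ S hT0, VV]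
    refine Finset.sum_congr rfl fun U _ => ?_
    rw [p3_CE S {a, b, d} hT0 (fun i hi j => p3_ext_off S T0 U hi j) f, p3_res_ext]
  simp only [h2] at h1
  have h3 : ∀ T ∈ X, CE r c (S ×ˢ (univ : Finset J)) f T = (∑ T' ∈ X, f T') / (X.card : ℝ) := by
    intro T hT
    rw [CE, p3_fib_eq _ hT, ← hX]
  have h4 : ∑ T ∈ X, (f T - CE r c (S ×ˢ (univ : Finset J)) f T) ^ 2
      = ∑ T ∈ X, f T ^ 2 - (∑ T ∈ X, f T) ^ 2 / (X.card : ℝ) := by
    have : ∀ T ∈ X, (f T - CE r c (S ×ˢ (univ : Finset J)) f T) ^ 2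
        = f T ^ 2 - 2 * ((∑ T' ∈ X, f T') / (X.card : ℝ)) * f T
          + ((∑ T' ∈ X, f T') / (X.card : ℝ)) ^ 2 := by
      intro T hT
      rw [h3 T hT]; ring
    rw [Finset.sum_congr rfl this, Finset.sum_add_distrib, Finset.sum_sub_distrib,
      ← Finset.mul_sum, Finset.sum_const, nsmul_eq_mul]
    field_simp
    ring
  have h5 : (X.card : ℝ) * ∑ T ∈ X, (f T - CE r c (S ×ˢ (univ : Finset J)) f T) ^ 2
      ≤ (X.card : ℝ) * (C * ∑ a : J, ∑ b : J, ∑ d : J,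
        ∑ T ∈ X, (f T - CE r c (S ×ˢ ({a, b, d} : Finset J)) f T) ^ 2) := by
    rw [h4]
    have h6 : (X.card : ℝ) * (∑ T ∈ X, f T ^ 2 - (∑ T ∈ X, f T) ^ 2 / (X.card : ℝ))
        = (X.card : ℝ) * (∑ T ∈ X, f T ^ 2) - (∑ T ∈ X, f T) ^ 2 := by
      field_simp
    rw [h6]
    linarith
  exact le_of_mul_le_mul_left h5 hXpos

/-- averaging over fibres -/
theorem p3_avg {r : I → ℕ} {c : J → ℕ} (B : Finset (I × J)) (h : (I → J → ℕ) → ℝ) :
    ∑ T0 ∈ TT r c, (1 / ((fib r c B T0).card : ℝ)) * ∑ T ∈ fib r c B T0, h T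
      = ∑ T ∈ TT r c, h T := by
  have h1 : ∀ T0 ∈ TT r c, (1 / ((fib r c B T0).card : ℝ)) * ∑ T ∈ fib r c B T0, h T
      = ∑ T ∈ TT r c, if T ∈ fib r c B T0 then (1 / ((fib r c B T).card : ℝ)) * h T else 0 := by
    intro T0 _
    rw [Finset.mul_sum, ← Finset.sum_filter]
    have : (TT r c).filter (fun T => T ∈ fib r c B T0) = fib r c B T0 := by
      ext T
      rw [Finset.mem_filter]
      constructor
      · exact fun h => h.2
      · exact fun h => ⟨(Finset.mem_filter.mp h).1, h⟩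
    rw [this]
    refine Finset.sum_congr rfl fun T hT => ?_
    rw [p3_fib_eq B hT]
  rw [Finset.sum_congr rfl h1, Finset.sum_comm]
  refine Finset.sum_congr rfl fun T hT => ?_
  rw [← Finset.sum_filter]
  have : (TT r c).filter (fun T0 => T ∈ fib r c B T0) = fib r c B T := by
    ext T0
    rw [Finset.mem_filter, fib, fib, Finset.mem_filter, Finset.mem_filter]
    constructor
    · rintro ⟨h1, h2, h3⟩
      exact ⟨h1, fun i j hij => (h3 i j hij).symm⟩
    · rintro ⟨h1, h2⟩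
      exact ⟨h1, hT, fun i j hij => (h2 i j hij).symm⟩
  rw [this, Finset.sum_const, nsmul_eq_mul]
  have := p3_card_pos B hT
  field_simp

theorem p3_block {r : I → ℕ} {c : J → ℕ} (S : Finset I) (C : ℝ)
    (hPR : ∀ T0 ∈ TT r c, PR (p3_row S T0) (fun s : {x // x ∈ S} => r s.1) C)
    (f : (I → J → ℕ) → ℝ) :
    VV r c (S ×ˢ (univ : Finset J)) f
      ≤ C * ∑ a : J, ∑ b : J, ∑ d : J, VV r c (S ×ˢ ({a, b, d} : Finset J)) f := by
  rw [VV, ← p3_avg (S ×ˢ (univ : Finset J))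
    (fun T => (f T - CE r c (S ×ˢ (univ : Finset J)) f T) ^ 2)]
  have h1 : ∑ T0 ∈ TT r c, (1 / ((fib r c (S ×ˢ (univ : Finset J)) T0).card : ℝ)) *
      ∑ T ∈ fib r c (S ×ˢ (univ : Finset J)) T0, (f T - CE r c (S ×ˢ (univ : Finset J)) f T) ^ 2
      ≤ ∑ T0 ∈ TT r c, (1 / ((fib r c (S ×ˢ (univ : Finset J)) T0).card : ℝ)) *
        (C * ∑ a : J, ∑ b : J, ∑ d : J, ∑ T ∈ fib r c (S ×ˢ (univ : Finset J)) T0,
          (f T - CE r c (S ×ˢ ({a, b, d} : Finset J)) f T) ^ 2) := by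
    refine Finset.sum_le_sum fun T0 hT0 => ?_
    exact mul_le_mul_of_nonneg_left (p3_one S hT0 C (hPR T0 hT0) f) (by positivity)
  refine h1.trans (le_of_eq ?_)
  have h2 : ∀ T0 ∈ TT r c, (1 / ((fib r c (S ×ˢ (univ : Finset J)) T0).card : ℝ)) *
        (C * ∑ a : J, ∑ b : J, ∑ d : J, ∑ T ∈ fib r c (S ×ˢ (univ : Finset J)) T0,
          (f T - CE r c (S ×ˢ ({a, b, d} : Finset J)) f T) ^ 2)
      = C * ∑ a : J, ∑ b : J, ∑ d : J, (1 / ((fib r c (S ×ˢ (univ : Finset J)) T0).card : ℝ)) *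
          ∑ T ∈ fib r c (S ×ˢ (univ : Finset J)) T0,
          (f T - CE r c (S ×ˢ ({a, b, d} : Finset J)) f T) ^ 2 := by
    intro T0 _
    rw [mul_left_comm]
    congr 1
    simp only [Finset.mul_sum]
  rw [Finset.sum_congr rfl h2, ← Finset.mul_sum]
  congr 1
  rw [Finset.sum_comm]
  refine Finset.sum_congr rfl fun a _ => ?_
  rw [Finset.sum_comm]
  refine Finset.sum_congr rfl fun b _ => ?_
  rw [Finset.sum_comm]
  refine Finset.sum_congr rfl fun d _ => ?_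
  rw [VV, ← p3_avg (S ×ˢ (univ : Finset J))
    (fun T => (f T - CE r c (S ×ˢ ({a, b, d} : Finset J)) f T) ^ 2)]

theorem p3_VV_nonneg (r : I → ℕ) (c : J → ℕ) (B : Finset (I × J)) (f : (I → J → ℕ) → ℝ) :
    0 ≤ VV r c B f := Finset.sum_nonneg fun _ _ => sq_nonneg _

theorem p3_PR_mono {r : I → ℕ} {c : J → ℕ} {C C' : ℝ} (h : PR r c C) (hC : C ≤ C') :
    PR r c C' := by
  intro f
  refine (h f).trans ?_
  refine mul_le_mul_of_nonneg_right (mul_le_mul_of_nonneg_right hC (Nat.cast_nonneg _)) ?_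
  exact Finset.sum_nonneg fun i _ => Finset.sum_nonneg fun j _ => Finset.sum_nonneg fun k _ =>
    p3_VV_nonneg r c _ f

theorem p3_lg_mono {a b : ℕ} (h : a ≤ b) : lg a ≤ lg b := by
  unfold lg
  have h1 : (a : ℝ) ≤ (b : ℝ) := by exact_mod_cast h
  have h2 : (0 : ℝ) < (a : ℝ) + 1 := by positivity
  have := Real.log_le_log h2 (by linarith : (a : ℝ) + 1 ≤ (b : ℝ) + 1)
  linarith

theorem p3_lg_one (a : ℕ) : 1 ≤ lg a := by
  unfold lg
  have : 0 ≤ Real.log ((a : ℝ) + 1) := Real.log_nonneg (by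
    have : (0 : ℝ) ≤ (a : ℝ) := Nat.cast_nonneg a
    linarith)
  linarith

theorem p3_of_pr
    (hpr : ∀ (I' J' : Type) [Fintype I'] [DecidableEq I'] [Fintype J'] [DecidableEq J']
      (r : I' → ℕ) (c : J' → ℕ), ∑ i, r i = sz c →
      PR r c (10 ^ 8 * ((Fintype.card I' : ℝ) + 1) ^ 2 * ((Fintype.card J' : ℝ) + 1) ^ 11
        * lg (sz c) ^ 2))
    (r : I → ℕ) (c : J → ℕ) (hrc : ∑ i, r i = sz c) :
    P3 r c (10 ^ 25 * ((Fintype.card I : ℝ) + 1) ^ 2 * ((Fintype.card J : ℝ) + 1) ^ 13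
      * lg (sz c) ^ 4) := by
  intro f
  have h0 := hpr I J r c hrc f
  set D : ℝ := 10 ^ 8 * ((Fintype.card J : ℝ) + 1) ^ 2 * 4 ^ 11 * lg (sz c) ^ 2 with hD
  have hblock : ∀ i j k : I, VV r c (({i, j, k} : Finset I) ×ˢ (univ : Finset J)) f
      ≤ D * ∑ a : J, ∑ b : J, ∑ d : J,
        VV r c (({i, j, k} : Finset I) ×ˢ ({a, b, d} : Finset J)) f := by
    intro i j k
    refine p3_block ({i, j, k} : Finset I) D ?_ f
    intro T0 hT0
    set S : Finset I := {i, j, k} with hS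
    have hsz : sz (fun s : {x // x ∈ S} => r s.1) ≤ sz c := by
      rw [← hrc, p3_split S r]
      exact Nat.le_add_right _ _
    have hrow : ∑ j', p3_row S T0 j' = sz (fun s : {x // x ∈ S} => r s.1) := by
      rw [p3_mem] at hT0
      simp only [p3_row, sz]
      rw [Finset.sum_comm]
      exact Finset.sum_congr rfl fun s _ => hT0.1 s.1
    refine p3_PR_mono (hpr J {x // x ∈ S} (p3_row S T0) (fun s : {x // x ∈ S} => r s.1) hrow) ?_
    have hc3 : (Fintype.card {x // x ∈ S} : ℝ) + 1 ≤ 4 := by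
      rw [Fintype.card_coe]
      have : S.card ≤ 3 := Finset.card_le_three
      have : (S.card : ℝ) ≤ 3 := by exact_mod_cast this
      linarith
    have hlg := p3_lg_mono hsz
    have hlg0 := p3_lg_one (sz (fun s : {x // x ∈ S} => r s.1))
    rw [hD]
    have e1 : ((Fintype.card {x // x ∈ S} : ℝ) + 1) ^ 11 ≤ 4 ^ 11 :=
      pow_le_pow_left₀ (by positivity) hc3 11
    have e2 : lg (sz (fun s : {x // x ∈ S} => r s.1)) ^ 2 ≤ lg (sz c) ^ 2 :=
      pow_le_pow_left₀ (by linarith) hlg 2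
    exact mul_le_mul (mul_le_mul_of_nonneg_left e1 (by positivity)) e2 (sq_nonneg _)
      (by positivity)
  refine h0.trans ?_
  have hsum : ∑ i : I, ∑ j : I, ∑ k : I, VV r c (({i, j, k} : Finset I) ×ˢ (univ : Finset J)) f
      ≤ D * ∑ i : I, ∑ j : I, ∑ k : I, ∑ a : J, ∑ b : J, ∑ d : J,
          VV r c (({i, j, k} : Finset I) ×ˢ ({a, b, d} : Finset J)) f := by
    rw [Finset.mul_sum]
    refine Finset.sum_le_sum fun i _ => ?_
    rw [Finset.mul_sum]
    refine Finset.sum_le_sum fun j _ => ?_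
    rw [Finset.mul_sum]
    exact Finset.sum_le_sum fun k _ => hblock i j k
  set W : ℝ := ∑ i : I, ∑ j : I, ∑ k : I, ∑ a : J, ∑ b : J, ∑ d : J,
          VV r c (({i, j, k} : Finset I) ×ˢ ({a, b, d} : Finset J)) f with hW
  have hW0 : 0 ≤ W := Finset.sum_nonneg fun i _ => Finset.sum_nonneg fun j _ =>
    Finset.sum_nonneg fun k _ => Finset.sum_nonneg fun a _ => Finset.sum_nonneg fun b _ =>
    Finset.sum_nonneg fun d _ => p3_VV_nonneg r c _ f
  have hL := p3_lg_one (sz c)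
  have hcardnn : (0 : ℝ) ≤ ((TT r c).card : ℝ) := Nat.cast_nonneg _
  have hA0 : (0 : ℝ) ≤ 10 ^ 8 * ((Fintype.card I : ℝ) + 1) ^ 2 * ((Fintype.card J : ℝ) + 1) ^ 11
        * lg (sz c) ^ 2 * ((TT r c).card : ℝ) := by positivity
  refine (mul_le_mul_of_nonneg_left hsum hA0).trans ?_
  rw [hD]
  have key : (10 : ℝ) ^ 8 * (10 ^ 8 * 4 ^ 11) ≤ 10 ^ 25 := by norm_num
  have hrest : (0 : ℝ) ≤ ((Fintype.card I : ℝ) + 1) ^ 2 * ((Fintype.card J : ℝ) + 1) ^ 13
        * lg (sz c) ^ 4 * ((TT r c).card : ℝ) * W := by positivity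
  have := mul_le_mul_of_nonneg_right key hrest
  calc _ = (10 : ℝ) ^ 8 * (10 ^ 8 * 4 ^ 11) * (((Fintype.card I : ℝ) + 1) ^ 2 *
        ((Fintype.card J : ℝ) + 1) ^ 13 * lg (sz c) ^ 4 * ((TT r c).card : ℝ) * W) := by ring
    _ ≤ _ := this
    _ = _ := by ring

end CT
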