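import Vale.Agent.CT.Full
import Vale.Agent.CT.UnitR

/-! # The main theorem for given columns (pieces EQ, MT) -/

namespace CT

open Finset
open scoped Classical

variable {J : Type} [Fintype J] [DecidableEq J]

theorem mem_TT' {I : Type} [Fintype I] [DecidableEq I] {r : I → ℕ} {c : J → ℕ}
    {T : I → J → ℕ} :
    T ∈ TT r c ↔ (∀ i, T i ≤ c ∧ sz (T i) = r i) ∧ ∑ i, T i = c := by
  simp only [TT, mem_filter, Fintype.mem_piFinset, box, Finset.mem_Iic]

theorem sum_TT_equiv {I I' : Type} [Fintype I] [DecidableEq I] [Fintype I'] [DecidableEq I']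
    (σ : I ≃ I') (r : I' → ℕ) (c : J → ℕ) (F : (I' → J → ℕ) → ℝ) :
    ∑ T ∈ TT r c, F T
      = ∑ T ∈ TT (fun i => r (σ i)) c, F (fun i' => T (σ.symm i')) := by
  refine Finset.sum_nbij' (fun T i => T (σ i)) (fun T i' => T (σ.symm i')) ?_ ?_ ?_ ?_ ?_
  · intro T hT
    rw [mem_TT'] at hT ⊢
    refine ⟨fun i => hT.1 (σ i), ?_⟩
    rw [← hT.2]
    exact Equiv.sum_comp σ T
  · intro T hT
    rw [mem_TT'] at hT ⊢
    refine ⟨fun i' => ?_, ?_⟩
    · have := hT.1 (σ.symm i')
      simpa using this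
    · rw [← hT.2]
      exact Equiv.sum_comp σ.symm T
  · intro T _
    funext i'
    simp
  · intro T _
    funext i
    simp
  · intro T _
    simp

theorem card_TT_equiv {I I' : Type} [Fintype I] [DecidableEq I] [Fintype I'] [DecidableEq I']
    (σ : I ≃ I') (r : I' → ℕ) (c : J → ℕ) :
    ((TT r c).card : ℝ) = ((TT (fun i => r (σ i)) c).card : ℝ) := by
  have h := sum_TT_equiv σ r c (fun _ => 1)
  simpa using h

theorem sw_equiv {I I' : Type} [Fintype I] [DecidableEq I] [Fintype I'] [DecidableEq I']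
    (σ : I ≃ I') (T : I → J → ℕ) (i j : I) (a b : J) :
    sw (fun i' => T (σ.symm i')) (σ i) (σ j) a b = fun i' => sw T i j a b (σ.symm i') := by
  funext i'
  obtain ⟨k, rfl⟩ := σ.surjective i'
  simp only [sw, Function.update_apply, Equiv.symm_apply_apply, σ.apply_eq_iff_eq]

theorem DF_equiv {I I' : Type} [Fintype I] [DecidableEq I] [Fintype I'] [DecidableEq I']
    (σ : I ≃ I') (r : I' → ℕ) (c : J → ℕ) (f : (I' → J → ℕ) → ℝ) :
    DF r c f = DF (fun i => r (σ i)) c (fun T => f (fun i' => T (σ.symm i'))) := by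
  unfold DF
  rw [sum_TT_equiv σ]
  refine Finset.sum_congr rfl fun T _ => ?_
  rw [← Equiv.sum_comp σ]
  refine Finset.sum_congr rfl fun i _ => ?_
  rw [← Equiv.sum_comp σ]
  refine Finset.sum_congr rfl fun j _ => ?_
  refine Finset.sum_congr rfl fun a _ => ?_
  refine Finset.sum_congr rfl fun b _ => ?_
  simp only [Equiv.symm_apply_apply, ne_eq, σ.apply_eq_iff_eq, sw_equiv]

/-- EQ: relabelling rows -/
theorem PIn_equiv {I I' : Type} [Fintype I] [DecidableEq I] [Fintype I'] [DecidableEq I']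
    (σ : I ≃ I') (r : I' → ℕ) (c : J → ℕ) (K : ℝ) (h : PIn (fun i => r (σ i)) c K) :
    PIn r c K := by
  intro f
  have h1 := h (fun T => f (fun i' => T (σ.symm i')))
  rw [card_TT_equiv σ, sum_TT_equiv σ r c (fun T => f T ^ 2), sum_TT_equiv σ r c f,
    DF_equiv σ r c f]
  exact h1

theorem DF_nonneg {I : Type} [Fintype I] [DecidableEq I] (r : I → ℕ) (c : J → ℕ)
    (f : (I → J → ℕ) → ℝ) : 0 ≤ DF r c f := by
  unfold DF
  refine Finset.sum_nonneg fun T _ => Finset.sum_nonneg fun i _ => Finset.sum_nonneg fun j _ =>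
    Finset.sum_nonneg fun a _ => Finset.sum_nonneg fun b _ => ?_
  split_ifs
  · positivity
  · exact le_refl _

theorem PIn_mono {I : Type} [Fintype I] [DecidableEq I] {r : I → ℕ} {c : J → ℕ} {K K' : ℝ}
    (h : PIn r c K) (hK : K ≤ K') : PIn r c K' := by
  intro f
  refine (h f).trans ?_
  have h1 : (0 : ℝ) ≤ ((TT r c).card : ℝ) := Nat.cast_nonneg _
  exact mul_le_mul_of_nonneg_right (mul_le_mul_of_nonneg_right hK h1) (DF_nonneg r c f)

theorem PIn_of_card_le_one {I : Type} [Fintype I] [DecidableEq I] (r : I → ℕ) (c : J → ℕ)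
    {K : ℝ} (hK : 0 ≤ K) (h : (TT r c).card ≤ 1) : PIn r c K := by
  intro f
  have h0 : 0 ≤ K * ((TT r c).card : ℝ) * DF r c f :=
    mul_nonneg (mul_nonneg hK (Nat.cast_nonneg _)) (DF_nonneg r c f)
  refine le_trans (le_of_eq ?_) h0
  rcases Nat.le_one_iff_eq_zero_or_eq_one.mp h with h1 | h1
  · rw [Finset.card_eq_zero.mp h1]; simp
  · obtain ⟨T, hT⟩ := Finset.card_eq_one.mp h1
    rw [hT]; simp

/-- the rows: the hub `i0, i1` and the rest -/
noncomputable def hubEquiv {I : Type} [Fintype I] [DecidableEq I] (i0 i1 : I) (h : i1 ≠ i0) :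
    Option (Option {i : I // i ≠ i0 ∧ i ≠ i1}) ≃ I where
  toFun
    | none => i0
    | some none => i1
    | some (some k) => k.1
  invFun i := if h0 : i = i0 then none else if h1 : i = i1 then some none
    else some (some ⟨i, h0, h1⟩)
  left_inv := by
    rintro (_ | _ | k)
    · simp
    · simp [h]
    · have h1 := k.2.1
      have h2 := k.2.2
      simp [h1, h2]
  right_inv := by
    intro i
    by_cases h0 : i = i0
    · simp [h0]
    · by_cases h1 : i = i1
      · subst h1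
        simp [h]
      · simp [h0, h1]

/-- MT: all row sums, given the scalar Poincare inequalities on the columns `J`.
(all rows ≤ 1: `unit_rows`; otherwise the two largest rows are the hub.) -/
theorem main_thm {I : Type} [Fintype I] [DecidableEq I] (r : I → ℕ) (c : J → ℕ)
    (hrc : ∑ i, r i = sz c) (L : ℝ) (hL : 1 ≤ L)
    (hSP : ∀ v : J → ℕ, sz v ≤ sz c → ∀ s t, t + s < sz v → SP v s t L) :
    PIn r c (100 * ((Fintype.card I : ℝ) + 1) * ((Fintype.card J : ℝ) + 1) ^ 6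
      * ((sz c : ℝ) + 1) ^ 2 * L ^ 2) := by
  have hI : (1 : ℝ) ≤ (Fintype.card I : ℝ) + 1 := by
    have := Nat.cast_nonneg (α := ℝ) (Fintype.card I); linarith
  have hJ : (1 : ℝ) ≤ ((Fintype.card J : ℝ) + 1) ^ 6 := by
    apply one_le_pow₀
    have := Nat.cast_nonneg (α := ℝ) (Fintype.card J); linarith
  have hC : (1 : ℝ) ≤ ((sz c : ℝ) + 1) ^ 2 := by
    apply one_le_pow₀
    have := Nat.cast_nonneg (α := ℝ) (sz c); linarith
  have hL2 : (1 : ℝ) ≤ L ^ 2 := one_le_pow₀ hL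
  have hbig : (1 : ℝ) ≤ 100 * ((Fintype.card I : ℝ) + 1) * ((Fintype.card J : ℝ) + 1) ^ 6
      * ((sz c : ℝ) + 1) ^ 2 * L ^ 2 := by
    have h1 : (1 : ℝ) ≤ 100 * ((Fintype.card I : ℝ) + 1) := by linarith
    exact one_le_mul_of_one_le_of_one_le (one_le_mul_of_one_le_of_one_le
      (one_le_mul_of_one_le_of_one_le h1 hJ) hC) hL2
  by_cases hr : ∀ i, r i ≤ 1
  · refine PIn_mono (unit_rows r hr c hrc) ?_
    have h1 : (1 : ℝ) ≤ 100 * ((Fintype.card I : ℝ) + 1) := by linarith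
    have hA : (1 : ℝ) ≤ 100 * ((Fintype.card I : ℝ) + 1) * ((Fintype.card J : ℝ) + 1) ^ 6 :=
      one_le_mul_of_one_le_of_one_le h1 hJ
    have hs : (0 : ℝ) ≤ (sz c : ℝ) := Nat.cast_nonneg _
    have h3 : (sz c : ℝ) ^ 2 ≤ ((sz c : ℝ) + 1) ^ 2 := by nlinarith
    calc (sz c : ℝ) ^ 2 ≤ ((sz c : ℝ) + 1) ^ 2 := h3
      _ ≤ 100 * ((Fintype.card I : ℝ) + 1) * ((Fintype.card J : ℝ) + 1) ^ 6
          * ((sz c : ℝ) + 1) ^ 2 := le_mul_of_one_le_left (by positivity) hA
      _ ≤ 100 * ((Fintype.card I : ℝ) + 1) * ((Fintype.card J : ℝ) + 1) ^ 6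
          * ((sz c : ℝ) + 1) ^ 2 * L ^ 2 := le_mul_of_one_le_right (by positivity) hL2
  push Not at hr
  obtain ⟨j0, hj0⟩ := hr
  obtain ⟨i0, _, hi0⟩ := Finset.exists_max_image (univ : Finset I) r ⟨j0, mem_univ _⟩
  have h2 : 2 ≤ r i0 := le_trans hj0 (hi0 j0 (mem_univ _))
  by_cases hne : ((univ : Finset I).erase i0).Nonempty
  · obtain ⟨i1, hi1m, hi1⟩ := Finset.exists_max_image ((univ : Finset I).erase i0) r hne
    have h10 : i1 ≠ i0 := Finset.ne_of_mem_erase hi1m
    set σ := hubEquiv i0 i1 h10 with hσ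
    refine PIn_equiv σ r c _ ?_
    have hrr : (fun o => r (σ o)) = rr (r i0) (r i1) (fun k : {i : I // i ≠ i0 ∧ i ≠ i1} => r k.1) := by
      funext o
      rcases o with _ | _ | k <;> rfl
    rw [hrr]
    have hsum : sz c = r i0 + r i1 + ∑ k : {i : I // i ≠ i0 ∧ i ≠ i1}, r k.1 := by
      rw [← hrc, ← Equiv.sum_comp σ, Fintype.sum_option, Fintype.sum_option]
      rw [add_assoc]
      rfl
    have hcard : (Fintype.card {i : I // i ≠ i0 ∧ i ≠ i1} : ℝ) ≤ (Fintype.card I : ℝ) := by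
      exact_mod_cast Fintype.card_subtype_le _
    refine PIn_mono (full c (fun k : {i : I // i ≠ i0 ∧ i ≠ i1} => r k.1) (r i0) (r i1) hsum h2
      (hi0 i1 (mem_univ _)) (fun k => hi1 k.1 (Finset.mem_erase.mpr ⟨k.2.1, mem_univ _⟩)) L hL
      hSP) ?_
    have e1 : 100 * ((Fintype.card {i : I // i ≠ i0 ∧ i ≠ i1} : ℝ) + 1)
        ≤ 100 * ((Fintype.card I : ℝ) + 1) := by linarith
    gcongr
  · have hall : ∀ i, i = i0 := by
      intro i
      by_contra h
      exact hne ⟨i, Finset.mem_erase.mpr ⟨h, mem_univ _⟩⟩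
    refine PIn_of_card_le_one r c (le_trans zero_le_one hbig) ?_
    refine Finset.card_le_one.mpr fun T hT T' hT' => ?_
    rw [mem_TT'] at hT hT'
    have hu : (univ : Finset I) = {i0} := by
      ext i; simp [hall i]
    have a1 : T i0 = c := by
      have := hT.2
      rw [hu, Finset.sum_singleton] at this
      exact this
    have a2 : T' i0 = c := by
      have := hT'.2
      rw [hu, Finset.sum_singleton] at this
      exact this
    funext i
    rw [hall i, a1, a2]

end CT
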