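import Vale.Agent.CT.BDefs
import Vale.Agent.CT.MainThm

/-! # Relabelling the rows and the choice of the hub for the three-row blocks (piece PRE) -/

namespace CT

open Finset
open scoped Classical

variable {J : Type} [Fintype J] [DecidableEq J]

theorem pre_sum_fib {I I' : Type} [Fintype I] [DecidableEq I] [Fintype I'] [DecidableEq I']
    (σ : I ≃ I') (r : I' → ℕ) (c : J → ℕ) (B : Finset (I' × J)) (B' : Finset (I × J))
    (hB : ∀ i j, (i, j) ∈ B' ↔ (σ i, j) ∈ B) (F : (I' → J → ℕ) → ℝ) (T : I' → J → ℕ) :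
    ∑ T' ∈ fib r c B T, F T'
      = ∑ T' ∈ fib (fun i => r (σ i)) c B' (fun i => T (σ i)), F (fun i' => T' (σ.symm i')) := by
  refine Finset.sum_nbij' (fun T i => T (σ i)) (fun T i' => T (σ.symm i')) ?_ ?_ ?_ ?_ ?_
  · intro T' hT
    rw [fib, mem_filter, mem_TT'] at hT ⊢
    obtain ⟨⟨h1, h2⟩, h3⟩ := hT
    refine ⟨⟨fun i => h1 (σ i), ?_⟩, fun i j hij => h3 (σ i) j fun h => hij ((hB i j).2 h)⟩
    rw [← h2]
    exact Equiv.sum_comp σ T'
  · intro T' hT
    rw [fib, mem_filter, mem_TT'] at hT ⊢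
    obtain ⟨⟨h1, h2⟩, h3⟩ := hT
    refine ⟨⟨fun i' => ?_, ?_⟩, fun i' j hij => ?_⟩
    · have := h1 (σ.symm i')
      simpa using this
    · rw [← h2]
      exact Equiv.sum_comp σ.symm T'
    · have := h3 (σ.symm i') j (fun h => hij (by
        have := (hB (σ.symm i') j).1 h
        simpa using this))
      simpa using this
  · intro T' _
    funext i'
    simp
  · intro T' _
    funext i
    simp
  · intro T' _
    simp

theorem pre_CE {I I' : Type} [Fintype I] [DecidableEq I] [Fintype I'] [DecidableEq I']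
    (σ : I ≃ I') (r : I' → ℕ) (c : J → ℕ) (B : Finset (I' × J)) (B' : Finset (I × J))
    (hB : ∀ i j, (i, j) ∈ B' ↔ (σ i, j) ∈ B) (f : (I' → J → ℕ) → ℝ) (T : I' → J → ℕ) :
    CE r c B f T
      = CE (fun i => r (σ i)) c B' (fun T => f (fun i' => T (σ.symm i'))) (fun i => T (σ i)) := by
  have h1 := pre_sum_fib σ r c B B' hB f T
  have h2 := pre_sum_fib σ r c B B' hB (fun _ => 1) T
  simp only [Finset.sum_const, nsmul_eq_mul, mul_one] at h2
  rw [CE, CE, h1, h2]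

theorem pre_VV {I I' : Type} [Fintype I] [DecidableEq I] [Fintype I'] [DecidableEq I']
    (σ : I ≃ I') (r : I' → ℕ) (c : J → ℕ) (B : Finset (I' × J)) (B' : Finset (I × J))
    (hB : ∀ i j, (i, j) ∈ B' ↔ (σ i, j) ∈ B) (f : (I' → J → ℕ) → ℝ) :
    VV r c B f = VV (fun i => r (σ i)) c B' (fun T => f (fun i' => T (σ.symm i'))) := by
  rw [VV, VV, sum_TT_equiv σ]
  refine Finset.sum_congr rfl fun T _ => ?_
  rw [pre_CE σ r c B B' hB]
  simp only [Equiv.symm_apply_apply]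

theorem pre_VV_nonneg {I : Type} [Fintype I] [DecidableEq I] (r : I → ℕ) (c : J → ℕ)
    (B : Finset (I × J)) (f : (I → J → ℕ) → ℝ) : 0 ≤ VV r c B f :=
  Finset.sum_nonneg fun _ _ => sq_nonneg _

theorem PR_equiv23 {I I' : Type} [Fintype I] [DecidableEq I] [Fintype I'] [DecidableEq I']
    (φ : I ≃ I') (r : I' → ℕ) (c : J → ℕ) (C : ℝ) (h : PR (fun i => r (φ i)) c C) :
    PR r c C := by
  intro f
  have h1 := h (fun T => f (fun i' => T (φ.symm i')))
  rw [card_TT_equiv φ, sum_TT_equiv φ r c (fun T => f T ^ 2), sum_TT_equiv φ r c f]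
  refine h1.trans (le_of_eq ?_)
  congr 1
  rw [← Equiv.sum_comp φ]
  refine Finset.sum_congr rfl fun i _ => ?_
  rw [← Equiv.sum_comp φ]
  refine Finset.sum_congr rfl fun j _ => ?_
  rw [← Equiv.sum_comp φ]
  refine Finset.sum_congr rfl fun k _ => ?_
  refine (pre_VV φ r c _ _ (fun i' j' => ?_) f).symm
  simp only [Finset.mem_product, Finset.mem_insert, Finset.mem_singleton, Finset.mem_univ,
    and_true, φ.apply_eq_iff_eq]

theorem PR_mono23 {I : Type} [Fintype I] [DecidableEq I] {r : I → ℕ} {c : J → ℕ} {C C' : ℝ}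
    (h : PR r c C) (hC : C ≤ C') : PR r c C' := by
  intro f
  refine (h f).trans ?_
  have h1 : (0 : ℝ) ≤ ((TT r c).card : ℝ) := Nat.cast_nonneg _
  refine mul_le_mul_of_nonneg_right (mul_le_mul_of_nonneg_right hC h1) ?_
  exact Finset.sum_nonneg fun i _ => Finset.sum_nonneg fun j _ => Finset.sum_nonneg fun k _ =>
    pre_VV_nonneg _ _ _ _

theorem PR_of_card_le_one23 {I : Type} [Fintype I] [DecidableEq I] (r : I → ℕ) (c : J → ℕ)
    {C : ℝ} (hC : 0 ≤ C) (h : (TT r c).card ≤ 1) : PR r c C := by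
  intro f
  have hV : (0 : ℝ) ≤ ∑ i : I, ∑ j : I, ∑ k : I,
      VV r c (({i, j, k} : Finset I) ×ˢ (univ : Finset J)) f :=
    Finset.sum_nonneg fun i _ => Finset.sum_nonneg fun j _ => Finset.sum_nonneg fun k _ =>
      pre_VV_nonneg _ _ _ _
  refine le_trans (le_of_eq ?_) (mul_nonneg (mul_nonneg hC (Nat.cast_nonneg _)) hV)
  rcases Nat.le_one_iff_eq_zero_or_eq_one.mp h with h1 | h1
  · rw [Finset.card_eq_zero.mp h1]; simp
  · obtain ⟨T, hT⟩ := Finset.card_eq_one.mp h1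
    rw [hT]; simp

theorem pre_one_le_lg (N : ℕ) : 1 ≤ lg N := by
  have h1 : (0 : ℝ) ≤ Real.log ((N : ℝ) + 1) := Real.log_nonneg (by
    have := Nat.cast_nonneg (α := ℝ) N; linarith)
  rw [lg]; linarith

theorem pr_all_of {I : Type} [Fintype I] [DecidableEq I] (r : I → ℕ) (c : J → ℕ)
    (hrc : ∑ i, r i = sz c)
    (hblk : ∀ (K : Type) [Fintype K] [DecidableEq K] (rho : Option (Option K) → ℕ) (r1 r2 : ℕ),
      rho none = r1 → rho (some none) = r2 → sz c = ∑ i, rho i → 2 ≤ r1 → r2 ≤ r1 →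
      (∀ k : K, rho (some (some k)) ≤ r2) →
      PR rho c (10 ^ 8 * ((Fintype.card J : ℝ) + 1) ^ 11 * lg (sz c) ^ 2))
    (hsm : (∀ i, r i ≤ 1) →
      PR r c (8 * ((Fintype.card I : ℝ) + 1) ^ 2 * ((Fintype.card J : ℝ) + 1) ^ 2)) :
    PR r c (10 ^ 8 * ((Fintype.card I : ℝ) + 1) ^ 2 * ((Fintype.card J : ℝ) + 1) ^ 11
      * lg (sz c) ^ 2) := by
  have hI0 : (1 : ℝ) ≤ (Fintype.card I : ℝ) + 1 := by
    have := Nat.cast_nonneg (α := ℝ) (Fintype.card I); linarith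
  have hJ0 : (1 : ℝ) ≤ (Fintype.card J : ℝ) + 1 := by
    have := Nat.cast_nonneg (α := ℝ) (Fintype.card J); linarith
  have hlg := pre_one_le_lg (sz c)
  generalize hm : (Fintype.card I : ℝ) + 1 = m at *
  generalize hn : (Fintype.card J : ℝ) + 1 = n at *
  generalize hL : lg (sz c) = L at *
  have hm2 : (1 : ℝ) ≤ m ^ 2 := one_le_pow₀ hI0
  have hn11 : n ^ 2 ≤ n ^ 11 := pow_le_pow_right₀ hJ0 (by norm_num)
  have hn0 : (0 : ℝ) ≤ n ^ 2 := by positivity
  have hn1 : (1 : ℝ) ≤ n ^ 11 := one_le_pow₀ hJ0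
  have hL2 : (1 : ℝ) ≤ L ^ 2 := one_le_pow₀ hlg
  have hbig : (0 : ℝ) ≤ 10 ^ 8 * m ^ 2 * n ^ 11 * L ^ 2 := by positivity
  by_cases hr : ∀ i, r i ≤ 1
  · refine PR_mono23 (hsm hr) ?_
    calc 8 * m ^ 2 * n ^ 2 ≤ 10 ^ 8 * m ^ 2 * n ^ 11 := by
          apply mul_le_mul _ hn11 hn0 (by positivity)
          nlinarith
      _ ≤ 10 ^ 8 * m ^ 2 * n ^ 11 * L ^ 2 := le_mul_of_one_le_right (by positivity) hL2
  push Not at hr
  obtain ⟨j0, hj0⟩ := hr
  obtain ⟨i0, _, hi0⟩ := Finset.exists_max_image (univ : Finset I) r ⟨j0, mem_univ _⟩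
  have h2 : 2 ≤ r i0 := le_trans hj0 (hi0 j0 (mem_univ _))
  by_cases hne : ((univ : Finset I).erase i0).Nonempty
  · obtain ⟨i1, hi1m, hi1⟩ := Finset.exists_max_image ((univ : Finset I).erase i0) r hne
    have h10 : i1 ≠ i0 := Finset.ne_of_mem_erase hi1m
    have hsum : sz c = ∑ o, r (hubEquiv i0 i1 h10 o) := by
      rw [← hrc, Equiv.sum_comp]
    refine PR_equiv23 (hubEquiv i0 i1 h10) r c _ (PR_mono23 (hblk {i : I // i ≠ i0 ∧ i ≠ i1}
      (fun o => r (hubEquiv i0 i1 h10 o)) (r i0) (r i1) rfl rfl hsum h2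
      (hi0 i1 (mem_univ _)) (fun k => hi1 k.1 (Finset.mem_erase.mpr ⟨k.2.1, mem_univ _⟩))) ?_)
    have h3 : (0 : ℝ) ≤ n ^ 11 * L ^ 2 := by positivity
    nlinarith
  · have hall : ∀ i, i = i0 := by
      intro i
      by_contra h
      exact hne ⟨i, Finset.mem_erase.mpr ⟨h, mem_univ _⟩⟩
    refine PR_of_card_le_one23 r c hbig ?_
    refine Finset.card_le_one.mpr fun T hT T' hT' => ?_
    rw [mem_TT'] at hT hT'
    have hu : (univ : Finset I) = {i0} := by
      ext i; simp [hall i]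
    have a1 : T i0 = c := by
      have := hT.2
      rw [hu, Finset.sum_singleton] at this
      exact this
    have a2 : T' i0 = c := by
      have := hT'.2
      rw [hu, Finset.sum_singleton] at this
      exact this
    funext i
    rw [hall i, a1, a2]

end CT
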