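import Vale.Agent.CT.BDefs
import Vale.Agent.CT.FullA
import Vale.Agent.CT.UnitR

/-! # Three-row blocks when all rows have total at most one (piece SM) -/

namespace CT

open Finset
open scoped Classical

set_option linter.unusedSectionVars false

variable {J : Type} [Fintype J] [DecidableEq J]
variable {I : Type} [Fintype I] [DecidableEq I]

theorem smA_fib_eq {r : I → ℕ} {c : J → ℕ} {B : Finset (I × J)} {T T' : I → J → ℕ}
    (h : ∀ i j, (i, j) ∉ B → T' i j = T i j) : fib r c B T' = fib r c B T := by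
  unfold fib
  apply Finset.filter_congr
  intro S _
  constructor
  · intro hS i j hij
    rw [hS i j hij, h i j hij]
  · intro hS i j hij
    rw [hS i j hij, h i j hij]

theorem smA_CE_eq {r : I → ℕ} {c : J → ℕ} {B : Finset (I × J)} {T T' : I → J → ℕ}
    (h : ∀ i j, (i, j) ∉ B → T' i j = T i j) (f : (I → J → ℕ) → ℝ) :
    CE r c B f T' = CE r c B f T := by
  unfold CE
  rw [smA_fib_eq h]

theorem smA_VV_nonneg (r : I → ℕ) (c : J → ℕ) (B : Finset (I × J)) (f : (I → J → ℕ) → ℝ) :
    0 ≤ VV r c B f := Finset.sum_nonneg fun _ _ => sq_nonneg _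

/-- the switches in rows `i, j` are controlled by the block variance -/
theorem smA_pair (r : I → ℕ) (c : J → ℕ) (f : (I → J → ℕ) → ℝ) {i j : I} (hij : i ≠ j) :
    (∑ T ∈ TT r c, ∑ a, ∑ b,
      if 0 < T i a ∧ 0 < T j b then (f (sw T i j a b) - f T) ^ 2 else 0)
      ≤ 4 * (Fintype.card J : ℝ) ^ 2 *
        VV r c (({i, j, j} : Finset I) ×ˢ (univ : Finset J)) f := by
  set B : Finset (I × J) := ({i, j, j} : Finset I) ×ˢ (univ : Finset J) with hB
  set h : (I → J → ℕ) → ℝ := fun T => (f T - CE r c B f T) ^ 2 with hh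
  have hce : ∀ (T : I → J → ℕ) (a b : J), CE r c B f (sw T i j a b) = CE r c B f T := by
    intro T a b
    apply smA_CE_eq
    intro k l hkl
    rw [hB, Finset.mem_product] at hkl
    simp only [Finset.mem_insert, Finset.mem_singleton, Finset.mem_univ, and_true, not_or] at hkl
    rw [fl_sw_oth hkl.1 hkl.2.1]
  have h1 : (∑ T ∈ TT r c, ∑ a, ∑ b,
      if 0 < T i a ∧ 0 < T j b then (f (sw T i j a b) - f T) ^ 2 else 0)
      ≤ ∑ T ∈ TT r c, ∑ a, ∑ b,
        (2 * (if 0 < T i a ∧ 0 < T j b then h (sw T i j a b) else 0)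
          + 2 * (if 0 < T i a ∧ 0 < T j b then h T else 0)) := by
    apply Finset.sum_le_sum
    intro T _
    apply Finset.sum_le_sum
    intro a _
    apply Finset.sum_le_sum
    intro b _
    split_ifs with hc
    · simp only [hh]
      rw [hce T a b]
      nlinarith [sq_nonneg ((f (sw T i j a b) - CE r c B f T) + (f T - CE r c B f T))]
    · simp
  refine h1.trans ?_
  have h2 : (∑ T ∈ TT r c, ∑ a, ∑ b,
        (2 * (if 0 < T i a ∧ 0 < T j b then h (sw T i j a b) else 0)
          + 2 * (if 0 < T i a ∧ 0 < T j b then h T else 0)))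
      = 4 * ∑ T ∈ TT r c, ∑ a, ∑ b, (if 0 < T i a ∧ 0 < T j b then h T else 0) := by
    simp only [Finset.sum_add_distrib, ← Finset.mul_sum]
    rw [fl_sw_sum r c hij h]
    ring
  rw [h2]
  have h3 : (∑ T ∈ TT r c, ∑ a, ∑ b, (if 0 < T i a ∧ 0 < T j b then h T else 0))
      ≤ ∑ T ∈ TT r c, (Fintype.card J : ℝ) ^ 2 * h T := by
    apply Finset.sum_le_sum
    intro T _
    have hT0 : 0 ≤ h T := sq_nonneg _
    calc (∑ a, ∑ b, (if 0 < T i a ∧ 0 < T j b then h T else 0))
        ≤ ∑ _a : J, ∑ _b : J, h T := by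
          apply Finset.sum_le_sum
          intro a _
          apply Finset.sum_le_sum
          intro b _
          split_ifs
          · exact le_rfl
          · exact hT0
      _ = (Fintype.card J : ℝ) ^ 2 * h T := by
          simp only [Finset.sum_const, Finset.card_univ, nsmul_eq_mul]
          ring
  have h4 : (∑ T ∈ TT r c, (Fintype.card J : ℝ) ^ 2 * h T)
      = (Fintype.card J : ℝ) ^ 2 * VV r c B f := by
    rw [← Finset.mul_sum]
    rfl
  calc 4 * ∑ T ∈ TT r c, ∑ a, ∑ b, (if 0 < T i a ∧ 0 < T j b then h T else 0)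
      ≤ 4 * ((Fintype.card J : ℝ) ^ 2 * VV r c B f) :=
        mul_le_mul_of_nonneg_left (h3.trans h4.le) (by norm_num)
    _ = _ := by ring

theorem smA (r : I → ℕ) (c : J → ℕ) (hrc : ∑ i, r i = sz c) (hr : ∀ i, r i ≤ 1) :
    PR r c (8 * ((Fintype.card I : ℝ) + 1) ^ 2 * ((Fintype.card J : ℝ) + 1) ^ 2) := by
  intro f
  have hu := unit_rows r hr c hrc f
  refine hu.trans ?_
  set V : ℝ := ∑ i : I, ∑ j : I, ∑ k : I,
    VV r c (({i, j, k} : Finset I) ×ˢ (univ : Finset J)) f with hV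
  have hV0 : 0 ≤ V := Finset.sum_nonneg fun _ _ => Finset.sum_nonneg fun _ _ =>
    Finset.sum_nonneg fun _ _ => smA_VV_nonneg _ _ _ _
  -- the Dirichlet form
  have hDF : DF r c f ≤ 4 * (Fintype.card J : ℝ) ^ 2 * V := by
    have e1 : DF r c f = ∑ i, ∑ j, ∑ T ∈ TT r c, ∑ a, ∑ b,
        (if i ≠ j ∧ 0 < T i a ∧ 0 < T j b then (f (sw T i j a b) - f T) ^ 2 else 0) := by
      unfold DF
      rw [Finset.sum_comm]
      refine Finset.sum_congr rfl fun i _ => ?_
      rw [Finset.sum_comm]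
    rw [e1, hV, Finset.mul_sum]
    apply Finset.sum_le_sum
    intro i _
    rw [Finset.mul_sum]
    apply Finset.sum_le_sum
    intro j _
    have hnn : 0 ≤ 4 * (Fintype.card J : ℝ) ^ 2 *
        ∑ k : I, VV r c (({i, j, k} : Finset I) ×ˢ (univ : Finset J)) f :=
      mul_nonneg (by positivity) (Finset.sum_nonneg fun _ _ => smA_VV_nonneg _ _ _ _)
    by_cases hij : i = j
    · subst hij
      simpa using hnn
    · have e2 : (∑ T ∈ TT r c, ∑ a, ∑ b,
          (if i ≠ j ∧ 0 < T i a ∧ 0 < T j b then (f (sw T i j a b) - f T) ^ 2 else 0))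
          = ∑ T ∈ TT r c, ∑ a, ∑ b,
          (if 0 < T i a ∧ 0 < T j b then (f (sw T i j a b) - f T) ^ 2 else 0) := by
        simp only [ne_eq, hij, not_false_eq_true, true_and]
      rw [e2]
      refine (smA_pair r c f hij).trans ?_
      apply mul_le_mul_of_nonneg_left _ (by positivity)
      exact Finset.single_le_sum
        (f := fun k => VV r c (({i, j, k} : Finset I) ×ˢ (univ : Finset J)) f)
        (fun k _ => smA_VV_nonneg _ _ _ _) (Finset.mem_univ j)
  have hsz : (sz c : ℝ) ≤ (Fintype.card I : ℝ) := by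
    have : sz c ≤ Fintype.card I := by
      rw [← hrc]
      calc ∑ i, r i ≤ ∑ _i : I, 1 := Finset.sum_le_sum fun i _ => hr i
        _ = Fintype.card I := by simp
    exact_mod_cast this
  have hsz2 : (sz c : ℝ) ^ 2 ≤ (Fintype.card I : ℝ) ^ 2 :=
    pow_le_pow_left₀ (by positivity) hsz 2
  have hT0 : (0:ℝ) ≤ ((TT r c).card : ℝ) := by positivity
  have hDF0 : 0 ≤ DF r c f := by
    unfold DF
    refine Finset.sum_nonneg fun _ _ => Finset.sum_nonneg fun _ _ => Finset.sum_nonneg fun _ _ =>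
      Finset.sum_nonneg fun _ _ => Finset.sum_nonneg fun _ _ => ?_
    split_ifs <;> positivity
  calc (sz c : ℝ) ^ 2 * ((TT r c).card : ℝ) * DF r c f
      ≤ (Fintype.card I : ℝ) ^ 2 * ((TT r c).card : ℝ) * (4 * (Fintype.card J : ℝ) ^ 2 * V) := by
        apply mul_le_mul (mul_le_mul_of_nonneg_right hsz2 hT0) hDF hDF0 (by positivity)
    _ = 4 * (Fintype.card I : ℝ) ^ 2 * (Fintype.card J : ℝ) ^ 2 * (((TT r c).card : ℝ) * V) := by
        ring
    _ ≤ 8 * ((Fintype.card I : ℝ) + 1) ^ 2 * ((Fintype.card J : ℝ) + 1) ^ 2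
        * (((TT r c).card : ℝ) * V) := by
        apply mul_le_mul_of_nonneg_right _ (mul_nonneg hT0 hV0)
        have a1 : (Fintype.card I : ℝ) ^ 2 ≤ ((Fintype.card I : ℝ) + 1) ^ 2 :=
          pow_le_pow_left₀ (by positivity) (by linarith) 2
        have a2 : (Fintype.card J : ℝ) ^ 2 ≤ ((Fintype.card J : ℝ) + 1) ^ 2 :=
          pow_le_pow_left₀ (by positivity) (by linarith) 2
        have a3 : (Fintype.card I : ℝ) ^ 2 * (Fintype.card J : ℝ) ^ 2
            ≤ ((Fintype.card I : ℝ) + 1) ^ 2 * ((Fintype.card J : ℝ) + 1) ^ 2 :=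
          mul_le_mul a1 a2 (by positivity) (by positivity)
        nlinarith [a3]
    _ = _ := by ring

end CT
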