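import Vale.Agent.CT.BTen
import Vale.Agent.CT.BBlkA
import Vale.Agent.CT.MainThm
import Vale.Agent.CT.BPre23
import Vale.Agent.CT.BP3A24
import Vale.Agent.CT.BSmA

/-! # Full tables: three-row blocks (pieces BLK, SM, PRALL) and 3 x 3 blocks (piece P3) -/

namespace CT

open Finset
open scoped Classical

variable {J : Type} [Fintype J] [DecidableEq J]
variable {K : Type} [Fintype K] [DecidableEq K]
variable {I : Type} [Fintype I] [DecidableEq I]

/-- BLK: hub rows `none`, `some none`; other rows `K`.  `ubar` = average of `f` over the hub given the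
other rows; `Var f = E Var(f | non-hub) + Var ubar`, `Var ubar ≤ C ∑_k E Var(ubar | x_{-k})` (`ten`)
`≤ C ∑_k VV {none, some none, some k} f`; and `E Var(f | non-hub) ≤ VV {none, some none, k}`
(if `K` is empty the block is everything).  See `FullA/FullB/FullC` (fl_sum_TT etc.). -/
theorem blk (c : J → ℕ) (rho : Option (Option K) → ℕ) (r1 r2 : ℕ) (hr1 : rho none = r1)
    (hr2 : rho (some none) = r2) (hc : sz c = ∑ i, rho i)
    (h1 : 2 ≤ r1) (h21 : r2 ≤ r1) (hrho : ∀ k : K, rho (some (some k)) ≤ r2) :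
    PR rho c (10 ^ 8 * ((Fintype.card J : ℝ) + 1) ^ 11 * lg (sz c) ^ 2) :=
  blkA c rho r1 r2 hr1 hr2 hc h1 h21 hrho

/-- SM: all rows of total at most `1`: from `unit_rows` (`PIn` with constant `(sz c)^2 ≤ (card I)^2`) and
`DF ≤ 8 (card J)^2 ∑_{i,j} VV ({i,j,j} ×ˢ univ) f`: a switch in rows `i, j` stays in the fibre, and
`(f(sw T) - f T)² ≤ 2 (f(sw T) - CE)² + 2 (f T - CE)²` (the switch is injective on admissible `T`, for
fixed `i j a b`; `fl_sw_sum`). -/
theorem sm (r : I → ℕ) (c : J → ℕ) (hrc : ∑ i, r i = sz c) (hr : ∀ i, r i ≤ 1) :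
    PR r c (8 * ((Fintype.card I : ℝ) + 1) ^ 2 * ((Fintype.card J : ℝ) + 1) ^ 2) :=
  smA r c hrc hr

/-- equivalence of the row type -/
theorem PR_equiv {I' : Type} [Fintype I'] [DecidableEq I'] (φ : I ≃ I') (r : I' → ℕ) (c : J → ℕ)
    (C : ℝ) (h : PR (fun i => r (φ i)) c C) : PR r c C :=
  PR_equiv23 φ r c C h

/-- PRALL: all margins: two largest rows as hub (`main_thm` does the same), `sm` if all rows are `≤ 1`;
one row or no row: trivial. -/
theorem pr_all (r : I → ℕ) (c : J → ℕ) (hrc : ∑ i, r i = sz c) :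
    PR r c (10 ^ 8 * ((Fintype.card I : ℝ) + 1) ^ 2 * ((Fintype.card J : ℝ) + 1) ^ 11
      * lg (sz c) ^ 2) :=
  pr_all_of r c hrc (fun _ _ _ rho r1 r2 h1 h2 h3 h4 h5 h6 => blk c rho r1 r2 h1 h2 h3 h4 h5 h6)
    (sm r c hrc)

/-- P3: apply `pr_all` to each fibre of a three-row block, transposed (rows = `J`, columns = the at
most three rows of the block).  Inside a fibre `fib r c ({i,j,k} ×ˢ univ) T` the tables are determined
by their rows in `{i,j,k}`, i.e. a table with rows indexed by `J` and columns by `{x // x ∈ {i,j,k}}`. -/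
theorem p3_all (r : I → ℕ) (c : J → ℕ) (hrc : ∑ i, r i = sz c) :
    P3 r c (10 ^ 25 * ((Fintype.card I : ℝ) + 1) ^ 2 * ((Fintype.card J : ℝ) + 1) ^ 13
      * lg (sz c) ^ 4) := by
  exact p3_of_pr (fun _ _ _ _ _ _ r c h => pr_all r c h) r c hrc

end CT
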