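import Vale.Agent.CT.Cnt25

/-! # Counting lemmas for two-row hubs (piece CNT-A, helper10) -/

namespace CT

open Finset
open scoped Classical

variable {J : Type} [Fintype J] [DecidableEq J]

theorem box_ratioA (s : J → ℕ) (l : ℕ) :
    (l + 1) * (box s (l + 1)).card ≤ (l + Fintype.card J) * (box s l).card := by
  have h := ratio25 s l
  exact_mod_cast h

theorem N2_subA (y : J → ℕ) (r2 : ℕ) (b : J) (hb : 0 < y b) :
    N2 r2 (y - e b) = (((box y r2).filter (fun z => z b < y b)).card : ℝ) := by
  rw [N2]
  congr 2
  ext z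
  rw [Finset.mem_filter, mem_box, mem_box]
  constructor
  · rintro ⟨h1, h2⟩
    refine ⟨⟨h1.trans tsub_le_self, h2⟩, ?_⟩
    have h3 : z b ≤ y b - e b b := h1 b
    simp only [e, Pi.single_eq_same] at h3
    omega
  · rintro ⟨⟨h1, h2⟩, h3⟩
    refine ⟨fun j => ?_, h2⟩
    show z j ≤ y j - e b j
    have h4 : z j ≤ y j := h1 j
    by_cases hj : j = b
    · subst hj
      simp only [e, Pi.single_eq_same]
      omega
    · simp only [e, Pi.single_eq_of_ne hj]
      omega

theorem N2_splitA (y : J → ℕ) (r2 : ℕ) (b : J) (hb : 0 < y b) :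
    N2 r2 y = N2 r2 (y - e b) + (((box y r2).filter (fun z => z b = y b)).card : ℝ) := by
  rw [N2_subA y r2 b hb, N2]
  have h := Finset.card_filter_add_card_filter_not (s := box y r2) (fun z => z b < y b)
  have h2 : (box y r2).filter (fun z => ¬ z b < y b) = (box y r2).filter (fun z => z b = y b) := by
    apply Finset.filter_congr
    intro z hz
    have h3 : z b ≤ y b := (mem_box.1 hz).1 b
    constructor
    · intro h4
      omega
    · intro h4
      omega
  rw [h2] at h
  exact_mod_cast h.symm

theorem cnt3A (y : J → ℕ) (r1 r2 : ℕ) (h : sz y = r1 + r2) (h1 : 1 ≤ r1) (b : J) (hb : 0 < y b) :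
    N2 r2 y ≤ ((Fintype.card J : ℝ) + 1) * N2 r2 (y - e b) := by
  have hkey : ((box y r2).filter (fun z => z b = y b)).card ≤
      Fintype.card J * ((box y r2).filter (fun z => z b < y b)).card := by
    have hsub : (box y r2).filter (fun z => z b = y b) ⊆
        univ.biUnion (fun d : J =>
          (box y r2).filter (fun z => z b = y b ∧ z d < y d)) := by
      intro z hz
      rw [Finset.mem_filter] at hz
      have hex : ∃ d, z d < y d := by
        by_contra hcon
        push Not at hcon
        have h3 := sz_mono (fun j => hcon j : y ≤ z)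
        have h4 := (mem_box.1 hz.1).2
        omega
      obtain ⟨d, hd⟩ := hex
      exact Finset.mem_biUnion.2 ⟨d, Finset.mem_univ _, Finset.mem_filter.2 ⟨hz.1, hz.2, hd⟩⟩
    refine (Finset.card_le_card hsub).trans (Finset.card_biUnion_le.trans ?_)
    refine (Finset.sum_le_sum (fun d _ => ?_) :
      _ ≤ ∑ _d : J, ((box y r2).filter (fun z => z b < y b)).card).trans ?_
    · apply Finset.card_le_card_of_injOn (fun z => z - e b + e d)
      · intro z hz
        rw [Finset.mem_coe, Finset.mem_filter, mem_box] at hz
        obtain ⟨⟨a1, a2⟩, a3, a4⟩ := hz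
        have hdb : d ≠ b := by
          rintro rfl
          omega
        have hbz : e b ≤ z := e_le_iff.2 (by omega)
        have a5 := sz_sub_add hbz
        rw [sz_e] at a5
        rw [Finset.mem_coe, Finset.mem_filter, mem_box]
        refine ⟨⟨fun j => ?_, ?_⟩, ?_⟩
        · show z j - e b j + e d j ≤ y j
          have a6 : z j ≤ y j := a1 j
          by_cases hj : j = d
          · subst hj
            simp only [e, Pi.single_eq_same]
            omega
          · simp only [e, Pi.single_eq_of_ne hj]
            omega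
        · show sz (z - e b + e d) = r2
          rw [sz_add, sz_e]
          omega
        · show z b - e b b + e d b < y b
          simp only [e, Pi.single_eq_same, Pi.single_eq_of_ne (Ne.symm hdb)]
          omega
      · intro z hz z' hz' hzz
        rw [Finset.mem_coe, Finset.mem_filter, mem_box] at hz hz'
        have hbz : e b ≤ z := e_le_iff.2 (by omega)
        have hbz' : e b ≤ z' := e_le_iff.2 (by omega)
        have h5 : z - e b = z' - e b := add_right_cancel hzz
        rw [← tsub_add_cancel_of_le hbz, ← tsub_add_cancel_of_le hbz', h5]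
    · rw [Finset.sum_const, Finset.card_univ, smul_eq_mul]
  have hkey' : (((box y r2).filter (fun z => z b = y b)).card : ℝ) ≤
      (Fintype.card J : ℝ) * (((box y r2).filter (fun z => z b < y b)).card : ℝ) := by
    exact_mod_cast hkey
  rw [← N2_subA y r2 b hb] at hkey'
  rw [N2_splitA y r2 b hb]
  linarith

theorem cnt4A (y : J → ℕ) (r1 r2 : ℕ) (h : sz y = r1 + r2) (h1 : 2 ≤ r1) (b d : J) (hbd : b ≠ d)
    (hb : 0 < y b) (hd : 0 < y d) :
    N2 r2 y ≤ ((Fintype.card J : ℝ) + 1) ^ 2 * N2 r2 (y - e b - e d) := by
  have h2 := cnt3A y r1 r2 h (by omega) b hb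
  have h3 := sz_sub_add (e_le_iff.2 hb)
  rw [sz_e] at h3
  have hd' : 0 < (y - e b) d := by
    show 0 < y d - e b d
    simp only [e, Pi.single_eq_of_ne (Ne.symm hbd)]
    omega
  have h4 := cnt3A (y - e b) (r1 - 1) r2 (by omega) (by omega) d hd'
  have hn : (0 : ℝ) ≤ (Fintype.card J : ℝ) + 1 := by positivity
  calc N2 r2 y ≤ ((Fintype.card J : ℝ) + 1) * N2 r2 (y - e b) := h2
    _ ≤ ((Fintype.card J : ℝ) + 1) * (((Fintype.card J : ℝ) + 1) * N2 r2 (y - e b - e d)) := by
        exact mul_le_mul_of_nonneg_left h4 hn
    _ = _ := by ring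

theorem cnt5A (y : J → ℕ) (r1 r2 : ℕ) (h : sz y = r1 + r2) (a b : J) (ha : 0 < y a) :
    N2 r2 y ≤ 2 * N2 r2 (y - e a + e b) := by
  by_cases hab : a = b
  · subst hab
    rw [tsub_add_cancel_of_le (e_le_iff.2 ha), N2]
    have : (0 : ℝ) ≤ ((box y r2).card : ℝ) := Nat.cast_nonneg _
    linarith
  have h1 : ((box y r2).filter (fun z => z a < y a)).card ≤ (box (y - e a + e b) r2).card := by
    apply Finset.card_le_card
    intro z hz
    rw [Finset.mem_filter, mem_box] at hz
    obtain ⟨⟨a1, a2⟩, a3⟩ := hz
    refine mem_box.2 ⟨fun j => ?_, a2⟩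
    show z j ≤ y j - e a j + e b j
    have a4 : z j ≤ y j := a1 j
    by_cases hj : j = a
    · subst hj
      simp only [e, Pi.single_eq_same]
      omega
    · simp only [e, Pi.single_eq_of_ne hj]
      omega
  have h2 : ((box y r2).filter (fun z => ¬ z a < y a)).card ≤ (box (y - e a + e b) r2).card := by
    apply Finset.card_le_card_of_injOn (fun z => z - e a + e b)
    · intro z hz
      rw [Finset.mem_coe, Finset.mem_filter, mem_box] at hz
      obtain ⟨⟨a1, a2⟩, a3⟩ := hz
      have haz : e a ≤ z := e_le_iff.2 (by omega)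
      have a5 := sz_sub_add haz
      rw [sz_e] at a5
      rw [Finset.mem_coe, mem_box]
      refine ⟨fun j => ?_, ?_⟩
      · show z j - e a j + e b j ≤ y j - e a j + e b j
        have a4 : z j ≤ y j := a1 j
        omega
      · show sz (z - e a + e b) = r2
        rw [sz_add, sz_e]
        omega
    · intro z hz z' hz' hzz
      rw [Finset.mem_coe, Finset.mem_filter] at hz hz'
      have haz : e a ≤ z := e_le_iff.2 (by omega)
      have haz' : e a ≤ z' := e_le_iff.2 (by omega)
      have h5 : z - e a = z' - e a := add_right_cancel hzz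
      rw [← tsub_add_cancel_of_le haz, ← tsub_add_cancel_of_le haz', h5]
  have h3 := Finset.card_filter_add_card_filter_not (s := box y r2) (fun z => z a < y a)
  have h4 : (box y r2).card ≤ 2 * (box (y - e a + e b) r2).card := by omega
  rw [N2, N2]
  exact_mod_cast h4

/-- `P(z_b = 0) ≤ 1/(y_b+1)`: `card_box_unimodal` on the columns other than `b` -/
theorem cnt6A (y : J → ℕ) (r1 r2 : ℕ) (h : sz y = r1 + r2) (h21 : r2 ≤ r1) (b : J)
    (hb : 0 < y b) :
    ((y b : ℝ) + 1) * (N2 r2 y - N2 r2 (y - e b)) ≤ N2 r2 y := by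
  have h1 := N2_splitA y r2 b hb
  have h2 : (y b + 1) * ((box y r2).filter (fun z => z b = y b)).card ≤ (box y r2).card := by
    by_cases hy : y b ≤ r2
    · rw [sum_slices25 y r2 b]
      have h3 : ∀ s ∈ range (y b + 1), ((box y r2).filter (fun z => z b = y b)).card ≤
          ((box y r2).filter (fun z => z b = s)).card := by
        intro s hs
        rw [Finset.mem_range] at hs
        rw [slice25 y r2 b (le_refl _) hy, slice25 y r2 b (by omega) (by omega)]
        apply card_box_unimodal (by omega)
        have h4 := sz_update25 y b 0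
        omega
      have h5 := Finset.sum_le_sum h3
      rw [Finset.sum_const, Finset.card_range, smul_eq_mul] at h5
      exact h5
    · rw [Finset.card_eq_zero.2 (Finset.filter_eq_empty_iff.2 ?_)]
      · simp
      · intro z hz hzb
        obtain ⟨a1, a2⟩ := mem_box.1 hz
        have : z b ≤ sz z := Finset.single_le_sum (f := z) (fun i _ => Nat.zero_le _)
          (Finset.mem_univ b)
        omega
  have h3 : N2 r2 y - N2 r2 (y - e b) = (((box y r2).filter (fun z => z b = y b)).card : ℝ) := by
    linarith
  rw [h3, N2]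
  exact_mod_cast h2

end CT
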