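import Vale.Agent.CT.Rx

/-! # Counting in two-row tables (pieces CNT1, CNT2) -/

namespace CT

open Finset
open scoped Classical

variable {J : Type} [Fintype J] [DecidableEq J]

theorem ratio25 (s : J → ℕ) (l : ℕ) :
    ((l : ℝ) + 1) * ((box s (l + 1)).card : ℝ)
      ≤ ((l : ℝ) + Fintype.card J) * ((box s l).card : ℝ) := by
  have h := reidx1 s l (fun x b => (x b : ℝ) + 1)
  have h1 : ∑ w ∈ box s (l + 1), ∑ b ∈ sp w, (((w - e b) b : ℕ) : ℝ) + ∑ w ∈ box s (l + 1),
      ∑ _b ∈ sp w, (1 : ℝ) = ((l : ℝ) + 1) * ((box s (l + 1)).card : ℝ) := by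
    rw [← Finset.sum_add_distrib]
    have : ∀ w ∈ box s (l + 1), (∑ b ∈ sp w, (((w - e b) b : ℕ) : ℝ)) + ∑ _b ∈ sp w, (1 : ℝ)
        = (l : ℝ) + 1 := by
      intro w hw
      rw [← Finset.sum_add_distrib]
      have h2 : ∀ b ∈ sp w, (((w - e b) b : ℕ) : ℝ) + 1 = ((w b : ℕ) : ℝ) := by
        intro b hb
        have hb' : 0 < w b := mem_sp.1 hb
        have h3 : (w - e b) b + 1 = w b := by
          simp only [Pi.sub_apply, e, Pi.single_eq_same]
          omega
        exact_mod_cast h3
      rw [Finset.sum_congr rfl h2]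
      have h4 : ∑ b ∈ sp w, ((w b : ℕ) : ℝ) = ∑ b, ((w b : ℕ) : ℝ) := by
        unfold sp
        rw [Finset.sum_filter]
        apply Finset.sum_congr rfl
        intro b _
        split_ifs with hb
        · rfl
        · have : w b = 0 := by omega
          rw [this]; simp
      rw [h4]
      have h5 : sz w = l + 1 := (mem_box.1 hw).2
      unfold sz at h5
      exact_mod_cast h5
    rw [Finset.sum_congr rfl this, Finset.sum_const, nsmul_eq_mul]
    ring
  have h2 : ∑ x ∈ box s l, ∑ b, (if e b ≤ s - x then (x b : ℝ) + 1 else 0)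
      ≤ ((l : ℝ) + Fintype.card J) * ((box s l).card : ℝ) := by
    have : ∀ x ∈ box s l, ∑ b, (if e b ≤ s - x then (x b : ℝ) + 1 else 0)
        ≤ (l : ℝ) + Fintype.card J := by
      intro x hx
      have h3 : ∑ b, (if e b ≤ s - x then (x b : ℝ) + 1 else 0) ≤ ∑ b, ((x b : ℝ) + 1) := by
        apply Finset.sum_le_sum
        intro b _
        split_ifs
        · exact le_rfl
        · positivity
      refine h3.trans (le_of_eq ?_)
      rw [Finset.sum_add_distrib, Finset.sum_const, Finset.card_univ, nsmul_eq_mul, mul_one]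
      have h5 : sz x = l := (mem_box.1 hx).2
      unfold sz at h5
      have h6 : ∑ b, (x b : ℝ) = (l : ℝ) := by exact_mod_cast h5
      rw [h6]
    refine (Finset.sum_le_sum this).trans (le_of_eq ?_)
    rw [Finset.sum_const, nsmul_eq_mul]
    ring
  have h3 : ∑ w ∈ box s (l + 1), ∑ b ∈ sp w, ((((w - e b) b : ℕ) : ℝ) + 1)
      = ((l : ℝ) + 1) * ((box s (l + 1)).card : ℝ) := by
    rw [← h1, ← Finset.sum_add_distrib]
    apply Finset.sum_congr rfl
    intro w _
    rw [Finset.sum_add_distrib]
  rw [← h3, ← h]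
  exact h2

theorem grow25 (s : J → ℕ) (l0 j : ℕ) (hn : 1 ≤ Fintype.card J) :
    ((box s (l0 + j)).card : ℝ)
      ≤ Real.exp (j * ((Fintype.card J : ℝ) - 1) / ((l0 : ℝ) + 1)) * ((box s l0).card : ℝ) := by
  have hn' : (1 : ℝ) ≤ Fintype.card J := by exact_mod_cast hn
  induction j with
  | zero => simp
  | succ j ih =>
    have h1 := ratio25 s (l0 + j)
    have hl : (0 : ℝ) < ((l0 + j : ℕ) : ℝ) + 1 := by positivity
    have hl0 : (0 : ℝ) < (l0 : ℝ) + 1 := by positivity
    have h2 : ((box s (l0 + j + 1)).card : ℝ)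
        ≤ Real.exp (((Fintype.card J : ℝ) - 1) / ((l0 : ℝ) + 1)) * ((box s (l0 + j)).card : ℝ) := by
      have h3 : ((l0 + j : ℕ) : ℝ) + Fintype.card J
          ≤ (((l0 + j : ℕ) : ℝ) + 1) *
            Real.exp (((Fintype.card J : ℝ) - 1) / ((l0 : ℝ) + 1)) := by
        have h4 : 1 + ((Fintype.card J : ℝ) - 1) / ((l0 : ℝ) + 1)
            ≤ Real.exp (((Fintype.card J : ℝ) - 1) / ((l0 : ℝ) + 1)) := by
          have := Real.add_one_le_exp (((Fintype.card J : ℝ) - 1) / ((l0 : ℝ) + 1))
          linarith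
        have h5 : ((l0 + j : ℕ) : ℝ) + Fintype.card J
            ≤ (((l0 + j : ℕ) : ℝ) + 1) * (1 + ((Fintype.card J : ℝ) - 1) / ((l0 : ℝ) + 1)) := by
          have h6 : (Fintype.card J : ℝ) - 1 ≤ (((l0 + j : ℕ) : ℝ) + 1) *
              (((Fintype.card J : ℝ) - 1) / ((l0 : ℝ) + 1)) := by
            rw [← mul_div_assoc, le_div_iff₀ hl0]
            have h7 : (l0 : ℝ) + 1 ≤ ((l0 + j : ℕ) : ℝ) + 1 := by
              push_cast
              have : (0 : ℝ) ≤ j := by positivity
              linarith
            nlinarith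
          linarith
        exact h5.trans (mul_le_mul_of_nonneg_left h4 hl.le)
      have h8 : (((l0 + j : ℕ) : ℝ) + 1) * ((box s (l0 + j + 1)).card : ℝ)
          ≤ (((l0 + j : ℕ) : ℝ) + 1) *
            (Real.exp (((Fintype.card J : ℝ) - 1) / ((l0 : ℝ) + 1)) *
              ((box s (l0 + j)).card : ℝ)) := by
        refine h1.trans ?_
        rw [← mul_assoc]
        exact mul_le_mul_of_nonneg_right h3 (by positivity)
      exact le_of_mul_le_mul_left h8 hl
    have h9 := mul_le_mul_of_nonneg_left ih
      (Real.exp_pos (((Fintype.card J : ℝ) - 1) / ((l0 : ℝ) + 1))).le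
    rw [← mul_assoc, ← Real.exp_add] at h9
    have h10 : ((Fintype.card J : ℝ) - 1) / ((l0 : ℝ) + 1)
        + j * ((Fintype.card J : ℝ) - 1) / ((l0 : ℝ) + 1)
        = ((j + 1 : ℕ) : ℝ) * ((Fintype.card J : ℝ) - 1) / ((l0 : ℝ) + 1) := by
      push_cast
      ring
    rw [h10] at h9
    rw [← add_assoc]
    exact h2.trans h9

theorem sz_update25 (z : J → ℕ) (b : J) (t : ℕ) :
    sz (Function.update z b t) + z b = sz z + t := by
  unfold sz
  rw [← Finset.add_sum_erase _ _ (mem_univ b), ← Finset.add_sum_erase univ z (mem_univ b),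
    Function.update_self]
  have : ∑ x ∈ univ.erase b, Function.update z b t x = ∑ x ∈ univ.erase b, z x := by
    apply Finset.sum_congr rfl
    intro l hl
    rw [Function.update_of_ne (Finset.ne_of_mem_erase hl)]
  rw [this]
  ring

theorem slice25 (y : J → ℕ) (r2 : ℕ) (b : J) {s : ℕ} (hs : s ≤ y b) (hs2 : s ≤ r2) :
    ((box y r2).filter (fun z => z b = s)).card
      = (box (Function.update y b 0) (r2 - s)).card := by
  refine Finset.card_nbij' (fun z => Function.update z b 0) (fun x => Function.update x b s)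
    ?_ ?_ ?_ ?_
  · intro z hz
    simp only [Finset.coe_filter, Set.mem_ofPred_eq, mem_box, Finset.mem_coe] at hz ⊢
    obtain ⟨⟨h1, h2⟩, h3⟩ := hz
    refine ⟨fun j => ?_, ?_⟩
    · by_cases hj : j = b
      · subst hj
        rw [Function.update_self, Function.update_self]
      · rw [Function.update_of_ne hj, Function.update_of_ne hj]
        exact h1 j
    · have := sz_update25 z b 0
      omega
  · intro x hx
    simp only [Finset.coe_filter, Set.mem_ofPred_eq, mem_box, Finset.mem_coe] at hx ⊢
    obtain ⟨h1, h2⟩ := hx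
    have hxb : x b = 0 := by
      have h3 : x b ≤ Function.update y b 0 b := h1 b
      rw [Function.update_self] at h3
      omega
    refine ⟨⟨fun j => ?_, ?_⟩, ?_⟩
    · by_cases hj : j = b
      · subst hj
        rw [Function.update_self]
        exact hs
      · rw [Function.update_of_ne hj]
        have h3 : x j ≤ Function.update y b 0 j := h1 j
        rwa [Function.update_of_ne hj] at h3
    · have := sz_update25 x b s
      omega
    · rw [Function.update_self]
  · intro z hz
    simp only [Finset.coe_filter, Set.mem_ofPred_eq] at hz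
    change Function.update (Function.update z b 0) b s = z
    rw [Function.update_idem, ← hz.2, Function.update_eq_self]
  · intro x hx
    simp only [mem_box, Finset.mem_coe] at hx
    have hxb : x b = 0 := by
      have h3 : x b ≤ Function.update y b 0 b := hx.1 b
      rw [Function.update_self] at h3
      omega
    change Function.update (Function.update x b s) b 0 = x
    rw [Function.update_idem, ← hxb, Function.update_eq_self]

theorem sum_slices25 (y : J → ℕ) (r2 : ℕ) (b : J) :
    (box y r2).card = ∑ s ∈ range (y b + 1), ((box y r2).filter (fun z => z b = s)).card := by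
  apply Finset.card_eq_sum_card_fiberwise
  intro z hz
  simp only [Finset.mem_coe, mem_box] at hz
  simp only [Finset.coe_range, Set.mem_Iio]
  have : z b ≤ y b := hz.1 b
  omega

theorem exp_one_le_three25 : Real.exp 1 ≤ 3 := by
  have := Real.exp_one_lt_d9
  linarith

theorem cnt1_25 (y : J → ℕ) (r1 r2 : ℕ) (h21 : r2 ≤ r1) (hy : sz y = r1 + r2) (b : J)
    (hb : 2 * Fintype.card J * y b ≤ r2) :
    N2 r2 y ≤ 3 * ((y b : ℝ) + 1) * (((box y r2).filter (fun z => z b = 0)).card : ℝ) := by
  have hn : 1 ≤ Fintype.card J := Fintype.card_pos_iff.2 ⟨b⟩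
  have hnb : Fintype.card J * y b ≤ r2 - y b := by
    have : y b ≤ Fintype.card J * y b := Nat.le_mul_of_pos_left _ hn
    have h2 : 2 * Fintype.card J * y b = Fintype.card J * y b + Fintype.card J * y b := by ring
    omega
  have hybr : y b ≤ r2 := by
    have : y b ≤ Fintype.card J * y b := Nat.le_mul_of_pos_left _ hn
    have h2 : 2 * Fintype.card J * y b = Fintype.card J * y b + Fintype.card J * y b := by ring
    omega
  have hsz0 : sz (Function.update y b 0) = r1 + r2 - y b := by
    have := sz_update25 y b 0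
    omega
  have hW : ∀ s ≤ y b, ((box (Function.update y b 0) (r2 - s)).card : ℝ)
      ≤ 3 * ((box (Function.update y b 0) r2).card : ℝ) := by
    intro s hs
    by_cases hc : (r2 - s) + r2 ≤ sz (Function.update y b 0)
    · have h1 := card_box_unimodal (y := Function.update y b 0) (i := r2 - s) (j := r2)
        (by omega) hc
      have h2 : ((box (Function.update y b 0) (r2 - s)).card : ℝ)
          ≤ ((box (Function.update y b 0) r2).card : ℝ) := by exact_mod_cast h1
      have h3 : (0 : ℝ) ≤ ((box (Function.update y b 0) r2).card : ℝ) := by positivity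
      linarith
    · push Not at hc
      rw [hsz0] at hc
      have hq : sz (Function.update y b 0) = r2 + (r1 - y b) := by rw [hsz0]; omega
      have h1 := card_box_compl (y := Function.update y b 0) hq
      rw [h1]
      obtain ⟨j, hj⟩ : ∃ j, r2 - s = (r1 - y b) + j := ⟨r2 - s - (r1 - y b), by omega⟩
      rw [hj]
      refine (grow25 _ (r1 - y b) j hn).trans ?_
      apply mul_le_mul_of_nonneg_right _ (by positivity)
      refine le_trans (Real.exp_le_exp.2 ?_) exp_one_le_three25
      rw [div_le_one (by positivity)]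
      have h2 : j ≤ y b := by omega
      have h3 : j * Fintype.card J ≤ r1 - y b := by
        calc j * Fintype.card J ≤ y b * Fintype.card J := Nat.mul_le_mul_right _ h2
          _ = Fintype.card J * y b := Nat.mul_comm _ _
          _ ≤ r1 - y b := by omega
      have h4 : (j : ℝ) * (Fintype.card J : ℝ) ≤ ((r1 - y b : ℕ) : ℝ) := by exact_mod_cast h3
      have h5 : (0 : ℝ) ≤ j := by positivity
      nlinarith
  have h0 := slice25 y r2 b (s := 0) (Nat.zero_le _) (Nat.zero_le _)
  rw [Nat.sub_zero] at h0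
  rw [h0]
  unfold N2
  rw [sum_slices25 y r2 b]
  push_cast
  have hsum : ∑ s ∈ range (y b + 1), (((box y r2).filter (fun z => z b = s)).card : ℝ)
      ≤ ∑ _s ∈ range (y b + 1), 3 * ((box (Function.update y b 0) r2).card : ℝ) := by
    apply Finset.sum_le_sum
    intro s hs
    rw [Finset.mem_range] at hs
    rw [slice25 y r2 b (by omega) (by omega)]
    exact hW s (by omega)
  refine hsum.trans (le_of_eq ?_)
  rw [Finset.sum_const, Finset.card_range, nsmul_eq_mul]
  push_cast
  ring

/-- partial sums of slices -/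
theorem sum_slices_le25 (y : J → ℕ) (r2 : ℕ) (b : J) (T : Finset ℕ) (hT : ∀ s ∈ T, s ≤ y b) :
    ∑ s ∈ T, (((box y r2).filter (fun z => z b = s)).card : ℝ) ≤ N2 r2 y := by
  unfold N2
  rw [sum_slices25 y r2 b]
  push_cast
  apply Finset.sum_le_sum_of_subset_of_nonneg
  · intro s hs
    rw [Finset.mem_range]
    have := hT s hs
    omega
  · intro s _ _
    positivity

theorem cnt2_25 (y : J → ℕ) (r1 r2 : ℕ) (h21 : r2 ≤ r1) (hy : sz y = r1 + r2) (b : J)
    (hb : 2 * y b ≤ 3 * r2) (s : ℕ) :
    ((y b : ℝ) + 1) * (((box y r2).filter (fun z => z b = s)).card : ℝ)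
      ≤ 40 * (Fintype.card J : ℝ) * N2 r2 y := by
  have hn : 1 ≤ Fintype.card J := Fintype.card_pos_iff.2 ⟨b⟩
  have hn' : (1 : ℝ) ≤ Fintype.card J := by exact_mod_cast hn
  have hN0 : 0 ≤ N2 r2 y := by unfold N2; positivity
  by_cases hsy : s ≤ y b ∧ s ≤ r2
  swap
  · have h0 : ((box y r2).filter (fun z => z b = s)) = ∅ := by
      rw [Finset.filter_eq_empty_iff]
      intro z hz hzb
      apply hsy
      obtain ⟨h1, h2⟩ := mem_box.1 hz
      have h3 : z b ≤ y b := h1 b
      have h4 : z b ≤ sz z := Finset.single_le_sum (f := z) (fun _ _ => Nat.zero_le _) (mem_univ b)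
      omega
    rw [h0, Finset.card_empty, Nat.cast_zero, mul_zero]
    positivity
  obtain ⟨hs1, hs2⟩ := hsy
  have hsz0 : sz (Function.update y b 0) = r1 + r2 - y b := by
    have := sz_update25 y b 0
    omega
  set c : ℝ := (((box y r2).filter (fun z => z b = s)).card : ℝ) with hc
  have hc0 : 0 ≤ c := by positivity
  by_cases hcase : 5 * y b ≤ 9 * s
  · -- the right part
    have hsub := sum_slices_le25 y r2 b (Finset.Icc (y b - s) s) (by
      intro t ht
      rw [Finset.mem_Icc] at ht
      omega)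
    have hge : ∑ _t ∈ Finset.Icc (y b - s) s, c
        ≤ ∑ t ∈ Finset.Icc (y b - s) s, (((box y r2).filter (fun z => z b = t)).card : ℝ) := by
      apply Finset.sum_le_sum
      intro t ht
      rw [Finset.mem_Icc] at ht
      rw [hc, slice25 y r2 b hs1 hs2, slice25 y r2 b (s := t) (by omega) (by omega)]
      have := card_box_unimodal (y := Function.update y b 0) (i := r2 - s) (j := r2 - t)
        (by omega) (by rw [hsz0]; omega)
      exact_mod_cast this
    rw [Finset.sum_const, Nat.card_Icc, nsmul_eq_mul] at hge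
    have h1 : y b + 1 ≤ 9 * (s + 1 - (y b - s)) := by omega
    have h2 : ((y b : ℝ) + 1) ≤ 9 * ((s + 1 - (y b - s) : ℕ) : ℝ) := by exact_mod_cast h1
    have h3 := hge.trans hsub
    calc ((y b : ℝ) + 1) * c ≤ (9 * ((s + 1 - (y b - s) : ℕ) : ℝ)) * c :=
          mul_le_mul_of_nonneg_right h2 hc0
      _ = 9 * (((s + 1 - (y b - s) : ℕ) : ℝ) * c) := by ring
      _ ≤ 9 * N2 r2 y := by linarith
      _ ≤ 40 * (Fintype.card J : ℝ) * N2 r2 y := by nlinarith
  · -- the left part
    push Not at hcase
    set n := Fintype.card J with hnn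
    have hn9 : 0 < 9 * n := by omega
    obtain ⟨Jm, hJm⟩ : ∃ Jm, Jm = y b / (9 * n) := ⟨_, rfl⟩
    have hJ1 : Jm * (9 * n) ≤ y b := by rw [hJm]; exact Nat.div_mul_le_self _ _
    have hJ2 : y b < (Jm + 1) * (9 * n) := by
      have := Nat.lt_div_mul_add (a := y b) hn9
      rw [← hJm] at this
      calc y b < Jm * (9 * n) + 9 * n := this
        _ = (Jm + 1) * (9 * n) := by ring
    have hJk : 9 * (Jm * n) ≤ y b := by
      calc 9 * (Jm * n) = Jm * (9 * n) := by ring
        _ ≤ y b := hJ1
    have hJJ : Jm ≤ Jm * n := Nat.le_mul_of_pos_right _ hn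
    have hJn : Jm * n ≤ r2 - s := by omega
    have hsub := sum_slices_le25 y r2 b (Finset.Icc s (s + Jm)) (by
      intro t ht
      rw [Finset.mem_Icc] at ht
      omega)
    have hge : ∑ _t ∈ Finset.Icc s (s + Jm), c / 3
        ≤ ∑ t ∈ Finset.Icc s (s + Jm), (((box y r2).filter (fun z => z b = t)).card : ℝ) := by
      apply Finset.sum_le_sum
      intro t ht
      rw [Finset.mem_Icc] at ht
      obtain ⟨j, hj⟩ : ∃ j, t = s + j := ⟨t - s, by omega⟩
      have hjJ : j ≤ Jm := by omega
      rw [hc, slice25 y r2 b hs1 hs2, slice25 y r2 b (s := t) (by omega) (by omega)]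
      have h1 := grow25 (Function.update y b 0) (r2 - t) j hn
      have h2 : r2 - t + j = r2 - s := by omega
      rw [h2] at h1
      have h3 : Real.exp (j * ((Fintype.card J : ℝ) - 1) / (((r2 - t : ℕ) : ℝ) + 1)) ≤ 3 := by
        refine le_trans (Real.exp_le_exp.2 ?_) exp_one_le_three25
        rw [div_le_one (by positivity)]
        have h4 : j * n ≤ (r2 - t) + j := by
          rw [h2]
          exact (Nat.mul_le_mul_right _ hjJ).trans hJn
        have h5 : (j : ℝ) * (n : ℝ) ≤ ((r2 - t : ℕ) : ℝ) + j := by exact_mod_cast h4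
        rw [← hnn]
        linarith
      have h6 : ((box (Function.update y b 0) (r2 - s)).card : ℝ)
          ≤ 3 * ((box (Function.update y b 0) (r2 - t)).card : ℝ) :=
        h1.trans (mul_le_mul_of_nonneg_right h3 (by positivity))
      linarith
    rw [Finset.sum_const, Nat.card_Icc, nsmul_eq_mul] at hge
    have hcard : s + Jm + 1 - s = Jm + 1 := by omega
    rw [hcard] at hge
    have h3 := hge.trans hsub
    have h4 : ((y b : ℝ) + 1) ≤ ((Jm + 1 : ℕ) : ℝ) * (9 * n) := by
      have : y b + 1 ≤ (Jm + 1) * (9 * n) := hJ2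
      exact_mod_cast this
    calc ((y b : ℝ) + 1) * c ≤ (((Jm + 1 : ℕ) : ℝ) * (9 * n)) * c :=
          mul_le_mul_of_nonneg_right h4 hc0
      _ = 27 * (n : ℝ) * (((Jm + 1 : ℕ) : ℝ) * (c / 3)) := by ring
      _ ≤ 27 * (n : ℝ) * N2 r2 y := mul_le_mul_of_nonneg_left h3 (by positivity)
      _ ≤ 40 * (n : ℝ) * N2 r2 y := by
          apply mul_le_mul_of_nonneg_right _ hN0
          nlinarith

end CT
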