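import Vale.Agent.CT.BDefs
import Vale.Agent.CT.Cnt25
import Vale.Agent.CT.BCntA

/-! # Counting lemmas for two-row hubs (piece CNT) -/

namespace CT

open Finset
open scoped Classical

variable {J : Type} [Fintype J] [DecidableEq J]

/-- double counting `∑_b (x_b+1) [x_b < s_b]` -/
theorem box_ratio (s : J → ℕ) (l : ℕ) :
    (l + 1) * (box s (l + 1)).card ≤ (l + Fintype.card J) * (box s l).card := by
  exact box_ratioA s l

theorem cnt3 (y : J → ℕ) (r1 r2 : ℕ) (h : sz y = r1 + r2) (h1 : 1 ≤ r1) (b : J) (hb : 0 < y b) :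
    N2 r2 y ≤ ((Fintype.card J : ℝ) + 1) * N2 r2 (y - e b) := by
  exact cnt3A y r1 r2 h h1 b hb

theorem cnt4 (y : J → ℕ) (r1 r2 : ℕ) (h : sz y = r1 + r2) (h1 : 2 ≤ r1) (b d : J) (hbd : b ≠ d)
    (hb : 0 < y b) (hd : 0 < y d) :
    N2 r2 y ≤ ((Fintype.card J : ℝ) + 1) ^ 2 * N2 r2 (y - e b - e d) := by
  exact cnt4A y r1 r2 h h1 b d hbd hb hd

theorem cnt5 (y : J → ℕ) (r1 r2 : ℕ) (h : sz y = r1 + r2) (a b : J) (ha : 0 < y a) :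
    N2 r2 y ≤ 2 * N2 r2 (y - e a + e b) := by
  exact cnt5A y r1 r2 h a b ha

/-- `P(z_b = 0) ≤ 1/(y_b+1)`: `card_box_unimodal` on the columns other than `b` -/
theorem cnt6 (y : J → ℕ) (r1 r2 : ℕ) (h : sz y = r1 + r2) (h21 : r2 ≤ r1) (b : J)
    (hb : 0 < y b) :
    ((y b : ℝ) + 1) * (N2 r2 y - N2 r2 (y - e b)) ≤ N2 r2 y := by
  exact cnt6A y r1 r2 h h21 b hb

theorem cnt1 (y : J → ℕ) (r1 r2 : ℕ) (h : sz y = r1 + r2) (h21 : r2 ≤ r1) (b : J)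
    (hb : 2 * Fintype.card J * y b ≤ r2) :
    N2 r2 y ≤ 3 * ((y b : ℝ) + 1) * (((box y r2).filter (fun z => z b = 0)).card : ℝ) :=
  cnt1_25 y r1 r2 h21 h b hb

theorem cnt2 (y : J → ℕ) (r1 r2 : ℕ) (h : sz y = r1 + r2) (h21 : r2 ≤ r1) (b : J)
    (hb : 2 * y b ≤ 3 * r2) (s : ℕ) :
    ((y b : ℝ) + 1) * (((box y r2).filter (fun z => z b = s)).card : ℝ)
      ≤ 40 * (Fintype.card J : ℝ) * N2 r2 y :=
  cnt2_25 y r1 r2 h21 h b hb s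

end CT
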