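import Vale.Agent.CT.Pp

/-! # Binary version: definitions (arbitrary margins, block dynamics, constants poly(n) log^2 N) -/

namespace CT

open Finset
open scoped Classical

/-- a coupling of the uniform measures on `X` and `X'` supported on `R` -/
def Cpl {α : Type} (X X' : Finset α) (R : α → α → Prop) : Prop :=
  ∃ κ : α → α → ℝ, (∀ x x', 0 ≤ κ x x') ∧ (∀ x ∈ X, ∑ x' ∈ X', κ x x' = 1 / (X.card : ℝ)) ∧
    (∀ x' ∈ X', ∑ x ∈ X, κ x x' = 1 / (X'.card : ℝ)) ∧ (∀ x x', κ x x' ≠ 0 → R x x')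

variable {J : Type} [Fintype J] [DecidableEq J]

/-- killed part of the energy of `g` (column `b`); the hub state is `v - x` -/
noncomputable def KL (v : J → ℕ) (r2 r : ℕ) (b : J) (g : (J → ℕ) → ℝ) : ℝ :=
  ∑ x ∈ (box v r).filter (fun x => x b = 0 ∧ x b < v b ∧ ∃ d, d ≠ b ∧ x d < v d),
    N2 r2 (v - x) * g x ^ 2

/-- Dirichlet part (column `b`, gaining columns `d ≠ b`) -/
noncomputable def DL (v : J → ℕ) (r2 r : ℕ) (b : J) (g : (J → ℕ) → ℝ) : ℝ :=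
  ∑ x ∈ (box v r).filter (fun x => x b < v b),
    N2 r2 (v - x) * ∑ a ∈ sp x, ∑ d ∈ univ.filter (fun d => d ≠ b ∧ x d < v d),
      (g x - g (x - e a + e d)) ^ 2

/-- total mass -/
noncomputable def PL (v : J → ℕ) (r2 r : ℕ) (b : J) (g : (J → ℕ) → ℝ) : ℝ :=
  ∑ x ∈ (box v r).filter (fun x => x b < v b), N2 r2 (v - x) * g x ^ 2

/-- Hardy weight `1/(y_b+1)^2` -/
noncomputable def HL (v : J → ℕ) (r2 r : ℕ) (b : J) (g : (J → ℕ) → ℝ) : ℝ :=
  ∑ x ∈ (box v r).filter (fun x => x b < v b),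
    N2 r2 (v - x) * g x ^ 2 / (((v - x) b : ℝ) + 1) ^ 2

/-- `‖L_k F‖²` for one row -/
noncomputable def SS (v : J → ℕ) (r2 r : ℕ) (F : (J → ℕ) → ℝ) : ℝ :=
  ∑ x ∈ box v r, (∑ b, if e b ≤ v - x then N2 r2 (v - x - e b) * GG F x b else 0) ^ 2
    / N2 r2 (v - x)

variable {K : Type} [Fintype K] [DecidableEq K]

/-- `‖L_k u‖²` -/
noncomputable def SX (c : J → ℕ) (rho : K → ℕ) (r2 : ℕ) (u : (K → J → ℕ) → ℝ) (k : K) : ℝ :=
  ∑ x ∈ XX c rho, (∑ b, if e b ≤ yy c x then N2 r2 (yy c x - e b) * GK u x k b else 0) ^ 2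
    / N2 r2 (yy c x)

/-- conditional expectation given the rows other than `k` -/
noncomputable def CX (c : J → ℕ) (rho : K → ℕ) (r2 : ℕ) (k : K) (u : (K → J → ℕ) → ℝ)
    (x : K → J → ℕ) : ℝ :=
  (∑ x' ∈ (XX c rho).filter (fun x' => ∀ l, l ≠ k → x' l = x l), N2 r2 (yy c x') * u x')
    / (∑ x' ∈ (XX c rho).filter (fun x' => ∀ l, l ≠ k → x' l = x l), N2 r2 (yy c x'))

/-- conditional variance given the rows other than `k` -/
noncomputable def VX (c : J → ℕ) (rho : K → ℕ) (r2 : ℕ) (u : (K → J → ℕ) → ℝ) (k : K) : ℝ :=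
  ∑ x ∈ XX c rho, N2 r2 (yy c x) * (u x - CX c rho r2 k u x) ^ 2

/-! ## blocks of cells -/

variable {I : Type} [Fintype I] [DecidableEq I]

/-- tables that agree with `T` off the block of cells `B` -/
noncomputable def fib (r : I → ℕ) (c : J → ℕ) (B : Finset (I × J)) (T : I → J → ℕ) :
    Finset (I → J → ℕ) :=
  (TT r c).filter (fun T' => ∀ i j, (i, j) ∉ B → T' i j = T i j)

/-- block average: resample the cells of `B` uniformly, given all other cells (and the margins) -/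
noncomputable def CE (r : I → ℕ) (c : J → ℕ) (B : Finset (I × J)) (f : (I → J → ℕ) → ℝ)
    (T : I → J → ℕ) : ℝ :=
  (∑ T' ∈ fib r c B T, f T') / ((fib r c B T).card : ℝ)

/-- block variance -/
noncomputable def VV (r : I → ℕ) (c : J → ℕ) (B : Finset (I × J)) (f : (I → J → ℕ) → ℝ) : ℝ :=
  ∑ T ∈ TT r c, (f T - CE r c B f T) ^ 2

/-- Poincare inequality for the three-row blocks -/
def PR (r : I → ℕ) (c : J → ℕ) (C : ℝ) : Prop :=
  ∀ f : (I → J → ℕ) → ℝ,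
    ((TT r c).card : ℝ) * (∑ T ∈ TT r c, f T ^ 2) - (∑ T ∈ TT r c, f T) ^ 2
      ≤ C * ((TT r c).card : ℝ) *
        ∑ i : I, ∑ j : I, ∑ k : I, VV r c (({i, j, k} : Finset I) ×ˢ (univ : Finset J)) f

/-- Poincare inequality for the 3 x 3 blocks -/
def P3 (r : I → ℕ) (c : J → ℕ) (C : ℝ) : Prop :=
  ∀ f : (I → J → ℕ) → ℝ,
    ((TT r c).card : ℝ) * (∑ T ∈ TT r c, f T ^ 2) - (∑ T ∈ TT r c, f T) ^ 2
      ≤ C * ((TT r c).card : ℝ) *
        ∑ i : I, ∑ j : I, ∑ k : I, ∑ a : J, ∑ b : J, ∑ d : J,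
          VV r c (({i, j, k} : Finset I) ×ˢ ({a, b, d} : Finset J)) f

/-- `1 + log (N+1)` -/
noncomputable def lg (N : ℕ) : ℝ := 1 + Real.log ((N : ℝ) + 1)

end CT
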