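import Vale.Agent.CT.BCnt

/-! # Pieces DIR and S5 of the binary version -/

namespace CT

open Finset
open scoped Classical

variable {J : Type} [Fintype J] [DecidableEq J]

theorem d25_card_pos (b : J) : (1 : ℝ) ≤ (Fintype.card J : ℝ) := by
  have : 0 < Fintype.card J := Fintype.card_pos_iff.2 ⟨b⟩
  exact_mod_cast this

theorem d25_lt_iff {v x : J → ℕ} {b : J} : e b ≤ v - x ↔ x b < v b := by
  rw [e_le_iff, Pi.sub_apply]
  omega

theorem d25_ee_lt_iff {v x : J → ℕ} {b d : J} (h : b ≠ d) :
    e b + e d ≤ v - x ↔ x b < v b ∧ x d < v d := by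
  constructor
  · intro h1
    constructor
    · have h2 : (e b + e d : J → ℕ) b ≤ v b - x b := h1 b
      have h3 : (e b + e d : J → ℕ) b = 1 := by
        simp [e, h]
      omega
    · have h2 : (e b + e d : J → ℕ) d ≤ v d - x d := h1 d
      have h3 : (e b + e d : J → ℕ) d = 1 := by
        simp [e, h.symm]
      omega
  · rintro ⟨h1, h2⟩ j
    simp only [Pi.add_apply, Pi.sub_apply, e, Pi.single_apply]
    by_cases hj : j = b
    · subst hj
      simp only [if_true, h, if_false]
      omega
    · by_cases hj2 : j = d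
      · subst hj2
        simp only [if_true, hj, if_false]
        omega
      · simp only [hj, hj2, if_false]
        omega

theorem d25_pairs {S : Finset J} (h : J → ℝ) (m : ℝ) :
    ∑ d ∈ S, ∑ a ∈ S, (h d - h a) ^ 2 ≤ 4 * (S.card : ℝ) * ∑ d ∈ S, (h d - m) ^ 2 := by
  have h1 : ∑ d ∈ S, ∑ a ∈ S, (h d - h a) ^ 2
      ≤ ∑ d ∈ S, ∑ a ∈ S, (2 * (h d - m) ^ 2 + 2 * (h a - m) ^ 2) := by
    apply Finset.sum_le_sum
    intro d _
    apply Finset.sum_le_sum
    intro a _
    nlinarith [sq_nonneg ((h d - m) + (h a - m))]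
  refine h1.trans (le_of_eq ?_)
  simp only [Finset.sum_add_distrib, ← Finset.mul_sum, Finset.sum_const, nsmul_eq_mul]
  ring

theorem DL_le_25 (v : J → ℕ) (r1 r2 r : ℕ) (hv : sz v = r1 + r2 + r) (h1 : 2 ≤ r1) (b : J)
    (F : (J → ℕ) → ℝ) :
    DL v r2 r b (fun x => GG F x b) ≤ 4 * ((Fintype.card J : ℝ) + 1) ^ 3 * AA v r2 r F := by
  have hn := d25_card_pos b
  set n : ℝ := (Fintype.card J : ℝ) with hnn
  -- rewrite the left side as a sum over `x` and `d`
  have hL : DL v r2 r b (fun x => GG F x b)
      ≤ ∑ d, ∑ x ∈ box v r, if e b + e d ≤ v - x then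
        (if d ≠ b then (n + 1) ^ 2 * (N2 r2 (v - x - e b - e d) *
          ∑ a ∈ sp x, (GG F x b - GG F (x - e a + e d) b) ^ 2) else 0) else 0 := by
    unfold DL
    rw [Finset.sum_comm, Finset.sum_filter]
    apply Finset.sum_le_sum
    intro x hx
    have hx' := mem_box.1 hx
    split_ifs with hxb
    · rw [Finset.sum_comm, Finset.mul_sum, Finset.sum_filter]
      apply Finset.sum_le_sum
      intro d _
      by_cases hd : d ≠ b
      · by_cases hxd : x d < v d
        · rw [if_pos ⟨hd, hxd⟩, if_pos ((d25_ee_lt_iff hd.symm).2 ⟨hxb, hxd⟩), if_pos hd,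
            ← mul_assoc]
          apply mul_le_mul_of_nonneg_right _ (Finset.sum_nonneg (fun _ _ => sq_nonneg _))
          apply cnt4 (v - x) r1 r2 _ h1 b d hd.symm
          · rw [Pi.sub_apply]; omega
          · rw [Pi.sub_apply]; omega
          · rw [sz_sub hx'.1, hv, hx'.2]; omega
        · rw [if_neg (fun h => hxd h.2)]
          split_ifs
          · exact mul_nonneg (by positivity) (mul_nonneg (pp_N2_nonneg _ _)
              (Finset.sum_nonneg (fun _ _ => sq_nonneg _)))
          · exact le_rfl
      · rw [if_neg (fun h => hd h.1)]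
        split_ifs
        · exact le_rfl
        · exact le_rfl
    · apply Finset.sum_nonneg
      intro d _
      split_ifs
      · exact mul_nonneg (by positivity) (mul_nonneg (pp_N2_nonneg _ _)
              (Finset.sum_nonneg (fun _ _ => sq_nonneg _)))
      · exact le_rfl
      · exact le_rfl
  refine hL.trans ?_
  -- reindex
  have hre : ∀ d, (∑ x ∈ box v r, if e b + e d ≤ v - x then
        (if d ≠ b then (n + 1) ^ 2 * (N2 r2 (v - x - e b - e d) *
          ∑ a ∈ sp x, (GG F x b - GG F (x - e a + e d) b) ^ 2) else 0) else 0)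
      = ∑ w ∈ box v (r + 2), if e b + e d ≤ w then
        (if d ≠ b then (n + 1) ^ 2 * (N2 r2 (v - (w - (e b + e d)) - e b - e d) *
          ∑ a ∈ sp (w - (e b + e d)), (GG F (w - (e b + e d)) b
            - GG F (w - (e b + e d) - e a + e d) b) ^ 2) else 0) else 0 := by
    intro d
    have h := reidx_gen v (e b + e d) r (fun x => if d ≠ b then (n + 1) ^ 2 *
        (N2 r2 (v - x - e b - e d) *
          ∑ a ∈ sp x, (GG F x b - GG F (x - e a + e d) b) ^ 2) else 0)
    have hsz : sz (e b + e d) = 2 := by rw [sz_add, sz_e, sz_e]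
    rw [hsz] at h
    exact h
  rw [Finset.sum_congr rfl (fun d _ => hre d), Finset.sum_comm]
  unfold AA
  rw [Finset.mul_sum]
  apply Finset.sum_le_sum
  intro w hw
  have hw' := mem_box.1 hw
  have hszw : 2 ≤ sz w := by omega
  have hN0 := pp_N2_nonneg r2 (v - w)
  have hQ0 := QQ_nonneg F w hszw
  by_cases hbw : 0 < w b
  · set S := sp (w - e b) with hS
    set hh : J → ℝ := fun d => GG F (w - e b - e d) b with hhh
    set m : ℝ := DD (fun t => GG F t b) (w - e b) with hm
    have hE : ∑ d ∈ S, (hh d - m) ^ 2 ≤ QQ F w := QQ_ge_energy F w hszw b hbw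
    have hterm : ∀ d, (if e b + e d ≤ w then
        (if d ≠ b then (n + 1) ^ 2 * (N2 r2 (v - (w - (e b + e d)) - e b - e d) *
          ∑ a ∈ sp (w - (e b + e d)), (GG F (w - (e b + e d)) b
            - GG F (w - (e b + e d) - e a + e d) b) ^ 2) else 0) else 0)
        ≤ if d ∈ S then (n + 1) ^ 2 * (N2 r2 (v - w) * ∑ a ∈ S, (hh d - hh a) ^ 2) else 0 := by
      intro d
      by_cases hd : e b + e d ≤ w
      · rw [if_pos hd]
        have hdS : d ∈ S := (ee_le_iff.1 hd).2
        rw [if_pos hdS]
        split_ifs with hdb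
        · have e1 : v - (w - (e b + e d)) - e b - e d = v - w := by
            funext j
            have a1 : (e b + e d : J → ℕ) j ≤ w j := hd j
            have a2 : w j ≤ v j := hw'.1 j
            simp only [Pi.sub_apply, Pi.add_apply] at a1 ⊢
            omega
          rw [e1]
          apply mul_le_mul_of_nonneg_left _ (by positivity)
          apply mul_le_mul_of_nonneg_left _ hN0
          have e2 : w - (e b + e d) = w - e b - e d := tsub_add_eq_tsub_tsub _ _ _
          rw [e2]
          have e3 : ∀ a ∈ sp (w - e b - e d), w - e b - e d - e a + e d = w - e b - e a := by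
            intro a ha
            have ha' : 0 < (w - e b - e d) a := mem_sp.1 ha
            funext j
            have a1 : (e b + e d : J → ℕ) j ≤ w j := hd j
            simp only [Pi.sub_apply, Pi.add_apply] at a1 ha' ⊢
            by_cases hja : j = a
            · subst hja
              have a3 : (e j : J → ℕ) j = 1 := by simp [e]
              omega
            · have a3 : (e a : J → ℕ) j = 0 := by simp [e, hja]
              omega
          have e4 : ∑ a ∈ sp (w - e b - e d), (GG F (w - e b - e d) b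
              - GG F (w - e b - e d - e a + e d) b) ^ 2
              = ∑ a ∈ sp (w - e b - e d), (hh d - hh a) ^ 2 := by
            apply Finset.sum_congr rfl
            intro a ha
            rw [e3 a ha]
          rw [e4]
          apply Finset.sum_le_sum_of_subset_of_nonneg
          · intro a ha
            have ha' : 0 < (w - e b - e d) a := mem_sp.1 ha
            rw [hS, mem_sp]
            simp only [Pi.sub_apply] at ha' ⊢
            omega
          · intro a _ _
            exact sq_nonneg _
        · exact mul_nonneg (by positivity) (mul_nonneg hN0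
            (Finset.sum_nonneg (fun _ _ => sq_nonneg _)))
      · rw [if_neg hd]
        split_ifs
        · exact mul_nonneg (by positivity) (mul_nonneg hN0
            (Finset.sum_nonneg (fun _ _ => sq_nonneg _)))
        · exact le_rfl
    refine (Finset.sum_le_sum (fun d _ => hterm d)).trans ?_
    rw [← Finset.sum_filter, Finset.filter_mem_eq_inter, Finset.univ_inter, ← Finset.mul_sum,
      ← Finset.mul_sum]
    have hp := d25_pairs (S := S) hh m
    have hcard : (S.card : ℝ) ≤ n := by
      rw [hnn]
      exact_mod_cast Finset.card_le_univ S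
    have hsq0 : 0 ≤ ∑ d ∈ S, (hh d - m) ^ 2 := Finset.sum_nonneg (fun _ _ => sq_nonneg _)
    have h5 : ∑ d ∈ S, ∑ a ∈ S, (hh d - hh a) ^ 2 ≤ 4 * n * QQ F w := by
      refine hp.trans ?_
      have : (S.card : ℝ) * ∑ d ∈ S, (hh d - m) ^ 2 ≤ n * QQ F w :=
        mul_le_mul hcard hE hsq0 (by linarith)
      nlinarith
    have h6 : (n + 1) ^ 2 * (N2 r2 (v - w) * ∑ d ∈ S, ∑ a ∈ S, (hh d - hh a) ^ 2)
        ≤ (n + 1) ^ 2 * (N2 r2 (v - w) * (4 * n * QQ F w)) :=
      mul_le_mul_of_nonneg_left (mul_le_mul_of_nonneg_left h5 hN0) (by positivity)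
    refine h6.trans ?_
    have h7 : 0 ≤ N2 r2 (v - w) * QQ F w := mul_nonneg hN0 hQ0
    have h8 : (n + 1) ^ 2 * (4 * n) ≤ 4 * (n + 1) ^ 3 := by nlinarith [sq_nonneg (n + 1)]
    calc (n + 1) ^ 2 * (N2 r2 (v - w) * (4 * n * QQ F w))
        = ((n + 1) ^ 2 * (4 * n)) * (N2 r2 (v - w) * QQ F w) := by ring
      _ ≤ (4 * (n + 1) ^ 3) * (N2 r2 (v - w) * QQ F w) := mul_le_mul_of_nonneg_right h8 h7
      _ = _ := by ring
  · have h0 : ∑ d, (if e b + e d ≤ w then
        (if d ≠ b then (n + 1) ^ 2 * (N2 r2 (v - (w - (e b + e d)) - e b - e d) *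
          ∑ a ∈ sp (w - (e b + e d)), (GG F (w - (e b + e d)) b
            - GG F (w - (e b + e d) - e a + e d) b) ^ 2) else 0) else 0) = 0 := by
      apply Finset.sum_eq_zero
      intro d _
      rw [if_neg]
      intro hd
      exact hbw (mem_sp.1 (ee_le_iff.1 hd).1)
    rw [h0]
    exact mul_nonneg (by positivity) (mul_nonneg hN0 hQ0)

theorem KL_le_25 (v : J → ℕ) (r1 r2 r : ℕ) (hv : sz v = r1 + r2 + r) (h1 : 2 ≤ r1) (b : J)
    (F : (J → ℕ) → ℝ) :
    KL v r2 r b (fun x => GG F x b) ≤ ((Fintype.card J : ℝ) + 1) ^ 3 * AA v r2 r F := by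
  have hn := d25_card_pos b
  set n : ℝ := (Fintype.card J : ℝ) with hnn
  have hA := pp_AA_nonneg v r2 r F
  by_cases hvb : 0 < v b
  · have hk := pp_kill v r2 r F b hvb
    have hle : KL v r2 r b (fun x => GG F x b) ≤ (n + 1) ^ 2 *
        ∑ x ∈ (box (v - e b) r).filter (fun x => x b = 0),
      (∑ d, if d ≠ b ∧ e d ≤ v - e b - x then N2 r2 (v - e b - x - e d) else 0)
        * GG F x b ^ 2 := by
      unfold KL
      rw [Finset.mul_sum]
      have hsub : (box v r).filter (fun x => x b = 0 ∧ x b < v b ∧ ∃ d, d ≠ b ∧ x d < v d)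
          ⊆ (box (v - e b) r).filter (fun x => x b = 0) := by
        intro x hx
        rw [Finset.mem_filter, mem_box] at hx ⊢
        obtain ⟨⟨h2, h3⟩, h4, h5, -⟩ := hx
        refine ⟨⟨fun j => ?_, h3⟩, h4⟩
        have h6 : x j ≤ v j := h2 j
        by_cases hj : j = b
        · subst hj
          rw [h4]
          exact Nat.zero_le _
        · have h7 : (e b : J → ℕ) j = 0 := by simp [e, hj]
          change x j ≤ v j - (e b : J → ℕ) j
          omega
      have hnn0 : ∀ x, 0 ≤ (∑ d, if d ≠ b ∧ e d ≤ v - e b - x then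
          N2 r2 (v - e b - x - e d) else 0) := by
        intro x
        apply Finset.sum_nonneg
        intro d _
        split_ifs
        · exact pp_N2_nonneg _ _
        · exact le_rfl
      refine le_trans ?_ (Finset.sum_le_sum_of_subset_of_nonneg hsub (fun x _ _ =>
        mul_nonneg (by positivity) (mul_nonneg (hnn0 x) (sq_nonneg _))))
      apply Finset.sum_le_sum
      intro x hx
      rw [Finset.mem_filter, mem_box] at hx
      obtain ⟨⟨h2, h3⟩, h4, h5, d, hd, hxd⟩ := hx
      rw [← mul_assoc]
      apply mul_le_mul_of_nonneg_right _ (sq_nonneg _)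
      have hc4 := cnt4 (v - x) r1 r2 (by rw [sz_sub h2, hv, h3]; omega) h1 b d hd.symm
        (by rw [Pi.sub_apply]; omega) (by rw [Pi.sub_apply]; omega)
      refine hc4.trans ?_
      apply mul_le_mul_of_nonneg_left _ (by positivity)
      have h6 := Finset.single_le_sum (f := fun d => if d ≠ b ∧ e d ≤ v - e b - x then
          N2 r2 (v - e b - x - e d) else 0) (fun d _ => by
          show 0 ≤ (if d ≠ b ∧ e d ≤ v - e b - x then N2 r2 (v - e b - x - e d) else 0)
          split_ifs
          · exact pp_N2_nonneg _ _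
          · exact le_rfl) (mem_univ d)
      have h7 : d ≠ b ∧ e d ≤ v - e b - x := by
        refine ⟨hd, ?_⟩
        rw [e_le_iff, Pi.sub_apply, Pi.sub_apply]
        have h8 : (e b : J → ℕ) d = 0 := by simp [e, hd]
        omega
      simp only [if_pos h7] at h6
      have h9 : v - x - e b - e d = v - e b - x - e d := by
        rw [tsub_right_comm (a := v) (b := x) (c := e b)]
      rw [h9]
      exact h6
    refine hle.trans ?_
    have h10 := mul_le_mul_of_nonneg_left hk (by positivity : (0 : ℝ) ≤ (n + 1) ^ 2)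
    refine h10.trans ?_
    rw [← mul_assoc]
    apply mul_le_mul_of_nonneg_right _ hA
    nlinarith [sq_nonneg (n + 1)]
  · have h0 : KL v r2 r b (fun x => GG F x b) = 0 := by
      unfold KL
      apply Finset.sum_eq_zero
      intro x hx
      rw [Finset.mem_filter] at hx
      omega
    rw [h0]
    exact mul_nonneg (by positivity) hA

theorem PL_last_25 (v : J → ℕ) (r1 r2 r : ℕ) (hv : sz v = r1 + r2 + r) (s : J)
    (F : (J → ℕ) → ℝ) :
    PL v r2 r s (fun x => GG F x s)
      ≤ 2 * (Fintype.card J : ℝ) * ∑ b ∈ univ.erase s, PL v r2 r b (fun x => GG F x b) := by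
  have hn := d25_card_pos s
  set n : ℝ := (Fintype.card J : ℝ) with hnn
  have hPL : ∀ b, PL v r2 r b (fun x => GG F x b)
      = ∑ w ∈ box v (r + 1), if e b ≤ w then
        N2 r2 (v - (w - e b)) * GG F (w - e b) b ^ 2 else 0 := by
    intro b
    have h := reidx_gen v (e b) r (fun x => N2 r2 (v - x) * GG F x b ^ 2)
    rw [sz_e] at h
    rw [← h]
    unfold PL
    rw [Finset.sum_filter]
    apply Finset.sum_congr rfl
    intro x _
    by_cases hx : x b < v b
    · rw [if_pos hx, if_pos (d25_lt_iff.2 hx)]
    · rw [if_neg hx, if_neg (fun h => hx (d25_lt_iff.1 h))]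
  rw [hPL s]
  simp only [hPL]
  rw [Finset.sum_comm, Finset.mul_sum]
  apply Finset.sum_le_sum
  intro w hw
  have hw' := mem_box.1 hw
  have hT0 : ∀ b, 0 ≤ (if e b ≤ w then
        N2 r2 (v - (w - e b)) * GG F (w - e b) b ^ 2 else 0) := by
    intro b
    split_ifs
    · exact mul_nonneg (pp_N2_nonneg _ _) (sq_nonneg _)
    · exact le_rfl
  split_ifs with hs
  · have hsw : 0 < w s := e_le_iff.1 hs
    -- the sum of `GG F (w - e b) b` over the support vanishes
    have hzero : ∑ b ∈ sp w, GG F (w - e b) b = 0 := by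
      have h1 : ∀ b ∈ sp w, GG F (w - e b) b = DD F w - F (w - e b) := by
        intro b hb
        unfold GG
        rw [tsub_add_cancel_of_le (e_le_iff.2 (mem_sp.1 hb))]
      rw [Finset.sum_congr rfl h1, Finset.sum_sub_distrib, Finset.sum_const, nsmul_eq_mul]
      unfold DD
      rw [mul_div_cancel₀, sub_self]
      have : (sp w).Nonempty := ⟨s, mem_sp.2 hsw⟩
      have h2 := this.card_pos
      positivity
    have hsplit : GG F (w - e s) s = - ∑ b ∈ (sp w).erase s, GG F (w - e b) b := by
      have := Finset.add_sum_erase (sp w) (fun b => GG F (w - e b) b) (mem_sp.2 hsw)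
      linarith
    have hcs : GG F (w - e s) s ^ 2 ≤ n * ∑ b ∈ (sp w).erase s, GG F (w - e b) b ^ 2 := by
      rw [hsplit, neg_sq]
      have h1 := sq_sum_le_card_mul_sum_sq (s := (sp w).erase s) (f := fun b => GG F (w - e b) b)
      refine h1.trans ?_
      apply mul_le_mul_of_nonneg_right _ (Finset.sum_nonneg (fun _ _ => sq_nonneg _))
      rw [hnn]
      exact_mod_cast Finset.card_le_univ _
    have hN := pp_N2_nonneg r2 (v - (w - e s))
    have h2 : N2 r2 (v - (w - e s)) * GG F (w - e s) s ^ 2
        ≤ ∑ b ∈ (sp w).erase s, n * (N2 r2 (v - (w - e s)) * GG F (w - e b) b ^ 2) := by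
      rw [← Finset.mul_sum, ← Finset.mul_sum]
      calc N2 r2 (v - (w - e s)) * GG F (w - e s) s ^ 2
          ≤ N2 r2 (v - (w - e s)) * (n * ∑ b ∈ (sp w).erase s, GG F (w - e b) b ^ 2) :=
            mul_le_mul_of_nonneg_left hcs hN
        _ = _ := by ring
    refine h2.trans ?_
    have h3 : ∀ b ∈ (sp w).erase s, n * (N2 r2 (v - (w - e s)) * GG F (w - e b) b ^ 2)
        ≤ 2 * n * (if e b ≤ w then N2 r2 (v - (w - e b)) * GG F (w - e b) b ^ 2 else 0) := by
      intro b hb
      rw [Finset.mem_erase] at hb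
      have hbw : 0 < w b := mem_sp.1 hb.2
      rw [if_pos (e_le_iff.2 hbw)]
      have hy : v - (w - e s) - e s + e b = v - (w - e b) := by
        funext j
        have a1 : w j ≤ v j := hw'.1 j
        simp only [Pi.sub_apply, Pi.add_apply]
        by_cases hjs : j = s
        · subst hjs
          have a2 : (e j : J → ℕ) j = 1 := by simp [e]
          have a3 : (e b : J → ℕ) j = 0 := by simp [e, Ne.symm hb.1]
          omega
        · have a2 : (e s : J → ℕ) j = 0 := by simp [e, hjs]
          by_cases hjb : j = b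
          · subst hjb
            have a3 : (e j : J → ℕ) j = 1 := by simp [e]
            omega
          · have a3 : (e b : J → ℕ) j = 0 := by simp [e, hjb]
            omega
      have hws : e s ≤ w := hs
      have hc5 := cnt5 (v - (w - e s)) r1 r2 (by
        have h4 : w - e s ≤ v := tsub_le_self.trans hw'.1
        rw [sz_sub h4, sz_sub hws, hw'.2, sz_e, hv]
        omega) s b (by
        have a1 : w s ≤ v s := hw'.1 s
        have a2 : (e s : J → ℕ) s = 1 := by simp [e]
        simp only [Pi.sub_apply, a2]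
        omega)
      rw [hy] at hc5
      have h5 := mul_le_mul_of_nonneg_right hc5 (sq_nonneg (GG F (w - e b) b))
      have h6 := mul_le_mul_of_nonneg_left h5 (by linarith : (0 : ℝ) ≤ n)
      calc n * (N2 r2 (v - (w - e s)) * GG F (w - e b) b ^ 2)
          ≤ n * (2 * N2 r2 (v - (w - e b)) * GG F (w - e b) b ^ 2) := h6
        _ = _ := by ring
    refine (Finset.sum_le_sum h3).trans ?_
    rw [← Finset.mul_sum]
    apply mul_le_mul_of_nonneg_left _ (by positivity)
    apply Finset.sum_le_sum_of_subset_of_nonneg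
    · exact Finset.erase_subset_erase _ (Finset.subset_univ _)
    · intro b _ _
      exact hT0 b
  · apply mul_nonneg (by positivity)
    exact Finset.sum_nonneg (fun b _ => hT0 b)

end CT
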