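import Vale.Agent.CT.BCnt

/-! # Divergence bound (piece DIV, helper16) -/

namespace CT

open Finset
open scoped Classical

variable {J : Type} [Fintype J] [DecidableEq J]

theorem div16_zero (F : (J → ℕ) → ℝ) (w : J → ℕ) : ∑ b ∈ sp w, GG F (w - e b) b = 0 := by
  by_cases hne : (sp w).Nonempty
  · have h1 : ∀ b ∈ sp w, GG F (w - e b) b = DD F w - F (w - e b) := by
      intro b hb
      have : w - e b + e b = w := tsub_add_cancel_of_le (e_le_iff.2 (mem_sp.1 hb))
      rw [GG, this]
    rw [Finset.sum_congr rfl h1, Finset.sum_sub_distrib, Finset.sum_const, nsmul_eq_mul, DD]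
    have hc : ((sp w).card : ℝ) ≠ 0 := by
      exact_mod_cast hne.card_pos.ne'
    field_simp
    ring
  · rw [Finset.not_nonempty_iff_eq_empty] at hne
    rw [hne, Finset.sum_empty]

/-- the third kind of terms -/
noncomputable def H16 (v : J → ℕ) (r2 : ℕ) (F : (J → ℕ) → ℝ) (b a : J) (x : J → ℕ) : ℝ :=
  if a ≠ b ∧ 0 < x b ∧ x a < v a ∧ ¬ x b < v b then
    N2 r2 (v - x) * GG F (x - e b + e a) b ^ 2 else 0

noncomputable def A16 (v : J → ℕ) (r2 : ℕ) (F : (J → ℕ) → ℝ) (b : J) (x : J → ℕ) : ℝ :=
  if x b < v b then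
    N2 r2 (v - x) * ∑ a ∈ sp x, ∑ d ∈ univ.filter (fun d => d ≠ b ∧ x d < v d),
      (GG F x b - GG F (x - e a + e d) b) ^ 2 else 0

noncomputable def K16 (v : J → ℕ) (r2 : ℕ) (F : (J → ℕ) → ℝ) (b : J) (x : J → ℕ) : ℝ :=
  if x b = 0 ∧ x b < v b ∧ ∃ d, d ≠ b ∧ x d < v d then
    N2 r2 (v - x) * GG F x b ^ 2 else 0

theorem A16_nonneg (v : J → ℕ) (r2 : ℕ) (F : (J → ℕ) → ℝ) (b : J) (x : J → ℕ) :
    0 ≤ A16 v r2 F b x := by
  unfold A16
  split_ifs
  · exact mul_nonneg (pp_N2_nonneg _ _)
      (Finset.sum_nonneg fun _ _ => Finset.sum_nonneg fun _ _ => sq_nonneg _)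
  · exact le_refl _

theorem K16_nonneg (v : J → ℕ) (r2 : ℕ) (F : (J → ℕ) → ℝ) (b : J) (x : J → ℕ) :
    0 ≤ K16 v r2 F b x := by
  unfold K16
  split_ifs
  · exact mul_nonneg (pp_N2_nonneg _ _) (sq_nonneg _)
  · exact le_refl _

theorem H16_nonneg (v : J → ℕ) (r2 : ℕ) (F : (J → ℕ) → ℝ) (b a : J) (x : J → ℕ) :
    0 ≤ H16 v r2 F b a x := by
  unfold H16
  split_ifs
  · exact mul_nonneg (pp_N2_nonneg _ _) (sq_nonneg _)
  · exact le_refl _

theorem swap16 {x : J → ℕ} {a b : J} (hab : a ≠ b) (hb : 0 < x b) :
    x + e a - e b = x - e b + e a := by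
  funext j
  simp only [Pi.sub_apply, Pi.add_apply, e]
  by_cases hj : j = b
  · subst hj
    rw [Pi.single_eq_same, Pi.single_eq_of_ne (Ne.symm hab)]
    omega
  · rw [Pi.single_eq_of_ne hj]
    omega

theorem div16_pt (v : J → ℕ) (r2 : ℕ) (F : (J → ℕ) → ℝ) (x : J → ℕ) (hx : x ≤ v)
    (a : J) (ha : x a < v a) :
    N2 r2 (v - x) * (∑ b ∈ sp (v - x), GG F x b) ^ 2
      ≤ (Fintype.card J : ℝ) * ∑ b, (A16 v r2 F b x + K16 v r2 F b x + ∑ a, H16 v r2 F b a x) := by
  set T : J → ℝ := fun b => (if b ∈ sp (v - x) then GG F x b else 0)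
    - (if b ∈ sp (x + e a) then GG F (x + e a - e b) b else 0) with hT
  have hsum : ∑ b ∈ sp (v - x), GG F x b = ∑ b, T b := by
    rw [hT, Finset.sum_sub_distrib, ← Finset.sum_filter, ← Finset.sum_filter]
    simp only [Finset.filter_mem_eq_inter, Finset.univ_inter]
    rw [div16_zero F (x + e a)]
    ring
  rw [hsum]
  have hCS : (∑ b, T b) ^ 2 ≤ (Fintype.card J : ℝ) * ∑ b, T b ^ 2 := by
    have := sq_sum_le_card_mul_sum_sq (s := (Finset.univ : Finset J)) (f := T)
    simpa using this
  have hN := pp_N2_nonneg r2 (v - x)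
  calc N2 r2 (v - x) * (∑ b, T b) ^ 2
      ≤ N2 r2 (v - x) * ((Fintype.card J : ℝ) * ∑ b, T b ^ 2) :=
        mul_le_mul_of_nonneg_left hCS hN
    _ = (Fintype.card J : ℝ) * ∑ b, N2 r2 (v - x) * T b ^ 2 := by
        have h9 : ∑ b, N2 r2 (v - x) * T b ^ 2 = N2 r2 (v - x) * ∑ b, T b ^ 2 := by
          rw [Finset.mul_sum]
        rw [h9]; ring
    _ ≤ _ := by
        apply mul_le_mul_of_nonneg_left _ (Nat.cast_nonneg _)
        apply Finset.sum_le_sum
        intro b _
        have hA := A16_nonneg v r2 F b x
        have hK := K16_nonneg v r2 F b x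
        have hH : 0 ≤ ∑ a, H16 v r2 F b a x := Finset.sum_nonneg fun a _ => H16_nonneg v r2 F b a x
        by_cases hba : b = a
        · subst hba
          have h1 : b ∈ sp (v - x) := by
            rw [mem_sp, Pi.sub_apply]; omega
          have h2 : b ∈ sp (x + e b) := by
            rw [mem_sp, Pi.add_apply]; simp [e]
          have h3 : x + e b - e b = x := add_tsub_cancel_right x (e b)
          have h4 : T b = 0 := by
            simp only [hT]
            rw [if_pos h1, if_pos h2, h3, sub_self]
          rw [h4]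
          have : N2 r2 (v - x) * (0 : ℝ) ^ 2 = 0 := by ring
          rw [this]
          positivity
        · have hab : a ≠ b := fun h => hba h.symm
          have hmem : b ∈ sp (x + e a) ↔ 0 < x b := by
            rw [mem_sp, Pi.add_apply, e, Pi.single_eq_of_ne hba]
            simp
          have hmem2 : b ∈ sp (v - x) ↔ x b < v b := by
            rw [mem_sp, Pi.sub_apply]; omega
          by_cases h1 : x b < v b
          · by_cases h2 : 0 < x b
            · have h4 : T b = GG F x b - GG F (x - e b + e a) b := by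
                simp only [hT]
                rw [if_pos (hmem2.2 h1), if_pos (hmem.2 h2), swap16 hab h2]
              have h5 : N2 r2 (v - x) * T b ^ 2 ≤ A16 v r2 F b x := by
                unfold A16
                rw [if_pos h1, h4]
                apply mul_le_mul_of_nonneg_left _ hN
                calc (GG F x b - GG F (x - e b + e a) b) ^ 2
                    ≤ ∑ d ∈ univ.filter (fun d => d ≠ b ∧ x d < v d),
                      (GG F x b - GG F (x - e b + e d) b) ^ 2 :=
                      Finset.single_le_sum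
                        (f := fun d => (GG F x b - GG F (x - e b + e d) b) ^ 2)
                        (fun _ _ => sq_nonneg _)
                        (Finset.mem_filter.2 ⟨Finset.mem_univ a, hab, ha⟩)
                  _ ≤ _ := Finset.single_le_sum
                        (f := fun a' => ∑ d ∈ univ.filter (fun d => d ≠ b ∧ x d < v d),
                          (GG F x b - GG F (x - e a' + e d) b) ^ 2)
                        (fun _ _ => Finset.sum_nonneg fun _ _ => sq_nonneg _)
                        (mem_sp.2 h2)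
              linarith
            · have h4 : T b = GG F x b := by
                simp only [hT]
                rw [if_pos (hmem2.2 h1), if_neg (fun h => h2 (hmem.1 h)), sub_zero]
              have h5 : N2 r2 (v - x) * T b ^ 2 = K16 v r2 F b x := by
                unfold K16
                rw [if_pos ⟨by omega, h1, a, hab, ha⟩, h4]
              linarith
          · by_cases h2 : 0 < x b
            · have h4 : T b = - GG F (x - e b + e a) b := by
                simp only [hT]
                rw [if_neg (fun h => h1 (hmem2.1 h)), if_pos (hmem.2 h2), swap16 hab h2]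
                ring
              have h5 : N2 r2 (v - x) * T b ^ 2 = H16 v r2 F b a x := by
                unfold H16
                rw [if_pos ⟨hab, h2, ha, h1⟩, h4]
                ring
              have h6 : H16 v r2 F b a x ≤ ∑ a, H16 v r2 F b a x :=
                Finset.single_le_sum (f := fun a => H16 v r2 F b a x)
                  (fun a _ => H16_nonneg v r2 F b a x) (Finset.mem_univ a)
              linarith
            · have h4 : T b = 0 := by
                simp only [hT]
                rw [if_neg (fun h => h1 (hmem2.1 h)), if_neg (fun h => h2 (hmem.1 h)), sub_zero]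
              rw [h4]
              have : N2 r2 (v - x) * (0 : ℝ) ^ 2 = 0 := by ring
              rw [this]
              positivity

theorem H16_sum (v : J → ℕ) (r1 r2 r : ℕ) (hv : sz v = r1 + r2 + r) (F : (J → ℕ) → ℝ) (b a : J) :
    ∑ x ∈ box v r, H16 v r2 F b a x ≤ 8 * HL v r2 r b (fun x => GG F x b) := by
  unfold H16
  rw [← Finset.sum_filter]
  set S := (box v r).filter (fun x => a ≠ b ∧ 0 < x b ∧ x a < v a ∧ ¬ x b < v b) with hS
  set h : (J → ℕ) → ℝ := fun x' => 8 * (N2 r2 (v - x') * GG F x' b ^ 2
    / (((v - x') b : ℝ) + 1) ^ 2) with hh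
  have hpt : ∀ x ∈ S, N2 r2 (v - x) * GG F (x - e b + e a) b ^ 2 ≤ h (x - e b + e a) := by
    intro x hx
    rw [hS, Finset.mem_filter, mem_box] at hx
    obtain ⟨⟨hxv, hxs⟩, hab, h2, ha, h1⟩ := hx
    have hvb : x b = v b := le_antisymm (hxv b) (not_lt.1 h1)
    have hyy : v - (x - e b + e a) = (v - x) - e a + e b := by
      funext j
      have hj : x j ≤ v j := hxv j
      simp only [Pi.sub_apply, Pi.add_apply, e]
      by_cases hjb : j = b
      · subst hjb
        rw [Pi.single_eq_same, Pi.single_eq_of_ne (Ne.symm hab)]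
        omega
      · by_cases hja : j = a
        · subst hja
          rw [Pi.single_eq_same, Pi.single_eq_of_ne hab]
          omega
        · rw [Pi.single_eq_of_ne hjb, Pi.single_eq_of_ne hja]
          omega
    have hval : (v - (x - e b + e a)) b = 1 := by
      simp only [Pi.sub_apply, Pi.add_apply, e]
      rw [Pi.single_eq_same, Pi.single_eq_of_ne (Ne.symm hab)]
      omega
    have hsz : sz (v - x) = r1 + r2 := by
      rw [sz_sub hxv]; omega
    have hc := cnt5 (v - x) r1 r2 hsz a b (by rw [Pi.sub_apply]; omega)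
    rw [← hyy] at hc
    simp only [hh]
    rw [hval]
    have hg := sq_nonneg (GG F (x - e b + e a) b)
    have : N2 r2 (v - x) * GG F (x - e b + e a) b ^ 2
        ≤ 2 * N2 r2 (v - (x - e b + e a)) * GG F (x - e b + e a) b ^ 2 :=
      mul_le_mul_of_nonneg_right hc hg
    refine this.trans (le_of_eq ?_)
    norm_num
    ring
  calc ∑ x ∈ S, N2 r2 (v - x) * GG F (x - e b + e a) b ^ 2
      ≤ ∑ x ∈ S, h (x - e b + e a) := Finset.sum_le_sum hpt
    _ = ∑ x' ∈ S.image (fun x => x - e b + e a), h x' := by
        rw [Finset.sum_image]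
        intro x hx z hz hxz
        rw [Finset.mem_coe, hS, Finset.mem_filter, mem_box] at hx hz
        have h1 : e b ≤ x := e_le_iff.2 hx.2.2.1
        have h2 : e b ≤ z := e_le_iff.2 hz.2.2.1
        have h3 : x - e b = z - e b := add_right_cancel hxz
        calc x = x - e b + e b := (tsub_add_cancel_of_le h1).symm
          _ = z - e b + e b := by rw [h3]
          _ = z := tsub_add_cancel_of_le h2
    _ ≤ ∑ x' ∈ (box v r).filter (fun x => x b < v b), h x' := by
        apply Finset.sum_le_sum_of_subset_of_nonneg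
        · intro x' hx'
          rw [Finset.mem_image] at hx'
          obtain ⟨x, hx, rfl⟩ := hx'
          rw [hS, Finset.mem_filter, mem_box] at hx
          obtain ⟨⟨hxv, hxs⟩, hab, h2, ha, h1⟩ := hx
          rw [Finset.mem_filter, mem_box]
          refine ⟨⟨?_, ?_⟩, ?_⟩
          · intro j
            have hj : x j ≤ v j := hxv j
            simp only [Pi.sub_apply, Pi.add_apply, e]
            by_cases hja : j = a
            · subst hja
              rw [Pi.single_eq_same, Pi.single_eq_of_ne hab]
              omega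
            · rw [Pi.single_eq_of_ne hja]
              omega
          · have h3 := sz_sub_add (e_le_iff.2 h2 : e b ≤ x)
            rw [sz_add, sz_e]
            rw [sz_e] at h3
            omega
          · simp only [Pi.sub_apply, Pi.add_apply, e]
            rw [Pi.single_eq_same, Pi.single_eq_of_ne (Ne.symm hab)]
            have hj : x b ≤ v b := hxv b
            omega
        · intro x' _ _
          simp only [hh]
          have := pp_N2_nonneg r2 (v - x')
          positivity
    _ = 8 * HL v r2 r b (fun x => GG F x b) := by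
        unfold HL
        rw [Finset.mul_sum]

theorem div_le16 (v : J → ℕ) (r1 r2 r : ℕ) (hv : sz v = r1 + r2 + r) (h1 : 1 ≤ r1)
    (F : (J → ℕ) → ℝ) :
    ∑ x ∈ box v r, N2 r2 (v - x) * (∑ b ∈ sp (v - x), GG F x b) ^ 2
      ≤ 10 * ((Fintype.card J : ℝ) + 1) ^ 2 * ∑ b, (DL v r2 r b (fun x => GG F x b)
          + KL v r2 r b (fun x => GG F x b) + HL v r2 r b (fun x => GG F x b)) := by
  set n : ℝ := (Fintype.card J : ℝ) with hn
  have hn0 : 0 ≤ n := Nat.cast_nonneg _
  have hstep : ∑ x ∈ box v r, N2 r2 (v - x) * (∑ b ∈ sp (v - x), GG F x b) ^ 2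
      ≤ ∑ x ∈ box v r, n * ∑ b, (A16 v r2 F b x + K16 v r2 F b x + ∑ a, H16 v r2 F b a x) := by
    apply Finset.sum_le_sum
    intro x hx
    rw [mem_box] at hx
    obtain ⟨hxv, hxs⟩ := hx
    have hsz : sz (v - x) = r1 + r2 := by rw [sz_sub hxv]; omega
    have hex : ∃ a, x a < v a := by
      by_contra hcon
      push Not at hcon
      have : sz (v - x) = 0 := by
        unfold sz
        apply Finset.sum_eq_zero
        intro j _
        rw [Pi.sub_apply]
        have := hcon j
        omega
      omega
    obtain ⟨a, ha⟩ := hex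
    exact div16_pt v r2 F x hxv a ha
  have hD : ∀ b, 0 ≤ DL v r2 r b (fun x => GG F x b) := by
    intro b
    unfold DL
    exact Finset.sum_nonneg fun x _ => mul_nonneg (pp_N2_nonneg _ _)
      (Finset.sum_nonneg fun _ _ => Finset.sum_nonneg fun _ _ => sq_nonneg _)
  have hKk : ∀ b, 0 ≤ KL v r2 r b (fun x => GG F x b) := by
    intro b
    unfold KL
    exact Finset.sum_nonneg fun x _ => mul_nonneg (pp_N2_nonneg _ _) (sq_nonneg _)
  have hH : ∀ b, 0 ≤ HL v r2 r b (fun x => GG F x b) := by
    intro b
    unfold HL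
    refine Finset.sum_nonneg fun x _ => ?_
    have := pp_N2_nonneg r2 (v - x)
    positivity
  refine hstep.trans ?_
  rw [← Finset.mul_sum, Finset.sum_comm]
  have hb : ∀ b, ∑ x ∈ box v r, (A16 v r2 F b x + K16 v r2 F b x + ∑ a, H16 v r2 F b a x)
      ≤ DL v r2 r b (fun x => GG F x b) + KL v r2 r b (fun x => GG F x b)
        + n * (8 * HL v r2 r b (fun x => GG F x b)) := by
    intro b
    rw [Finset.sum_add_distrib, Finset.sum_add_distrib]
    have e1 : ∑ x ∈ box v r, A16 v r2 F b x = DL v r2 r b (fun x => GG F x b) := by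
      unfold A16 DL
      rw [← Finset.sum_filter]
    have e2 : ∑ x ∈ box v r, K16 v r2 F b x = KL v r2 r b (fun x => GG F x b) := by
      unfold K16 KL
      rw [← Finset.sum_filter]
    have e3 : ∑ x ∈ box v r, ∑ a, H16 v r2 F b a x ≤ n * (8 * HL v r2 r b (fun x => GG F x b)) := by
      rw [Finset.sum_comm]
      calc ∑ a, ∑ x ∈ box v r, H16 v r2 F b a x
          ≤ ∑ _a : J, 8 * HL v r2 r b (fun x => GG F x b) :=
            Finset.sum_le_sum fun a _ => H16_sum v r1 r2 r hv F b a
        _ = n * (8 * HL v r2 r b (fun x => GG F x b)) := by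
            rw [Finset.sum_const, nsmul_eq_mul, Finset.card_univ]
    linarith
  calc n * ∑ b, ∑ x ∈ box v r, (A16 v r2 F b x + K16 v r2 F b x + ∑ a, H16 v r2 F b a x)
      ≤ n * ∑ b, (DL v r2 r b (fun x => GG F x b) + KL v r2 r b (fun x => GG F x b)
        + n * (8 * HL v r2 r b (fun x => GG F x b))) :=
        mul_le_mul_of_nonneg_left (Finset.sum_le_sum fun b _ => hb b) hn0
    _ = ∑ b, n * (DL v r2 r b (fun x => GG F x b) + KL v r2 r b (fun x => GG F x b)
        + n * (8 * HL v r2 r b (fun x => GG F x b))) := by rw [Finset.mul_sum]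
    _ ≤ ∑ b, 10 * (n + 1) ^ 2 * (DL v r2 r b (fun x => GG F x b)
          + KL v r2 r b (fun x => GG F x b) + HL v r2 r b (fun x => GG F x b)) := by
        apply Finset.sum_le_sum
        intro b _
        have i1 := hD b
        have i2 := hKk b
        have i3 := hH b
        have j1 : n ≤ 10 * (n + 1) ^ 2 := by nlinarith
        have j2 : n * (n * 8) ≤ 10 * (n + 1) ^ 2 := by nlinarith
        nlinarith [mul_le_mul_of_nonneg_right j1 i1, mul_le_mul_of_nonneg_right j1 i2,
          mul_le_mul_of_nonneg_right j2 i3]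
    _ = _ := by rw [← Finset.mul_sum]

end CT
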