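import Vale.Agent.CT.BCnt
import Vale.Agent.CT.BDiv16
import Vale.Agent.CT.BDir25

/-! # Energies of `G_b` are bounded by `AA` (piece EN), the largest column (piece S5) and the
divergence (piece S1) -/

namespace CT

open Finset
open scoped Classical

variable {J : Type} [Fintype J] [DecidableEq J]

/-- DIR: `w = x + e d + e b`, `x = w - e b - e d`, `x - e a + e d = w - e b - e a`;
`N2 (v-x) ≤ (n+1)^2 N2 (v-w)` (cnt4) and `QQ_ge_energy` (`(p-q)² ≤ 2(p-m)²+2(q-m)²`). -/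
theorem DL_le (v : J → ℕ) (r1 r2 r : ℕ) (hv : sz v = r1 + r2 + r) (h1 : 2 ≤ r1) (b : J)
    (F : (J → ℕ) → ℝ) :
    DL v r2 r b (fun x => GG F x b) ≤ 4 * ((Fintype.card J : ℝ) + 1) ^ 3 * AA v r2 r F :=
  DL_le_25 v r1 r2 r hv h1 b F

/-- KIL: choose `d`, `N2 (v-x) ≤ (n+1)^2 N2 (v-x-e b-e d)`, then `pp_kill` or `QQ_ge_kill`. -/
theorem KL_le (v : J → ℕ) (r1 r2 r : ℕ) (hv : sz v = r1 + r2 + r) (h1 : 2 ≤ r1) (b : J)
    (F : (J → ℕ) → ℝ) :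
    KL v r2 r b (fun x => GG F x b) ≤ ((Fintype.card J : ℝ) + 1) ^ 3 * AA v r2 r F :=
  KL_le_25 v r1 r2 r hv h1 b F

/-- S5: `w = x + e s`, `∑_{b ∈ sp w} GG F (w - e b) b = 0`, and `N2 y ≤ 2 N2 (y - e s + e b)` (cnt5). -/
theorem PL_last (v : J → ℕ) (r1 r2 r : ℕ) (hv : sz v = r1 + r2 + r) (s : J) (F : (J → ℕ) → ℝ) :
    PL v r2 r s (fun x => GG F x s)
      ≤ 2 * (Fintype.card J : ℝ) * ∑ b ∈ univ.erase s, PL v r2 r b (fun x => GG F x b) :=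
  PL_last_25 v r1 r2 r hv s F

/-- S1: divergence. Choose `a` with `y_a > 0`, `w = x + e a`; subtract
`∑_{b ∈ sp w} GG F (w - e b) b = 0`: terms `b ≠ a`, `x_b, y_b > 0`: differences
`g_b(x) - g_b(x + e_a - e_b)` (DL); `x_b = 0 < y_b`: KL; `x_b > 0 = y_b`: state `x' = x + e_a - e_b` with
`y'_b = 1`, weight `N2 y ≤ 2 N2 y'` (cnt5), `HL` (factor `4`). -/
theorem div_le (v : J → ℕ) (r1 r2 r : ℕ) (hv : sz v = r1 + r2 + r) (h1 : 1 ≤ r1)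
    (F : (J → ℕ) → ℝ) :
    ∑ x ∈ box v r, N2 r2 (v - x) * (∑ b ∈ sp (v - x), GG F x b) ^ 2
      ≤ 10 * ((Fintype.card J : ℝ) + 1) ^ 2 * ∑ b, (DL v r2 r b (fun x => GG F x b)
          + KL v r2 r b (fun x => GG F x b) + HL v r2 r b (fun x => GG F x b)) :=
  div_le16 v r1 r2 r hv h1 F

end CT
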