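import Vale.Agent.CT.BP3A24

/-! # Restriction of a block to a subtable (2 x 2 add-on) -/

namespace CT

open Finset
open scoped Classical

variable {J : Type} [Fintype J] [DecidableEq J]
variable {I : Type} [Fintype I] [DecidableEq I]

/-- restriction to `S x A` -/
def g24_res (S : Finset I) (A : Finset J) (T : I → J → ℕ) : {x // x ∈ S} → {x // x ∈ A} → ℕ :=
  fun s a => T s.1 a.1

/-- extension by `T0` -/
def g24_ext (S : Finset I) (A : Finset J) (T0 : I → J → ℕ)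
    (U : {x // x ∈ S} → {x // x ∈ A} → ℕ) : I → J → ℕ :=
  fun i j => if h : i ∈ S ∧ j ∈ A then U ⟨i, h.1⟩ ⟨j, h.2⟩ else T0 i j

/-- row sums -/
def g24_row (S : Finset I) (A : Finset J) (T0 : I → J → ℕ) : {x // x ∈ S} → ℕ :=
  fun s => ∑ a : {x // x ∈ A}, T0 s.1 a.1

/-- column sums -/
def g24_col (S : Finset I) (A : Finset J) (T0 : I → J → ℕ) : {x // x ∈ A} → ℕ :=
  fun a => ∑ s : {x // x ∈ S}, T0 s.1 a.1

theorem g24_ext_in (S : Finset I) (A : Finset J) (T0 : I → J → ℕ)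
    (U : {x // x ∈ S} → {x // x ∈ A} → ℕ) (s : {x // x ∈ S}) (a : {x // x ∈ A}) :
    g24_ext S A T0 U s.1 a.1 = U s a := by
  unfold g24_ext
  rw [dif_pos ⟨s.2, a.2⟩]

theorem g24_ext_out (S : Finset I) (A : Finset J) (T0 : I → J → ℕ)
    (U : {x // x ∈ S} → {x // x ∈ A} → ℕ) {i : I} {j : J} (h : ¬ (i ∈ S ∧ j ∈ A)) :
    g24_ext S A T0 U i j = T0 i j := by
  unfold g24_ext
  rw [dif_neg h]

theorem g24_ext_mem {r : I → ℕ} {c : J → ℕ} (S : Finset I) (A : Finset J) {T0 : I → J → ℕ}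
    (hT0 : T0 ∈ TT r c) {U : {x // x ∈ S} → {x // x ∈ A} → ℕ}
    (hU : U ∈ TT (g24_row S A T0) (g24_col S A T0)) :
    g24_ext S A T0 U ∈ TT r c := by
  rw [p3_mem] at hU hT0 ⊢
  refine ⟨fun i => ?_, fun j => ?_⟩
  · by_cases hi : i ∈ S
    · rw [← hT0.1 i, p3_split A, p3_split A (fun j => T0 i j)]
      congr 1
      · have h1 : ∀ a : {x // x ∈ A}, g24_ext S A T0 U i a.1 = U ⟨i, hi⟩ a := fun a =>
          g24_ext_in S A T0 U ⟨i, hi⟩ a
        rw [Finset.sum_congr rfl fun a _ => h1 a]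
        exact hU.1 ⟨i, hi⟩
      · refine Finset.sum_congr rfl fun j hj => ?_
        exact g24_ext_out S A T0 U (fun h => (Finset.mem_filter.mp hj).2 h.2)
    · rw [← hT0.1 i]
      exact Finset.sum_congr rfl fun j _ => g24_ext_out S A T0 U (fun h => hi h.1)
  · by_cases hj : j ∈ A
    · rw [← hT0.2 j, p3_split S, p3_split S (fun i => T0 i j)]
      congr 1
      · have h1 : ∀ s : {x // x ∈ S}, g24_ext S A T0 U s.1 j = U s ⟨j, hj⟩ := fun s =>
          g24_ext_in S A T0 U s ⟨j, hj⟩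
        rw [Finset.sum_congr rfl fun s _ => h1 s]
        exact hU.2 ⟨j, hj⟩
      · refine Finset.sum_congr rfl fun i hi => ?_
        exact g24_ext_out S A T0 U (fun h => (Finset.mem_filter.mp hi).2 h.1)
    · rw [← hT0.2 j]
      exact Finset.sum_congr rfl fun i _ => g24_ext_out S A T0 U (fun h => hj h.2)

theorem g24_res_mem {r : I → ℕ} {c : J → ℕ} (S : Finset I) (A : Finset J) {T0 T : I → J → ℕ}
    (hT0 : T0 ∈ TT r c) (hT : T ∈ TT r c) (hag : ∀ i j, ¬ (i ∈ S ∧ j ∈ A) → T i j = T0 i j) :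
    g24_res S A T ∈ TT (g24_row S A T0) (g24_col S A T0) := by
  rw [p3_mem] at hT hT0 ⊢
  refine ⟨fun s => ?_, fun a => ?_⟩
  · have h1 := hT.1 s.1
    have h2 := hT0.1 s.1
    rw [p3_split A] at h1 h2
    have h3 : ∑ j ∈ univ.filter (fun j => j ∉ A), T s.1 j
        = ∑ j ∈ univ.filter (fun j => j ∉ A), T0 s.1 j :=
      Finset.sum_congr rfl fun j hj => hag s.1 j (fun h => (Finset.mem_filter.mp hj).2 h.2)
    show ∑ a : {x // x ∈ A}, T s.1 a.1 = ∑ a : {x // x ∈ A}, T0 s.1 a.1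
    omega
  · have h1 := hT.2 a.1
    have h2 := hT0.2 a.1
    rw [p3_split S] at h1 h2
    have h3 : ∑ i ∈ univ.filter (fun i => i ∉ S), T i a.1
        = ∑ i ∈ univ.filter (fun i => i ∉ S), T0 i a.1 :=
      Finset.sum_congr rfl fun i hi => hag i a.1 (fun h => (Finset.mem_filter.mp hi).2 h.1)
    show ∑ s : {x // x ∈ S}, T s.1 a.1 = ∑ s : {x // x ∈ S}, T0 s.1 a.1
    omega

theorem g24_ext_res (S : Finset I) (A : Finset J) {T0 T : I → J → ℕ}
    (hag : ∀ i j, ¬ (i ∈ S ∧ j ∈ A) → T i j = T0 i j) :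
    g24_ext S A T0 (g24_res S A T) = T := by
  funext i j
  by_cases h : i ∈ S ∧ j ∈ A
  · exact g24_ext_in S A T0 (g24_res S A T) ⟨i, h.1⟩ ⟨j, h.2⟩
  · rw [g24_ext_out S A T0 _ h, hag i j h]

theorem g24_res_ext (S : Finset I) (A : Finset J) (T0 : I → J → ℕ)
    (U : {x // x ∈ S} → {x // x ∈ A} → ℕ) : g24_res S A (g24_ext S A T0 U) = U := by
  funext s a
  exact g24_ext_in S A T0 U s a

theorem g24_fib_sum {r : I → ℕ} {c : J → ℕ} (S : Finset I) (A : Finset J)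
    (B : Finset (I × J)) (B' : Finset ({x // x ∈ S} × {x // x ∈ A}))
    (hB : B ⊆ S ×ˢ A) (hB' : ∀ s a, (s, a) ∈ B' ↔ (s.1, a.1) ∈ B) {T0 T : I → J → ℕ}
    (hT0 : T0 ∈ TT r c) (hag : ∀ i j, ¬ (i ∈ S ∧ j ∈ A) → T i j = T0 i j)
    (g : (I → J → ℕ) → ℝ) :
    ∑ T' ∈ fib r c B T, g T'
      = ∑ U ∈ fib (g24_row S A T0) (g24_col S A T0) B' (g24_res S A T), g (g24_ext S A T0 U) := by
  have hout : ∀ i j, ¬ (i ∈ S ∧ j ∈ A) → (i, j) ∉ B := by
    intro i j h h'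
    exact h (Finset.mem_product.mp (hB h'))
  have key : ∀ T' ∈ fib r c B T, ∀ i j, ¬ (i ∈ S ∧ j ∈ A) → T' i j = T0 i j := by
    intro T' hT' i j h
    rw [fib, Finset.mem_filter] at hT'
    rw [hT'.2 i j (hout i j h), hag i j h]
  refine Finset.sum_nbij' (fun T' => g24_res S A T') (fun U => g24_ext S A T0 U) ?_ ?_ ?_ ?_ ?_
  · intro T' hT'
    have hk := key T' hT'
    rw [fib, Finset.mem_filter] at hT' ⊢
    refine ⟨g24_res_mem S A hT0 hT'.1 hk, ?_⟩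
    intro s a hsa
    exact hT'.2 s.1 a.1 (fun h => hsa ((hB' s a).mpr h))
  · intro U hU
    rw [fib, Finset.mem_filter] at hU ⊢
    refine ⟨g24_ext_mem S A hT0 hU.1, ?_⟩
    intro i j hij
    by_cases h : i ∈ S ∧ j ∈ A
    · have h1 := hU.2 ⟨i, h.1⟩ ⟨j, h.2⟩ (fun h' => hij ((hB' _ _).mp h'))
      have h2 := g24_ext_in S A T0 U ⟨i, h.1⟩ ⟨j, h.2⟩
      rw [h1] at h2
      exact h2
    · rw [g24_ext_out S A T0 U h, hag i j h]
  · intro T' hT'
    exact g24_ext_res S A (key T' hT')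
  · intro U _
    exact g24_res_ext S A T0 U
  · intro T' hT'
    rw [g24_ext_res S A (key T' hT')]

theorem g24_fib_card {r : I → ℕ} {c : J → ℕ} (S : Finset I) (A : Finset J)
    (B : Finset (I × J)) (B' : Finset ({x // x ∈ S} × {x // x ∈ A}))
    (hB : B ⊆ S ×ˢ A) (hB' : ∀ s a, (s, a) ∈ B' ↔ (s.1, a.1) ∈ B) {T0 T : I → J → ℕ}
    (hT0 : T0 ∈ TT r c) (hag : ∀ i j, ¬ (i ∈ S ∧ j ∈ A) → T i j = T0 i j) :
    ((fib r c B T).card : ℝ)
      = ((fib (g24_row S A T0) (g24_col S A T0) B' (g24_res S A T)).card : ℝ) := by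
  have h := g24_fib_sum S A B B' hB hB' hT0 hag (fun _ => 1)
  simpa using h

theorem g24_CE {r : I → ℕ} {c : J → ℕ} (S : Finset I) (A : Finset J)
    (B : Finset (I × J)) (B' : Finset ({x // x ∈ S} × {x // x ∈ A}))
    (hB : B ⊆ S ×ˢ A) (hB' : ∀ s a, (s, a) ∈ B' ↔ (s.1, a.1) ∈ B) {T0 T : I → J → ℕ}
    (hT0 : T0 ∈ TT r c) (hag : ∀ i j, ¬ (i ∈ S ∧ j ∈ A) → T i j = T0 i j)
    (f : (I → J → ℕ) → ℝ) :
    CE r c B f T = CE (g24_row S A T0) (g24_col S A T0) B' (fun U => f (g24_ext S A T0 U))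
      (g24_res S A T) := by
  rw [CE, CE, g24_fib_sum S A B B' hB hB' hT0 hag, g24_fib_card S A B B' hB hB' hT0 hag]

theorem g24_fib_all {r : I → ℕ} {c : J → ℕ} (S : Finset I) (A : Finset J) {T0 : I → J → ℕ}
    (hT0 : T0 ∈ TT r c) (g : (I → J → ℕ) → ℝ) :
    ∑ T' ∈ fib r c (S ×ˢ A) T0, g T'
      = ∑ U ∈ TT (g24_row S A T0) (g24_col S A T0), g (g24_ext S A T0 U) := by
  rw [g24_fib_sum S A (S ×ˢ A) univ (Finset.Subset.refl _)
    (fun s a => ⟨fun _ => Finset.mem_product.mpr ⟨s.2, a.2⟩, fun _ => Finset.mem_univ _⟩)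
    hT0 (fun _ _ _ => rfl)]
  refine Finset.sum_congr ?_ fun _ _ => rfl
  rw [fib, Finset.filter_true_of_mem]
  intro U _ i j hij
  exact absurd (Finset.mem_univ _) hij

/-- one fibre -/
theorem g24_one {r : I → ℕ} {c : J → ℕ} (S : Finset I) (A : Finset J) {T0 : I → J → ℕ}
    (hT0 : T0 ∈ TT r c) (C : ℝ)
    (h : ∀ g : ({x // x ∈ S} → {x // x ∈ A} → ℕ) → ℝ,
      ∑ T ∈ TT (g24_row S A T0) (g24_col S A T0),
        (g T - (∑ T' ∈ TT (g24_row S A T0) (g24_col S A T0), g T')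
          / ((TT (g24_row S A T0) (g24_col S A T0)).card : ℝ)) ^ 2
      ≤ C * ∑ i : {x // x ∈ S}, ∑ j : {x // x ∈ S}, VV (g24_row S A T0) (g24_col S A T0)
        (({i, j} : Finset {x // x ∈ S}) ×ˢ (univ : Finset {x // x ∈ A})) g)
    (f : (I → J → ℕ) → ℝ) :
    ∑ T ∈ fib r c (S ×ˢ A) T0, (f T - CE r c (S ×ˢ A) f T) ^ 2
      ≤ C * ∑ i ∈ S, ∑ j ∈ S, ∑ T ∈ fib r c (S ×ˢ A) T0,
          (f T - CE r c (({i, j} : Finset I) ×ˢ A) f T) ^ 2 := by
  have h1 := h (fun U => f (g24_ext S A T0 U))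
  have hcard : ((TT (g24_row S A T0) (g24_col S A T0)).card : ℝ)
      = ((fib r c (S ×ˢ A) T0).card : ℝ) := by
    have := g24_fib_all S A hT0 (fun _ => 1)
    simpa using this.symm
  have h2 : ∀ T ∈ fib r c (S ×ˢ A) T0, (f T - CE r c (S ×ˢ A) f T) ^ 2
      = (f T - (∑ T' ∈ fib r c (S ×ˢ A) T0, f T') / ((fib r c (S ×ˢ A) T0).card : ℝ)) ^ 2 := by
    intro T hT
    rw [CE, p3_fib_eq _ hT]
  rw [Finset.sum_congr rfl h2]
  rw [← g24_fib_all S A hT0 f, hcard,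
    ← g24_fib_all S A hT0 (fun T => (f T - (∑ T' ∈ fib r c (S ×ˢ A) T0, f T')
      / ((fib r c (S ×ˢ A) T0).card : ℝ)) ^ 2)] at h1
  refine h1.trans (le_of_eq ?_)
  congr 1
  have h3 : ∀ i j : {x // x ∈ S}, VV (g24_row S A T0) (g24_col S A T0)
        (({i, j} : Finset {x // x ∈ S}) ×ˢ (univ : Finset {x // x ∈ A}))
          (fun U => f (g24_ext S A T0 U))
      = ∑ T ∈ fib r c (S ×ˢ A) T0,
          (f T - CE r c (({i.1, j.1} : Finset I) ×ˢ A) f T) ^ 2 := by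
    intro i j
    rw [g24_fib_all S A hT0, VV]
    refine Finset.sum_congr rfl fun U _ => ?_
    have hsub : (({i.1, j.1} : Finset I) ×ˢ A) ⊆ S ×ˢ A := by
      refine Finset.product_subset_product ?_ (Finset.Subset.refl _)
      intro x hx
      rw [Finset.mem_insert, Finset.mem_singleton] at hx
      rcases hx with rfl | rfl
      · exact i.2
      · exact j.2
    have hiff : ∀ (s : {x // x ∈ S}) (a : {x // x ∈ A}),
        (s, a) ∈ (({i, j} : Finset {x // x ∈ S}) ×ˢ (univ : Finset {x // x ∈ A})) ↔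
          (s.1, a.1) ∈ (({i.1, j.1} : Finset I) ×ˢ A) := by
      intro s a
      rw [Finset.mem_product, Finset.mem_product]
      simp only [Finset.mem_insert, Finset.mem_singleton, Finset.mem_univ, and_true]
      constructor
      · rintro (h' | h')
        · exact ⟨Or.inl (by rw [h']), a.2⟩
        · exact ⟨Or.inr (by rw [h']), a.2⟩
      · rintro ⟨h' | h', _⟩
        · exact Or.inl (Subtype.ext h')
        · exact Or.inr (Subtype.ext h')
    rw [g24_CE S A _ _ hsub hiff hT0 (fun i j h => g24_ext_out S A T0 U h) f, g24_res_ext]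
  rw [Finset.sum_congr rfl fun i _ => Finset.sum_congr rfl fun j _ => h3 i j]
  rw [← Finset.sum_coe_sort S]
  refine Finset.sum_congr rfl fun i _ => ?_
  rw [← Finset.sum_coe_sort S]

theorem g24_rr (r : I → ℕ) (c : J → ℕ) (S : Finset I) (A : Finset J) (C : ℝ)
    (h : ∀ (r' : {x // x ∈ S} → ℕ) (c' : {x // x ∈ A} → ℕ), ∑ i, r' i = sz c' →
      ∀ g : ({x // x ∈ S} → {x // x ∈ A} → ℕ) → ℝ,
      ∑ T ∈ TT r' c', (g T - (∑ T' ∈ TT r' c', g T') / ((TT r' c').card : ℝ)) ^ 2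
        ≤ C * ∑ i, ∑ j, VV r' c' (({i, j} : Finset {x // x ∈ S}) ×ˢ
          (univ : Finset {x // x ∈ A})) g)
    (f : (I → J → ℕ) → ℝ) :
    VV r c (S ×ˢ A) f ≤ C * ∑ i ∈ S, ∑ j ∈ S, VV r c (({i, j} : Finset I) ×ˢ A) f := by
  rw [VV, ← p3_avg (S ×ˢ A) (fun T => (f T - CE r c (S ×ˢ A) f T) ^ 2)]
  have h1 : ∑ T0 ∈ TT r c, (1 / ((fib r c (S ×ˢ A) T0).card : ℝ)) *
      ∑ T ∈ fib r c (S ×ˢ A) T0, (f T - CE r c (S ×ˢ A) f T) ^ 2
      ≤ ∑ T0 ∈ TT r c, (1 / ((fib r c (S ×ˢ A) T0).card : ℝ)) *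
        (C * ∑ i ∈ S, ∑ j ∈ S, ∑ T ∈ fib r c (S ×ˢ A) T0,
          (f T - CE r c (({i, j} : Finset I) ×ˢ A) f T) ^ 2) := by
    refine Finset.sum_le_sum fun T0 hT0 => ?_
    refine mul_le_mul_of_nonneg_left (g24_one S A hT0 C (h _ _ ?_) f) (by positivity)
    simp only [g24_row, g24_col, sz]
    exact Finset.sum_comm
  refine h1.trans (le_of_eq ?_)
  have h2 : ∀ T0 ∈ TT r c, (1 / ((fib r c (S ×ˢ A) T0).card : ℝ)) *
        (C * ∑ i ∈ S, ∑ j ∈ S, ∑ T ∈ fib r c (S ×ˢ A) T0,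
          (f T - CE r c (({i, j} : Finset I) ×ˢ A) f T) ^ 2)
      = C * ∑ i ∈ S, ∑ j ∈ S, (1 / ((fib r c (S ×ˢ A) T0).card : ℝ)) *
          ∑ T ∈ fib r c (S ×ˢ A) T0, (f T - CE r c (({i, j} : Finset I) ×ˢ A) f T) ^ 2 := by
    intro T0 _
    rw [mul_left_comm]
    congr 1
    simp only [Finset.mul_sum]
  rw [Finset.sum_congr rfl h2, ← Finset.mul_sum]
  congr 1
  rw [Finset.sum_comm]
  refine Finset.sum_congr rfl fun i _ => ?_
  rw [Finset.sum_comm]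
  refine Finset.sum_congr rfl fun j _ => ?_
  rw [VV, ← p3_avg (S ×ˢ A)
    (fun T => (f T - CE r c (({i, j} : Finset I) ×ˢ A) f T) ^ 2)]

end CT
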