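import Vale.Agent.CT.BG2A24

/-! # 3 x 3 blocks to 2 x 2 blocks, given the small-table inequality -/

namespace CT

open Finset
open scoped Classical

variable {J : Type} [Fintype J] [DecidableEq J]
variable {I : Type} [Fintype I] [DecidableEq I]

theorem g24_tr_mem {r : I → ℕ} {c : J → ℕ} {T : I → J → ℕ} (hT : T ∈ TT r c) :
    (fun j i => T i j) ∈ TT c r := by
  rw [p3_mem] at hT ⊢
  exact ⟨hT.2, hT.1⟩

theorem g24_tr_sum (r : I → ℕ) (c : J → ℕ) (F : (I → J → ℕ) → ℝ) :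
    ∑ T ∈ TT r c, F T = ∑ U ∈ TT c r, F (fun i j => U j i) := by
  refine Finset.sum_nbij' (fun T j i => T i j) (fun U i j => U j i) ?_ ?_ ?_ ?_ ?_
  · intro T hT
    exact g24_tr_mem hT
  · intro U hU
    exact g24_tr_mem hU
  · intro T _
    rfl
  · intro U _
    rfl
  · intro T _
    rfl

theorem g24_tr_fib (r : I → ℕ) (c : J → ℕ) (B : Finset (I × J)) (B' : Finset (J × I))
    (hB : ∀ i j, (j, i) ∈ B' ↔ (i, j) ∈ B) (U : J → I → ℕ) (F : (I → J → ℕ) → ℝ) :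
    ∑ T ∈ fib r c B (fun i j => U j i), F T = ∑ V ∈ fib c r B' U, F (fun i j => V j i) := by
  refine Finset.sum_nbij' (fun T j i => T i j) (fun U i j => U j i) ?_ ?_ ?_ ?_ ?_
  · intro T hT
    rw [fib, Finset.mem_filter] at hT ⊢
    refine ⟨g24_tr_mem hT.1, ?_⟩
    intro j i hji
    exact hT.2 i j (fun h => hji ((hB i j).mpr h))
  · intro V hV
    rw [fib, Finset.mem_filter] at hV ⊢
    refine ⟨g24_tr_mem hV.1, ?_⟩
    intro i j hij
    exact hV.2 j i (fun h => hij ((hB i j).mp h))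
  · intro T _
    rfl
  · intro U _
    rfl
  · intro T _
    rfl

theorem g24_tr (r : I → ℕ) (c : J → ℕ) (B : Finset (I × J)) (B' : Finset (J × I))
    (hB : ∀ i j, (j, i) ∈ B' ↔ (i, j) ∈ B) (f : (I → J → ℕ) → ℝ) :
    VV r c B f = VV c r B' (fun U => f (fun i j => U j i)) := by
  rw [VV, g24_tr_sum, VV]
  refine Finset.sum_congr rfl fun U _ => ?_
  have h1 : CE r c B f (fun i j => U j i) = CE c r B' (fun U => f (fun i j => U j i)) U := by
    have h2 : ((fib r c B (fun i j => U j i)).card : ℝ) = ((fib c r B' U).card : ℝ) := by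
      have := g24_tr_fib r c B B' hB U (fun _ => 1)
      simpa using this
    rw [CE, CE, g24_tr_fib r c B B' hB U f, h2]
  rw [h1]

theorem g24_tr_prod (r : I → ℕ) (c : J → ℕ) (S : Finset I) (A : Finset J)
    (f : (I → J → ℕ) → ℝ) :
    VV r c (S ×ˢ A) f = VV c r (A ×ˢ S) (fun U => f (fun i j => U j i)) := by
  refine g24_tr r c _ _ (fun i j => ?_) f
  rw [Finset.mem_product, Finset.mem_product]
  exact and_comm

/-- the small-table inequality (rows and columns at most three) with constant `C0` -/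
def Ga24 (C0 : ℝ) : Prop :=
  ∀ (I J : Type) [Fintype I] [DecidableEq I] [Fintype J] [DecidableEq J],
    Fintype.card I ≤ 3 → Fintype.card J ≤ 3 → ∀ (r : I → ℕ) (c : J → ℕ), ∑ i, r i = sz c →
    ∀ f : (I → J → ℕ) → ℝ,
      ∑ T ∈ TT r c, (f T - (∑ T' ∈ TT r c, f T') / ((TT r c).card : ℝ)) ^ 2
        ≤ C0 * ∑ i, ∑ j, VV r c (({i, j} : Finset I) ×ˢ (univ : Finset J)) f

theorem g24_rows {C0 : ℝ} (hga : Ga24 C0) (r : I → ℕ) (c : J → ℕ) (S : Finset I) (A : Finset J)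
    (hS : S.card ≤ 3) (hA : A.card ≤ 3) (f : (I → J → ℕ) → ℝ) :
    VV r c (S ×ˢ A) f ≤ C0 * ∑ i ∈ S, ∑ j ∈ S, VV r c (({i, j} : Finset I) ×ˢ A) f := by
  refine g24_rr r c S A C0 ?_ f
  intro r' c' h g
  exact hga {x // x ∈ S} {x // x ∈ A} (by rw [Fintype.card_coe]; exact hS)
    (by rw [Fintype.card_coe]; exact hA) r' c' h g

theorem g24_cols {C0 : ℝ} (hga : Ga24 C0) (r : I → ℕ) (c : J → ℕ) (S : Finset I) (A : Finset J)
    (hS : S.card ≤ 3) (hA : A.card ≤ 3) (f : (I → J → ℕ) → ℝ) :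
    VV r c (S ×ˢ A) f ≤ C0 * ∑ a ∈ A, ∑ b ∈ A, VV r c (S ×ˢ ({a, b} : Finset J)) f := by
  rw [g24_tr_prod r c S A f]
  refine (g24_rows hga c r A S hA hS _).trans (le_of_eq ?_)
  congr 1
  refine Finset.sum_congr rfl fun a _ => Finset.sum_congr rfl fun b _ => ?_
  rw [g24_tr_prod r c S {a, b} f]

theorem g24_block {C0 : ℝ} (h0 : 0 ≤ C0) (hga : Ga24 C0) (r : I → ℕ) (c : J → ℕ)
    (S : Finset I) (A : Finset J) (hS : S.card ≤ 3) (hA : A.card ≤ 3)
    (f : (I → J → ℕ) → ℝ) :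
    VV r c (S ×ˢ A) f ≤ C0 ^ 2 * ∑ i ∈ S, ∑ j ∈ S, ∑ a ∈ A, ∑ b ∈ A,
      VV r c (({i, j} : Finset I) ×ˢ ({a, b} : Finset J)) f := by
  refine (g24_rows hga r c S A hS hA f).trans ?_
  have h1 : ∑ i ∈ S, ∑ j ∈ S, VV r c (({i, j} : Finset I) ×ˢ A) f
      ≤ ∑ i ∈ S, ∑ j ∈ S, C0 * ∑ a ∈ A, ∑ b ∈ A,
        VV r c (({i, j} : Finset I) ×ˢ ({a, b} : Finset J)) f := by
    refine Finset.sum_le_sum fun i _ => Finset.sum_le_sum fun j _ => ?_
    refine g24_cols hga r c {i, j} A ?_ hA f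
    exact Finset.card_le_two.trans (by norm_num)
  refine (mul_le_mul_of_nonneg_left h1 h0).trans (le_of_eq ?_)
  simp only [← Finset.mul_sum]
  ring

/-- sums over a triple -/
theorem g24_triple {α : Type} [DecidableEq α] (h : α → ℝ) (hh : ∀ x, 0 ≤ h x) (i j k : α) :
    ∑ x ∈ ({i, j, k} : Finset α), h x ≤ h i + h j + h k := by
  have h1 : ∀ (s : Finset α) (x : α), ∑ y ∈ insert x s, h y ≤ h x + ∑ y ∈ s, h y := by
    intro s x
    by_cases hx : x ∈ s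
    · rw [Finset.insert_eq_of_mem hx]
      linarith [hh x]
    · rw [Finset.sum_insert hx]
  have h2 := h1 {j, k} i
  have h3 := h1 {k} j
  rw [Finset.sum_singleton] at h3
  linarith

theorem g24_triple_sum {α : Type} [Fintype α] [DecidableEq α] (h : α → ℝ) (hh : ∀ x, 0 ≤ h x) :
    ∑ i : α, ∑ j : α, ∑ k : α, ∑ x ∈ ({i, j, k} : Finset α), h x
      ≤ 3 * (Fintype.card α : ℝ) ^ 2 * ∑ x, h x := by
  have h1 : ∑ i : α, ∑ j : α, ∑ k : α, ∑ x ∈ ({i, j, k} : Finset α), h x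
      ≤ ∑ i : α, ∑ j : α, ∑ k : α, (h i + h j + h k) :=
    Finset.sum_le_sum fun i _ => Finset.sum_le_sum fun j _ => Finset.sum_le_sum fun k _ =>
      g24_triple h hh i j k
  refine h1.trans (le_of_eq ?_)
  simp only [Finset.sum_add_distrib, Finset.sum_const, Finset.card_univ, nsmul_eq_mul,
    ← Finset.mul_sum]
  ring

/-- Poincare inequality for the 2 x 2 blocks -/
def P2x24 (r : I → ℕ) (c : J → ℕ) (C : ℝ) : Prop :=
  ∀ f : (I → J → ℕ) → ℝ,
    ((TT r c).card : ℝ) * (∑ T ∈ TT r c, f T ^ 2) - (∑ T ∈ TT r c, f T) ^ 2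
      ≤ C * ((TT r c).card : ℝ) *
        ∑ i : I, ∑ j : I, ∑ a : J, ∑ b : J,
          VV r c (({i, j} : Finset I) ×ˢ ({a, b} : Finset J)) f

theorem g24_sum3 {C0 : ℝ} (h0 : 0 ≤ C0) (hga : Ga24 C0) (r : I → ℕ) (c : J → ℕ)
    (f : (I → J → ℕ) → ℝ) :
    ∑ i : I, ∑ j : I, ∑ k : I, ∑ a : J, ∑ b : J, ∑ d : J,
          VV r c (({i, j, k} : Finset I) ×ˢ ({a, b, d} : Finset J)) f
      ≤ C0 ^ 2 * (9 * (Fintype.card I : ℝ) ^ 2 * (Fintype.card J : ℝ) ^ 2) *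
        ∑ i : I, ∑ j : I, ∑ a : J, ∑ b : J,
          VV r c (({i, j} : Finset I) ×ˢ ({a, b} : Finset J)) f := by
  set g : I → I → J → J → ℝ := fun i j a b =>
    VV r c (({i, j} : Finset I) ×ˢ ({a, b} : Finset J)) f with hg
  have hg0 : ∀ i j a b, 0 ≤ g i j a b := fun i j a b => p3_VV_nonneg r c _ f
  -- for fixed columns
  have step : ∀ (S : Finset I) (a b d : J), S.card ≤ 3 →
      VV r c (S ×ˢ ({a, b, d} : Finset J)) f
      ≤ C0 ^ 2 * ∑ i ∈ S, ∑ a' ∈ ({a, b, d} : Finset J), ∑ j : I, ∑ b' : J, g i j a' b' := by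
    intro S a b d hS
    refine (g24_block h0 hga r c S {a, b, d} hS Finset.card_le_three f).trans ?_
    refine mul_le_mul_of_nonneg_left ?_ (sq_nonneg C0)
    refine Finset.sum_le_sum fun i _ => ?_
    have e1 : ∑ j ∈ S, ∑ a' ∈ ({a, b, d} : Finset J), ∑ b' ∈ ({a, b, d} : Finset J), g i j a' b'
        ≤ ∑ j : I, ∑ a' ∈ ({a, b, d} : Finset J), ∑ b' : J, g i j a' b' := by
      refine (Finset.sum_le_sum fun j _ => Finset.sum_le_sum fun a' _ =>
        Finset.sum_le_sum_of_subset_of_nonneg (Finset.subset_univ _)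
          fun b' _ _ => hg0 i j a' b').trans ?_
      exact Finset.sum_le_sum_of_subset_of_nonneg (Finset.subset_univ _) fun j _ _ =>
        Finset.sum_nonneg fun a' _ => Finset.sum_nonneg fun b' _ => hg0 i j a' b'
    refine e1.trans (le_of_eq ?_)
    exact Finset.sum_comm
  set H : I → J → ℝ := fun i a => ∑ j : I, ∑ b : J, g i j a b with hH
  have hH0 : ∀ i a, 0 ≤ H i a := fun i a =>
    Finset.sum_nonneg fun j _ => Finset.sum_nonneg fun b _ => hg0 i j a b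
  have s1 : ∑ i : I, ∑ j : I, ∑ k : I, ∑ a : J, ∑ b : J, ∑ d : J,
          VV r c (({i, j, k} : Finset I) ×ˢ ({a, b, d} : Finset J)) f
      ≤ ∑ i : I, ∑ j : I, ∑ k : I, ∑ a : J, ∑ b : J, ∑ d : J,
        C0 ^ 2 * ∑ x ∈ ({i, j, k} : Finset I), ∑ y ∈ ({a, b, d} : Finset J), H x y :=
    Finset.sum_le_sum fun i _ => Finset.sum_le_sum fun j _ => Finset.sum_le_sum fun k _ =>
      Finset.sum_le_sum fun a _ => Finset.sum_le_sum fun b _ => Finset.sum_le_sum fun d _ =>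
        step {i, j, k} a b d Finset.card_le_three
  have s2 : ∀ i j k : I, ∑ a : J, ∑ b : J, ∑ d : J,
        C0 ^ 2 * ∑ x ∈ ({i, j, k} : Finset I), ∑ y ∈ ({a, b, d} : Finset J), H x y
      ≤ C0 ^ 2 * (3 * (Fintype.card J : ℝ) ^ 2) *
        ∑ x ∈ ({i, j, k} : Finset I), ∑ y : J, H x y := by
    intro i j k
    have e1 : ∀ a b d : J, ∑ x ∈ ({i, j, k} : Finset I), ∑ y ∈ ({a, b, d} : Finset J), H x y
        = ∑ y ∈ ({a, b, d} : Finset J), ∑ x ∈ ({i, j, k} : Finset I), H x y :=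
      fun a b d => Finset.sum_comm
    have e2 := g24_triple_sum (fun y => ∑ x ∈ ({i, j, k} : Finset I), H x y)
      (fun y => Finset.sum_nonneg fun x _ => hH0 x y)
    have e3 : ∑ y : J, ∑ x ∈ ({i, j, k} : Finset I), H x y
        = ∑ x ∈ ({i, j, k} : Finset I), ∑ y : J, H x y := Finset.sum_comm
    rw [e3] at e2
    simp only [e1]
    simp only [← Finset.mul_sum]
    rw [mul_assoc (C0 ^ 2)]
    exact mul_le_mul_of_nonneg_left e2 (sq_nonneg C0)
  have s3 : ∑ i : I, ∑ j : I, ∑ k : I, ∑ x ∈ ({i, j, k} : Finset I), ∑ y : J, H x y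
      ≤ 3 * (Fintype.card I : ℝ) ^ 2 * ∑ x : I, ∑ y : J, H x y :=
    g24_triple_sum (fun x => ∑ y : J, H x y) (fun x => Finset.sum_nonneg fun y _ => hH0 x y)
  have s4 : ∑ x : I, ∑ y : J, H x y = ∑ i : I, ∑ j : I, ∑ a : J, ∑ b : J, g i j a b := by
    refine Finset.sum_congr rfl fun i _ => ?_
    exact Finset.sum_comm
  refine s1.trans ?_
  refine (Finset.sum_le_sum fun i _ => Finset.sum_le_sum fun j _ =>
    Finset.sum_le_sum fun k _ => s2 i j k).trans ?_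
  simp only [← Finset.mul_sum]
  have hc : 0 ≤ C0 ^ 2 * (3 * (Fintype.card J : ℝ) ^ 2) := by positivity
  refine (mul_le_mul_of_nonneg_left s3 hc).trans (le_of_eq ?_)
  rw [s4]
  ring

theorem p2_of_p3_24 {C0 : ℝ} (h0 : 0 ≤ C0) (hga : Ga24 C0) {r : I → ℕ} {c : J → ℕ} {C : ℝ}
    (hC : 0 ≤ C) (h : P3 r c C) :
    P2x24 r c (C * (C0 ^ 2 * (9 * (Fintype.card I : ℝ) ^ 2 * (Fintype.card J : ℝ) ^ 2))) := by
  intro f
  refine (h f).trans ?_
  have h1 : 0 ≤ C * ((TT r c).card : ℝ) := mul_nonneg hC (Nat.cast_nonneg _)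
  refine (mul_le_mul_of_nonneg_left (g24_sum3 h0 hga r c f) h1).trans (le_of_eq ?_)
  ring

end CT
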