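import Vale.Agent.CT.GC25

namespace CT

open Finset
open scoped Classical

variable {J : Type} [Fintype J] [DecidableEq J]

/-- Cauchy-Schwarz: `n (avg - w)^2 ≤ ∑ (U - w)^2` -/
theorem jen25 {α : Type} (A : Finset α) (U : α → ℝ) (w : ℝ) (hA : 0 < (A.card : ℝ)) :
    (A.card : ℝ) * ((∑ x ∈ A, U x) / A.card - w) ^ 2 ≤ ∑ x ∈ A, (U x - w) ^ 2 := by
  set m := (∑ x ∈ A, U x) / (A.card : ℝ) with hm
  have h1 : ∑ x ∈ A, (U x - m) = 0 := by
    rw [Finset.sum_sub_distrib, Finset.sum_const, nsmul_eq_mul, hm]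
    field_simp
    ring
  have h2 : ∑ x ∈ A, (U x - w) ^ 2 = ∑ x ∈ A, (U x - m) ^ 2 + (A.card : ℝ) * (m - w) ^ 2 := by
    have : ∀ x ∈ A, (U x - w) ^ 2 = (U x - m) ^ 2 + (2 * (m - w) * (U x - m) + (m - w) ^ 2) := by
      intro x _; ring
    rw [Finset.sum_congr rfl this, Finset.sum_add_distrib, Finset.sum_add_distrib,
      ← Finset.mul_sum, h1, Finset.sum_const, nsmul_eq_mul]
    ring
  rw [h2]
  have := Finset.sum_nonneg (fun x (_ : x ∈ A) => sq_nonneg (U x - m))
  linarith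

/-- Doeblin step -/
theorem doeb25 (c : J → ℕ) (r2 r3 : ℕ) (t : J → ℕ) (C : ℝ) (hC : 0 ≤ C)
    (h1 : ∀ x ∈ box c r3, ((box (c - x) r2).card : ℝ)
      ≤ C * (((box (c - x) r2).filter (fun y => y ≤ t)).card : ℝ))
    (h2 : ((box c r3).card : ℝ) ≤ C * ((box (c - t) r3).card : ℝ))
    (h3 : 0 < ((box (c - t) r3).card : ℝ)) (U W : (J → ℕ) → ℝ) :
    ∃ m : ℝ, ∑ x ∈ box c r3, ∑ _y ∈ box (c - x) r2, (U x - m) ^ 2
      ≤ C * (2 + 2 * C) * ∑ x ∈ box c r3, ∑ y ∈ box (c - x) r2, (U x - W y) ^ 2 := by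
  set D := ∑ x ∈ box c r3, ∑ y ∈ box (c - x) r2, (U x - W y) ^ 2 with hD
  set A := box (c - t) r3 with hA
  set m := (∑ x ∈ A, U x) / (A.card : ℝ) with hm
  refine ⟨m, ?_⟩
  -- step 1: rows `y ≤ t`
  have s1 : (A.card : ℝ) * ∑ y ∈ (box c r2).filter (fun y => y ≤ t), (m - W y) ^ 2 ≤ D := by
    rw [hD, hd_swap c r2 r3, Finset.mul_sum]
    calc ∑ y ∈ (box c r2).filter (fun y => y ≤ t), (A.card : ℝ) * (m - W y) ^ 2
        ≤ ∑ y ∈ (box c r2).filter (fun y => y ≤ t), ∑ x ∈ box (c - y) r3, (U x - W y) ^ 2 := by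
          refine Finset.sum_le_sum fun y hy => ?_
          have hyt := (Finset.mem_filter.1 hy).2
          refine (jen25 A U (W y) h3).trans ?_
          refine Finset.sum_le_sum_of_subset_of_nonneg ?_ (fun _ _ _ => sq_nonneg _)
          intro x hx
          rw [hA, mem_box] at hx
          rw [mem_box]
          refine ⟨fun j => ?_, hx.2⟩
          have a1 : x j ≤ c j - t j := hx.1 j
          have a2 : y j ≤ t j := hyt j
          show x j ≤ c j - y j
          omega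
      _ ≤ _ := Finset.sum_le_sum_of_subset_of_nonneg (Finset.filter_subset _ _)
          (fun _ _ _ => Finset.sum_nonneg fun _ _ => sq_nonneg _)
  -- step 2
  have s2 : ∑ x ∈ box c r3, ∑ y ∈ (box (c - x) r2).filter (fun y => y ≤ t), (U x - m) ^ 2
      ≤ (2 + 2 * C) * D := by
    have t1 : ∑ x ∈ box c r3, ∑ y ∈ (box (c - x) r2).filter (fun y => y ≤ t), (U x - m) ^ 2
        ≤ ∑ x ∈ box c r3, ∑ y ∈ (box (c - x) r2).filter (fun y => y ≤ t),
          (2 * (U x - W y) ^ 2 + 2 * (m - W y) ^ 2) := by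
      refine Finset.sum_le_sum fun x _ => Finset.sum_le_sum fun y _ => ?_
      nlinarith [sq_nonneg ((U x - W y) + (m - W y))]
    have t2 : ∑ x ∈ box c r3, ∑ y ∈ (box (c - x) r2).filter (fun y => y ≤ t), (U x - W y) ^ 2
        ≤ D := by
      refine Finset.sum_le_sum fun x _ => ?_
      exact Finset.sum_le_sum_of_subset_of_nonneg (Finset.filter_subset _ _)
          (fun _ _ _ => sq_nonneg _)
    have t3 : ∑ x ∈ box c r3, ∑ y ∈ (box (c - x) r2).filter (fun y => y ≤ t), (m - W y) ^ 2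
        ≤ C * D := by
      have e1 : ∑ x ∈ box c r3, ∑ y ∈ (box (c - x) r2).filter (fun y => y ≤ t), (m - W y) ^ 2
          = ∑ y ∈ box c r2, ∑ x ∈ box (c - y) r3, (if y ≤ t then (m - W y) ^ 2 else 0) := by
        rw [← hd_swap c r2 r3]
        refine Finset.sum_congr rfl fun x _ => ?_
        rw [Finset.sum_filter]
      have e2 : ∑ y ∈ box c r2, ∑ x ∈ box (c - y) r3, (if y ≤ t then (m - W y) ^ 2 else 0)
          = ∑ y ∈ (box c r2).filter (fun y => y ≤ t),
            ((box (c - y) r3).card : ℝ) * (m - W y) ^ 2 := by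
        rw [Finset.sum_filter]
        refine Finset.sum_congr rfl fun y _ => ?_
        rw [Finset.sum_const, nsmul_eq_mul]
        split_ifs with h
        · rfl
        · ring
      rw [e1, e2]
      calc ∑ y ∈ (box c r2).filter (fun y => y ≤ t), ((box (c - y) r3).card : ℝ) * (m - W y) ^ 2
          ≤ ∑ y ∈ (box c r2).filter (fun y => y ≤ t), (C * (A.card : ℝ)) * (m - W y) ^ 2 := by
            refine Finset.sum_le_sum fun y _ => ?_
            refine mul_le_mul_of_nonneg_right ?_ (sq_nonneg _)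
            refine le_trans ?_ h2
            have : box (c - y) r3 ⊆ box c r3 := by
              intro x hx
              rw [mem_box] at hx ⊢
              refine ⟨fun j => ?_, hx.2⟩
              have a1 : x j ≤ c j - y j := hx.1 j
              show x j ≤ c j
              omega
            exact_mod_cast Finset.card_le_card this
        _ = C * ((A.card : ℝ) * ∑ y ∈ (box c r2).filter (fun y => y ≤ t), (m - W y) ^ 2) := by
            rw [← Finset.mul_sum]; ring
        _ ≤ C * D := mul_le_mul_of_nonneg_left s1 hC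
    refine t1.trans ?_
    simp only [Finset.sum_add_distrib, ← Finset.mul_sum]
    linarith
  calc ∑ x ∈ box c r3, ∑ _y ∈ box (c - x) r2, (U x - m) ^ 2
      ≤ ∑ x ∈ box c r3, C * ∑ y ∈ (box (c - x) r2).filter (fun y => y ≤ t), (U x - m) ^ 2 := by
        refine Finset.sum_le_sum fun x hx => ?_
        rw [Finset.sum_const, Finset.sum_const, nsmul_eq_mul, nsmul_eq_mul, ← mul_assoc]
        exact mul_le_mul_of_nonneg_right (h1 x hx) (sq_nonneg _)
    _ = C * ∑ x ∈ box c r3, ∑ y ∈ (box (c - x) r2).filter (fun y => y ≤ t), (U x - m) ^ 2 := by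
        rw [Finset.mul_sum]
    _ ≤ C * ((2 + 2 * C) * D) := mul_le_mul_of_nonneg_left s2 hC
    _ = _ := by ring

theorem filt25 (c x t : J → ℕ) (r2 : ℕ) :
    (box (c - x) r2).filter (fun y => y ≤ t) = box (fun j => min (c j - x j) (t j)) r2 := by
  ext y
  rw [mem_filter, mem_box, mem_box]
  constructor
  · rintro ⟨⟨h1, h2⟩, h3⟩
    refine ⟨fun j => ?_, h2⟩
    exact le_min (h1 j) (h3 j)
  · rintro ⟨h1, h2⟩
    refine ⟨⟨fun j => ?_, h2⟩, fun j => ?_⟩
    · exact (h1 j).trans (min_le_left _ _)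
    · exact (h1 j).trans (min_le_right _ _)

theorem divle25 (a M : ℕ) (hM : 0 < M) : ((a / M : ℕ) : ℝ) ≤ (a : ℝ) / M := by
  exact Nat.cast_div_le

theorem divge25 (a M : ℕ) (hM : 0 < M) : (a : ℝ) / M - 1 ≤ ((a / M : ℕ) : ℝ) := by
  have h5 : a < M * (a / M + 1) := Nat.lt_mul_div_succ _ hM
  have h6 : (a : ℝ) < (M : ℝ) * (((a / M : ℕ) : ℝ) + 1) := by exact_mod_cast h5
  have hMr : (0 : ℝ) < M := by exact_mod_cast hM
  rw [sub_le_iff_le_add, div_le_iff₀ hMr]
  nlinarith

theorem max25 (hJ : Fintype.card J ≤ 3) (S : J → ℕ) (hS : 0 < sz S) :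
    ∃ j0, (∀ j, S j ≤ S j0) ∧ sz S ≤ 3 * S j0 := by
  have hne : (univ : Finset J).Nonempty := by
    by_contra h
    rw [Finset.not_nonempty_iff_eq_empty] at h
    rw [sz, h] at hS
    simp at hS
  obtain ⟨j0, _, h0⟩ := Finset.exists_max_image univ S hne
  refine ⟨j0, fun j => h0 j (mem_univ j), ?_⟩
  have : sz S ≤ Fintype.card J * S j0 := by
    rw [sz]
    refine (Finset.sum_le_card_nsmul univ S (S j0) (fun j hj => h0 j hj)).trans ?_
    rw [smul_eq_mul, Finset.card_univ]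
  exact this.trans (Nat.mul_le_mul_right _ hJ)

theorem szsub25 (c x : J → ℕ) (r : ℕ) (hx : x ∈ box c r) : sz (c - x) + r = sz c := by
  rw [mem_box] at hx
  rw [← hx.2]
  exact fl_sz_sub hx.1

/-- thresholds -/
theorem thr25 (hJ : Fintype.card J ≤ 3) (c : J → ℕ) (r1 r2 r3 : ℕ) (h : sz c = r1 + r2 + r3)
    (h12 : r2 ≤ r1) (h23 : r3 ≤ r2) :
    ∃ t : J → ℕ, (∀ x ∈ box c r3, ((box (c - x) r2).card : ℝ)
      ≤ 46656 * (((box (c - x) r2).filter (fun y => y ≤ t)).card : ℝ)) ∧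
      ((box c r3).card : ℝ) ≤ 46656 * ((box (c - t) r3).card : ℝ) := by
  by_cases hN : sz c ≤ 215
  · obtain ⟨t, ht⟩ := box_nonempty (y := c) (r := r2 + r3) (by omega)
    have ht' := mem_box.1 ht
    refine ⟨t, fun x hx => ?_, ?_⟩
    · rw [filt25]
      have h1 := szsub25 c x r3 hx
      refine small25 hJ _ _ r2 (by omega) ?_
      have h2 : sz t ≤ sz (fun j => min (c j - x j) (t j)) + sz x := by
        rw [sz, sz, sz, ← Finset.sum_add_distrib]
        refine Finset.sum_le_sum fun j _ => ?_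
        have a1 : t j ≤ c j := ht'.1 j
        omega
      have h3 := (mem_box.1 hx).2
      have h4 := ht'.2
      omega
    · have h1 := szsub25 c t (r2 + r3) ht
      exact small25 hJ _ _ r3 hN (by omega)
  · have hM1 : 144 ≤ r1 + r2 := by omega
    have hM0 : 0 < r1 + r2 := by omega
    have hMr : (0 : ℝ) < ((r1 + r2 : ℕ) : ℝ) := by exact_mod_cast hM0
    have hr21 : (r2 : ℝ) ≤ r1 := by exact_mod_cast h12
    have hr32 : (r3 : ℝ) ≤ r2 := by exact_mod_cast h23
    have hr3 : (0 : ℝ) ≤ r3 := Nat.cast_nonneg _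
    have hhalf : (r2 : ℝ) / ((r1 + r2 : ℕ) : ℝ) ≤ 1 / 2 := by
      rw [div_le_div_iff₀ hMr (by norm_num)]
      push_cast
      linarith
    refine ⟨fun j => r2 * c j / (r1 + r2) + c j / 12, fun x hx => ?_, ?_⟩
    · rw [filt25]
      have h1 := szsub25 c x r3 hx
      have hS : sz (c - x) = r1 + r2 := by omega
      obtain ⟨j0, hj0, hj1⟩ := max25 hJ (c - x) (by omega)
      have hle : ∀ j, (c - x) j ≤ c j := fun j => Nat.sub_le _ _
      have hS48 : 48 ≤ (c - x) j0 := by omega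
      refine (cl25 hJ (c - x) (fun j => min (c j - x j) (r2 * c j / (r1 + r2) + c j / 12)) r2
        (r1 + r2) hS hM0 j0 hj0 ?_ ?_).trans ?_
      · intro j
        refine le_min ?_ ?_
        · show r2 * (c - x) j / (r1 + r2) + min ((c - x) j) r2 / 12 ≤ (c - x) j
          have q1 : (r1 + r2) * (r2 * (c - x) j / (r1 + r2)) ≤ r2 * (c - x) j :=
            Nat.mul_div_le _ _
          have q2 : 2 * (r2 * (c - x) j / (r1 + r2)) ≤ (c - x) j := by
            have : (r1 + r2) * (2 * (r2 * (c - x) j / (r1 + r2))) ≤ (r1 + r2) * (c - x) j := by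
              nlinarith
            exact Nat.le_of_mul_le_mul_left this hM0
          omega
        · have q1 : r2 * (c - x) j / (r1 + r2) ≤ r2 * c j / (r1 + r2) :=
            Nat.div_le_div_right (Nat.mul_le_mul_left _ (hle j))
          have := hle j
          omega
      · have hSr : (48 : ℝ) ≤ ((c - x) j0 : ℕ) := by exact_mod_cast hS48
        have e0 : (r2 : ℝ) * ((c - x) j0 : ℕ) / ((r1 + r2 : ℕ) : ℝ)
            = (r2 : ℝ) / ((r1 + r2 : ℕ) : ℝ) * ((c - x) j0 : ℕ) := by ring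
        have e1 : (r2 : ℝ) * ((c - x) j0 : ℕ) / ((r1 + r2 : ℕ) : ℝ) ≤ ((c - x) j0 : ℕ) / 2 := by
          rw [e0]; nlinarith
        have e2 : (r2 : ℝ) * ((c - x) j0 : ℕ) / ((r1 + r2 : ℕ) : ℝ)
            ≤ (r2 : ℝ) * (c j0 : ℕ) / ((r1 + r2 : ℕ) : ℝ) := by
          refine div_le_div_of_nonneg_right ?_ hMr.le
          refine mul_le_mul_of_nonneg_left ?_ (Nat.cast_nonneg _)
          exact_mod_cast hle j0
        have e3 := divge25 (r2 * c j0) (r1 + r2) hM0
        have e4 := divge25 (c j0) 12 (by norm_num)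
        have e5 : (((c - x) j0 : ℕ) : ℝ) ≤ (c j0 : ℝ) := by exact_mod_cast hle j0
        rw [Nat.cast_min]
        refine le_min ?_ ?_
        · have : ((c j0 - x j0 : ℕ) : ℝ) = (((c - x) j0 : ℕ) : ℝ) := rfl
          rw [this]
          linarith
        · push_cast at e2 e3 e4 e5 hSr ⊢
          linarith
      · have : (0 : ℝ) ≤ ((box (fun j => min (c j - x j) (r2 * c j / (r1 + r2) + c j / 12))
          r2).card : ℝ) := Nat.cast_nonneg _
        nlinarith
    · have hN0 : 0 < sz c := by omega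
      obtain ⟨j0, hj0, hj1⟩ := max25 hJ c hN0
      have hNr : (0 : ℝ) < (sz c : ℝ) := by exact_mod_cast hN0
      have hc72 : 72 ≤ c j0 := by omega
      have hkey : (r3 : ℝ) / (sz c : ℝ) + (r2 : ℝ) / ((r1 + r2 : ℕ) : ℝ) + 1 / 6 ≤ 1 := by
        rw [div_add_div _ _ hNr.ne' hMr.ne', div_add_div _ _ (by positivity) (by norm_num),
          div_le_one (by positivity)]
        rw [h]
        push_cast
        nlinarith [mul_nonneg (sub_nonneg.2 hr21) hr3, mul_nonneg (sub_nonneg.2 hr32) hr3,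
          mul_nonneg (sub_nonneg.2 hr21) (sub_nonneg.2 hr32),
          mul_nonneg (sub_nonneg.2 hr21) (sub_nonneg.2 hr21),
          mul_nonneg (sub_nonneg.2 hr32) (sub_nonneg.2 hr32), mul_nonneg hr3 hr3]
      have hall : ∀ j, (r3 : ℝ) * (c j) / (sz c : ℝ) + (r2 : ℝ) * (c j) / ((r1 + r2 : ℕ) : ℝ)
          + (c j : ℝ) / 6 ≤ c j := by
        intro j
        have h0 : (0 : ℝ) ≤ c j := Nat.cast_nonneg _
        have := mul_le_mul_of_nonneg_right hkey h0
        have e : ((r3 : ℝ) / (sz c : ℝ) + (r2 : ℝ) / ((r1 + r2 : ℕ) : ℝ) + 1 / 6) * (c j : ℝ)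
          = (r3 : ℝ) * (c j) / (sz c : ℝ) + (r2 : ℝ) * (c j) / ((r1 + r2 : ℕ) : ℝ)
          + (c j : ℝ) / 6 := by ring
        linarith
      refine (cl25 hJ c (c - fun j => r2 * c j / (r1 + r2) + c j / 12) r3
        (sz c) rfl hN0 j0 hj0 ?_ ?_).trans ?_
      · intro j
        show _ ≤ c j - (r2 * c j / (r1 + r2) + c j / 12)
        have g1 := divle25 (r3 * c j) (sz c) hN0
        have g2 := divle25 (r2 * c j) (r1 + r2) hM0
        have g3 := divle25 (c j) 12 (by norm_num)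
        have g4 : ((min (c j) r3 / 12 : ℕ) : ℝ) ≤ (c j : ℝ) / 12 := by
          refine (divle25 _ 12 (by norm_num)).trans ?_
          have : ((min (c j) r3 : ℕ) : ℝ) ≤ c j := by exact_mod_cast min_le_left _ _
          push_cast at this ⊢
          linarith
        have g5 := hall j
        have g6 : ((r3 * c j / sz c + min (c j) r3 / 12 + (r2 * c j / (r1 + r2) + c j / 12) : ℕ) : ℝ)
            ≤ (c j : ℝ) := by
          push_cast at g1 g2 g3 g4 g5 ⊢
          linarith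
        have g7 : r3 * c j / sz c + min (c j) r3 / 12 + (r2 * c j / (r1 + r2) + c j / 12) ≤ c j := by
          exact_mod_cast g6
        omega
      · show _ ≤ ((c j0 - (r2 * c j0 / (r1 + r2) + c j0 / 12) : ℕ) : ℝ)
        have g2 := divle25 (r2 * c j0) (r1 + r2) hM0
        have g3 := divle25 (c j0) 12 (by norm_num)
        have g5 := hall j0
        have g8 : (72 : ℝ) ≤ c j0 := by exact_mod_cast hc72
        have g9 : (0 : ℝ) ≤ (r3 : ℝ) * (c j0) / (sz c : ℝ) := by positivity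
        have g6 : ((r2 * c j0 / (r1 + r2) + c j0 / 12 : ℕ) : ℝ) ≤ (c j0 : ℝ) := by
          push_cast at g2 g3 g5 ⊢
          linarith
        have g7 : r2 * c j0 / (r1 + r2) + c j0 / 12 ≤ c j0 := by exact_mod_cast g6
        rw [Nat.cast_sub g7]
        push_cast at g2 g3 g5 ⊢
        linarith
      · have : (0 : ℝ) ≤ ((box (c - fun j => r2 * c j / (r1 + r2) + c j / 12)
          r3).card : ℝ) := Nat.cast_nonneg _
        nlinarith

theorem core25 (hJ : Fintype.card J ≤ 3) (c : J → ℕ) (r1 r2 r3 : ℕ) (h : sz c = r1 + r2 + r3)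
    (h12 : r2 ≤ r1) (h23 : r3 ≤ r2) (U W : (J → ℕ) → ℝ) :
    ∃ m : ℝ, ∑ x ∈ box c r3, ∑ _y ∈ box (c - x) r2, (U x - m) ^ 2
      ≤ 10 ^ 10 * ∑ x ∈ box c r3, ∑ y ∈ box (c - x) r2, (U x - W y) ^ 2 := by
  obtain ⟨t, h1, h2⟩ := thr25 hJ c r1 r2 r3 h h12 h23
  have h3 : 0 < ((box (c - t) r3).card : ℝ) := by
    have h4 : 0 < ((box c r3).card : ℝ) := by
      exact_mod_cast Finset.card_pos.mpr (box_nonempty (y := c) (r := r3) (by omega))
    nlinarith
  obtain ⟨m, hm⟩ := doeb25 c r2 r3 t 46656 (by norm_num) h1 h2 h3 U W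
  refine ⟨m, hm.trans ?_⟩
  refine mul_le_mul_of_nonneg_right (by norm_num) ?_
  exact Finset.sum_nonneg fun _ _ => Finset.sum_nonneg fun _ _ => sq_nonneg _

end CT
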