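import Vale.Agent.CT.Defs

/-! # Reindexing lemmas and counting in boxes (piece RX) -/

namespace CT

open Finset
open scoped Classical

variable {J : Type} [Fintype J] [DecidableEq J]

theorem mem_box {s : J → ℕ} {r : ℕ} {x : J → ℕ} : x ∈ box s r ↔ x ≤ s ∧ sz x = r := by
  simp [box]

theorem e_le_iff {b : J} {x : J → ℕ} : e b ≤ x ↔ 0 < x b := by
  constructor
  · intro h
    have := h b
    simp only [e, Pi.single_eq_same] at this
    omega
  · intro h j
    by_cases hj : j = b
    · subst hj
      simp only [e, Pi.single_eq_same]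
      omega
    · simp only [e, Pi.single_eq_of_ne hj]
      omega

theorem mem_sp {x : J → ℕ} {b : J} : b ∈ sp x ↔ 0 < x b := by simp [sp]

theorem sz_add (x y : J → ℕ) : sz (x + y) = sz x + sz y := by
  simp only [sz, Pi.add_apply, Finset.sum_add_distrib]

theorem sz_e (b : J) : sz (e b) = 1 := by
  simp only [sz, e]
  rw [Finset.sum_pi_single']
  simp

theorem sz_sub_add {x y : J → ℕ} (h : y ≤ x) : sz (x - y) + sz y = sz x := by
  rw [← sz_add, tsub_add_cancel_of_le h]

theorem sz_sub {x y : J → ℕ} (h : y ≤ x) : sz (x - y) = sz x - sz y := by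
  have := sz_sub_add h
  omega

theorem sz_mono {x y : J → ℕ} (h : x ≤ y) : sz x ≤ sz y := by
  have := sz_sub_add h
  omega

/-- general reindexing -/
theorem reidx_gen (s v : J → ℕ) (r : ℕ) (f : (J → ℕ) → ℝ) :
    (∑ x ∈ box s r, if v ≤ s - x then f x else 0)
      = ∑ w ∈ box s (r + sz v), if v ≤ w then f (w - v) else 0 := by
  rw [← Finset.sum_filter, ← Finset.sum_filter]
  refine Finset.sum_nbij' (fun x => x + v) (fun w => w - v) ?_ ?_ ?_ ?_ ?_
  · intro x hx
    rw [Finset.mem_filter, mem_box] at hx ⊢
    obtain ⟨⟨h1, h2⟩, h3⟩ := hx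
    refine ⟨⟨fun j => ?_, by rw [sz_add, h2]⟩, fun j => ?_⟩
    · have a1 := h1 j
      have a2 := h3 j
      simp only [Pi.sub_apply, Pi.add_apply] at *
      omega
    · simp only [Pi.add_apply]
      omega
  · intro w hw
    rw [Finset.mem_filter, mem_box] at hw ⊢
    obtain ⟨⟨h1, h2⟩, h3⟩ := hw
    have h4 := sz_sub_add h3
    refine ⟨⟨tsub_le_self.trans h1, ?_⟩, fun j => ?_⟩
    · show sz (w - v) = r
      omega
    · have a1 : w j ≤ s j := h1 j
      have a2 : v j ≤ w j := h3 j
      show v j ≤ s j - (w j - v j)
      omega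
  · intro x _
    exact add_tsub_cancel_right x v
  · intro w hw
    rw [Finset.mem_filter] at hw
    exact tsub_add_cancel_of_le hw.2
  · intro x _
    rw [add_tsub_cancel_right]

theorem reidx1 (s : J → ℕ) (r : ℕ) (f : (J → ℕ) → J → ℝ) :
    (∑ x ∈ box s r, ∑ b, if e b ≤ s - x then f x b else 0)
      = ∑ w ∈ box s (r + 1), ∑ b ∈ sp w, f (w - e b) b := by
  rw [Finset.sum_comm]
  have h : ∀ w : J → ℕ, ∑ b ∈ sp w, f (w - e b) b = ∑ b, if e b ≤ w then f (w - e b) b else 0 := by
    intro w
    rw [sp, Finset.sum_filter]
    refine Finset.sum_congr rfl fun b _ => ?_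
    simp only [e_le_iff]
  simp only [h]
  rw [Finset.sum_comm (s := box s (r + 1))]
  refine Finset.sum_congr rfl fun b _ => ?_
  have := reidx_gen s (e b) r (fun x => f x b)
  rw [sz_e] at this
  exact this

theorem reidx2 (s : J → ℕ) (r : ℕ) (f : (J → ℕ) → J → J → ℝ) :
    (∑ x ∈ box s r, ∑ b, ∑ d, if e b + e d ≤ s - x then f x b d else 0)
      = ∑ w ∈ box s (r + 2), ∑ b, ∑ d, if e b + e d ≤ w then f (w - e b - e d) b d else 0 := by
  rw [Finset.sum_comm, Finset.sum_comm (s := box s (r + 2))]
  refine Finset.sum_congr rfl fun b _ => ?_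
  rw [Finset.sum_comm, Finset.sum_comm (s := box s (r + 2))]
  refine Finset.sum_congr rfl fun d _ => ?_
  have := reidx_gen s (e b + e d) r (fun x => f x b d)
  rw [sz_add, sz_e, sz_e] at this
  rw [this]
  refine Finset.sum_congr rfl fun w _ => ?_
  rw [tsub_add_eq_tsub_tsub]

/-- complement in the box -/
theorem card_box_compl {y : J → ℕ} {r1 r2 : ℕ} (h : sz y = r1 + r2) :
    (box y r1).card = (box y r2).card := by
  refine Finset.card_nbij' (fun z => y - z) (fun z => y - z) ?_ ?_ ?_ ?_
  · intro z hz
    rw [Finset.mem_coe, mem_box] at hz ⊢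
    have := sz_sub_add hz.1
    exact ⟨tsub_le_self, by show sz (y - z) = _; omega⟩
  · intro z hz
    rw [Finset.mem_coe, mem_box] at hz ⊢
    have := sz_sub_add hz.1
    exact ⟨tsub_le_self, by show sz (y - z) = _; omega⟩
  · intro z hz
    rw [Finset.mem_coe, mem_box] at hz
    exact tsub_tsub_cancel_of_le hz.1
  · intro z hz
    rw [Finset.mem_coe, mem_box] at hz
    exact tsub_tsub_cancel_of_le hz.1

theorem card_use_gen {y : J → ℕ} {r1 r2 : ℕ} (h : sz y = r1 + r2) (v : J → ℕ) :
    ((box y r1).filter (fun z => v ≤ z)).card = if v ≤ y then (box (y - v) r2).card else 0 := by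
  by_cases hv : v ≤ y
  · rw [if_pos hv]
    refine Finset.card_nbij' (fun z => y - z) (fun z => y - z) ?_ ?_ ?_ ?_
    · intro z hz
      rw [Finset.mem_coe, Finset.mem_filter, mem_box] at hz
      rw [Finset.mem_coe, mem_box]
      obtain ⟨⟨h1, h2⟩, h3⟩ := hz
      have := sz_sub_add h1
      exact ⟨tsub_le_tsub_left h3 y, by show sz (y - z) = _; omega⟩
    · intro z hz
      rw [Finset.mem_coe, mem_box] at hz
      rw [Finset.mem_coe, Finset.mem_filter, mem_box]
      obtain ⟨h1, h2⟩ := hz
      have h3 : z ≤ y := h1.trans tsub_le_self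
      have := sz_sub_add h3
      refine ⟨⟨tsub_le_self, by show sz (y - z) = _; omega⟩, fun j => ?_⟩
      have a1 : z j ≤ y j - v j := h1 j
      have a2 : v j ≤ y j := hv j
      show v j ≤ y j - z j
      omega
    · intro z hz
      rw [Finset.mem_coe, Finset.mem_filter, mem_box] at hz
      exact tsub_tsub_cancel_of_le hz.1.1
    · intro z hz
      rw [Finset.mem_coe, mem_box] at hz
      exact tsub_tsub_cancel_of_le (hz.1.trans tsub_le_self)
  · rw [if_neg hv, Finset.card_eq_zero, Finset.filter_eq_empty_iff]
    intro z hz hvz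
    exact hv (hvz.trans (mem_box.1 hz).1)

/-- rows of total `r1` using column `b` -/
theorem card_use {y : J → ℕ} {r1 r2 : ℕ} (h : sz y = r1 + r2) (b : J) :
    (((box y r1).filter (fun z => 0 < z b)).card : ℝ) = if e b ≤ y then N2 r2 (y - e b) else 0 := by
  have h1 := card_use_gen h (e b)
  simp only [e_le_iff] at h1
  rw [h1]
  simp only [e_le_iff, N2]
  split_ifs <;> simp

theorem card_use2 {y : J → ℕ} {r1 r2 : ℕ} (h : sz y = r1 + r2) (b d : J) :
    (((box y r1).filter (fun z => e b + e d ≤ z)).card : ℝ)
      = if e b + e d ≤ y then N2 r2 (y - e b - e d) else 0 := by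
  rw [card_use_gen h (e b + e d)]
  simp only [N2, tsub_add_eq_tsub_tsub]
  split_ifs <;> simp

/-- boxes are nonempty as soon as possible -/
theorem box_nonempty {y : J → ℕ} {r : ℕ} (h : r ≤ sz y) : (box y r).Nonempty := by
  induction r with
  | zero =>
    refine ⟨0, mem_box.2 ⟨fun j => Nat.zero_le _, ?_⟩⟩
    simp [sz]
  | succ r ih =>
    obtain ⟨z, hz⟩ := ih (by omega)
    obtain ⟨h1, h2⟩ := mem_box.1 hz
    have h3 : ∃ b, z b < y b := by
      by_contra hcon
      push Not at hcon
      have := sz_mono (fun j => hcon j : y ≤ z)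
      omega
    obtain ⟨b, hb⟩ := h3
    refine ⟨z + e b, mem_box.2 ⟨fun j => ?_, by rw [sz_add, sz_e, h2]⟩⟩
    by_cases hj : j = b
    · subst hj
      simp only [Pi.add_apply, e, Pi.single_eq_same]
      omega
    · simp only [Pi.add_apply, e, Pi.single_eq_of_ne hj]
      exact h1 j

theorem N2_pos {y : J → ℕ} {r2 : ℕ} (h : r2 ≤ sz y) : 0 < N2 r2 y := by
  rw [N2]
  exact_mod_cast (box_nonempty h).card_pos

/-- level counts: `N(j+1; y) ≤ n N(j; y)` -/
theorem card_box_succ_le (y : J → ℕ) (j : ℕ) :
    ((box y (j + 1)).card : ℝ) ≤ (Fintype.card J : ℝ) * ((box y j).card : ℝ) := by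
  have hsub : box y (j + 1) ⊆ univ.biUnion (fun b : J => (box y j).image (fun x => x + e b)) := by
    intro w hw
    obtain ⟨h1, h2⟩ := mem_box.1 hw
    have hex : ∃ b, 0 < w b := by
      by_contra hcon
      push Not at hcon
      have h3 : sz w = 0 := by
        rw [sz]
        exact Finset.sum_eq_zero fun i _ => Nat.le_zero.1 (hcon i)
      omega
    obtain ⟨b, hb⟩ := hex
    have hb' := e_le_iff.2 hb
    have h4 := sz_sub_add hb'
    rw [sz_e] at h4
    rw [Finset.mem_biUnion]
    refine ⟨b, Finset.mem_univ _, Finset.mem_image.2 ⟨w - e b, mem_box.2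
      ⟨tsub_le_self.trans h1, by omega⟩, tsub_add_cancel_of_le hb'⟩⟩
  have h5 : (box y (j + 1)).card ≤ Fintype.card J * (box y j).card := by
    calc (box y (j + 1)).card ≤ _ := Finset.card_le_card hsub
      _ ≤ ∑ b : J, ((box y j).image (fun x => x + e b)).card := Finset.card_biUnion_le
      _ ≤ ∑ _b : J, (box y j).card := Finset.sum_le_sum fun b _ => Finset.card_image_le
      _ = Fintype.card J * (box y j).card := by
          rw [Finset.sum_const, Finset.card_univ, smul_eq_mul]
  exact_mod_cast h5

/-- one column removed -/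
theorem box_step (y : J → ℕ) (b : J) (hb : 0 < y b) (r : ℕ)
    (hI : ∀ i j, i ≤ j → i + j ≤ sz (Function.update y b 0) →
      (box (Function.update y b 0) i).card ≤ (box (Function.update y b 0) j).card)
    (hr : 2 * r + 1 ≤ sz y) : (box y r).card ≤ (box y (r + 1)).card := by
  set y' := Function.update y b 0 with hy'
  have hy'le : y' ≤ y := by
    intro j
    by_cases hj : j = b
    · subst hj
      simp [hy']
    · simp [hy', Function.update_of_ne hj]
  have hszy : sz y = sz y' + y b := by
    rw [sz, sz, hy', Finset.sum_update_of_mem (Finset.mem_univ b), zero_add,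
      ← Finset.sum_sdiff (Finset.subset_univ {b}), Finset.sum_singleton]
  -- split the level `r + 1`
  have h1 : ((box y (r + 1)).filter (fun x => x b = 0)).card = (box y' (r + 1)).card := by
    congr 1
    ext x
    rw [Finset.mem_filter, mem_box, mem_box]
    constructor
    · rintro ⟨⟨a1, a2⟩, a3⟩
      refine ⟨fun j => ?_, a2⟩
      by_cases hj : j = b
      · rw [hj, a3]
        exact Nat.zero_le _
      · rw [hy', Function.update_of_ne hj]
        exact a1 j
    · rintro ⟨a1, a2⟩
      refine ⟨⟨a1.trans hy'le, a2⟩, ?_⟩
      have a3 : x b ≤ y' b := a1 b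
      rw [hy', Function.update_self] at a3
      omega
  have h2 : ((box y (r + 1)).filter (fun x => ¬ x b = 0)).card =
      ((box y r).filter (fun x => ¬ x b = y b)).card := by
    refine Finset.card_nbij' (fun x => x - e b) (fun x => x + e b) ?_ ?_ ?_ ?_
    · intro x hx
      rw [Finset.mem_coe, Finset.mem_filter, mem_box] at hx ⊢
      obtain ⟨⟨a1, a2⟩, a3⟩ := hx
      have hxb : e b ≤ x := e_le_iff.2 (Nat.pos_of_ne_zero a3)
      have a4 := sz_sub_add hxb
      rw [sz_e] at a4
      refine ⟨⟨tsub_le_self.trans a1, ?_⟩, ?_⟩
      · show sz (x - e b) = r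
        omega
      · have a5 : x b ≤ y b := a1 b
        show ¬ (x b - e b b = y b)
        simp only [e, Pi.single_eq_same]
        omega
    · intro x hx
      rw [Finset.mem_coe, Finset.mem_filter, mem_box] at hx ⊢
      obtain ⟨⟨a1, a2⟩, a3⟩ := hx
      refine ⟨⟨fun j => ?_, ?_⟩, ?_⟩
      · show x j + e b j ≤ y j
        have a5 : x j ≤ y j := a1 j
        by_cases hj : j = b
        · subst hj
          simp only [e, Pi.single_eq_same]
          omega
        · simp only [e, Pi.single_eq_of_ne hj]
          omega
      · show sz (x + e b) = r + 1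
        rw [sz_add, sz_e, a2]
      · show ¬ (x b + e b b = 0)
        simp only [e, Pi.single_eq_same]
        omega
    · intro x hx
      rw [Finset.mem_coe, Finset.mem_filter, mem_box] at hx
      exact tsub_add_cancel_of_le (e_le_iff.2 (Nat.pos_of_ne_zero hx.2))
    · intro x hx
      exact add_tsub_cancel_right x (e b)
  have h3 : ((box y r).filter (fun x => x b = y b)).card ≤ (box y' (r + 1)).card := by
    by_cases hrm : y b ≤ r
    · refine le_trans ?_ (hI (r - y b) (r + 1) (by omega) (by omega))
      apply Finset.card_le_card_of_injOn (fun x => Function.update x b 0)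
      · intro x hx
        rw [Finset.mem_coe, Finset.mem_filter, mem_box] at hx
        rw [Finset.mem_coe, mem_box]
        obtain ⟨⟨a1, a2⟩, a3⟩ := hx
        refine ⟨fun j => ?_, ?_⟩
        · show Function.update x b 0 j ≤ y' j
          by_cases hj : j = b
          · subst hj
            simp
          · rw [Function.update_of_ne hj, hy', Function.update_of_ne hj]
            exact a1 j
        · show sz (Function.update x b 0) = r - y b
          have : sz x = sz (Function.update x b 0) + x b := by
            rw [sz, sz, Finset.sum_update_of_mem (Finset.mem_univ b), zero_add,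
              ← Finset.sum_sdiff (Finset.subset_univ {b}), Finset.sum_singleton]
          omega
      · intro x hx x' hx' hxx
        rw [Finset.mem_coe, Finset.mem_filter, mem_box] at hx hx'
        funext j
        by_cases hj : j = b
        · subst hj
          rw [hx.2, hx'.2]
        · have := congrFun hxx j
          simpa [Function.update_of_ne hj] using this
    · rw [Finset.card_eq_zero.2]
      · exact Nat.zero_le _
      · rw [Finset.filter_eq_empty_iff]
        intro x hx hxb
        obtain ⟨a1, a2⟩ := mem_box.1 hx
        have : x b ≤ sz x := Finset.single_le_sum (f := x) (fun i _ => Nat.zero_le _)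
          (Finset.mem_univ b)
        omega
  have h4 := Finset.card_filter_add_card_filter_not (s := box y (r + 1)) (fun x => x b = 0)
  have h5 := Finset.card_filter_add_card_filter_not (s := box y r) (fun x => x b = y b)
  omega

/-- symmetric and unimodal level counts: moving away from the middle decreases -/
theorem card_box_unimodal {y : J → ℕ} {i j : ℕ} (hij : i ≤ j) (hj : i + j ≤ sz y) :
    (box y i).card ≤ (box y j).card := by
  have main : ∀ n : ℕ, ∀ y : J → ℕ, (sp y).card = n → ∀ i j, i ≤ j → i + j ≤ sz y →
      (box y i).card ≤ (box y j).card := by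
    intro n
    induction n with
    | zero =>
      intro y hy i j hij hj
      have h0 : sz y = 0 := by
        rw [sz]
        refine Finset.sum_eq_zero fun b _ => ?_
        have : b ∉ sp y := by
          rw [Finset.card_eq_zero.1 hy]
          exact Finset.notMem_empty b
        rw [mem_sp] at this
        omega
      have : i = j := by omega
      rw [this]
    | succ n ih =>
      intro y hy i j hij hj
      have hne : (sp y).Nonempty := by
        rw [← Finset.card_pos]
        omega
      obtain ⟨b, hb⟩ := hne
      have hb' := mem_sp.1 hb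
      have hsp : (sp (Function.update y b 0)).card = n := by
        have : sp (Function.update y b 0) = (sp y).erase b := by
          ext a
          rw [Finset.mem_erase, mem_sp, mem_sp]
          by_cases ha : a = b
          · subst ha
            simp
          · rw [Function.update_of_ne ha]
            simp [ha]
        rw [this, Finset.card_erase_of_mem hb, hy]
        rfl
      have hstep : ∀ r, 2 * r + 1 ≤ sz y → (box y r).card ≤ (box y (r + 1)).card :=
        fun r hr => box_step y b hb' r (fun i j h1 h2 => ih _ hsp i j h1 h2) hr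
      have hchain : ∀ k, ∀ i, 2 * (i + k) ≤ sz y + 0 → (box y i).card ≤ (box y (i + k)).card := by
        intro k
        induction k with
        | zero =>
          intro i _
          exact le_refl _
        | succ k ihk =>
          intro i hi
          exact (ihk i (by omega)).trans (hstep (i + k) (by omega))
      by_cases h2 : 2 * j ≤ sz y
      · have := hchain (j - i) i (by omega)
        rwa [Nat.add_sub_cancel' hij] at this
      · have h3 : (box y j).card = (box y (sz y - j)).card ∨ sz y < j := by
          by_cases h4 : j ≤ sz y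
          · left
            exact card_box_compl (by omega)
          · right
            omega
        rcases h3 with h3 | h3
        · rw [h3]
          have := hchain (sz y - j - i) i (by omega)
          rwa [Nat.add_sub_cancel' (by omega)] at this
        · omega
  exact main _ y rfl i j hij hj

end CT
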