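import Vale.Agent.CT.BDefs
import Vale.Agent.CT.BP3A24
import Vale.Agent.CT.Rx

/-! # Three-row tables with at most three columns: two-row blocks (table part of GA) -/

namespace CT

open Finset
open scoped Classical

set_option linter.unusedSectionVars false

variable {J : Type} [Fintype J] [DecidableEq J]
variable {I : Type} [Fintype I] [DecidableEq I]

/-- the core inequality (third row against the second) -/
def Core3 (J : Type) [Fintype J] [DecidableEq J] : Prop :=
  ∀ (c : J → ℕ) (r1 r2 r3 : ℕ), sz c = r1 + r2 + r3 → r2 ≤ r1 → r3 ≤ r2 →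
    ∀ (U W : (J → ℕ) → ℝ), ∃ m : ℝ,
      ∑ x ∈ box c r3, ∑ _y ∈ box (c - x) r2, (U x - m) ^ 2
        ≤ 10 ^ 10 * ∑ x ∈ box c r3, ∑ y ∈ box (c - x) r2, (U x - W y) ^ 2

theorem g3_sum_three {M : Type} [AddCommMonoid M] {i1 i2 i3 : I} (h12 : i1 ≠ i2) (h13 : i1 ≠ i3)
    (h23 : i2 ≠ i3) (hall : ∀ i, i = i1 ∨ i = i2 ∨ i = i3) (g : I → M) :
    ∑ i, g i = g i1 + g i2 + g i3 := by
  have hu : (univ : Finset I) = {i1, i2, i3} := by
    ext i
    simp only [mem_univ, mem_insert, mem_singleton, true_iff]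
    exact hall i
  rw [hu, Finset.sum_insert (by simp [h12, h13]), Finset.sum_pair h23, add_assoc]

theorem sum_TT3 {i1 i2 i3 : I} (h12 : i1 ≠ i2) (h13 : i1 ≠ i3) (h23 : i2 ≠ i3)
    (hall : ∀ i, i = i1 ∨ i = i2 ∨ i = i3) (r : I → ℕ) (c : J → ℕ) (hrc : ∑ i, r i = sz c)
    (g : (J → ℕ) → (J → ℕ) → ℝ) :
    ∑ T ∈ TT r c, g (T i3) (T i2) = ∑ x ∈ box c (r i3), ∑ y ∈ box (c - x) (r i2), g x y := by
  rw [Finset.sum_sigma']
  refine Finset.sum_bij' (fun T _ => (⟨T i3, T i2⟩ : (_ : J → ℕ) × (J → ℕ)))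
    (fun p _ => fun i => if i = i3 then p.1 else if i = i2 then p.2 else c - p.1 - p.2)
    ?_ ?_ ?_ ?_ ?_
  · intro T hT
    rw [p3_mem] at hT
    obtain ⟨h1, h2⟩ := hT
    have h3 : ∀ j, T i1 j + T i2 j + T i3 j = c j := by
      intro j
      rw [← h2 j, g3_sum_three h12 h13 h23 hall (fun i => T i j)]
    rw [mem_sigma, mem_box, mem_box]
    refine ⟨⟨fun j => ?_, h1 i3⟩, fun j => ?_, h1 i2⟩
    · show T i3 j ≤ c j
      have := h3 j; omega
    · show T i2 j ≤ c j - T i3 j
      have := h3 j; omega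
  · rintro ⟨x, y⟩ hp
    rw [mem_sigma, mem_box, mem_box] at hp
    obtain ⟨⟨a1, a2⟩, b1, b2⟩ := hp
    simp only at a1 a2 b1 b2 ⊢
    have hxy : ∀ j, x j + y j ≤ c j := by
      intro j
      have e1 : x j ≤ c j := a1 j
      have e2 : y j ≤ c j - x j := b1 j
      omega
    rw [p3_mem]
    constructor
    · intro i
      rcases hall i with h | h | h
      · subst h
        simp only [if_neg h13, if_neg h12, Pi.sub_apply]
        have e1 : ∑ j, (c j - x j - y j) + (sz x + sz y) = sz c := by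
          unfold sz
          rw [← Finset.sum_add_distrib, ← Finset.sum_add_distrib]
          apply Finset.sum_congr rfl
          intro j _
          have := hxy j
          omega
        have e2 := g3_sum_three h12 h13 h23 hall r
        omega
      · subst h
        simp only [if_neg h23, if_true]
        exact b2
      · subst h
        simp only [if_true]
        exact a2
    · intro j
      rw [g3_sum_three h12 h13 h23 hall (fun i => (if i = i3 then x else if i = i2 then y
        else c - x - y) j)]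
      simp only [if_neg h13, if_neg h12, if_neg h23, if_true, Pi.sub_apply]
      have := hxy j
      omega
  · intro T hT
    rw [p3_mem] at hT
    obtain ⟨h1, h2⟩ := hT
    funext i j
    have h3 : ∀ j, T i1 j + T i2 j + T i3 j = c j := by
      intro j
      rw [← h2 j, g3_sum_three h12 h13 h23 hall (fun i => T i j)]
    rcases hall i with h | h | h
    · subst h
      simp only [if_neg h13, if_neg h12, Pi.sub_apply]
      have := h3 j
      omega
    · subst h
      simp only [if_neg h23, if_true]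
    · subst h
      simp only [if_true]
  · rintro ⟨x, y⟩ hp
    simp only [if_true, if_neg h23]
  · intro T _
    rfl

/-- the block average of two rows depends on the third row only -/
theorem g3_CE {i1 i2 i3 : I} (hall : ∀ i, i = i1 ∨ i = i2 ∨ i = i3) (r : I → ℕ) (c : J → ℕ)
    (f : (I → J → ℕ) → ℝ) :
    ∃ U : (J → ℕ) → ℝ, ∀ T ∈ TT r c,
      CE r c (({i1, i2} : Finset I) ×ˢ (univ : Finset J)) f T = U (T i3) := by
  have key : ∀ T S : I → J → ℕ, T i3 = S i3 →
      CE r c (({i1, i2} : Finset I) ×ˢ (univ : Finset J)) f T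
        = CE r c (({i1, i2} : Finset I) ×ˢ (univ : Finset J)) f S := by
    intro T S h
    have hf : fib r c (({i1, i2} : Finset I) ×ˢ (univ : Finset J)) T
        = fib r c (({i1, i2} : Finset I) ×ˢ (univ : Finset J)) S := by
      unfold fib
      apply Finset.filter_congr
      intro T' _
      have e : ∀ i j, (i, j) ∉ (({i1, i2} : Finset I) ×ˢ (univ : Finset J)) → T i j = S i j := by
        intro i j hij
        rw [mem_product] at hij
        simp only [mem_insert, mem_singleton, mem_univ, and_true, not_or] at hij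
        rcases hall i with h1 | h1 | h1
        · exact absurd h1 hij.1
        · exact absurd h1 hij.2
        · rw [h1, h]
      constructor
      · intro h' i j hij
        rw [h' i j hij, e i j hij]
      · intro h' i j hij
        rw [h' i j hij, e i j hij]
    unfold CE
    rw [hf]
  refine ⟨fun x => CE r c (({i1, i2} : Finset I) ×ˢ (univ : Finset J)) f
    (fun i => if i = i3 then x else 0), ?_⟩
  intro T _
  apply key
  simp

theorem g3_VV_nonneg (r : I → ℕ) (c : J → ℕ) (B : Finset (I × J)) (f : (I → J → ℕ) → ℝ) :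
    0 ≤ VV r c B f := Finset.sum_nonneg fun _ _ => sq_nonneg _

/-- the mean minimises the quadratic deviation -/
theorem g3_mean {α : Type} (X : Finset α) (f : α → ℝ) (m : ℝ) :
    ∑ x ∈ X, (f x - (∑ y ∈ X, f y) / (X.card : ℝ)) ^ 2 ≤ ∑ x ∈ X, (f x - m) ^ 2 := by
  rcases X.eq_empty_or_nonempty with h | h
  · subst h; simp
  have hc : (0 : ℝ) < (X.card : ℝ) := by exact_mod_cast Finset.card_pos.2 h
  set a := (∑ y ∈ X, f y) / (X.card : ℝ) with ha
  have h1 : ∑ x ∈ X, (f x - a) = 0 := by
    rw [Finset.sum_sub_distrib, Finset.sum_const, nsmul_eq_mul, ha, mul_div_cancel₀ _ hc.ne']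
    ring
  have h2 : ∑ x ∈ X, (f x - m) ^ 2 = ∑ x ∈ X, (f x - a) ^ 2
      + 2 * (a - m) * ∑ x ∈ X, (f x - a) + (X.card : ℝ) * (a - m) ^ 2 := by
    rw [Finset.mul_sum, ← Finset.sum_add_distrib]
    have : (X.card : ℝ) * (a - m) ^ 2 = ∑ x ∈ X, (a - m) ^ 2 := by
      rw [Finset.sum_const, nsmul_eq_mul]
    rw [this, ← Finset.sum_add_distrib]
    apply Finset.sum_congr rfl
    intro x _
    ring
  rw [h2, h1]
  have : 0 ≤ (X.card : ℝ) * (a - m) ^ 2 := by positivity
  linarith

/-- three distinct rows, sorted -/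
theorem g3_three (hcore : Core3 J) {i1 i2 i3 : I} (h12 : i1 ≠ i2) (h13 : i1 ≠ i3) (h23 : i2 ≠ i3)
    (hall : ∀ i, i = i1 ∨ i = i2 ∨ i = i3) (r : I → ℕ) (c : J → ℕ) (hrc : ∑ i, r i = sz c)
    (s12 : r i2 ≤ r i1) (s23 : r i3 ≤ r i2) (f : (I → J → ℕ) → ℝ) :
    ∑ T ∈ TT r c, (f T - (∑ T' ∈ TT r c, f T') / ((TT r c).card : ℝ)) ^ 2
      ≤ 5 * 10 ^ 10 * (VV r c (({i1, i2} : Finset I) ×ˢ (univ : Finset J)) f
        + VV r c (({i1, i3} : Finset I) ×ˢ (univ : Finset J)) f) := by
  obtain ⟨U, hU⟩ := g3_CE (i1 := i1) (i2 := i2) (i3 := i3) hall r c f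
  obtain ⟨W, hW⟩ := g3_CE (i1 := i1) (i2 := i3) (i3 := i2)
    (fun i => by rcases hall i with h | h | h <;> simp [h]) r c f
  obtain ⟨m, hm⟩ := hcore c (r i1) (r i2) (r i3)
    (by rw [← hrc, g3_sum_three h12 h13 h23 hall r]) s12 s23 U W
  rw [← sum_TT3 h12 h13 h23 hall r c hrc (fun x _ => (U x - m) ^ 2),
    ← sum_TT3 h12 h13 h23 hall r c hrc (fun x y => (U x - W y) ^ 2)] at hm
  set V2 := VV r c (({i1, i2} : Finset I) ×ˢ (univ : Finset J)) f with hV2
  set V3 := VV r c (({i1, i3} : Finset I) ×ˢ (univ : Finset J)) f with hV3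
  have e2 : ∑ T ∈ TT r c, (f T - U (T i3)) ^ 2 = V2 := by
    rw [hV2]
    unfold VV
    apply Finset.sum_congr rfl
    intro T hT
    rw [hU T hT]
  have e3 : ∑ T ∈ TT r c, (f T - W (T i2)) ^ 2 = V3 := by
    rw [hV3]
    unfold VV
    apply Finset.sum_congr rfl
    intro T hT
    rw [hW T hT]
  have e4 : ∑ T ∈ TT r c, (U (T i3) - W (T i2)) ^ 2 ≤ 2 * V2 + 2 * V3 := by
    rw [← e2, ← e3, Finset.mul_sum, Finset.mul_sum, ← Finset.sum_add_distrib]
    apply Finset.sum_le_sum
    intro T _
    nlinarith [sq_nonneg ((f T - U (T i3)) + (f T - W (T i2)))]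
  have e5 : ∑ T ∈ TT r c, (f T - m) ^ 2 ≤ 2 * V2 + 2 * ∑ T ∈ TT r c, (U (T i3) - m) ^ 2 := by
    rw [← e2, Finset.mul_sum, Finset.mul_sum, ← Finset.sum_add_distrib]
    apply Finset.sum_le_sum
    intro T _
    nlinarith [sq_nonneg ((f T - U (T i3)) - (U (T i3) - m))]
  have e6 := g3_mean (TT r c) f m
  have p2 : 0 ≤ V2 := g3_VV_nonneg _ _ _ _
  have p3 : 0 ≤ V3 := g3_VV_nonneg _ _ _ _
  have e7 : (10 : ℝ) ^ 10 * ∑ T ∈ TT r c, (U (T i3) - W (T i2)) ^ 2
      ≤ 10 ^ 10 * (2 * V2 + 2 * V3) := mul_le_mul_of_nonneg_left e4 (by positivity)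
  nlinarith

/-- at most two rows -/
theorem g3_two {i1 i2 : I} (hall : ∀ i, i = i1 ∨ i = i2) (r : I → ℕ) (c : J → ℕ)
    (f : (I → J → ℕ) → ℝ) :
    ∑ T ∈ TT r c, (f T - (∑ T' ∈ TT r c, f T') / ((TT r c).card : ℝ)) ^ 2
      = VV r c (({i1, i2} : Finset I) ×ˢ (univ : Finset J)) f := by
  have hfib : ∀ T, fib r c (({i1, i2} : Finset I) ×ˢ (univ : Finset J)) T = TT r c := by
    intro T
    unfold fib
    apply Finset.filter_true_of_mem
    intro T' _ i j hij
    rw [mem_product] at hij
    simp only [mem_insert, mem_singleton, mem_univ, and_true, not_or] at hij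
    rcases hall i with h | h
    · exact absurd h hij.1
    · exact absurd h hij.2
  unfold VV CE
  simp only [hfib]

theorem ga_of_core (hI : Fintype.card I ≤ 3) (hcore : Core3 J) (r : I → ℕ) (c : J → ℕ)
    (hrc : ∑ i, r i = sz c) (f : (I → J → ℕ) → ℝ) :
    ∑ T ∈ TT r c, (f T - (∑ T' ∈ TT r c, f T') / ((TT r c).card : ℝ)) ^ 2
      ≤ 10 ^ 11 * ∑ i : I, ∑ j : I, VV r c (({i, j} : Finset I) ×ˢ (univ : Finset J)) f := by
  set V : I → I → ℝ := fun i j => VV r c (({i, j} : Finset I) ×ˢ (univ : Finset J)) f with hV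
  have hV0 : ∀ i j, 0 ≤ V i j := fun i j => g3_VV_nonneg _ _ _ _
  have hsum0 : 0 ≤ ∑ i : I, ∑ j : I, V i j :=
    Finset.sum_nonneg fun i _ => Finset.sum_nonneg fun j _ => hV0 i j
  have hle : ∀ i j, V i j ≤ ∑ i : I, ∑ j : I, V i j := by
    intro i j
    calc V i j ≤ ∑ j : I, V i j :=
          Finset.single_le_sum (f := fun j => V i j) (fun j _ => hV0 i j) (mem_univ j)
      _ ≤ _ := Finset.single_le_sum (f := fun i => ∑ j : I, V i j)
          (fun i _ => Finset.sum_nonneg fun j _ => hV0 i j) (mem_univ i)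
  change _ ≤ 10 ^ 11 * ∑ i : I, ∑ j : I, V i j
  rcases isEmpty_or_nonempty I with hE | hN
  · -- no rows
    have h1 : ∀ T ∈ TT r c, f T - (∑ T' ∈ TT r c, f T') / ((TT r c).card : ℝ) = 0 := by
      intro T hT
      have h2 : TT r c = {T} := by
        ext T'
        rw [mem_singleton]
        constructor
        · intro _; exact Subsingleton.elim _ _
        · intro h; rw [h]; exact hT
      rw [h2]
      simp
    calc ∑ T ∈ TT r c, (f T - (∑ T' ∈ TT r c, f T') / ((TT r c).card : ℝ)) ^ 2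
        = ∑ T ∈ TT r c, 0 := by
          apply Finset.sum_congr rfl
          intro T hT
          rw [h1 T hT]; ring
      _ = 0 := by simp
      _ ≤ _ := by positivity
  obtain ⟨i1, -, hi1⟩ := Finset.exists_max_image (univ : Finset I) r univ_nonempty
  by_cases h2 : ((univ : Finset I).erase i1).Nonempty
  · obtain ⟨i2, hi2m, hi2⟩ := Finset.exists_max_image ((univ : Finset I).erase i1) r h2
    have h21 : i2 ≠ i1 := Finset.ne_of_mem_erase hi2m
    by_cases h3 : (((univ : Finset I).erase i1).erase i2).Nonempty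
    · obtain ⟨i3, hi3⟩ := h3
      have h32 : i3 ≠ i2 := Finset.ne_of_mem_erase hi3
      have h31 : i3 ≠ i1 := Finset.ne_of_mem_erase (Finset.mem_of_mem_erase hi3)
      have hall : ∀ i, i = i1 ∨ i = i2 ∨ i = i3 := by
        intro i
        by_contra hc
        push Not at hc
        obtain ⟨c1, c2, c3⟩ := hc
        have : ({i, i1, i2, i3} : Finset I).card = 4 := by
          rw [Finset.card_insert_of_notMem, Finset.card_insert_of_notMem,
            Finset.card_insert_of_notMem, Finset.card_singleton]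
          · simp [h32.symm]
          · simp [h21.symm, h31.symm]
          · simp [c1, c2, c3]
        have h4 := Finset.card_le_univ ({i, i1, i2, i3} : Finset I)
        omega
      have := g3_three hcore h21.symm h31.symm h32.symm hall r c hrc (hi1 i2 (mem_univ _))
        (hi2 i3 (Finset.mem_of_mem_erase hi3)) f
      refine this.trans ?_
      have a1 := hle i1 i2
      have a2 := hle i1 i3
      change 5 * 10 ^ 10 * (V i1 i2 + V i1 i3) ≤ _
      nlinarith
    · have hall : ∀ i, i = i1 ∨ i = i2 := by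
        intro i
        by_contra hc
        push Not at hc
        exact h3 ⟨i, by simp [hc.1, hc.2]⟩
      rw [g3_two hall r c f]
      have a1 := hle i1 i2
      change V i1 i2 ≤ _
      nlinarith
  · have hall : ∀ i, i = i1 ∨ i = i1 := by
      intro i
      by_contra hc
      push Not at hc
      exact h2 ⟨i, by simp [hc.1]⟩
    rw [g3_two hall r c f]
    have a1 := hle i1 i1
    change V i1 i1 ≤ _
    nlinarith

end CT
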