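import Vale.Agent.CT.BBlk
import Vale.Agent.CT.BG3A24
import Vale.Agent.CT.GaTab3
import Vale.Agent.CT.GB25

/-! # Poincare inequality for the 2 x 2 blocks -/

namespace CT

open Finset
open scoped Classical

variable {J : Type} [Fintype J] [DecidableEq J]
variable {I : Type} [Fintype I] [DecidableEq I]

theorem ga24 : Ga24 (10 ^ 11) := by
  intro I J _ _ _ _ hI hJ r c hrc f
  exact ga_of_core hI (fun c r1 r2 r3 h h12 h23 U W => core25 hJ c r1 r2 r3 h h12 h23 U W) r c hrc f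

/-- all margins: 2 x 2 blocks -/
theorem p2_all24 (r : I → ℕ) (c : J → ℕ) (hrc : ∑ i, r i = sz c) :
    P2x24 r c (10 ^ 50 * ((Fintype.card I : ℝ) + 1) ^ 4 * ((Fintype.card J : ℝ) + 1) ^ 15
      * lg (sz c) ^ 4) := by
  have hL := p3_lg_one (sz c)
  have h := p2_of_p3_24 (C0 := 10 ^ 11) (by norm_num) ga24 (by positivity) (p3_all r c hrc)
  intro f
  refine (h f).trans ?_
  refine mul_le_mul_of_nonneg_right (mul_le_mul_of_nonneg_right ?_ (Nat.cast_nonneg _))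
    (Finset.sum_nonneg fun i _ => Finset.sum_nonneg fun j _ => Finset.sum_nonneg fun a _ =>
      Finset.sum_nonneg fun b _ => p3_VV_nonneg r c _ f)
  set m : ℝ := (Fintype.card I : ℝ) with hm
  set n : ℝ := (Fintype.card J : ℝ) with hn
  have hm0 : 0 ≤ m := Nat.cast_nonneg _
  have hn0 : 0 ≤ n := Nat.cast_nonneg _
  have e1 : m ^ 2 ≤ (m + 1) ^ 2 := pow_le_pow_left₀ hm0 (by linarith) 2
  have e2 : n ^ 2 ≤ (n + 1) ^ 2 := pow_le_pow_left₀ hn0 (by linarith) 2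
  have e3 : m ^ 2 * n ^ 2 ≤ (m + 1) ^ 2 * (n + 1) ^ 2 :=
    mul_le_mul e1 e2 (by positivity) (by positivity)
  have hX : 0 ≤ (m + 1) ^ 2 * (n + 1) ^ 13 * lg (sz c) ^ 4 := by positivity
  calc 10 ^ 25 * (m + 1) ^ 2 * (n + 1) ^ 13 * lg (sz c) ^ 4 *
        ((10 ^ 11) ^ 2 * (9 * m ^ 2 * n ^ 2))
      = (10 ^ 25 * 10 ^ 22 * 9) * ((m + 1) ^ 2 * (n + 1) ^ 13 * lg (sz c) ^ 4 * (m ^ 2 * n ^ 2)) := by
        ring
    _ ≤ (10 ^ 25 * 10 ^ 22 * 9) * ((m + 1) ^ 2 * (n + 1) ^ 13 * lg (sz c) ^ 4 *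
        ((m + 1) ^ 2 * (n + 1) ^ 2)) :=
        mul_le_mul_of_nonneg_left (mul_le_mul_of_nonneg_left e3 hX) (by norm_num)
    _ ≤ 10 ^ 50 * ((m + 1) ^ 2 * (n + 1) ^ 13 * lg (sz c) ^ 4 * ((m + 1) ^ 2 * (n + 1) ^ 2)) := by
        refine mul_le_mul_of_nonneg_right (by norm_num) ?_
        positivity
    _ = _ := by ring

end CT
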