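import Vale.Agent.CT.BMc
import Vale.Agent.CT.Rx

/-! # Hardy inequality, part 1: telescoping for a fixed active row -/

namespace CT

open Finset
open scoped Classical

/-- transport of a coupling -/
theorem hd_transport {α : Type} (X X' Y Y' : Finset α) (φ : α → α) (R R' : α → α → Prop)
    (hX : Set.BijOn φ X Y) (hX' : Set.BijOn φ X' Y') (h : Cpl Y Y' R)
    (hR : ∀ x ∈ X, ∀ x' ∈ X', R (φ x) (φ x') → R' x x') : Cpl X X' R' := by
  obtain ⟨κ, h0, h1, h2, h3⟩ := h
  have hc : X.card = Y.card := Finset.card_bij (fun x _ => φ x) (fun x hx => hX.mapsTo hx)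
    (fun x hx y hy h => hX.injOn hx hy h) (fun y hy => by
      obtain ⟨x, hx, hxy⟩ := hX.surjOn hy
      exact ⟨x, hx, hxy⟩)
  have hc' : X'.card = Y'.card := Finset.card_bij (fun x _ => φ x) (fun x hx => hX'.mapsTo hx)
    (fun x hx y hy h => hX'.injOn hx hy h) (fun y hy => by
      obtain ⟨x, hx, hxy⟩ := hX'.surjOn hy
      exact ⟨x, hx, hxy⟩)
  refine ⟨fun x x' => if x ∈ X ∧ x' ∈ X' then κ (φ x) (φ x') else 0, ?_, ?_, ?_, ?_⟩
  · intro x x'
    dsimp only
    split_ifs
    · exact h0 _ _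
    · exact le_refl _
  · intro x hx
    rw [hc, ← h1 (φ x) (hX.mapsTo hx)]
    rw [← Finset.sum_bij (fun x' _ => φ x') (s := X') (t := Y')
      (f := fun x' => κ (φ x) (φ x')) (g := fun y' => κ (φ x) y')
      (fun x' hx' => hX'.mapsTo hx') (fun x' hx' y' hy' h => hX'.injOn hx' hy' h)
      (fun y hy => by
        obtain ⟨x', hx', hxy⟩ := hX'.surjOn hy
        exact ⟨x', hx', hxy⟩) (fun _ _ => rfl)]
    refine Finset.sum_congr rfl fun x' hx' => ?_
    exact if_pos ⟨hx, hx'⟩
  · intro x' hx'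
    rw [hc', ← h2 (φ x') (hX'.mapsTo hx')]
    rw [← Finset.sum_bij (fun x _ => φ x) (s := X) (t := Y)
      (f := fun x => κ (φ x) (φ x')) (g := fun y => κ y (φ x'))
      (fun x hx => hX.mapsTo hx) (fun x hx y hy h => hX.injOn hx hy h)
      (fun y hy => by
        obtain ⟨x, hx, hxy⟩ := hX.surjOn hy
        exact ⟨x, hx, hxy⟩) (fun _ _ => rfl)]
    refine Finset.sum_congr rfl fun x hx => ?_
    exact if_pos ⟨hx, hx'⟩
  · intro x x' hne
    dsimp only at hne
    by_cases hxx : x ∈ X ∧ x' ∈ X'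
    · rw [if_pos hxx] at hne
      exact hR x hxx.1 x' hxx.2 (h3 _ _ hne)
    · rw [if_neg hxx] at hne
      exact absurd rfl hne

/-- one step: root mean squares along a coupling -/
theorem hd_step {α : Type} (X X' : Finset α) (R : α → α → Prop) (h : Cpl X X' R) (g : α → ℝ) :
    ∃ ε : ℝ, 0 ≤ ε ∧
      Real.sqrt ((∑ x ∈ X, g x ^ 2) / X.card) ≤ Real.sqrt ((∑ x ∈ X', g x ^ 2) / X'.card) + ε ∧
      (X.card : ℝ) * ε ^ 2 ≤ ∑ x ∈ X, ∑ x' ∈ X'.filter (fun x' => R x x'), (g x - g x') ^ 2 := by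
  obtain ⟨κ, h0, h1, h2, h3⟩ := h
  set B := ∑ x ∈ X, ∑ x' ∈ X', κ x x' * (g x - g x') ^ 2 with hB
  set A := ∑ x ∈ X, ∑ x' ∈ X', κ x x' * g x' ^ 2 with hA
  set N := ∑ x ∈ X, ∑ x' ∈ X', κ x x' * g x ^ 2 with hN
  set Cc := ∑ x ∈ X, ∑ x' ∈ X', κ x x' * (g x' * (g x - g x')) with hC
  have hB0 : 0 ≤ B := sum_nonneg fun x _ => sum_nonneg fun x' _ => mul_nonneg (h0 _ _) (sq_nonneg _)
  have hA0 : 0 ≤ A := sum_nonneg fun x _ => sum_nonneg fun x' _ => mul_nonneg (h0 _ _) (sq_nonneg _)
  have hNeq : (∑ x ∈ X, g x ^ 2) / X.card = N := by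
    rw [hN, Finset.sum_div]
    refine Finset.sum_congr rfl fun x hx => ?_
    rw [← Finset.sum_mul, h1 x hx]
    ring
  have hAeq : (∑ x ∈ X', g x ^ 2) / X'.card = A := by
    rw [hA, Finset.sum_comm, Finset.sum_div]
    refine Finset.sum_congr rfl fun x hx => ?_
    rw [← Finset.sum_mul, h2 x hx]
    ring
  have hexp : N = A + 2 * Cc + B := by
    rw [hN, hA, hC, hB, Finset.mul_sum, ← Finset.sum_add_distrib, ← Finset.sum_add_distrib]
    refine Finset.sum_congr rfl fun x _ => ?_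
    rw [Finset.mul_sum, ← Finset.sum_add_distrib, ← Finset.sum_add_distrib]
    refine Finset.sum_congr rfl fun x' _ => ?_
    ring
  have hCS : Cc ^ 2 ≤ A * B := by
    rw [hC, hA, hB, ← Finset.sum_product', ← Finset.sum_product', ← Finset.sum_product']
    apply Finset.sum_sq_le_sum_mul_sum_of_sq_eq_mul
    · intro p _
      exact mul_nonneg (h0 _ _) (sq_nonneg _)
    · intro p _
      exact mul_nonneg (h0 _ _) (sq_nonneg _)
    · intro p _
      ring
  have hCle : Cc ≤ Real.sqrt A * Real.sqrt B := by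
    rw [← Real.sqrt_mul hA0]
    exact Real.le_sqrt_of_sq_le hCS
  refine ⟨Real.sqrt B, Real.sqrt_nonneg _, ?_, ?_⟩
  · rw [hNeq, hAeq]
    apply Real.sqrt_le_iff.mpr
    refine ⟨by positivity, ?_⟩
    rw [hexp, add_sq, Real.sq_sqrt hA0, Real.sq_sqrt hB0]
    nlinarith
  · rw [Real.sq_sqrt hB0, hB, Finset.mul_sum]
    refine Finset.sum_le_sum fun x hx => ?_
    rw [Finset.mul_sum, Finset.sum_filter]
    refine Finset.sum_le_sum fun x' hx' => ?_
    by_cases hne : κ x x' = 0
    · rw [hne]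
      split_ifs
      · simpa using sq_nonneg (g x - g x')
      · simp
    · rw [if_pos (h3 _ _ hne)]
      have h4 : κ x x' ≤ 1 / X.card := by
        rw [← h1 x hx]
        exact Finset.single_le_sum (f := fun x' => κ x x') (fun x' _ => h0 x x') hx'
      have hXc : (0 : ℝ) < X.card := by exact_mod_cast Finset.card_pos.2 ⟨x, hx⟩
      have h5 : (X.card : ℝ) * κ x x' ≤ 1 := by
        rw [le_div_iff₀ hXc] at h4
        linarith
      calc (X.card : ℝ) * (κ x x' * (g x - g x') ^ 2)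
          = ((X.card : ℝ) * κ x x') * (g x - g x') ^ 2 := by ring
        _ ≤ 1 * (g x - g x') ^ 2 := mul_le_mul_of_nonneg_right h5 (sq_nonneg _)
        _ = _ := one_mul _

/-- abstract telescoping -/
theorem hd_abs (m t : ℕ) (Λ : ℝ) (hΛ : ∑ s ∈ range m, 1 / ((t : ℝ) + s + 1) ≤ Λ)
    (a ε E : ℕ → ℝ) (m0 : ℝ) (hm0 : 0 ≤ m0) (ha : ∀ s, 0 ≤ a s) (hε : ∀ s, 0 ≤ ε s)
    (h1 : ∀ s < m, a s ≤ a (s + 1) + ε s) (h2 : ∀ s < m, m0 * ε s ^ 2 ≤ E s) :
    m0 * a 0 ^ 2 ≤ 2 * (m0 * a m ^ 2) + 2 * Λ * ∑ s ∈ range m, ((t : ℝ) + s + 1) * E s := by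
  have h3 : ∀ k ≤ m, a 0 ≤ a k + ∑ s ∈ range k, ε s := by
    intro k
    induction k with
    | zero => intro _; simp
    | succ k ih =>
      intro hk
      rw [Finset.sum_range_succ]
      have := ih (by omega)
      have := h1 k (by omega)
      linarith
  have h4 := h3 m le_rfl
  have hS0 : 0 ≤ ∑ s ∈ range m, ε s := sum_nonneg fun s _ => hε s
  have h5 : (∑ s ∈ range m, ε s) ^ 2
      ≤ (∑ s ∈ range m, 1 / ((t : ℝ) + s + 1)) * ∑ s ∈ range m, ((t : ℝ) + s + 1) * ε s ^ 2 := by
    apply Finset.sum_sq_le_sum_mul_sum_of_sq_eq_mul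
    · intro s _; positivity
    · intro s _; positivity
    · intro s _
      have : (0 : ℝ) < (t : ℝ) + s + 1 := by positivity
      field_simp
  have h6 : a 0 ^ 2 ≤ 2 * a m ^ 2 + 2 * (∑ s ∈ range m, ε s) ^ 2 := by
    have h7 : a 0 ^ 2 ≤ (a m + ∑ s ∈ range m, ε s) ^ 2 := pow_le_pow_left₀ (ha 0) h4 2
    nlinarith [sq_nonneg (a m - ∑ s ∈ range m, ε s)]
  have hQ0 : 0 ≤ ∑ s ∈ range m, ((t : ℝ) + s + 1) * ε s ^ 2 := sum_nonneg fun s _ => by positivity
  have h7 : m0 * ∑ s ∈ range m, ((t : ℝ) + s + 1) * ε s ^ 2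
      ≤ ∑ s ∈ range m, ((t : ℝ) + s + 1) * E s := by
    rw [Finset.mul_sum]
    refine Finset.sum_le_sum fun s hs => ?_
    have := h2 s (Finset.mem_range.1 hs)
    have h8 : (0 : ℝ) ≤ (t : ℝ) + s + 1 := by positivity
    calc m0 * (((t : ℝ) + s + 1) * ε s ^ 2) = ((t : ℝ) + s + 1) * (m0 * ε s ^ 2) := by ring
      _ ≤ _ := mul_le_mul_of_nonneg_left this h8
  have hΛ0 : 0 ≤ Λ := le_trans (sum_nonneg fun s _ => by positivity) hΛ
  have h8 : m0 * (∑ s ∈ range m, ε s) ^ 2 ≤ Λ * ∑ s ∈ range m, ((t : ℝ) + s + 1) * E s := by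
    calc m0 * (∑ s ∈ range m, ε s) ^ 2
        ≤ m0 * (Λ * ∑ s ∈ range m, ((t : ℝ) + s + 1) * ε s ^ 2) := by
          apply mul_le_mul_of_nonneg_left _ hm0
          exact h5.trans (mul_le_mul_of_nonneg_right hΛ hQ0)
      _ = Λ * (m0 * ∑ s ∈ range m, ((t : ℝ) + s + 1) * ε s ^ 2) := by ring
      _ ≤ _ := mul_le_mul_of_nonneg_left h7 hΛ0
  have h9 := mul_le_mul_of_nonneg_left h6 hm0
  linarith

variable {J : Type} [Fintype J] [DecidableEq J]

theorem hd_sz_update (z : J → ℕ) (b : J) : sz (Function.update z b 0) + z b = sz z := by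
  unfold sz
  rw [← Finset.add_sum_erase _ _ (mem_univ b), ← Finset.add_sum_erase univ z (mem_univ b),
    Function.update_self]
  have : ∑ x ∈ univ.erase b, Function.update z b 0 x = ∑ x ∈ univ.erase b, z x := by
    apply Finset.sum_congr rfl
    intro x hx
    rw [Function.update_of_ne (Finset.ne_of_mem_erase hx)]
  rw [this]
  omega

theorem hd_bij (S : J → ℕ) (r q : ℕ) (b : J) (hq : q ≤ S b) (hqr : q ≤ r) :
    Set.BijOn (fun x => Function.update x b 0)
      (((box S r).filter (fun x => x b = q) : Finset (J → ℕ)) : Set (J → ℕ))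
      ((box (Function.update S b 0) (r - q) : Finset (J → ℕ)) : Set (J → ℕ)) := by
  refine ⟨?_, ?_, ?_⟩
  · intro x hx
    rw [Finset.mem_coe, Finset.mem_filter, mem_box] at hx
    rw [Finset.mem_coe, mem_box]
    obtain ⟨⟨h1, h2⟩, h3⟩ := hx
    refine ⟨fun j => ?_, ?_⟩
    · by_cases hj : j = b
      · subst hj
        simp
      · simp only [Function.update_of_ne hj]
        exact h1 j
    · have := hd_sz_update x b
      show sz (Function.update x b 0) = r - q
      omega
  · intro x hx y hy hxy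
    rw [Finset.mem_coe, Finset.mem_filter, mem_box] at hx hy
    funext j
    by_cases hj : j = b
    · subst hj
      rw [hx.2, hy.2]
    · have := congrFun hxy j
      simpa [Function.update_of_ne hj] using this
  · intro y hy
    rw [Finset.mem_coe, mem_box] at hy
    have hyb : y b = 0 := by
      have := hy.1 b
      simpa using this
    refine ⟨Function.update y b q, ?_, ?_⟩
    · rw [Finset.mem_coe, Finset.mem_filter, mem_box]
      refine ⟨⟨fun j => ?_, ?_⟩, by simp⟩
      · by_cases hj : j = b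
        · subst hj
          simpa using hq
        · simp only [Function.update_of_ne hj]
          have := hy.1 j
          simpa [Function.update_of_ne hj] using this
      · have h1 := hd_sz_update (Function.update y b q) b
        rw [Function.update_idem, Function.update_self] at h1
        have h2 := hd_sz_update y b
        have h3 := hy.2
        omega
    · show Function.update (Function.update y b q) b 0 = y
      rw [Function.update_idem]
      funext j
      by_cases hj : j = b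
      · subst hj
        rw [Function.update_self, hyb]
      · rw [Function.update_of_ne hj]

/-- the coupling of two consecutive levels of `x b` -/
theorem hd_cpl (S : J → ℕ) (r r2 : ℕ) (hS : sz S = r + r2) (b : J) (q : ℕ)
    (hq : q + 1 ≤ S b) (hqr : q + 1 ≤ r) (hlt : S b < q + 1 + r2) :
    Cpl ((box S r).filter (fun x => x b = q + 1)) ((box S r).filter (fun x => x b = q))
      (fun x x' => ∃ d, d ≠ b ∧ x d < S d ∧ x' = x - e b + e d) := by
  have hsz := hd_sz_update S b
  have hmc := mc (Function.update S b 0) (r - (q + 1)) (by omega)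
  have hr1 : r - (q + 1) + 1 = r - q := by omega
  rw [hr1] at hmc
  refine hd_transport _ _ _ _ _ _ _ (hd_bij S r (q + 1) b hq hqr)
    (hd_bij S r q b (by omega) (by omega)) hmc ?_
  rintro x hx x' hx' ⟨d, hd⟩
  rw [Finset.mem_filter, mem_box] at hx hx'
  have hdb : d ≠ b := by
    rintro rfl
    have := congrFun hd d
    simp [e] at this
  refine ⟨d, hdb, ?_, ?_⟩
  · have h1 := congrFun hd d
    simp only [Function.update_of_ne hdb, Pi.add_apply, e, Pi.single_eq_same] at h1
    have h2 : x' d ≤ S d := hx'.1.1 d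
    omega
  · funext j
    have h1 := congrFun hd j
    by_cases hj : j = b
    · subst hj
      have hx1 := hx.2
      have hx2 := hx'.2
      simp only [Pi.add_apply, Pi.sub_apply, e, Pi.single_eq_same,
        Pi.single_eq_of_ne (Ne.symm hdb)]
      omega
    · simp only [Function.update_of_ne hj, Pi.add_apply] at h1
      simp only [Pi.add_apply, Pi.sub_apply]
      have : e b j = 0 := by simp [e, Pi.single_eq_of_ne hj]
      omega

theorem hd_tele (S : J → ℕ) (r r2 : ℕ) (hS : sz S = r + r2) (hr : r ≤ r2) (b : J) (t : ℕ) (Λ : ℝ)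
    (hΛ : ∑ s ∈ range (S b), 1 / ((t : ℝ) + s + 1) ≤ Λ) (g : (J → ℕ) → ℝ) :
    ∑ x ∈ (box S r).filter (fun x => x b = S b), g x ^ 2
      ≤ 2 * ∑ x ∈ (box S r).filter (fun x => x b = 0), g x ^ 2
        + 2 * Λ * ∑ x ∈ (box S r).filter (fun x => 0 < x b),
          ((t : ℝ) + ((S b - x b : ℕ) : ℝ) + 1) *
            ∑ d ∈ univ.filter (fun d => d ≠ b ∧ x d < S d), (g x - g (x - e b + e d)) ^ 2 := by
  have hΛ0 : 0 ≤ Λ := le_trans (sum_nonneg fun s _ => by positivity) hΛ
  have hR0 : 0 ≤ 2 * ∑ x ∈ (box S r).filter (fun x => x b = 0), g x ^ 2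
        + 2 * Λ * ∑ x ∈ (box S r).filter (fun x => 0 < x b),
          ((t : ℝ) + ((S b - x b : ℕ) : ℝ) + 1) *
            ∑ d ∈ univ.filter (fun d => d ≠ b ∧ x d < S d), (g x - g (x - e b + e d)) ^ 2 := by
    have h1 : 0 ≤ ∑ x ∈ (box S r).filter (fun x => x b = 0), g x ^ 2 :=
      sum_nonneg fun x _ => sq_nonneg _
    have h2 : 0 ≤ ∑ x ∈ (box S r).filter (fun x => 0 < x b),
          ((t : ℝ) + ((S b - x b : ℕ) : ℝ) + 1) *
            ∑ d ∈ univ.filter (fun d => d ≠ b ∧ x d < S d), (g x - g (x - e b + e d)) ^ 2 :=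
      sum_nonneg fun x _ => mul_nonneg (by positivity) (sum_nonneg fun d _ => sq_nonneg _)
    positivity
  rcases ((box S r).filter (fun x => x b = S b)).eq_empty_or_nonempty with hemp | hne
  · rw [hemp, Finset.sum_empty]
    exact hR0
  have hSbr : S b ≤ r := by
    obtain ⟨x, hx⟩ := hne
    rw [Finset.mem_filter, mem_box] at hx
    have := hd_sz_update x b
    omega
  -- levels
  let X : ℕ → Finset (J → ℕ) := fun s => (box S r).filter (fun x => x b = S b - s)
  have hX0 : X 0 = (box S r).filter (fun x => x b = S b) := by simp [X]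
  have hXm : X (S b) = (box S r).filter (fun x => x b = 0) := by simp [X]
  have hcard : ∀ s ≤ S b, ((X s).card) = (box (Function.update S b 0) (r - (S b - s))).card := by
    intro s _
    have hb := hd_bij S r (S b - s) b (by omega) (by omega)
    exact Finset.card_bij (fun x _ => Function.update x b 0) (fun x hx => hb.mapsTo hx)
      (fun x hx y hy h => hb.injOn hx hy h) (fun y hy => by
        obtain ⟨x, hx, hxy⟩ := hb.surjOn hy
        exact ⟨x, hx, hxy⟩)
  have hsz := hd_sz_update S b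
  have hmono : ∀ s ≤ S b, ((X 0).card : ℝ) ≤ (X s).card := by
    intro s hs
    rw [hcard 0 (Nat.zero_le _), hcard s hs]
    exact_mod_cast card_box_unimodal (by omega) (by omega)
  have hstep : ∀ s, ∃ ε : ℝ, 0 ≤ ε ∧ (s < S b →
      Real.sqrt ((∑ x ∈ X s, g x ^ 2) / (X s).card)
        ≤ Real.sqrt ((∑ x ∈ X (s + 1), g x ^ 2) / (X (s + 1)).card) + ε ∧
      ((X s).card : ℝ) * ε ^ 2 ≤ ∑ x ∈ X s, ∑ d ∈ univ.filter (fun d => d ≠ b ∧ x d < S d),
        (g x - g (x - e b + e d)) ^ 2) := by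
    intro s
    by_cases hs : s < S b
    · have hc := hd_cpl S r r2 hS b (S b - s - 1) (by omega) (by omega) (by omega)
      have e1 : S b - s - 1 + 1 = S b - s := by omega
      have e2 : S b - s - 1 = S b - (s + 1) := by omega
      rw [e1, e2] at hc
      obtain ⟨ε, h1, h2, h3⟩ := hd_step (X s) (X (s + 1)) _ hc g
      refine ⟨ε, h1, fun _ => ⟨h2, h3.trans ?_⟩⟩
      refine Finset.sum_le_sum fun x hx => ?_
      have hinj : Set.InjOn (fun d => x - e b + e d) (univ.filter (fun d => d ≠ b ∧ x d < S d)) := by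
        intro d _ d' _ hdd
        by_contra hne'
        have := congrFun hdd d
        simp only [Pi.add_apply, e, Pi.single_eq_same, Pi.single_eq_of_ne hne'] at this
        omega
      rw [← Finset.sum_image (f := fun x' => (g x - g x') ^ 2) hinj]
      apply Finset.sum_le_sum_of_subset_of_nonneg
      · intro x' hx'
        have hx2 := (@Finset.mem_filter _ _ (_) _ _).1 hx'
        obtain ⟨d, hd1, hd2, hd3⟩ := hx2.2
        rw [Finset.mem_image]
        exact ⟨d, by simp [hd1, hd2], hd3.symm⟩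
      · intro _ _ _
        exact sq_nonneg _
    · exact ⟨0, le_rfl, fun h => absurd h hs⟩
  choose ε hε0 hε using hstep
  have key := hd_abs (S b) t Λ hΛ (fun s => Real.sqrt ((∑ x ∈ X s, g x ^ 2) / (X s).card)) ε
    (fun s => ∑ x ∈ X s, ∑ d ∈ univ.filter (fun d => d ≠ b ∧ x d < S d),
        (g x - g (x - e b + e d)) ^ 2) ((X 0).card : ℝ) (Nat.cast_nonneg _)
    (fun s => Real.sqrt_nonneg _) hε0 (fun s hs => (hε s hs).1) (fun s hs => by
      refine le_trans ?_ (hε s hs).2
      exact mul_le_mul_of_nonneg_right (hmono s hs.le) (sq_nonneg _))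
  have hnn : ∀ s, 0 ≤ (∑ x ∈ X s, g x ^ 2) / ((X s).card : ℝ) := fun s =>
    div_nonneg (sum_nonneg fun x _ => sq_nonneg _) (Nat.cast_nonneg _)
  simp only [Real.sq_sqrt (hnn _)] at key
  have hX0pos : (0 : ℝ) < (X 0).card := by
    rw [hX0]
    exact_mod_cast Finset.card_pos.2 hne
  have hXmpos : (0 : ℝ) < (X (S b)).card := lt_of_lt_of_le hX0pos (hmono _ le_rfl)
  have hL : ((X 0).card : ℝ) * ((∑ x ∈ X 0, g x ^ 2) / ((X 0).card : ℝ))
      = ∑ x ∈ (box S r).filter (fun x => x b = S b), g x ^ 2 := by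
    rw [mul_div_cancel₀ _ hX0pos.ne', hX0]
  have hM : ((X 0).card : ℝ) * ((∑ x ∈ X (S b), g x ^ 2) / ((X (S b)).card : ℝ))
      ≤ ∑ x ∈ (box S r).filter (fun x => x b = 0), g x ^ 2 := by
    calc ((X 0).card : ℝ) * ((∑ x ∈ X (S b), g x ^ 2) / ((X (S b)).card : ℝ))
        ≤ ((X (S b)).card : ℝ) * ((∑ x ∈ X (S b), g x ^ 2) / ((X (S b)).card : ℝ)) :=
          mul_le_mul_of_nonneg_right (hmono _ le_rfl) (hnn _)
      _ = _ := by rw [mul_div_cancel₀ _ hXmpos.ne', hXm]
  rw [hL] at key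
  have hE : ∑ s ∈ range (S b), ((t : ℝ) + s + 1) *
        ∑ x ∈ X s, ∑ d ∈ univ.filter (fun d => d ≠ b ∧ x d < S d), (g x - g (x - e b + e d)) ^ 2
      = ∑ x ∈ (box S r).filter (fun x => 0 < x b),
          ((t : ℝ) + ((S b - x b : ℕ) : ℝ) + 1) *
            ∑ d ∈ univ.filter (fun d => d ≠ b ∧ x d < S d), (g x - g (x - e b + e d)) ^ 2 := by
    rw [← Finset.sum_fiberwise_of_maps_to (s := (box S r).filter (fun x => 0 < x b))
      (t := range (S b)) (g := fun x => S b - x b) (by
        intro x hx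
        rw [Finset.mem_filter, mem_box] at hx
        have : x b ≤ S b := hx.1.1 b
        rw [Finset.mem_range]
        omega)]
    refine Finset.sum_congr rfl fun s hs => ?_
    rw [Finset.mem_range] at hs
    rw [Finset.mul_sum]
    have hset : ((box S r).filter (fun x => 0 < x b)).filter (fun x => S b - x b = s) = X s := by
      ext x
      simp only [X, Finset.mem_filter, mem_box]
      constructor
      · rintro ⟨⟨⟨h1, h2⟩, h3⟩, h4⟩
        have : x b ≤ S b := h1 b
        exact ⟨⟨h1, h2⟩, by omega⟩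
      · rintro ⟨⟨h1, h2⟩, h3⟩
        exact ⟨⟨⟨h1, h2⟩, by omega⟩, by omega⟩
    rw [hset]
    refine Finset.sum_congr rfl fun x hx => ?_
    have hxb : S b - x b = s := by
      have := (Finset.mem_filter.1 hx).2
      have h2 : x b ≤ S b := (mem_box.1 (Finset.mem_filter.1 hx).1).1 b
      omega
    rw [hxb]
  rw [hE] at key
  linarith

end CT
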