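import Vale.Agent.CT.BDefs
import Vale.Agent.CT.BCnt

/-! # Hardy inequality for small `y_b`, second half (piece HD2): from the telescoping to `hardy_small` -/

namespace CT

open Finset
open scoped Classical

variable {J : Type} [Fintype J] [DecidableEq J]

theorem hdb_swap (v : J → ℕ) (r r1 : ℕ) (f : (J → ℕ) → (J → ℕ) → ℝ) :
    ∑ x ∈ box v r, ∑ w ∈ box (v - x) r1, f x w
      = ∑ w ∈ box v r1, ∑ x ∈ box (v - w) r, f x w := by
  refine Finset.sum_comm' ?_
  intro x w
  simp only [mem_box]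
  constructor
  · rintro ⟨⟨h1, h2⟩, h3, h4⟩
    refine ⟨⟨fun j => ?_, h2⟩, ?_, h4⟩
    · have a : x j ≤ v j := h1 j
      have c : w j ≤ v j - x j := h3 j
      show x j ≤ v j - w j
      omega
    · exact h3.trans tsub_le_self
  · rintro ⟨⟨h1, h2⟩, h3, h4⟩
    refine ⟨⟨h1.trans tsub_le_self, h2⟩, fun j => ?_, h4⟩
    have a : x j ≤ v j - w j := h1 j
    have c : w j ≤ v j := h3 j
    show w j ≤ v j - x j
    omega

theorem hdb_compl {y : J → ℕ} {r1 r2 : ℕ} (h : sz y = r1 + r2) (b : J) (t : ℕ) (ht : t ≤ y b) :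
    ((box y r1).filter (fun w => w b = t)).card
      = ((box y r2).filter (fun z => z b = y b - t)).card := by
  refine Finset.card_nbij' (fun z => y - z) (fun z => y - z) ?_ ?_ ?_ ?_
  · intro z hz
    rw [Finset.mem_coe, Finset.mem_filter, mem_box] at hz ⊢
    have := sz_sub_add hz.1.1
    refine ⟨⟨tsub_le_self, by show sz (y - z) = _; omega⟩, ?_⟩
    show y b - z b = y b - t
    rw [hz.2]
  · intro z hz
    rw [Finset.mem_coe, Finset.mem_filter, mem_box] at hz ⊢
    have := sz_sub_add hz.1.1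
    refine ⟨⟨tsub_le_self, by show sz (y - z) = _; omega⟩, ?_⟩
    show y b - z b = t
    rw [hz.2]
    omega
  · intro z hz
    rw [Finset.mem_coe, Finset.mem_filter, mem_box] at hz
    exact tsub_tsub_cancel_of_le hz.1.1
  · intro z hz
    rw [Finset.mem_coe, Finset.mem_filter, mem_box] at hz
    exact tsub_tsub_cancel_of_le hz.1.1

theorem hdb_harm (m N : ℕ) (h : m ≤ N + 1) : ∑ s ∈ range m, 1 / ((s : ℝ) + 1) ≤ lg N := by
  have h1 : ∑ s ∈ range m, 1 / ((s : ℝ) + 1) = ((harmonic m : ℚ) : ℝ) := by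
    rw [harmonic]
    push_cast
    refine Finset.sum_congr rfl fun s _ => ?_
    rw [one_div]
  rw [h1, lg]
  refine (harmonic_le_one_add_log m).trans ?_
  rcases Nat.eq_zero_or_pos m with hm | hm
  · subst hm
    have : 0 ≤ Real.log ((N : ℝ) + 1) := Real.log_nonneg (by
      have : (0 : ℝ) ≤ N := Nat.cast_nonneg N
      linarith)
    simp only [Nat.cast_zero, Real.log_zero]
    linarith
  · have h2 : Real.log (m : ℝ) ≤ Real.log ((N : ℝ) + 1) :=
      Real.log_le_log (by exact_mod_cast hm) (by exact_mod_cast h)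
    linarith

theorem hdb_one_le_lg (N : ℕ) : 1 ≤ lg N := by
  rw [lg]
  have : 0 ≤ Real.log ((N : ℝ) + 1) := Real.log_nonneg (by
    have : (0 : ℝ) ≤ N := Nat.cast_nonneg N
    linarith)
  linarith

theorem hdb_le_sz (v : J → ℕ) (b : J) : v b ≤ sz v :=
  Finset.single_le_sum (f := v) (fun _ _ => Nat.zero_le _) (Finset.mem_univ b)

/-- the inner weight -/
theorem hdb_inner (y : J → ℕ) (r1 r2 N : ℕ) (h : sz y = r1 + r2) (h21 : r2 ≤ r1) (b : J)
    (hN : y b ≤ N) :
    ∑ w ∈ (box y r1).filter (fun w => 1 ≤ w b ∧ 2 * Fintype.card J * w b ≤ r2),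
      ((y b : ℝ) + 1) / ((w b : ℝ) + 1) ≤ 40 * (Fintype.card J : ℝ) * lg N * N2 r2 y := by
  have hcard : 1 ≤ Fintype.card J := Fintype.card_pos_iff.2 ⟨b⟩
  have hnn : 0 ≤ 40 * (Fintype.card J : ℝ) * lg N * N2 r2 y := by
    have h1 := hdb_one_le_lg N
    have h2 := pp_N2_nonneg r2 y
    positivity
  by_cases hemp : ((box y r1).filter
      (fun w => 1 ≤ w b ∧ 2 * Fintype.card J * w b ≤ r2)) = ∅
  · rw [hemp, Finset.sum_empty]
    exact hnn
  · obtain ⟨w0, hw0⟩ := Finset.nonempty_iff_ne_empty.2 hemp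
    rw [Finset.mem_filter, mem_box] at hw0
    obtain ⟨⟨hw1, hw2⟩, hw3, hw4⟩ := hw0
    -- `2 y_b ≤ 3 r2`
    have hyb : 2 * y b ≤ 3 * r2 := by
      have h1 := sz_sub_add hw1
      have h2 : (y - w0) b ≤ sz (y - w0) := hdb_le_sz _ b
      have h3 : (y - w0) b = y b - w0 b := rfl
      have h4 : 2 * w0 b ≤ 2 * Fintype.card J * w0 b := by
        apply Nat.mul_le_mul_right
        omega
      omega
    have hsub : (box y r1).filter (fun w => 1 ≤ w b ∧ 2 * Fintype.card J * w b ≤ r2)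
        ⊆ box y r1 := Finset.filter_subset _ _
    calc ∑ w ∈ (box y r1).filter (fun w => 1 ≤ w b ∧ 2 * Fintype.card J * w b ≤ r2),
          ((y b : ℝ) + 1) / ((w b : ℝ) + 1)
        ≤ ∑ w ∈ box y r1, ((y b : ℝ) + 1) / ((w b : ℝ) + 1) :=
          Finset.sum_le_sum_of_subset_of_nonneg hsub fun w _ _ => by positivity
      _ = ∑ t ∈ range (y b + 1), ∑ w ∈ (box y r1).filter (fun w => w b = t),
            ((y b : ℝ) + 1) / ((w b : ℝ) + 1) := by
          symm
          apply Finset.sum_fiberwise_of_maps_to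
          intro w hw
          have h5 : w b ≤ y b := (mem_box.1 hw).1 b
          rw [Finset.mem_range]
          omega
      _ = ∑ t ∈ range (y b + 1), (((y b : ℝ) + 1) *
            (((box y r2).filter (fun z => z b = y b - t)).card : ℝ)) * (1 / ((t : ℝ) + 1)) := by
          refine Finset.sum_congr rfl fun t ht => ?_
          rw [Finset.mem_range] at ht
          rw [← hdb_compl h b t (by omega)]
          have : ∀ w ∈ (box y r1).filter (fun w => w b = t),
              ((y b : ℝ) + 1) / ((w b : ℝ) + 1) = ((y b : ℝ) + 1) / ((t : ℝ) + 1) := by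
            intro w hw
            rw [(Finset.mem_filter.1 hw).2]
          rw [Finset.sum_congr rfl this, Finset.sum_const, nsmul_eq_mul]
          ring
      _ ≤ ∑ t ∈ range (y b + 1), (40 * (Fintype.card J : ℝ) * N2 r2 y) * (1 / ((t : ℝ) + 1)) := by
          refine Finset.sum_le_sum fun t _ => ?_
          exact mul_le_mul_of_nonneg_right (cnt2 y r1 r2 h h21 b hyb _) (by positivity)
      _ = (40 * (Fintype.card J : ℝ) * N2 r2 y) * ∑ t ∈ range (y b + 1), 1 / ((t : ℝ) + 1) := by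
          rw [Finset.mul_sum]
      _ ≤ (40 * (Fintype.card J : ℝ) * N2 r2 y) * lg N := by
          refine mul_le_mul_of_nonneg_left (hdb_harm _ _ (by omega)) ?_
          have h2 := pp_N2_nonneg r2 y
          positivity
      _ = _ := by ring

/-- step 1 -/
theorem hdb_lhs (v : J → ℕ) (r1 r2 r : ℕ) (hv : sz v = r1 + r2 + r)
    (h21 : r2 ≤ r1) (b : J) (g : (J → ℕ) → ℝ) :
    ∑ x ∈ (box v r).filter (fun x => x b < v b ∧ 2 * Fintype.card J * (v b - x b) ≤ r2),
      N2 r2 (v - x) * g x ^ 2 / (((v - x) b : ℝ) + 1) ^ 2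
    ≤ 3 * ∑ x ∈ box v r, ∑ w ∈ box (v - x) r1,
        if w b = v b - x b ∧ 1 ≤ w b ∧ 2 * Fintype.card J * w b ≤ r2 then
          1 / ((w b : ℝ) + 1) * g x ^ 2 else 0 := by
  rw [Finset.sum_filter, Finset.mul_sum]
  refine Finset.sum_le_sum fun x hx => ?_
  obtain ⟨hx1, hx2⟩ := mem_box.1 hx
  have hnn : 0 ≤ 3 * ∑ w ∈ box (v - x) r1,
        if w b = v b - x b ∧ 1 ≤ w b ∧ 2 * Fintype.card J * w b ≤ r2 then
          1 / ((w b : ℝ) + 1) * g x ^ 2 else 0 := by
    refine mul_nonneg (by norm_num) (Finset.sum_nonneg fun w _ => ?_)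
    split_ifs
    · positivity
    · exact le_rfl
  split_ifs with hc
  · have hsz : sz (v - x) = r1 + r2 := by
      have := sz_sub_add hx1
      omega
    have hyb : (v - x) b = v b - x b := rfl
    have h1 := cnt1 (v - x) r1 r2 hsz h21 b (by rw [hyb]; exact hc.2)
    have h2 : ∑ w ∈ box (v - x) r1,
        (if w b = v b - x b ∧ 1 ≤ w b ∧ 2 * Fintype.card J * w b ≤ r2 then
          1 / ((w b : ℝ) + 1) * g x ^ 2 else 0)
        = (((box (v - x) r2).filter (fun z => z b = 0)).card : ℝ)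
          * (1 / (((v - x) b : ℝ) + 1) * g x ^ 2) := by
      have h3 := hdb_compl hsz b ((v - x) b) le_rfl
      rw [Nat.sub_self] at h3
      rw [← h3, ← nsmul_eq_mul, ← Finset.sum_const, Finset.sum_filter]
      refine Finset.sum_congr rfl fun w _ => ?_
      by_cases hw : w b = (v - x) b
      · have hw' : w b = v b - x b := hw
        rw [if_pos hw, if_pos ⟨hw', by omega, by rw [hw']; exact hc.2⟩, hw]
      · rw [if_neg hw, if_neg]
        rintro ⟨h4, _⟩
        exact hw h4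
    rw [h2]
    have h5 : (0 : ℝ) < ((v - x) b : ℝ) + 1 := by positivity
    rw [div_le_iff₀ (by positivity)]
    have h6 := mul_le_mul_of_nonneg_right h1 (sq_nonneg (g x))
    refine h6.trans (le_of_eq ?_)
    field_simp
  · exact hnn

/-- the end terms give the killed part -/
theorem hdb_A (v : J → ℕ) (r1 r2 r : ℕ) (hv : sz v = r1 + r2 + r)
    (h21 : r2 ≤ r1) (b : J) (g : (J → ℕ) → ℝ) :
    ∑ w ∈ box v r1, (if 1 ≤ w b ∧ 2 * Fintype.card J * w b ≤ r2 then
      1 / ((w b : ℝ) + 1) * ∑ x ∈ (box (v - w) r).filter (fun x => x b = 0), g x ^ 2 else 0)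
    ≤ KL v r2 r b g := by
  have e1 : ∑ w ∈ box v r1, (if 1 ≤ w b ∧ 2 * Fintype.card J * w b ≤ r2 then
      1 / ((w b : ℝ) + 1) * ∑ x ∈ (box (v - w) r).filter (fun x => x b = 0), g x ^ 2 else 0)
      = ∑ w ∈ box v r1, ∑ x ∈ box (v - w) r,
        (if (1 ≤ w b ∧ 2 * Fintype.card J * w b ≤ r2) ∧ x b = 0 then
          1 / ((w b : ℝ) + 1) * g x ^ 2 else 0) := by
    refine Finset.sum_congr rfl fun w _ => ?_
    by_cases hw : 1 ≤ w b ∧ 2 * Fintype.card J * w b ≤ r2
    · rw [if_pos hw, Finset.mul_sum, Finset.sum_filter]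
      refine Finset.sum_congr rfl fun x _ => ?_
      by_cases hx : x b = 0
      · rw [if_pos hx, if_pos ⟨hw, hx⟩]
      · rw [if_neg hx, if_neg (fun h => hx h.2)]
    · rw [if_neg hw]
      symm
      refine Finset.sum_eq_zero fun x _ => ?_
      rw [if_neg (fun h => hw h.1)]
  rw [e1, ← hdb_swap v r r1 (fun x w => if (1 ≤ w b ∧ 2 * Fintype.card J * w b ≤ r2) ∧ x b = 0
    then 1 / ((w b : ℝ) + 1) * g x ^ 2 else 0), KL, Finset.sum_filter]
  refine Finset.sum_le_sum fun x hx => ?_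
  obtain ⟨hx1, hx2⟩ := mem_box.1 hx
  have hsz : sz (v - x) = r1 + r2 := by
    have := sz_sub_add hx1
    omega
  by_cases hc : x b = 0 ∧ x b < v b ∧ ∃ d, d ≠ b ∧ x d < v d
  · rw [if_pos hc]
    have hN : N2 r2 (v - x) = ((box (v - x) r1).card : ℝ) := by
      rw [N2, card_box_compl hsz]
    rw [hN, ← nsmul_eq_mul, ← Finset.sum_const]
    refine Finset.sum_le_sum fun w _ => ?_
    split_ifs
    · have h3 : 1 / ((w b : ℝ) + 1) ≤ 1 := by
        rw [div_le_one (by positivity)]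
        have : (0 : ℝ) ≤ w b := Nat.cast_nonneg _
        linarith
      calc 1 / ((w b : ℝ) + 1) * g x ^ 2 ≤ 1 * g x ^ 2 :=
            mul_le_mul_of_nonneg_right h3 (sq_nonneg _)
        _ = g x ^ 2 := one_mul _
    · positivity
  · rw [if_neg hc]
    refine le_of_eq (Finset.sum_eq_zero fun w hw => ?_)
    rw [if_neg]
    rintro ⟨⟨h3, h4⟩, h5⟩
    apply hc
    obtain ⟨hw1, hw2⟩ := mem_box.1 hw
    have h6 : w b ≤ v b - x b := hw1 b
    refine ⟨h5, by omega, ?_⟩
    by_contra hcon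
    push Not at hcon
    have h7 : ∀ d, d ≠ b → w d = 0 := by
      intro d hd
      have h8 : w d ≤ v d - x d := hw1 d
      have h9 := hcon d hd
      omega
    have h10 : sz w = w b := by
      rw [sz]
      exact Finset.sum_eq_single b (fun d _ hd => h7 d hd) (fun h => absurd (Finset.mem_univ b) h)
    have hcard : 1 ≤ Fintype.card J := Fintype.card_pos_iff.2 ⟨b⟩
    have h11 : 2 * w b ≤ 2 * Fintype.card J * w b := by
      apply Nat.mul_le_mul_right
      omega
    omega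

/-- the Dirichlet terms -/
theorem hdb_B (v : J → ℕ) (r1 r2 r : ℕ) (hv : sz v = r1 + r2 + r)
    (h21 : r2 ≤ r1) (b : J) (g : (J → ℕ) → ℝ) :
    ∑ w ∈ box v r1, (if 1 ≤ w b ∧ 2 * Fintype.card J * w b ≤ r2 then
      1 / ((w b : ℝ) + 1) * ∑ x ∈ (box (v - w) r).filter (fun x => 0 < x b),
        ((w b : ℝ) + (((v - w) b - x b : ℕ) : ℝ) + 1)
        * ∑ d ∈ univ.filter (fun d => d ≠ b ∧ x d < (v - w) d),
          (g x - g (x - e b + e d)) ^ 2 else 0)
    ≤ 40 * (Fintype.card J : ℝ) * lg (sz v) * DL v r2 r b g := by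
  have hDn : ∀ x, 0 ≤ ∑ d ∈ univ.filter (fun d => d ≠ b ∧ x d < v d),
      (g x - g (x - e b + e d)) ^ 2 := fun x => Finset.sum_nonneg fun d _ => sq_nonneg _
  have e1 : ∑ w ∈ box v r1, (if 1 ≤ w b ∧ 2 * Fintype.card J * w b ≤ r2 then
      1 / ((w b : ℝ) + 1) * ∑ x ∈ (box (v - w) r).filter (fun x => 0 < x b),
        ((w b : ℝ) + (((v - w) b - x b : ℕ) : ℝ) + 1)
        * ∑ d ∈ univ.filter (fun d => d ≠ b ∧ x d < (v - w) d),
          (g x - g (x - e b + e d)) ^ 2 else 0)
      ≤ ∑ w ∈ box v r1, ∑ x ∈ box (v - w) r,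
        (if (1 ≤ w b ∧ 2 * Fintype.card J * w b ≤ r2) ∧ 0 < x b then
          (((v b - x b : ℕ) : ℝ) + 1) / ((w b : ℝ) + 1) *
          ∑ d ∈ univ.filter (fun d => d ≠ b ∧ x d < v d),
            (g x - g (x - e b + e d)) ^ 2 else 0) := by
    refine Finset.sum_le_sum fun w hw => ?_
    obtain ⟨hw1, hw2⟩ := mem_box.1 hw
    by_cases hP : 1 ≤ w b ∧ 2 * Fintype.card J * w b ≤ r2
    · rw [if_pos hP, Finset.mul_sum, Finset.sum_filter]
      refine Finset.sum_le_sum fun x hx => ?_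
      obtain ⟨hx1, hx2⟩ := mem_box.1 hx
      by_cases hxb : 0 < x b
      · rw [if_pos hxb, if_pos ⟨hP, hxb⟩]
        have h3 : x b ≤ v b - w b := hx1 b
        have h4 : w b ≤ v b := hw1 b
        have h5 : (w b : ℝ) + (((v - w) b - x b : ℕ) : ℝ) = ((v b - x b : ℕ) : ℝ) := by
          have h6 : w b + ((v - w) b - x b) = v b - x b := by
            show w b + (v b - w b - x b) = v b - x b
            omega
          exact_mod_cast h6
        rw [h5, ← mul_assoc, one_div, inv_mul_eq_div]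
        refine mul_le_mul_of_nonneg_left ?_ (by positivity)
        refine Finset.sum_le_sum_of_subset_of_nonneg ?_ (fun d _ _ => sq_nonneg _)
        intro d hd
        rw [Finset.mem_filter] at hd ⊢
        refine ⟨hd.1, hd.2.1, ?_⟩
        have h7 : x d < v d - w d := hd.2.2
        omega
      · rw [if_neg hxb, if_neg (fun h => hxb h.2)]
    · rw [if_neg hP]
      refine Finset.sum_nonneg fun x _ => ?_
      rw [if_neg (fun h => hP h.1)]
  refine e1.trans ?_
  rw [← hdb_swap v r r1 (fun x w => if (1 ≤ w b ∧ 2 * Fintype.card J * w b ≤ r2) ∧ 0 < x b then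
          (((v b - x b : ℕ) : ℝ) + 1) / ((w b : ℝ) + 1) *
          ∑ d ∈ univ.filter (fun d => d ≠ b ∧ x d < v d),
            (g x - g (x - e b + e d)) ^ 2 else 0), DL, Finset.sum_filter, Finset.mul_sum]
  refine Finset.sum_le_sum fun x hx => ?_
  obtain ⟨hx1, hx2⟩ := mem_box.1 hx
  have hsz : sz (v - x) = r1 + r2 := by
    have := sz_sub_add hx1
    omega
  have hlg := hdb_one_le_lg (sz v)
  have hN := pp_N2_nonneg r2 (v - x)
  have hSn : 0 ≤ ∑ a ∈ sp x, ∑ d ∈ univ.filter (fun d => d ≠ b ∧ x d < v d),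
      (g x - g (x - e a + e d)) ^ 2 :=
    Finset.sum_nonneg fun a _ => Finset.sum_nonneg fun d _ => sq_nonneg _
  by_cases hxb : 0 < x b
  · by_cases hxv : x b < v b
    · rw [if_pos hxv]
      have hin := hdb_inner (v - x) r1 r2 (sz v) hsz h21 b
        ((show v b - x b ≤ v b from Nat.sub_le _ _).trans (hdb_le_sz v b))
      have e2 : ∑ w ∈ box (v - x) r1,
          (if (1 ≤ w b ∧ 2 * Fintype.card J * w b ≤ r2) ∧ 0 < x b then
          (((v b - x b : ℕ) : ℝ) + 1) / ((w b : ℝ) + 1) *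
          ∑ d ∈ univ.filter (fun d => d ≠ b ∧ x d < v d),
            (g x - g (x - e b + e d)) ^ 2 else 0)
          = (∑ w ∈ (box (v - x) r1).filter
              (fun w => 1 ≤ w b ∧ 2 * Fintype.card J * w b ≤ r2),
              (((v - x) b : ℝ) + 1) / ((w b : ℝ) + 1)) *
            ∑ d ∈ univ.filter (fun d => d ≠ b ∧ x d < v d),
              (g x - g (x - e b + e d)) ^ 2 := by
        have e3 : ∑ w ∈ (box (v - x) r1).filter
              (fun w => 1 ≤ w b ∧ 2 * Fintype.card J * w b ≤ r2),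
              (((v - x) b : ℝ) + 1) / ((w b : ℝ) + 1)
              = ∑ w ∈ box (v - x) r1, if 1 ≤ w b ∧ 2 * Fintype.card J * w b ≤ r2 then
                (((v - x) b : ℝ) + 1) / ((w b : ℝ) + 1) else 0 := Finset.sum_filter _ _
        rw [e3, Finset.sum_mul]
        refine Finset.sum_congr rfl fun w _ => ?_
        by_cases hP : 1 ≤ w b ∧ 2 * Fintype.card J * w b ≤ r2
        · rw [if_pos hP, if_pos ⟨hP, hxb⟩]
          rfl
        · rw [if_neg hP, if_neg (fun h => hP h.1), zero_mul]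
      rw [e2]
      refine (mul_le_mul_of_nonneg_right hin (hDn x)).trans ?_
      have h8 : ∑ d ∈ univ.filter (fun d => d ≠ b ∧ x d < v d), (g x - g (x - e b + e d)) ^ 2
          ≤ ∑ a ∈ sp x, ∑ d ∈ univ.filter (fun d => d ≠ b ∧ x d < v d),
            (g x - g (x - e a + e d)) ^ 2 :=
        Finset.single_le_sum (f := fun a => ∑ d ∈ univ.filter (fun d => d ≠ b ∧ x d < v d),
            (g x - g (x - e a + e d)) ^ 2)
          (fun a _ => Finset.sum_nonneg fun d _ => sq_nonneg _) (mem_sp.2 hxb)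
      have h9 := mul_le_mul_of_nonneg_left h8
        (show 0 ≤ 40 * (Fintype.card J : ℝ) * lg (sz v) * N2 r2 (v - x) by positivity)
      refine h9.trans (le_of_eq ?_)
      ring
    · rw [if_neg hxv, mul_zero]
      refine le_of_eq (Finset.sum_eq_zero fun w hw => ?_)
      rw [if_neg]
      rintro ⟨⟨h3, h4⟩, h5⟩
      have h6 : w b ≤ v b - x b := (mem_box.1 hw).1 b
      omega
  · have h10 : ∑ w ∈ box (v - x) r1,
          (if (1 ≤ w b ∧ 2 * Fintype.card J * w b ≤ r2) ∧ 0 < x b then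
          (((v b - x b : ℕ) : ℝ) + 1) / ((w b : ℝ) + 1) *
          ∑ d ∈ univ.filter (fun d => d ≠ b ∧ x d < v d),
            (g x - g (x - e b + e d)) ^ 2 else 0) = 0 := by
      refine Finset.sum_eq_zero fun w _ => ?_
      rw [if_neg (fun h => hxb h.2)]
    rw [h10]
    refine mul_nonneg (by positivity) ?_
    split_ifs
    · exact mul_nonneg hN hSn
    · exact le_rfl

/-- `hardy_small` from the telescoping inequality -/
theorem hdb_main (v : J → ℕ) (r1 r2 r : ℕ) (hv : sz v = r1 + r2 + r)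
    (h21 : r2 ≤ r1) (b : J) (g : (J → ℕ) → ℝ)
    (HT : ∀ (S : J → ℕ) (t : ℕ) (L : ℝ), sz S = r + r2 →
      (∑ s ∈ range (S b), 1 / ((t : ℝ) + s + 1) ≤ L) →
      ∑ x ∈ (box S r).filter (fun x => x b = S b), g x ^ 2
      ≤ 2 * ∑ x ∈ (box S r).filter (fun x => x b = 0), g x ^ 2
        + 2 * L * ∑ x ∈ (box S r).filter (fun x => 0 < x b),
          ((t : ℝ) + ((S b - x b : ℕ) : ℝ) + 1)
          * ∑ d ∈ univ.filter (fun d => d ≠ b ∧ x d < S d), (g x - g (x - e b + e d)) ^ 2) :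
    ∑ x ∈ (box v r).filter (fun x => x b < v b ∧ 2 * Fintype.card J * (v b - x b) ≤ r2),
      N2 r2 (v - x) * g x ^ 2 / (((v - x) b : ℝ) + 1) ^ 2
    ≤ 1000 * (Fintype.card J : ℝ) * lg (sz v) ^ 2 * (KL v r2 r b g + DL v r2 r b g) := by
  have hA := hdb_A v r1 r2 r hv h21 b g
  have hB := hdb_B v r1 r2 r hv h21 b g
  have hlg := hdb_one_le_lg (sz v)
  have hcard : (1 : ℝ) ≤ Fintype.card J := by
    exact_mod_cast Fintype.card_pos_iff.2 ⟨b⟩
  have hKn : 0 ≤ KL v r2 r b g := by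
    rw [KL]
    exact Finset.sum_nonneg fun x _ => mul_nonneg (pp_N2_nonneg _ _) (sq_nonneg _)
  have hDn : 0 ≤ DL v r2 r b g := by
    rw [DL]
    exact Finset.sum_nonneg fun x _ => mul_nonneg (pp_N2_nonneg _ _)
      (Finset.sum_nonneg fun a _ => Finset.sum_nonneg fun d _ => sq_nonneg _)
  have h0 := hdb_lhs v r1 r2 r hv h21 b g
  rw [hdb_swap v r r1 (fun x w => if w b = v b - x b ∧ 1 ≤ w b ∧ 2 * Fintype.card J * w b ≤ r2
    then 1 / ((w b : ℝ) + 1) * g x ^ 2 else 0)] at h0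
  have h2 : ∑ w ∈ box v r1, ∑ x ∈ box (v - w) r,
      (if w b = v b - x b ∧ 1 ≤ w b ∧ 2 * Fintype.card J * w b ≤ r2
        then 1 / ((w b : ℝ) + 1) * g x ^ 2 else 0)
      ≤ ∑ w ∈ box v r1, (2 * (if 1 ≤ w b ∧ 2 * Fintype.card J * w b ≤ r2 then
          1 / ((w b : ℝ) + 1) * ∑ x ∈ (box (v - w) r).filter (fun x => x b = 0), g x ^ 2 else 0)
        + 2 * lg (sz v) * (if 1 ≤ w b ∧ 2 * Fintype.card J * w b ≤ r2 then
          1 / ((w b : ℝ) + 1) * ∑ x ∈ (box (v - w) r).filter (fun x => 0 < x b),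
            ((w b : ℝ) + (((v - w) b - x b : ℕ) : ℝ) + 1)
            * ∑ d ∈ univ.filter (fun d => d ≠ b ∧ x d < (v - w) d),
              (g x - g (x - e b + e d)) ^ 2 else 0)) := by
    refine Finset.sum_le_sum fun w hw => ?_
    obtain ⟨hw1, hw2⟩ := mem_box.1 hw
    by_cases hP : 1 ≤ w b ∧ 2 * Fintype.card J * w b ≤ r2
    · rw [if_pos hP, if_pos hP]
      have hsz : sz (v - w) = r + r2 := by
        have := sz_sub_add hw1
        omega
      have hL : ∑ s ∈ range ((v - w) b), 1 / ((w b : ℝ) + s + 1) ≤ lg (sz v) := by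
        refine le_trans ?_ (hdb_harm ((v - w) b) (sz v) ?_)
        · refine Finset.sum_le_sum fun s _ => ?_
          have h3 : (0 : ℝ) ≤ w b := Nat.cast_nonneg _
          have h4 : (0 : ℝ) ≤ s := Nat.cast_nonneg _
          exact one_div_le_one_div_of_le (by linarith) (by linarith)
        · have h3 : (v - w) b ≤ v b := Nat.sub_le _ _
          have h4 := hdb_le_sz v b
          omega
      have h3 := HT (v - w) (w b) (lg (sz v)) hsz hL
      have h4 : ∑ x ∈ box (v - w) r,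
          (if w b = v b - x b ∧ 1 ≤ w b ∧ 2 * Fintype.card J * w b ≤ r2
            then 1 / ((w b : ℝ) + 1) * g x ^ 2 else 0)
          = 1 / ((w b : ℝ) + 1) *
            ∑ x ∈ (box (v - w) r).filter (fun x => x b = (v - w) b), g x ^ 2 := by
        rw [Finset.mul_sum, Finset.sum_filter]
        refine Finset.sum_congr rfl fun x hx => ?_
        have h5 : x b ≤ v b - w b := (mem_box.1 hx).1 b
        have h6 : w b ≤ v b := hw1 b
        by_cases hxb : x b = (v - w) b
        · have h7 : x b = v b - w b := hxb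
          rw [if_pos hxb, if_pos ⟨by omega, hP⟩]
        · rw [if_neg hxb, if_neg]
          rintro ⟨h7, _⟩
          apply hxb
          show x b = v b - w b
          omega
      rw [h4]
      have h5 := mul_le_mul_of_nonneg_left h3
        (show (0 : ℝ) ≤ 1 / ((w b : ℝ) + 1) by positivity)
      refine h5.trans (le_of_eq ?_)
      ring
    · rw [if_neg hP, if_neg hP]
      refine le_of_eq ?_
      rw [mul_zero, mul_zero, add_zero]
      refine Finset.sum_eq_zero fun x _ => ?_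
      rw [if_neg (fun h => hP h.2)]
  rw [Finset.sum_add_distrib, ← Finset.mul_sum, ← Finset.mul_sum] at h2
  have h3 : ∑ w ∈ box v r1, ∑ x ∈ box (v - w) r,
      (if w b = v b - x b ∧ 1 ≤ w b ∧ 2 * Fintype.card J * w b ≤ r2
        then 1 / ((w b : ℝ) + 1) * g x ^ 2 else 0)
      ≤ 2 * KL v r2 r b g + 2 * lg (sz v) * (40 * (Fintype.card J : ℝ) * lg (sz v)
        * DL v r2 r b g) := by
    refine h2.trans (add_le_add ?_ ?_)
    · exact mul_le_mul_of_nonneg_left hA (by norm_num)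
    · exact mul_le_mul_of_nonneg_left hB (by positivity)
  have h4 := h0.trans (mul_le_mul_of_nonneg_left h3 (by norm_num))
  refine h4.trans ?_
  have h5 : (1 : ℝ) ≤ (Fintype.card J : ℝ) * lg (sz v) ^ 2 := by
    nlinarith [mul_le_mul hcard hlg (by norm_num) (by positivity)]
  nlinarith [mul_le_mul_of_nonneg_right h5 hKn, mul_le_mul_of_nonneg_right h5 hDn,
    mul_nonneg (mul_nonneg (by positivity : (0 : ℝ) ≤ Fintype.card J)
      (sq_nonneg (lg (sz v)))) hDn, mul_nonneg (mul_nonneg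
      (by positivity : (0 : ℝ) ≤ Fintype.card J) (sq_nonneg (lg (sz v)))) hKn]

end CT
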