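import Vale.Agent.CT.BMc
import Vale.Agent.CT.BCnt
import Vale.Agent.CT.BHdA
import Vale.Agent.CT.BHdB

/-! # Hardy inequality for small `y_b` (piece HD)

`y = v - x`, `t = y_b ≥ 1`, `2 n t ≤ r2`.  By `cnt1` the weight `N2 y / (t+1)` is at most
`3 #{z : z_b = 0}`: tables `(x, z, w)` (`z` total `r2`, `w = y - z` total `r1`) with `z_b = 0`, `w_b = t`.
Fix `w`; `S = v - w = x + z`, `S_b = x_b`.  Level `s = z_b ∈ [0, S_b]`: the rest of `x` is uniform in
`box S' (r - S_b + s)`, `S' = S` without column `b`; `m_0 ≤ m_s` (card_box_unimodal).  `mc` on `S'`: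
`N_0^{1/2} ≤ N_{S_b}^{1/2} + ∑_s ε_s`, `m_s ε_s² ≤ ∑_{x, d} (g x - g (x - e b + e d))²`, and
Cauchy-Schwarz with weights `1/(t+s+1)` (sum `≤ 2 lg`).  Sum over `w` with the factor `1/(t+1)`: at a
state `x` with `y_b = u = t + s ≤ 3 r2/2` the weight is
`∑_t (u+1)/(t+1) #{z : z_b = u - t} ≤ 40 n (2 lg) N2` by `cnt2`. End states have `x_b = 0` and the active
row has a unit outside `b` (`t < r1`). -/

namespace CT

open Finset
open scoped Classical

variable {J : Type} [Fintype J] [DecidableEq J]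

theorem hardy_small (v : J → ℕ) (r1 r2 r : ℕ) (hv : sz v = r1 + r2 + r) (h1 : 1 ≤ r1)
    (h21 : r2 ≤ r1) (hr : r ≤ r2) (b : J) (g : (J → ℕ) → ℝ) :
    ∑ x ∈ (box v r).filter (fun x => x b < v b ∧ 2 * Fintype.card J * (v b - x b) ≤ r2),
      N2 r2 (v - x) * g x ^ 2 / (((v - x) b : ℝ) + 1) ^ 2
    ≤ 1000 * (Fintype.card J : ℝ) * lg (sz v) ^ 2 * (KL v r2 r b g + DL v r2 r b g) := by
  exact hdb_main v r1 r2 r hv h21 b g
    (fun S t L hS hL => hd_tele S r r2 hS hr b t L hL g)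

end CT
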