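import Vale.Agent.CT.BCnt
import Vale.Agent.CT.BHdA

/-! # Hardy inequality, counting sub-lemmas -/

namespace CT

open Finset
open scoped Classical

theorem hd_lam0 (t m N : ℕ) (h : t + m ≤ N) :
    ∑ s ∈ range m, 1 / ((t : ℝ) + s + 1) ≤ lg N := by
  have h1 : ∀ k : ℕ, ∑ s ∈ range k, 1 / ((t : ℝ) + s + 1)
      ≤ Real.log ((t : ℝ) + k + 1) - Real.log ((t : ℝ) + 1) + (1 / ((t : ℝ) + 1)
        - 1 / ((t : ℝ) + k + 1)) := by
    intro k
    induction k with
    | zero => simp
    | succ k ih =>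
      rw [Finset.sum_range_succ]
      have hp : (0 : ℝ) < (t : ℝ) + k + 1 := by positivity
      have hp2 : (0 : ℝ) < (t : ℝ) + k + 2 := by positivity
      have hl : 1 / ((t : ℝ) + k + 2) ≤ Real.log ((t : ℝ) + k + 2) - Real.log ((t : ℝ) + k + 1) := by
        rw [← Real.log_div hp2.ne' hp.ne']
        have h2 := Real.one_sub_inv_le_log_of_pos (div_pos hp2 hp)
        have h3 : 1 - (((t : ℝ) + k + 2) / ((t : ℝ) + k + 1))⁻¹ = 1 / ((t : ℝ) + k + 2) := by
          field_simp
          ring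
        linarith
      have h4 : (t : ℝ) + ((k + 1 : ℕ) : ℝ) + 1 = (t : ℝ) + k + 2 := by
        push_cast
        ring
      rw [h4]
      linarith
  have h2 := h1 m
  have h3 : Real.log ((t : ℝ) + m + 1) ≤ Real.log ((N : ℝ) + 1) := by
    apply Real.log_le_log (by positivity)
    have : ((t + m : ℕ) : ℝ) ≤ N := by exact_mod_cast h
    push_cast at this
    linarith
  have h4 : 0 ≤ Real.log ((t : ℝ) + 1) := Real.log_nonneg (by
    have : (0 : ℝ) ≤ t := Nat.cast_nonneg _
    linarith)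
  have h5 : 1 / ((t : ℝ) + 1) ≤ 1 := by
    rw [div_le_one (by positivity)]
    have : (0 : ℝ) ≤ t := Nat.cast_nonneg _
    linarith
  have h6 : 0 ≤ 1 / ((t : ℝ) + m + 1) := by positivity
  unfold lg
  linarith

theorem hd_lam (t m N : ℕ) (_ht : 1 ≤ t) (h : t + m ≤ N) :
    ∑ s ∈ range m, 1 / ((t : ℝ) + s + 1) ≤ lg N := hd_lam0 t m N h

variable {J : Type} [Fintype J] [DecidableEq J]

theorem hd_swap (v : J → ℕ) (r1 r : ℕ) (f : (J → ℕ) → (J → ℕ) → ℝ) :
    ∑ x ∈ box v r, ∑ w ∈ box (v - x) r1, f x w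
      = ∑ w ∈ box v r1, ∑ x ∈ box (v - w) r, f x w := by
  apply Finset.sum_comm'
  intro x w
  simp only [mem_box]
  constructor
  · rintro ⟨⟨h1, h2⟩, h3, h4⟩
    refine ⟨⟨fun j => ?_, h2⟩, fun j => ?_, h4⟩
    · have a1 : x j ≤ v j := h1 j
      have a2 : w j ≤ v j - x j := h3 j
      show x j ≤ v j - w j
      omega
    · have a1 : x j ≤ v j := h1 j
      have a2 : w j ≤ v j - x j := h3 j
      show w j ≤ v j
      omega
  · rintro ⟨⟨h1, h2⟩, h3, h4⟩
    refine ⟨⟨fun j => ?_, h2⟩, fun j => ?_, h4⟩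
    · have a1 : w j ≤ v j := h3 j
      have a2 : x j ≤ v j - w j := h1 j
      show x j ≤ v j
      omega
    · have a1 : w j ≤ v j := h3 j
      have a2 : x j ≤ v j - w j := h1 j
      show w j ≤ v j - x j
      omega

theorem hd_level (y : J → ℕ) (r1 r2 : ℕ) (h : sz y = r1 + r2) (b : J) (t : ℕ) (ht : t ≤ y b) :
    ((box y r1).filter (fun w => w b = t)).card
      = ((box y r2).filter (fun z => z b = y b - t)).card := by
  refine Finset.card_nbij' (fun z => y - z) (fun z => y - z) ?_ ?_ ?_ ?_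
  · intro z hz
    rw [Finset.mem_coe, Finset.mem_filter, mem_box] at hz ⊢
    obtain ⟨⟨h1, h2⟩, h3⟩ := hz
    have := sz_sub_add h1
    refine ⟨⟨tsub_le_self, by show sz (y - z) = _; omega⟩, ?_⟩
    show y b - z b = y b - t
    omega
  · intro z hz
    rw [Finset.mem_coe, Finset.mem_filter, mem_box] at hz ⊢
    obtain ⟨⟨h1, h2⟩, h3⟩ := hz
    have := sz_sub_add h1
    refine ⟨⟨tsub_le_self, by show sz (y - z) = _; omega⟩, ?_⟩
    show y b - z b = t
    omega
  · intro z hz
    rw [Finset.mem_coe, Finset.mem_filter, mem_box] at hz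
    exact tsub_tsub_cancel_of_le hz.1.1
  · intro z hz
    rw [Finset.mem_coe, Finset.mem_filter, mem_box] at hz
    exact tsub_tsub_cancel_of_le hz.1.1

theorem hd_T (y : J → ℕ) (r1 r2 : ℕ) (h : sz y = r1 + r2) (h21 : r2 ≤ r1) (N : ℕ) (hN : sz y ≤ N)
    (b : J) :
    ((y b : ℝ) + 1) * ∑ w ∈ (box y r1).filter
        (fun w => 1 ≤ w b ∧ 2 * Fintype.card J * w b ≤ r2), 1 / ((w b : ℝ) + 1)
      ≤ 40 * (Fintype.card J : ℝ) * lg N * N2 r2 y := by
  have hN0 : 0 ≤ N2 r2 y := by unfold N2; positivity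
  have hlg0 : 0 ≤ lg N := by
    unfold lg
    have : 0 ≤ Real.log ((N : ℝ) + 1) := Real.log_nonneg (by
      have : (0 : ℝ) ≤ N := Nat.cast_nonneg _
      linarith)
    linarith
  rcases ((box y r1).filter
      (fun w => 1 ≤ w b ∧ 2 * Fintype.card J * w b ≤ r2)).eq_empty_or_nonempty with hemp | hne
  · rw [hemp, Finset.sum_empty, mul_zero]
    positivity
  have hcJ : 1 ≤ Fintype.card J := Fintype.card_pos_iff.2 ⟨b⟩
  have hyb : 2 * y b ≤ 3 * r2 := by
    obtain ⟨w, hw⟩ := hne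
    rw [Finset.mem_filter, mem_box] at hw
    obtain ⟨⟨h1, h2⟩, h3, h4⟩ := hw
    have h5 : 2 * w b ≤ 2 * Fintype.card J * w b := by nlinarith
    have h6 := sz_sub_add h1
    have h7 : (y - w) b ≤ sz (y - w) := Finset.single_le_sum (f := fun j => (y - w) j)
      (fun _ _ => Nat.zero_le _) (mem_univ b)
    have h8 : (y - w) b = y b - w b := rfl
    omega
  have hybN : y b ≤ sz y := Finset.single_le_sum (f := fun j => y j)
      (fun _ _ => Nat.zero_le _) (mem_univ b)
  -- sum over levels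
  have hmaps : ∀ w ∈ (box y r1).filter (fun w => 1 ≤ w b ∧ 2 * Fintype.card J * w b ≤ r2),
      w b ∈ Finset.Ico 1 (y b + 1) := by
    intro w hw
    rw [Finset.mem_filter, mem_box] at hw
    have : w b ≤ y b := hw.1.1 b
    rw [Finset.mem_Ico]
    omega
  rw [← Finset.sum_fiberwise_of_maps_to hmaps, Finset.mul_sum]
  have hlev : ∀ t ∈ Finset.Ico 1 (y b + 1), ((y b : ℝ) + 1) *
      ∑ w ∈ ((box y r1).filter (fun w => 1 ≤ w b ∧ 2 * Fintype.card J * w b ≤ r2)).filter
        (fun w => w b = t), 1 / ((w b : ℝ) + 1)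
      ≤ 1 / ((t : ℝ) + 1) * (40 * (Fintype.card J : ℝ) * N2 r2 y) := by
    intro t ht
    rw [Finset.mem_Ico] at ht
    have h1 : ∑ w ∈ ((box y r1).filter (fun w => 1 ≤ w b ∧ 2 * Fintype.card J * w b ≤ r2)).filter
        (fun w => w b = t), 1 / ((w b : ℝ) + 1)
        ≤ ∑ w ∈ (box y r1).filter (fun w => w b = t), 1 / ((t : ℝ) + 1) := by
      calc ∑ w ∈ ((box y r1).filter (fun w => 1 ≤ w b ∧ 2 * Fintype.card J * w b ≤ r2)).filter
            (fun w => w b = t), 1 / ((w b : ℝ) + 1)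
          = ∑ w ∈ ((box y r1).filter (fun w => 1 ≤ w b ∧ 2 * Fintype.card J * w b ≤ r2)).filter
            (fun w => w b = t), 1 / ((t : ℝ) + 1) := by
            refine Finset.sum_congr rfl fun w hw => ?_
            rw [(Finset.mem_filter.1 hw).2]
        _ ≤ _ := by
            apply Finset.sum_le_sum_of_subset_of_nonneg
            · intro w hw
              simp only [Finset.mem_filter] at hw ⊢
              exact ⟨hw.1.1, hw.2⟩
            · intro _ _ _
              positivity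
    rw [Finset.sum_const, nsmul_eq_mul, hd_level y r1 r2 h b t (by omega)] at h1
    have h2 := cnt2 y r1 r2 h h21 b hyb (y b - t)
    have h3 := mul_le_mul_of_nonneg_left h1 (by positivity : (0 : ℝ) ≤ (y b : ℝ) + 1)
    refine h3.trans ?_
    have h4 := mul_le_mul_of_nonneg_left h2 (by positivity : (0 : ℝ) ≤ 1 / ((t : ℝ) + 1))
    calc ((y b : ℝ) + 1) * ((((box y r2).filter (fun z => z b = y b - t)).card : ℝ)
            * (1 / ((t : ℝ) + 1)))
        = 1 / ((t : ℝ) + 1) * (((y b : ℝ) + 1)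
          * (((box y r2).filter (fun z => z b = y b - t)).card : ℝ)) := by ring
      _ ≤ _ := h4
  refine (Finset.sum_le_sum hlev).trans ?_
  rw [← Finset.sum_mul]
  have hs : ∑ t ∈ Finset.Ico 1 (y b + 1), 1 / ((t : ℝ) + 1) ≤ lg N := by
    rw [Finset.sum_Ico_eq_sum_range]
    have h1 : y b + 1 - 1 = y b := by omega
    rw [h1]
    refine le_trans ?_ (hd_lam0 0 (y b) N (by omega))
    refine Finset.sum_le_sum fun k _ => ?_
    apply one_div_le_one_div_of_le
    · push_cast
      positivity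
    · push_cast
      linarith
  calc (∑ t ∈ Finset.Ico 1 (y b + 1), 1 / ((t : ℝ) + 1)) * (40 * (Fintype.card J : ℝ) * N2 r2 y)
      ≤ lg N * (40 * (Fintype.card J : ℝ) * N2 r2 y) :=
        mul_le_mul_of_nonneg_right hs (by positivity)
    _ = _ := by ring

end CT
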