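import Mathlib

/-! # Sequences for the coupling of adjacent levels (piece MC) -/

namespace CT

open Finset

/-- weight sent up -/
noncomputable def alw (c : ℕ → ℝ) (A A' : ℝ) (j : ℕ) : ℝ :=
  (∑ i ∈ range (j + 1), c (i + 1)) / A - (∑ i ∈ range (j + 1), c i) / A'

/-- weight sent sideways -/
noncomputable def bew (c : ℕ → ℝ) (A A' : ℝ) (j : ℕ) : ℝ :=
  (∑ i ∈ range (j + 1), c i) / A' - (∑ i ∈ range j, c (i + 1)) / A

theorem alw_add_bew (c : ℕ → ℝ) (A A' : ℝ) (j : ℕ) :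
    alw c A A' j + bew c A A' j = c (j + 1) / A := by
  unfold alw bew
  rw [sum_range_succ (fun i => c (i + 1)) j]
  ring

theorem alw_add_bew' (c : ℕ → ℝ) (A A' : ℝ) (j : ℕ) :
    alw c A A' j + bew c A A' (j + 1) = c (j + 1) / A' := by
  unfold alw bew
  rw [sum_range_succ (fun i => c i) (j + 1)]
  ring

theorem bew_zero (c : ℕ → ℝ) (A A' : ℝ) : bew c A A' 0 = c 0 / A' := by
  unfold bew
  simp

theorem alw_nonneg (c : ℕ → ℝ)
    (hlc : ∀ i k, i ≤ k → c i * c (k + 1) ≤ c (i + 1) * c k) (p : ℕ)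
    (hA : 0 < ∑ i ∈ range (p + 1), c (i + 1)) (hA' : 0 < ∑ i ∈ range (p + 1), c i)
    {j : ℕ} (hj : j ≤ p) :
    0 ≤ alw c (∑ i ∈ range (p + 1), c (i + 1)) (∑ i ∈ range (p + 1), c i) j := by
  unfold alw
  rw [sub_nonneg, div_le_div_iff₀ hA' hA]
  have h1 : ∑ i ∈ range (p + 1), c (i + 1)
      = ∑ i ∈ range (j + 1), c (i + 1) + ∑ i ∈ Ico (j + 1) (p + 1), c (i + 1) := by
    rw [sum_range_add_sum_Ico _ (by omega)]
  have h2 : ∑ i ∈ range (p + 1), c i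
      = ∑ i ∈ range (j + 1), c i + ∑ i ∈ Ico (j + 1) (p + 1), c i := by
    rw [sum_range_add_sum_Ico _ (by omega)]
  rw [h1, h2, mul_add, mul_add]
  have h3 : (∑ i ∈ range (j + 1), c i) * ∑ i ∈ Ico (j + 1) (p + 1), c (i + 1)
      ≤ (∑ i ∈ range (j + 1), c (i + 1)) * ∑ i ∈ Ico (j + 1) (p + 1), c i := by
    rw [sum_mul_sum, sum_mul_sum]
    refine sum_le_sum fun i hi => sum_le_sum fun k hk => ?_
    rw [mem_range] at hi
    rw [mem_Ico] at hk
    exact hlc i k (by omega)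
  nlinarith

theorem bew_nonneg (c : ℕ → ℝ) (hc : ∀ i, 0 ≤ c i) (p : ℕ)
    (hA : 0 < ∑ i ∈ range (p + 1), c (i + 1)) (hA' : 0 < ∑ i ∈ range (p + 1), c i)
    {j : ℕ} (hj : j ≤ p) :
    0 ≤ bew c (∑ i ∈ range (p + 1), c (i + 1)) (∑ i ∈ range (p + 1), c i) j := by
  unfold bew
  rw [sub_nonneg, div_le_div_iff₀ hA hA']
  set U := ∑ i ∈ range j, c (i + 1) with hU
  set A := ∑ i ∈ range (p + 1), c (i + 1) with hAd
  have h1 : ∑ i ∈ range (j + 1), c i = c 0 + U := by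
    rw [sum_range_succ']
    ring
  have h2 : ∑ i ∈ range (p + 1), c i = c 0 + A - c (p + 1) := by
    rw [hAd, sum_range_succ', sum_range_succ (fun i => c (i + 1)) p]
    ring
  rw [h1, h2]
  have hUA : U ≤ A := by
    rw [hU, hAd]
    exact sum_le_sum_of_subset_of_nonneg (range_mono (by omega)) fun i _ _ => hc _
  have hU0 : 0 ≤ U := sum_nonneg fun i _ => hc _
  nlinarith [mul_nonneg (hc 0) (sub_nonneg.mpr hUA), mul_nonneg hU0 (hc (p + 1))]

theorem alw_top (c : ℕ → ℝ) (p : ℕ)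
    (hA : 0 < ∑ i ∈ range (p + 1), c (i + 1)) (hA' : 0 < ∑ i ∈ range (p + 1), c i) :
    alw c (∑ i ∈ range (p + 1), c (i + 1)) (∑ i ∈ range (p + 1), c i) p = 0 := by
  unfold alw
  rw [div_self hA.ne', div_self hA'.ne']
  ring

end CT
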