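import Vale.Agent.CT.BDefs
import Vale.Agent.CT.McSeq18

/-! # Coupling of adjacent levels of a box (piece MC) -/

namespace CT

open Finset
open scoped Classical

variable {J : Type} [Fintype J] [DecidableEq J]

theorem sz_upd (x : J → ℕ) (b : J) (a : ℕ) :
    sz (Function.update x b a) + x b = sz x + a := by
  unfold sz
  rw [sum_update_of_mem (mem_univ b), ← add_sum_erase univ x (mem_univ b), sdiff_singleton_eq_erase]
  ring

/-- summation over the rows with given entry in column `b` -/
theorem fib_sum (s : J → ℕ) (b : J) (l j : ℕ) (hj : j ≤ s b) (f : (J → ℕ) → ℝ) :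
    ∑ x ∈ (box s l).filter (fun x => x b = j), f (Function.update x b 0)
      = if j ≤ l then ∑ u ∈ box (Function.update s b 0) (l - j), f u else 0 := by
  by_cases hjl : j ≤ l
  · rw [if_pos hjl]
    refine sum_nbij' (fun x => Function.update x b 0) (fun u => Function.update u b j) ?_ ?_ ?_ ?_ ?_
    · intro x hx
      rw [mem_filter, mem_box] at hx
      rw [mem_box]
      refine ⟨?_, ?_⟩
      · intro i
        by_cases hi : i = b
        · subst hi; simp
        · simp only [Function.update_of_ne hi]
          exact hx.1.1 i
      · have := sz_upd x b 0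
        omega
    · intro u hu
      rw [mem_box] at hu
      have hub : u b = 0 := by
        have := hu.1 b
        simp only [Function.update_self] at this
        omega
      rw [mem_filter, mem_box]
      refine ⟨⟨?_, ?_⟩, ?_⟩
      · intro i
        by_cases hi : i = b
        · subst hi; simpa using hj
        · have := hu.1 i
          simp only [Function.update_of_ne hi] at this ⊢
          exact this
      · have := sz_upd u b j
        omega
      · simp
    · intro x hx
      rw [mem_filter] at hx
      funext i
      by_cases hi : i = b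
      · subst hi; simp [hx.2]
      · simp [Function.update_of_ne hi]
    · intro u hu
      rw [mem_box] at hu
      have hub : u b = 0 := by
        have := hu.1 b
        simp only [Function.update_self] at this
        omega
      funext i
      by_cases hi : i = b
      · subst hi; simp [hub]
      · simp [Function.update_of_ne hi]
    · intro x _
      rfl
  · rw [if_neg hjl]
    refine sum_eq_zero_iff_of_nonneg ?_ |>.mpr ?_ <;> intro x hx <;> exfalso <;>
    · rw [mem_filter, mem_box] at hx
      have h1 := sz_upd x b 0
      omega

/-- number of rows of the rest -/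
noncomputable def cc (s : J → ℕ) (b : J) (l : ℕ) (i : ℕ) : ℝ :=
  if i ≤ l + 1 then ((box (Function.update s b 0) (l + 1 - i)).card : ℝ) else 0

theorem cc_nonneg (s : J → ℕ) (b : J) (l i : ℕ) : 0 ≤ cc s b l i := by
  unfold cc
  split_ifs <;> positivity

theorem cc_succ (s : J → ℕ) (b : J) (l j : ℕ) :
    cc s b l (j + 1) = if j ≤ l then ((box (Function.update s b 0) (l - j)).card : ℝ) else 0 := by
  unfold cc
  by_cases h : j ≤ l
  · rw [if_pos h, if_pos (by omega)]
    have : l + 1 - (j + 1) = l - j := by omega
    rw [this]
  · rw [if_neg h, if_neg (by omega)]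

theorem card_fib (s : J → ℕ) (b : J) (l j : ℕ) (hj : j ≤ s b) :
    (((box s l).filter (fun x => x b = j)).card : ℝ)
      = if j ≤ l then ((box (Function.update s b 0) (l - j)).card : ℝ) else 0 := by
  have h := fib_sum s b l j hj (fun _ => 1)
  simpa using h

theorem card_A (s : J → ℕ) (b : J) (l : ℕ) :
    ((box s l).card : ℝ) = ∑ i ∈ range (s b + 1), cc s b l (i + 1) := by
  rw [card_eq_sum_card_fiberwise (f := fun x : J → ℕ => x b) (t := range (s b + 1))]
  · push_cast
    refine sum_congr rfl fun j hj => ?_
    rw [mem_range] at hj
    rw [cc_succ, ← card_fib s b l j (by omega)]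
  · intro x hx
    rw [mem_coe, mem_box] at hx
    rw [mem_coe, mem_range]
    have h1 : x b ≤ s b := hx.1 b
    change x b < s b + 1
    omega

theorem card_A' (s : J → ℕ) (b : J) (l : ℕ) :
    ((box s (l + 1)).card : ℝ) = ∑ i ∈ range (s b + 1), cc s b l i := by
  rw [card_eq_sum_card_fiberwise (f := fun x : J → ℕ => x b) (t := range (s b + 1))]
  · push_cast
    refine sum_congr rfl fun j hj => ?_
    rw [mem_range] at hj
    rw [card_fib s b (l + 1) j (by omega)]
    rfl
  · intro x hx
    rw [mem_coe, mem_box] at hx
    rw [mem_coe, mem_range]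
    have h1 : x b ≤ s b := hx.1 b
    change x b < s b + 1
    omega

/-- the relation: one more unit -/
def Up (x x' : J → ℕ) : Prop := ∃ d, x' = x + e d

theorem mc_step
    (hlogc : ∀ (s : J → ℕ) {i j : ℕ}, i ≤ j →
      (box s i).card * (box s (j + 1)).card ≤ (box s (i + 1)).card * (box s j).card)
    (s : J → ℕ) (b : J) (l : ℕ) (hl : l < sz s)
    (ih : ∀ m, m < sz (Function.update s b 0) →
      Cpl (box (Function.update s b 0) m) (box (Function.update s b 0) (m + 1)) Up) :
    Cpl (box s l) (box s (l + 1)) Up := by
  set s' := Function.update s b 0 with hs'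
  set c := cc s b l with hcdef
  set p := s b with hp
  set A := ∑ i ∈ range (p + 1), c (i + 1) with hAdef
  set A' := ∑ i ∈ range (p + 1), c i with hA'def
  have hAcard : ((box s l).card : ℝ) = A := card_A s b l
  have hA'card : ((box s (l + 1)).card : ℝ) = A' := card_A' s b l
  have hA : 0 < A := by
    rw [← hAcard]
    exact_mod_cast (box_nonempty (by omega)).card_pos
  have hA' : 0 < A' := by
    rw [← hA'card]
    exact_mod_cast (box_nonempty (by omega)).card_pos
  have hc0 : ∀ i, 0 ≤ c i := cc_nonneg s b l
  have hlc : ∀ i k, i ≤ k → c i * c (k + 1) ≤ c (i + 1) * c k := by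
    intro i k hik
    by_cases hk : k ≤ l
    · have h1 : c (k + 1) = ((box s' (l - k)).card : ℝ) := by
        rw [hcdef, cc_succ, if_pos hk]
      have h2 : c (i + 1) = ((box s' (l - i)).card : ℝ) := by
        rw [hcdef, cc_succ, if_pos (by omega)]
      have h3 : c i = ((box s' (l - i + 1)).card : ℝ) := by
        rw [hcdef]
        unfold cc
        rw [if_pos (by omega)]
        have : l + 1 - i = l - i + 1 := by omega
        rw [this]
      have h4 : c k = ((box s' (l - k + 1)).card : ℝ) := by
        rw [hcdef]
        unfold cc
        rw [if_pos (by omega)]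
        have : l + 1 - k = l - k + 1 := by omega
        rw [this]
      rw [h1, h2, h3, h4]
      have h5 := hlogc s' (i := l - k) (j := l - i) (by omega)
      have h6 : ((box s' (l - k)).card : ℝ) * ((box s' (l - i + 1)).card : ℝ)
          ≤ ((box s' (l - k + 1)).card : ℝ) * ((box s' (l - i)).card : ℝ) := by exact_mod_cast h5
      linarith
    · have h1 : c (k + 1) = 0 := by
        rw [hcdef, cc_succ, if_neg hk]
      rw [h1, mul_zero]
      exact mul_nonneg (hc0 _) (hc0 _)
  have hal : ∀ j ≤ p, 0 ≤ alw c A A' j := fun j hj => alw_nonneg c hlc p hA hA' hj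
  have hbe : ∀ j ≤ p, 0 ≤ bew c A A' j := fun j hj => bew_nonneg c hc0 p hA hA' hj
  have htop : alw c A A' p = 0 := alw_top c p hA hA'
  -- kernels of the rest
  have hK : ∃ K : ℕ → (J → ℕ) → (J → ℕ) → ℝ, (∀ m x x', 0 ≤ K m x x') ∧
      (∀ m, m < sz s' → ∀ x ∈ box s' m, ∑ x' ∈ box s' (m + 1), K m x x'
        = 1 / ((box s' m).card : ℝ)) ∧
      (∀ m, m < sz s' → ∀ x' ∈ box s' (m + 1), ∑ x ∈ box s' m, K m x x'
        = 1 / ((box s' (m + 1)).card : ℝ)) ∧
      (∀ m x x', K m x x' ≠ 0 → Up x x') := by
    have h1 : ∀ m, ∃ k : (J → ℕ) → (J → ℕ) → ℝ, (∀ x x', 0 ≤ k x x') ∧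
      (m < sz s' → ∀ x ∈ box s' m, ∑ x' ∈ box s' (m + 1), k x x'
        = 1 / ((box s' m).card : ℝ)) ∧
      (m < sz s' → ∀ x' ∈ box s' (m + 1), ∑ x ∈ box s' m, k x x'
        = 1 / ((box s' (m + 1)).card : ℝ)) ∧
      (∀ x x', k x x' ≠ 0 → Up x x') := by
      intro m
      by_cases hm : m < sz s'
      · obtain ⟨k, k1, k2, k3, k4⟩ := ih m hm
        exact ⟨k, k1, fun _ => k2, fun _ => k3, k4⟩
      · exact ⟨fun _ _ => 0, fun _ _ => le_rfl, fun h => absurd h hm, fun h => absurd h hm,
          fun _ _ h => absurd rfl h⟩
    choose K k1 k2 k3 k4 using h1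
    exact ⟨K, k1, k2, k3, k4⟩
  obtain ⟨K, K0, K1, K2, K3⟩ := hK
  let z : (J → ℕ) → (J → ℕ) := fun x => Function.update x b 0
  let a : ℕ → ℝ := fun j => if j ≤ p then alw c A A' j else 0
  let be : ℕ → ℝ := fun j => if j ≤ p then bew c A A' j else 0
  have ha0 : ∀ j, 0 ≤ a j := by
    intro j
    simp only [a]
    split_ifs with h
    · exact hal j h
    · exact le_rfl
  have hb0 : ∀ j, 0 ≤ be j := by
    intro j
    simp only [be]
    split_ifs with h
    · exact hbe j h
    · exact le_rfl
  let k1 : (J → ℕ) → (J → ℕ) → ℝ := fun x x' => if x' = x + e b then a (x b) / c (x b + 1) else 0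
  let k2 : (J → ℕ) → (J → ℕ) → ℝ := fun x x' =>
    if x' b = x b then be (x b) * K (l - x b) (z x) (z x') else 0
  have hzb : ∀ x : J → ℕ, ∀ i, i ≠ b → z x i = x i := by
    intro x i hi
    simp only [z, Function.update_of_ne hi]
  have heb : ∀ i, i ≠ b → (e b : J → ℕ) i = 0 := by
    intro i hi
    simp [e, hi]
  have hebb : (e b : J → ℕ) b = 1 := by simp [e]
  refine ⟨fun x x' => k1 x x' + k2 x x', ?_, ?_, ?_, ?_⟩
  · intro x x'
    refine add_nonneg ?_ ?_
    · simp only [k1]
      split_ifs
      · exact div_nonneg (ha0 _) (hc0 _)
      · exact le_rfl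
    · simp only [k2]
      split_ifs
      · exact mul_nonneg (hb0 _) (K0 _ _ _)
      · exact le_rfl
  · intro x hx
    have hxb : x b ≤ p := (mem_box.mp hx).1 b
    have hxs : sz x = l := (mem_box.mp hx).2
    have hxl : x b ≤ l := by
      have := sz_upd x b 0
      omega
    have hzx : z x ∈ box s' (l - x b) := by
      rw [mem_box]
      refine ⟨?_, ?_⟩
      · intro i
        by_cases hi : i = b
        · subst hi; simp [z]
        · rw [hzb x i hi, hs', Function.update_of_ne hi]
          exact (mem_box.mp hx).1 i
      · have := sz_upd x b 0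
        simp only [z]
        omega
    have hcpos : 0 < c (x b + 1) := by
      rw [hcdef, cc_succ, if_pos hxl]
      exact_mod_cast card_pos.mpr ⟨_, hzx⟩
    have hceq : c (x b + 1) = ((box s' (l - x b)).card : ℝ) := by
      rw [hcdef, cc_succ, if_pos hxl]
    rw [sum_add_distrib]
    have e1 : ∑ x' ∈ box s (l + 1), k1 x x' = alw c A A' (x b) / c (x b + 1) := by
      simp only [k1]
      rw [sum_ite_eq']
      by_cases h : x b = p
      · have h1 : x + e b ∉ box s (l + 1) := by
          intro h2
          have h3 := (mem_box.mp h2).1 b
          rw [Pi.add_apply, hebb] at h3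
          have h4 : x b + 1 ≤ s b := h3
          omega
        rw [if_neg h1, h, htop, zero_div]
      · have h1 : x + e b ∈ box s (l + 1) := by
          rw [mem_box]
          refine ⟨?_, ?_⟩
          · intro i
            by_cases hi : i = b
            · subst hi
              have h7 : x i + 1 ≤ s i := by omega
              rw [Pi.add_apply, hebb]
              exact h7
            · have h7 := (mem_box.mp hx).1 i
              rw [Pi.add_apply, heb i hi, add_zero]
              exact h7
          · rw [sz_add, sz_e, hxs]
        rw [if_pos h1]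
        simp only [a, if_pos hxb]
    have e2 : ∑ x' ∈ box s (l + 1), k2 x x' = bew c A A' (x b) / c (x b + 1) := by
      simp only [k2]
      rw [← sum_filter]
      have h1 := fib_sum s b (l + 1) (x b) hxb (fun u' => be (x b) * K (l - x b) (z x) u')
      rw [if_pos (show x b ≤ l + 1 by omega)] at h1
      simp only [z] at h1 ⊢
      rw [h1, ← mul_sum]
      simp only [be, if_pos hxb]
      have h2 : l + 1 - x b = (l - x b) + 1 := by omega
      rw [h2]
      by_cases hm : l - x b < sz s'
      · have h3 := K1 (l - x b) hm (z x) hzx
        simp only [z] at h3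
        rw [h3, hceq]
        ring
      · -- the target is empty, so `bew = 0`
        have h4 : c (x b) = 0 := by
          rw [hcdef]
          unfold cc
          rw [if_pos (by omega), h2]
          have : (box s' (l - x b + 1)) = ∅ := by
            rw [eq_empty_iff_forall_notMem]
            intro u hu
            rw [mem_box] at hu
            have := sz_mono hu.1
            omega
          rw [← hs', this]
          simp
        have h5 : bew c A A' (x b) = 0 := by
          refine le_antisymm ?_ (hbe _ hxb)
          rcases Nat.eq_zero_or_pos (x b) with h6 | h6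
          · rw [h6, bew_zero, ← h6, h4, zero_div]
          · have h7 := alw_add_bew' c A A' (x b - 1)
            have h8 : x b - 1 + 1 = x b := by omega
            rw [h8, h4, zero_div] at h7
            have h9 := hal (x b - 1) (by omega)
            linarith
        rw [h5]
        simp
    rw [e1, e2, ← add_div, alw_add_bew, hAcard, div_div, mul_comm A, ← div_div,
      div_self hcpos.ne']
  · intro x' hx'
    have hxb : x' b ≤ p := (mem_box.mp hx').1 b
    have hxs : sz x' = l + 1 := (mem_box.mp hx').2
    have hxl : x' b ≤ l + 1 := by
      have := sz_upd x' b 0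
      omega
    have hzx : z x' ∈ box s' (l + 1 - x' b) := by
      rw [mem_box]
      refine ⟨?_, ?_⟩
      · intro i
        by_cases hi : i = b
        · subst hi; simp [z]
        · rw [hzb x' i hi, hs', Function.update_of_ne hi]
          exact (mem_box.mp hx').1 i
      · have := sz_upd x' b 0
        simp only [z]
        omega
    have hceq : c (x' b) = ((box s' (l + 1 - x' b)).card : ℝ) := by
      rw [hcdef]
      unfold cc
      rw [if_pos hxl]
    have hcpos : 0 < c (x' b) := by
      rw [hceq]
      exact_mod_cast card_pos.mpr ⟨_, hzx⟩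
    rw [sum_add_distrib]
    have e1 : ∑ x ∈ box s l, k1 x x'
        = if x' b = 0 then 0 else alw c A A' (x' b - 1) / c (x' b) := by
      simp only [k1]
      split_ifs with h
      · refine sum_eq_zero fun x _ => ?_
        rw [if_neg]
        intro h2
        rw [h2, Pi.add_apply, hebb] at h
        omega
      · have hle : e b ≤ x' := e_le_iff.mpr (by omega)
        have h1 : ∀ x, (x' = x + e b) ↔ x = x' - e b := by
          intro x
          constructor
          · intro h2
            rw [h2, add_tsub_cancel_right]
          · intro h2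
            rw [h2, tsub_add_cancel_of_le hle]
        have h3 : x' - e b ∈ box s l := by
          rw [mem_box]
          refine ⟨tsub_le_self.trans (mem_box.mp hx').1, ?_⟩
          rw [sz_sub hle, sz_e, hxs]
          omega
        rw [sum_eq_single_of_mem _ h3]
        · have h4 : (x' - e b) b = x' b - 1 := by rw [Pi.sub_apply, hebb]
          rw [if_pos ((h1 _).mpr rfl), h4]
          have h5 : x' b - 1 + 1 = x' b := by omega
          rw [h5]
          simp only [a]
          rw [if_pos (by omega)]
        · intro x _ hne
          rw [if_neg (fun h6 => hne ((h1 x).mp h6))]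
    have e2 : ∑ x ∈ box s l, k2 x x' = bew c A A' (x' b) / c (x' b) := by
      simp only [k2]
      have h0 : ∀ x : J → ℕ, (if x' b = x b then be (x b) * K (l - x b) (z x) (z x') else 0)
          = if x b = x' b then be (x' b) * K (l - x' b) (z x) (z x') else 0 := by
        intro x
        by_cases h : x' b = x b
        · rw [if_pos h, if_pos h.symm, h]
        · rw [if_neg h, if_neg (fun h2 => h h2.symm)]
      simp only [h0]
      rw [← sum_filter]
      have h1 := fib_sum s b l (x' b) hxb (fun u => be (x' b) * K (l - x' b) u (z x'))
      simp only [z] at h1 ⊢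
      rw [h1]
      by_cases h2 : x' b ≤ l
      · rw [if_pos h2, ← mul_sum]
        simp only [be, if_pos hxb]
        have h3 : l + 1 - x' b = (l - x' b) + 1 := by omega
        rw [h3] at hzx hceq
        have hm : l - x' b < sz s' := by
          have h4 := sz_mono (mem_box.mp hzx).1
          have h5 := (mem_box.mp hzx).2
          omega
        have h4 := K2 (l - x' b) hm (z x') hzx
        simp only [z] at h4
        rw [h4, hceq]
        ring
      · rw [if_neg h2]
        have h3 : x' b = l + 1 := by omega
        have h4 : c (x' b + 1) = 0 := by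
          rw [hcdef, cc_succ, if_neg h2]
        have h5 := alw_add_bew c A A' (x' b)
        rw [h4, zero_div] at h5
        have h6 := hal (x' b) hxb
        have h7 := hbe (x' b) hxb
        have h8 : bew c A A' (x' b) = 0 := by linarith
        rw [h8, zero_div]
    rw [e1, e2, hA'card]
    by_cases h : x' b = 0
    · rw [if_pos h, h, bew_zero, zero_add, div_div, mul_comm A', ← div_div]
      rw [h] at hcpos
      rw [div_self hcpos.ne']
    · rw [if_neg h, ← add_div]
      have h7 := alw_add_bew' c A A' (x' b - 1)
      have h8 : x' b - 1 + 1 = x' b := by omega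
      rw [h8] at h7
      rw [h7, div_div, mul_comm A', ← div_div, div_self hcpos.ne']
  · intro x x' hne
    change k1 x x' + k2 x x' ≠ 0 at hne
    by_cases h1 : x' = x + e b
    · exact ⟨b, h1⟩
    · have h2 : k1 x x' = 0 := by simp only [k1, if_neg h1]
      rw [h2, zero_add] at hne
      simp only [k2] at hne
      have h3 : x' b = x b := by
        by_contra h
        rw [if_neg h] at hne
        exact hne rfl
      rw [if_pos h3] at hne
      obtain ⟨d, hd⟩ := K3 _ _ _ (right_ne_zero_of_mul hne)
      refine ⟨d, ?_⟩
      have hdb : d ≠ b := by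
        intro h
        have h4 := congrFun hd b
        rw [Pi.add_apply, h, hebb] at h4
        simp only [z, Function.update_self] at h4
        omega
      funext i
      by_cases hi : i = b
      · subst hi
        rw [Pi.add_apply, h3]
        simp [e, hdb.symm]
      · have h4 := congrFun hd i
        rw [Pi.add_apply, hzb x' i hi, hzb x i hi] at h4
        rw [Pi.add_apply]
        exact h4

theorem mc_of_logconc
    (hlogc : ∀ (s : J → ℕ) {i j : ℕ}, i ≤ j →
      (box s i).card * (box s (j + 1)).card ≤ (box s (i + 1)).card * (box s j).card)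
    (s : J → ℕ) (l : ℕ) (hl : l < sz s) : Cpl (box s l) (box s (l + 1)) Up := by
  have main : ∀ (n : ℕ) (s : J → ℕ), (sp s).card = n → ∀ l, l < sz s →
      Cpl (box s l) (box s (l + 1)) Up := by
    intro n
    induction n with
    | zero =>
      intro s hs l hl
      exfalso
      rw [card_eq_zero] at hs
      have : sz s = 0 := by
        unfold sz
        refine sum_eq_zero fun j _ => ?_
        by_contra h
        have : j ∈ sp s := mem_sp.mpr (Nat.pos_of_ne_zero h)
        rw [hs] at this
        simp at this
      omega
    | succ n ih =>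
      intro s hs l hl
      have hne : (sp s).Nonempty := by
        rw [← card_pos]; omega
      obtain ⟨b, hb⟩ := hne
      refine mc_step hlogc s b l hl fun m hm => ih _ ?_ m hm
      have h1 : sp (Function.update s b 0) = (sp s).erase b := by
        ext i
        rw [mem_sp, mem_erase, mem_sp]
        by_cases hi : i = b
        · subst hi; simp
        · simp [hi]
      rw [h1, card_erase_of_mem hb, hs]
      rfl
  exact main _ s rfl l hl

end CT
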