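import Vale.Agent.CT.Mc18

/-! # Log-concavity of the level counts of a box (piece MCL) -/

namespace CT

open Finset
open scoped Classical

variable {J : Type} [Fintype J] [DecidableEq J]

/-- strong log-concavity from one-step log-concavity -/
theorem lcz_strong (B : ℤ → ℝ) (h : ∀ i j : ℤ, i ≤ j → B i * B (j + 1) ≤ B (i + 1) * B j) :
    ∀ (t : ℕ) (a b : ℤ), a ≤ b → B a * B (b + t) ≤ B (a + t) * B b := by
  intro t
  induction t with
  | zero =>
    intro a b _
    simp
  | succ t ih =>
    intro a b hab
    rcases eq_or_lt_of_le hab with h1 | h1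
    · subst h1
      exact le_of_eq (mul_comm _ _)
    · have h2 := h a (b + t) (by omega)
      have h3 := ih (a + 1) b (by omega)
      have e1 : b + ((t + 1 : ℕ) : ℤ) = b + t + 1 := by push_cast; ring
      have e2 : a + ((t + 1 : ℕ) : ℤ) = a + 1 + t := by push_cast; ring
      rw [e1, e2]
      exact h2.trans h3

/-- convolution with an interval keeps log-concavity -/
theorem lcz_conv (B : ℤ → ℝ) (h : ∀ i j : ℤ, i ≤ j → B i * B (j + 1) ≤ B (i + 1) * B j) (p : ℕ)
    (i j : ℤ) (hij : i ≤ j) :
    (∑ k ∈ range (p + 1), B (i - k)) * (∑ k ∈ range (p + 1), B (j + 1 - k))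
      ≤ (∑ k ∈ range (p + 1), B (i + 1 - k)) * (∑ k ∈ range (p + 1), B (j - k)) := by
  have hs := lcz_strong B h
  have key : ∀ x : ℤ, ∑ k ∈ range (p + 1), B (x + 1 - k)
      = ∑ k ∈ range (p + 1), B (x - k) + B (x + 1) - B (x - p) := by
    intro x
    rw [sum_range_succ', sum_range_succ]
    have h1 : ∑ k ∈ range p, B (x + 1 - ((k + 1 : ℕ) : ℤ)) = ∑ k ∈ range p, B (x - k) := by
      refine sum_congr rfl fun k _ => ?_
      congr 1
      push_cast; ring
    rw [h1]
    have h2 : x + 1 - ((0 : ℕ) : ℤ) = x + 1 := by push_cast; ring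
    rw [h2]
    ring
  rw [key i, key j]
  have main : 0 ≤ ∑ k ∈ range (p + 1),
      ((B (i + 1) * B (j - k) - B (i - k) * B (j + 1))
        + (B (i - k) * B (j - p) - B (i - p) * B (j - k))) := by
    refine sum_nonneg fun k hk => ?_
    rw [mem_range] at hk
    have h1 := hs (k + 1) (i - k) (j - k) (by omega)
    have e1 : j - k + ((k + 1 : ℕ) : ℤ) = j + 1 := by push_cast; ring
    have e2 : i - k + ((k + 1 : ℕ) : ℤ) = i + 1 := by push_cast; ring
    rw [e1, e2] at h1
    have h2 := hs (p - k) (i - p) (j - p) (by omega)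
    have e3 : j - p + ((p - k : ℕ) : ℤ) = j - k := by omega
    have e4 : i - p + ((p - k : ℕ) : ℤ) = i - k := by omega
    rw [e3, e4] at h2
    linarith
  rw [sum_add_distrib, sum_sub_distrib, sum_sub_distrib, ← mul_sum, ← mul_sum, ← sum_mul,
    ← sum_mul] at main
  nlinarith [main]

/-- level counts, extended by zero -/
noncomputable def BZ (s : J → ℕ) (z : ℤ) : ℝ := if 0 ≤ z then ((box s z.toNat).card : ℝ) else 0

theorem BZ_rec (s : J → ℕ) (b : J) (x : ℤ) :
    BZ s x = ∑ k ∈ range (s b + 1), BZ (Function.update s b 0) (x - k) := by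
  by_cases hx : 0 ≤ x
  · obtain ⟨l, rfl⟩ := Int.eq_ofNat_of_zero_le hx
    unfold BZ
    rw [if_pos hx, Int.toNat_natCast, card_A s b l]
    refine sum_congr rfl fun k _ => ?_
    rw [cc_succ]
    by_cases hk : k ≤ l
    · rw [if_pos hk, if_pos (by omega)]
      have : ((l : ℤ) - k).toNat = l - k := by omega
      rw [this]
    · rw [if_neg hk, if_neg (by omega)]
  · unfold BZ
    rw [if_neg hx]
    symm
    refine sum_eq_zero fun k _ => ?_
    rw [if_neg (by omega)]

theorem BZ_logconc (s : J → ℕ) : ∀ i j : ℤ, i ≤ j →
    BZ s i * BZ s (j + 1) ≤ BZ s (i + 1) * BZ s j := by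
  have main : ∀ (n : ℕ) (s : J → ℕ), (sp s).card = n → ∀ i j : ℤ, i ≤ j →
      BZ s i * BZ s (j + 1) ≤ BZ s (i + 1) * BZ s j := by
    intro n
    induction n with
    | zero =>
      intro s hs i j hij
      have hnn : ∀ z, 0 ≤ BZ s z := fun z => by unfold BZ; split_ifs <;> positivity
      have hz : BZ s i * BZ s (j + 1) = 0 := by
        by_cases hi : 0 ≤ i
        · have h0 : BZ s (j + 1) = 0 := by
            unfold BZ
            rw [if_pos (by omega)]
            have hsz : sz s = 0 := by
              unfold sz
              refine sum_eq_zero fun k _ => ?_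
              by_contra h
              have : k ∈ sp s := mem_sp.mpr (Nat.pos_of_ne_zero h)
              rw [card_eq_zero] at hs
              rw [hs] at this
              simp at this
            have : box s (j + 1).toNat = ∅ := by
              rw [eq_empty_iff_forall_notMem]
              intro x hx
              rw [mem_box] at hx
              have h1 : sz x ≤ sz s := sum_le_sum fun k _ => hx.1 k
              have h2 := hx.2
              omega
            rw [this]
            simp
          rw [h0, mul_zero]
        · have h0 : BZ s i = 0 := by unfold BZ; rw [if_neg hi]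
          rw [h0, zero_mul]
      rw [hz]
      exact mul_nonneg (hnn _) (hnn _)
    | succ n ih =>
      intro s hs i j hij
      have hne : (sp s).Nonempty := by
        rw [← card_pos]; omega
      obtain ⟨b, hb⟩ := hne
      have h1 : sp (Function.update s b 0) = (sp s).erase b := by
        ext i
        rw [mem_sp, mem_erase, mem_sp]
        by_cases hi : i = b
        · subst hi; simp
        · simp [hi]
      have h2 : (sp (Function.update s b 0)).card = n := by
        rw [h1, card_erase_of_mem hb, hs]; rfl
      rw [BZ_rec s b i, BZ_rec s b (j + 1), BZ_rec s b (i + 1), BZ_rec s b j]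
      exact lcz_conv _ (ih _ h2) (s b) i j hij
  exact main _ s rfl

theorem box_logconc18 (s : J → ℕ) {i j : ℕ} (h : i ≤ j) :
    (box s i).card * (box s (j + 1)).card ≤ (box s (i + 1)).card * (box s j).card := by
  have h1 := BZ_logconc s (i : ℤ) (j : ℤ) (by exact_mod_cast h)
  unfold BZ at h1
  rw [if_pos (by omega), if_pos (by omega), if_pos (by omega), if_pos (by omega)] at h1
  have e1 : ((j : ℤ) + 1).toNat = j + 1 := by omega
  have e2 : ((i : ℤ) + 1).toNat = i + 1 := by omega
  rw [e1, e2, Int.toNat_natCast, Int.toNat_natCast] at h1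
  exact_mod_cast h1

end CT
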