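import Vale.Agent.CT.BDefs
import Vale.Agent.CT.Mc18
import Vale.Agent.CT.Mcl18

/-! # Monotone couplings of consecutive levels (piece MC)

Induction on the columns: `s = s' + p e_b`, `B l = |box s' l|`, `A l = ∑_{i ≤ p} B (l - i)`; from
`(j, u)` to `(j+1, u)` send `α_j / B (l-j)`, to `(j, u + e_d)` send `β_j κ'(u, u+e_d)`, with
`α_j = ∑_{i ≤ j} (B (l-i) / A l - B (l+1-i) / A (l+1)) ≥ 0` (log-concavity termwise) and
`β_j = B (l+1-j) / A (l+1) - α_{j-1} ≥ 0`. -/

namespace CT

open Finset
open scoped Classical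

variable {J : Type} [Fintype J] [DecidableEq J]

theorem box_logconc (s : J → ℕ) {i j : ℕ} (h : i ≤ j) :
    (box s i).card * (box s (j + 1)).card ≤ (box s (i + 1)).card * (box s j).card :=
  box_logconc18 s h

theorem mc (s : J → ℕ) (l : ℕ) (hl : l < sz s) :
    Cpl (box s l) (box s (l + 1)) (fun x x' => ∃ d, x' = x + e d) :=
  mc_of_logconc (fun s _ _ h => box_logconc s h) s l hl

end CT
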