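import Mathlib

/-! # Mixing from a Poincare inequality, abstract part (piece MIX) -/

namespace CT

open Finset

section Abs

variable {α : Type} (X : Finset α) (q : α → α → ℝ)

/-- the transition operator of the proposal chain -/
noncomputable def opQ (g : α → ℝ) (S : α) : ℝ := ∑ T ∈ X, g T * q T S

theorem opQ_symm (hs : ∀ T ∈ X, ∀ S ∈ X, q T S = q S T) (f g : α → ℝ) :
    ∑ S ∈ X, f S * opQ X q g S = ∑ S ∈ X, opQ X q f S * g S := by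
  unfold opQ
  simp_rw [mul_sum, sum_mul]
  rw [sum_comm]
  apply sum_congr rfl
  intro T hT
  apply sum_congr rfl
  intro S hS
  rw [hs T hT S hS]
  ring

theorem form_minus (hs : ∀ T ∈ X, ∀ S ∈ X, q T S = q S T) (h1 : ∀ T ∈ X, ∑ S ∈ X, q T S = 1)
    (g : α → ℝ) :
    ∑ T ∈ X, ∑ S ∈ X, q T S * (g S - g T) ^ 2
      = 2 * ∑ T ∈ X, g T ^ 2 - 2 * ∑ S ∈ X, g S * opQ X q g S := by
  have e1 : ∑ T ∈ X, ∑ S ∈ X, q T S * g T ^ 2 = ∑ T ∈ X, g T ^ 2 := by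
    apply sum_congr rfl
    intro T hT
    rw [← sum_mul, h1 T hT, one_mul]
  have e2 : ∑ T ∈ X, ∑ S ∈ X, q T S * g S ^ 2 = ∑ T ∈ X, g T ^ 2 := by
    rw [sum_comm]
    apply sum_congr rfl
    intro S hS
    rw [← sum_mul]
    have : ∑ T ∈ X, q T S = 1 := by
      rw [← h1 S hS]
      exact sum_congr rfl fun T hT => hs T hT S hS
    rw [this, one_mul]
  have e3 : ∑ S ∈ X, g S * opQ X q g S = ∑ T ∈ X, ∑ S ∈ X, q T S * (g S * g T) := by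
    unfold opQ
    simp_rw [mul_sum]
    rw [sum_comm]
    apply sum_congr rfl
    intro T _
    apply sum_congr rfl
    intro S _
    ring
  have e4 : ∑ T ∈ X, ∑ S ∈ X, q T S * (g S - g T) ^ 2
      = ∑ T ∈ X, ∑ S ∈ X, q T S * g S ^ 2 + ∑ T ∈ X, ∑ S ∈ X, q T S * g T ^ 2
        - 2 * ∑ T ∈ X, ∑ S ∈ X, q T S * (g S * g T) := by
    rw [mul_sum, ← sum_add_distrib, ← sum_sub_distrib]
    apply sum_congr rfl
    intro T _
    rw [mul_sum, ← sum_add_distrib, ← sum_sub_distrib]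
    apply sum_congr rfl
    intro S _
    ring
  rw [e4, e1, e2, e3]
  ring

theorem form_plus (hs : ∀ T ∈ X, ∀ S ∈ X, q T S = q S T) (h1 : ∀ T ∈ X, ∑ S ∈ X, q T S = 1)
    (h0 : ∀ T ∈ X, ∀ S ∈ X, 0 ≤ q T S) (g : α → ℝ) :
    0 ≤ ∑ T ∈ X, g T ^ 2 + ∑ S ∈ X, g S * opQ X q g S := by
  have e1 : ∑ T ∈ X, ∑ S ∈ X, q T S * g T ^ 2 = ∑ T ∈ X, g T ^ 2 := by
    apply sum_congr rfl
    intro T hT
    rw [← sum_mul, h1 T hT, one_mul]
  have e2 : ∑ T ∈ X, ∑ S ∈ X, q T S * g S ^ 2 = ∑ T ∈ X, g T ^ 2 := by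
    rw [sum_comm]
    apply sum_congr rfl
    intro S hS
    rw [← sum_mul]
    have : ∑ T ∈ X, q T S = 1 := by
      rw [← h1 S hS]
      exact sum_congr rfl fun T hT => hs T hT S hS
    rw [this, one_mul]
  have e3 : ∑ S ∈ X, g S * opQ X q g S = ∑ T ∈ X, ∑ S ∈ X, q T S * (g S * g T) := by
    unfold opQ
    simp_rw [mul_sum]
    rw [sum_comm]
    apply sum_congr rfl
    intro T _
    apply sum_congr rfl
    intro S _
    ring
  have e4 : ∑ T ∈ X, ∑ S ∈ X, q T S * (g S + g T) ^ 2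
      = ∑ T ∈ X, ∑ S ∈ X, q T S * g S ^ 2 + ∑ T ∈ X, ∑ S ∈ X, q T S * g T ^ 2
        + 2 * ∑ T ∈ X, ∑ S ∈ X, q T S * (g S * g T) := by
    rw [mul_sum, ← sum_add_distrib, ← sum_add_distrib]
    apply sum_congr rfl
    intro T _
    rw [mul_sum, ← sum_add_distrib, ← sum_add_distrib]
    apply sum_congr rfl
    intro S _
    ring
  have e5 : 0 ≤ ∑ T ∈ X, ∑ S ∈ X, q T S * (g S + g T) ^ 2 :=
    sum_nonneg fun T hT => sum_nonneg fun S hS => mul_nonneg (h0 T hT S hS) (sq_nonneg _)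
  rw [e4, e1, e2] at e5
  rw [e3]
  linarith

/-- the lazy operator -/
noncomputable def opP (g : α → ℝ) (S : α) : ℝ := (1 / 2) * g S + (1 / 2) * opQ X q g S

theorem opP_symm (hs : ∀ T ∈ X, ∀ S ∈ X, q T S = q S T) (f g : α → ℝ) :
    ∑ S ∈ X, f S * opP X q g S = ∑ S ∈ X, opP X q f S * g S := by
  have h := opQ_symm X q hs f g
  have e1 : ∑ S ∈ X, f S * opP X q g S
      = (1 / 2) * ∑ S ∈ X, f S * g S + (1 / 2) * ∑ S ∈ X, f S * opQ X q g S := by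
    rw [mul_sum, mul_sum, ← sum_add_distrib]
    apply sum_congr rfl
    intro S _
    unfold opP
    ring
  have e2 : ∑ S ∈ X, opP X q f S * g S
      = (1 / 2) * ∑ S ∈ X, f S * g S + (1 / 2) * ∑ S ∈ X, opQ X q f S * g S := by
    rw [mul_sum, mul_sum, ← sum_add_distrib]
    apply sum_congr rfl
    intro S _
    unfold opP
    ring
  rw [e1, e2, h]

theorem opP_form (g : α → ℝ) : ∑ S ∈ X, g S * opP X q g S
      = (1 / 2) * ∑ S ∈ X, g S ^ 2 + (1 / 2) * ∑ S ∈ X, g S * opQ X q g S := by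
  rw [mul_sum, mul_sum, ← sum_add_distrib]
  apply sum_congr rfl
  intro S _
  unfold opP
  ring

theorem opP_nonneg (hs : ∀ T ∈ X, ∀ S ∈ X, q T S = q S T) (h1 : ∀ T ∈ X, ∑ S ∈ X, q T S = 1)
    (h0 : ∀ T ∈ X, ∀ S ∈ X, 0 ≤ q T S) (g : α → ℝ) :
    0 ≤ ∑ S ∈ X, g S * opP X q g S := by
  rw [opP_form]
  have := form_plus X q hs h1 h0 g
  linarith

theorem opP_sum (_hs : ∀ T ∈ X, ∀ S ∈ X, q T S = q S T) (h1 : ∀ T ∈ X, ∑ S ∈ X, q T S = 1)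
    (g : α → ℝ) : ∑ S ∈ X, opP X q g S = ∑ S ∈ X, g S := by
  have e1 : ∑ S ∈ X, opQ X q g S = ∑ S ∈ X, g S := by
    unfold opQ
    rw [sum_comm]
    apply sum_congr rfl
    intro T hT
    rw [← mul_sum, h1 T hT, mul_one]
  have e2 : ∑ S ∈ X, opP X q g S
      = (1 / 2) * ∑ S ∈ X, g S + (1 / 2) * ∑ S ∈ X, opQ X q g S := by
    rw [mul_sum, mul_sum, ← sum_add_distrib]
    rfl
  rw [e2, e1]
  ring

theorem opP_le (hs : ∀ T ∈ X, ∀ S ∈ X, q T S = q S T) (h1 : ∀ T ∈ X, ∑ S ∈ X, q T S = 1)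
    (K : ℝ) (hK : 0 < K)
    (hP : ∀ f : α → ℝ, ∑ S ∈ X, f S = 0 →
      ∑ S ∈ X, f S ^ 2 ≤ K * ∑ T ∈ X, ∑ S ∈ X, q T S * (f S - f T) ^ 2)
    (g : α → ℝ) (hg : ∑ S ∈ X, g S = 0) :
    ∑ S ∈ X, g S * opP X q g S ≤ (1 - 1 / (4 * K)) * ∑ S ∈ X, g S ^ 2 := by
  rw [opP_form]
  have h2 := form_minus X q hs h1 g
  have h3 := hP g hg
  rw [h2] at h3
  have h4 : (1 / (4 * K)) * ∑ S ∈ X, g S ^ 2
      ≤ (1 / (4 * K)) * (K * (2 * ∑ T ∈ X, g T ^ 2 - 2 * ∑ S ∈ X, g S * opQ X q g S)) :=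
    mul_le_mul_of_nonneg_left h3 (by positivity)
  have h5 : (1 / (4 * K)) * (K * (2 * ∑ T ∈ X, g T ^ 2 - 2 * ∑ S ∈ X, g S * opQ X q g S))
      = (1 / 2) * ∑ T ∈ X, g T ^ 2 - (1 / 2) * ∑ S ∈ X, g S * opQ X q g S := by
    field_simp
    ring
  rw [h5] at h4
  linarith

/-- contraction of the lazy operator -/
theorem contraction (hs : ∀ T ∈ X, ∀ S ∈ X, q T S = q S T) (h1 : ∀ T ∈ X, ∑ S ∈ X, q T S = 1)
    (h0 : ∀ T ∈ X, ∀ S ∈ X, 0 ≤ q T S) (K : ℝ) (hK : 1 ≤ K)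
    (hP : ∀ f : α → ℝ, ∑ S ∈ X, f S = 0 →
      ∑ S ∈ X, f S ^ 2 ≤ K * ∑ T ∈ X, ∑ S ∈ X, q T S * (f S - f T) ^ 2)
    (g : α → ℝ) (hg : ∑ S ∈ X, g S = 0) :
    ∑ S ∈ X, opP X q g S ^ 2 ≤ (1 - 1 / (4 * K)) ^ 2 * ∑ S ∈ X, g S ^ 2 := by
  set lam : ℝ := 1 - 1 / (4 * K) with hlam
  have hKp : 0 < K := by linarith
  have hlpos : 0 < lam := by
    have : 1 / (4 * K) ≤ 1 / 4 := by
      apply one_div_le_one_div_of_le (by norm_num)
      linarith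
    rw [hlam]
    linarith
  set h : α → ℝ := opP X q g with hh
  have hsumh : ∑ S ∈ X, h S = 0 := by rw [hh, opP_sum X q hs h1, hg]
  have a1 := opP_nonneg X q hs h1 h0 (fun S => lam * g S - h S)
  have a2 := opP_le X q hs h1 K hKp hP g hg
  have a3 := opP_le X q hs h1 K hKp hP h hsumh
  have a4 := opP_symm X q hs g h
  have lin : ∀ S, opP X q (fun S => lam * g S - h S) S = lam * opP X q g S - opP X q h S := by
    intro S
    unfold opP opQ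
    have : ∑ T ∈ X, (lam * g T - h T) * q T S
        = lam * ∑ T ∈ X, g T * q T S - ∑ T ∈ X, h T * q T S := by
      rw [mul_sum, ← sum_sub_distrib]
      apply sum_congr rfl
      intro T _
      ring
    rw [this]
    ring
  have a5 : ∑ S ∈ X, (lam * g S - h S) * opP X q (fun S => lam * g S - h S) S
      = lam ^ 2 * ∑ S ∈ X, g S * opP X q g S - lam * ∑ S ∈ X, g S * opP X q h S
        - lam * ∑ S ∈ X, h S * h S + ∑ S ∈ X, h S * opP X q h S := by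
    rw [mul_sum, mul_sum, mul_sum, ← sum_sub_distrib, ← sum_sub_distrib, ← sum_add_distrib]
    apply sum_congr rfl
    intro S _
    rw [lin S]
    have : h S = opP X q g S := rfl
    rw [← this]
    ring
  rw [a5, a4] at a1
  have a6 : ∑ S ∈ X, opP X q g S * h S = ∑ S ∈ X, h S ^ 2 := by
    apply sum_congr rfl
    intro S _
    rw [sq]
  rw [a6] at a1
  rw [← hlam] at a2 a3
  have a8 : lam ^ 2 * ∑ S ∈ X, g S * opP X q g S ≤ lam ^ 2 * (lam * ∑ S ∈ X, g S ^ 2) :=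
    mul_le_mul_of_nonneg_left a2 (by positivity)
  have a9 : lam * ∑ S ∈ X, h S ^ 2 ≤ lam * (lam ^ 2 * ∑ S ∈ X, g S ^ 2) := by
    have e1 : lam ^ 2 * (lam * ∑ S ∈ X, g S ^ 2) = lam * (lam ^ 2 * ∑ S ∈ X, g S ^ 2) := by ring
    rw [e1] at a8
    linarith
  exact le_of_mul_le_mul_left a9 hlpos

end Abs

end CT
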