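import Vale.Agent.CT.Defs
import Vale.Agent.CT.MixAbs

/-! # Mixing time from the Poincare inequality (piece MIX) -/

namespace CT

open Finset
open scoped Classical

variable {I J : Type} [Fintype I] [DecidableEq I] [Fintype J] [DecidableEq J]

/-- one proposal of the switch chain: rows `i, j`, columns `a, b` -/
noncomputable def prop (T : I → J → ℕ) (i j : I) (a b : J) : I → J → ℕ :=
  if i ≠ j ∧ 0 < T i a ∧ 0 < T j b then sw T i j a b else T

/-- law after one step of the lazy switch chain: with probability `1/2` stay, otherwise choose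
`i, j, a, b` uniformly and apply the proposal -/
noncomputable def step (T : I → J → ℕ) (S : I → J → ℕ) : ℝ :=
  (1 / 2) * (if S = T then 1 else 0) +
    (1 / 2) * ((∑ i : I, ∑ j : I, ∑ a : J, ∑ b : J, if prop T i j a b = S then (1 : ℝ) else 0)
      / ((Fintype.card I : ℝ) ^ 2 * (Fintype.card J : ℝ) ^ 2))

/-- law after `t` steps from `T0` -/
noncomputable def law (r : I → ℕ) (c : J → ℕ) (T0 : I → J → ℕ) : ℕ → (I → J → ℕ) → ℝ
  | 0 => fun S => if S = T0 then 1 else 0
  | t + 1 => fun S => ∑ T ∈ TT r c, law r c T0 t T * step T S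

/-- total variation distance to the uniform law on the tables -/
noncomputable def tv (r : I → ℕ) (c : J → ℕ) (mu : (I → J → ℕ) → ℝ) : ℝ :=
  (1 / 2) * ∑ T ∈ TT r c, |mu T - 1 / ((TT r c).card : ℝ)|

/-! ### the proposals stay in the set of tables and are reversible -/

theorem mem_TT {r : I → ℕ} {c : J → ℕ} {T : I → J → ℕ} :
    T ∈ TT r c ↔ (∀ i, sz (T i) = r i) ∧ ∑ i, T i = c := by
  unfold TT box
  rw [mem_filter, Fintype.mem_piFinset]
  constructor
  · rintro ⟨h1, h2⟩
    refine ⟨fun i => ?_, h2⟩
    have := h1 i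
    rw [mem_filter] at this
    exact this.2
  · rintro ⟨h1, h2⟩
    refine ⟨fun i => ?_, h2⟩
    rw [mem_filter, mem_Iic]
    refine ⟨?_, h1 i⟩
    rw [← h2]
    exact single_le_sum (f := T) (fun k _ x => Nat.zero_le _) (mem_univ i)

theorem mix_sz_add (x y : J → ℕ) : sz (x + y) = sz x + sz y := by
  unfold sz
  rw [← sum_add_distrib]
  rfl

theorem mix_sz_e (b : J) : sz (e b) = 1 := by
  unfold sz e
  rw [Finset.sum_pi_single']
  simp

theorem e_le {x : J → ℕ} {b : J} (h : 0 < x b) : e b ≤ x := by
  intro k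
  unfold e
  by_cases hk : k = b
  · subst hk
    rw [Pi.single_eq_same]
    exact h
  · rw [Pi.single_eq_of_ne hk]
    exact Nat.zero_le _

theorem sub_e_add {x : J → ℕ} {b : J} (h : 0 < x b) : x - e b + e b = x :=
  tsub_add_cancel_of_le (e_le h)

theorem sum_update2 (T : I → J → ℕ) {i j : I} (hij : i ≠ j) (A B : J → ℕ) :
    (∑ k, Function.update (Function.update T i A) j B k) + (T i + T j)
      = (∑ k, T k) + (A + B) := by
  have hi : i ∈ univ.erase j := mem_erase.2 ⟨hij, mem_univ i⟩
  have e1 := add_sum_erase univ (Function.update (Function.update T i A) j B) (mem_univ j)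
  have e2 := add_sum_erase (univ.erase j) (Function.update (Function.update T i A) j B) hi
  have e3 := add_sum_erase univ T (mem_univ j)
  have e4 := add_sum_erase (univ.erase j) T hi
  have e5 : ∑ k ∈ (univ.erase j).erase i, Function.update (Function.update T i A) j B k
      = ∑ k ∈ (univ.erase j).erase i, T k := by
    apply sum_congr rfl
    intro k hk
    rw [mem_erase, mem_erase] at hk
    rw [Function.update_of_ne hk.2.1, Function.update_of_ne hk.1]
  rw [Function.update_self] at e1
  rw [Function.update_of_ne hij, Function.update_self, e5] at e2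
  rw [← e1, ← e2, ← e3, ← e4]
  abel

theorem prop_mem {r : I → ℕ} {c : J → ℕ} {T : I → J → ℕ} (hT : T ∈ TT r c) (i j : I) (a b : J) :
    prop T i j a b ∈ TT r c := by
  unfold prop
  split_ifs with h
  · obtain ⟨hij, ha, hb⟩ := h
    rw [mem_TT] at hT ⊢
    obtain ⟨h1, h2⟩ := hT
    constructor
    · intro k
      unfold sw
      by_cases hk : k = j
      · subst hk
        rw [Function.update_self, ← h1 k]
        have := sub_e_add hb
        calc sz (T k - e b + e a) = sz (T k - e b) + sz (e a) := mix_sz_add _ _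
          _ = sz (T k - e b) + sz (e b) := by rw [mix_sz_e, mix_sz_e]
          _ = sz (T k - e b + e b) := (mix_sz_add _ _).symm
          _ = sz (T k) := by rw [this]
      · rw [Function.update_of_ne hk]
        by_cases hk2 : k = i
        · subst hk2
          rw [Function.update_self, ← h1 k]
          have := sub_e_add ha
          calc sz (T k - e a + e b) = sz (T k - e a) + sz (e b) := mix_sz_add _ _
            _ = sz (T k - e a) + sz (e a) := by rw [mix_sz_e, mix_sz_e]
            _ = sz (T k - e a + e a) := (mix_sz_add _ _).symm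
            _ = sz (T k) := by rw [this]
        · rw [Function.update_of_ne hk2]
          exact h1 k
    · unfold sw
      have h3 := sum_update2 T hij (T i - e a + e b) (T j - e b + e a)
      have h4 : T i - e a + e b + (T j - e b + e a) = T i + T j := by
        calc T i - e a + e b + (T j - e b + e a)
            = (T i - e a + e a) + (T j - e b + e b) := by
              generalize T i - e a = A
              generalize T j - e b = B
              abel
          _ = T i + T j := by rw [sub_e_add ha, sub_e_add hb]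
      rw [h4] at h3
      rw [← h2]
      exact add_right_cancel h3
  · exact hT

theorem sw_rev {T : I → J → ℕ} {i j : I} {a b : J} (hij : i ≠ j) (ha : 0 < T i a)
    (hb : 0 < T j b) :
    0 < (sw T i j a b) i b ∧ 0 < (sw T i j a b) j a ∧ sw (sw T i j a b) i j b a = T := by
  have hSi : (sw T i j a b) i = T i - e a + e b := by
    unfold sw
    rw [Function.update_of_ne hij, Function.update_self]
  have hSj : (sw T i j a b) j = T j - e b + e a := by
    unfold sw
    rw [Function.update_self]
  refine ⟨?_, ?_, ?_⟩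
  · rw [hSi]
    simp only [Pi.add_apply, e, Pi.single_eq_same]
    omega
  · rw [hSj]
    simp only [Pi.add_apply, e, Pi.single_eq_same]
    omega
  · have h1 : (sw T i j a b) i - e b + e a = T i := by
      rw [hSi, add_tsub_cancel_right, sub_e_add ha]
    have h2 : (sw T i j a b) j - e a + e b = T j := by
      rw [hSj, add_tsub_cancel_right, sub_e_add hb]
    conv_lhs => unfold sw
    rw [show Function.update (Function.update T i (T i - e a + e b)) j (T j - e b + e a)
      = sw T i j a b from rfl, h1, h2]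
    funext k
    by_cases hk : k = j
    · subst hk
      rw [Function.update_self]
    · rw [Function.update_of_ne hk]
      by_cases hk2 : k = i
      · subst hk2
        rw [Function.update_self]
      · rw [Function.update_of_ne hk2]
        unfold sw
        rw [Function.update_of_ne hk, Function.update_of_ne hk2]

theorem prop_rev {T S : I → J → ℕ} (hne : S ≠ T) {i j : I} {a b : J}
    (h : prop T i j a b = S) : prop S i j b a = T := by
  unfold prop at h
  split_ifs at h with hv
  · obtain ⟨hij, ha, hb⟩ := hv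
    have := sw_rev hij ha hb
    rw [h] at this
    unfold prop
    rw [if_pos ⟨hij, this.1, this.2.1⟩]
    exact this.2.2
  · exact absurd h.symm hne

/-- the proposal kernel -/
noncomputable def qk (T S : I → J → ℕ) : ℝ :=
  (∑ i : I, ∑ j : I, ∑ a : J, ∑ b : J, if prop T i j a b = S then (1 : ℝ) else 0)
      / ((Fintype.card I : ℝ) ^ 2 * (Fintype.card J : ℝ) ^ 2)

theorem qk_nonneg (T S : I → J → ℕ) : 0 ≤ qk T S := by
  unfold qk
  apply div_nonneg _ (by positivity)
  exact sum_nonneg fun i _ => sum_nonneg fun j _ => sum_nonneg fun a _ => sum_nonneg fun b _ => by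
    split_ifs <;> norm_num

theorem qk_symm (T S : I → J → ℕ) : qk T S = qk S T := by
  by_cases h : S = T
  · rw [h]
  · unfold qk
    congr 1
    apply sum_congr rfl
    intro i _
    apply sum_congr rfl
    intro j _
    rw [sum_comm]
    apply sum_congr rfl
    intro b _
    apply sum_congr rfl
    intro a _
    by_cases h1 : prop T i j a b = S
    · rw [if_pos h1, if_pos (prop_rev h h1)]
    · rw [if_neg h1, if_neg]
      intro h2
      exact h1 (prop_rev (Ne.symm h) h2)

theorem sum_qk (r : I → ℕ) (c : J → ℕ) {T : I → J → ℕ} (hT : T ∈ TT r c)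
    (F : (I → J → ℕ) → ℝ) :
    ∑ S ∈ TT r c, qk T S * F S = (∑ i : I, ∑ j : I, ∑ a : J, ∑ b : J, F (prop T i j a b))
      / ((Fintype.card I : ℝ) ^ 2 * (Fintype.card J : ℝ) ^ 2) := by
  have h1 : ∀ S, qk T S * F S
      = (∑ i : I, ∑ j : I, ∑ a : J, ∑ b : J, if prop T i j a b = S then F S else 0)
      / ((Fintype.card I : ℝ) ^ 2 * (Fintype.card J : ℝ) ^ 2) := by
    intro S
    unfold qk
    rw [div_mul_eq_mul_div]
    congr 1
    simp_rw [sum_mul, ite_mul, one_mul, zero_mul]
  simp_rw [h1]
  rw [← sum_div]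
  congr 1
  rw [sum_comm]
  apply sum_congr rfl
  intro i _
  rw [sum_comm]
  apply sum_congr rfl
  intro j _
  rw [sum_comm]
  apply sum_congr rfl
  intro a _
  rw [sum_comm]
  apply sum_congr rfl
  intro b _
  rw [sum_ite_eq, if_pos (prop_mem hT i j a b)]

theorem card_TT_le (r : I → ℕ) (c : J → ℕ) :
    ((TT r c).card : ℝ) ≤ ((sz c : ℝ) + 1) ^ (Fintype.card I * Fintype.card J) := by
  have h1 : (TT r c).card ≤ ∏ i : I, (box c (r i)).card := by
    unfold TT
    refine (card_filter_le _ _).trans ?_
    rw [Fintype.card_piFinset]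
  have h2 : ∀ i : I, (box c (r i)).card ≤ (sz c + 1) ^ Fintype.card J := by
    intro i
    unfold box
    refine (card_filter_le _ _).trans ?_
    rw [Pi.card_Iic]
    calc ∏ j : J, (Iic (c j)).card ≤ ∏ _j : J, (sz c + 1) := by
          apply prod_le_prod'
          intro j _
          rw [Nat.card_Iic]
          have : c j ≤ sz c := by
            unfold sz
            exact single_le_sum (f := c) (fun k _ => Nat.zero_le _) (mem_univ j)
          omega
      _ = (sz c + 1) ^ Fintype.card J := by
          rw [prod_const, card_univ]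
  have h3 : (TT r c).card ≤ (sz c + 1) ^ (Fintype.card I * Fintype.card J) := by
    refine h1.trans ?_
    calc ∏ i : I, (box c (r i)).card ≤ ∏ _i : I, (sz c + 1) ^ Fintype.card J :=
          prod_le_prod' fun i _ => h2 i
      _ = (sz c + 1) ^ (Fintype.card I * Fintype.card J) := by
          rw [prod_const, card_univ, ← pow_mul, mul_comm]
  exact_mod_cast h3

/-- MIX -/
theorem mix [Nonempty I] [Nonempty J] (r : I → ℕ) (c : J → ℕ) (K : ℝ) (hK : 1 ≤ K)
    (h : PIn r c K) (T0 : I → J → ℕ)
    (hT : T0 ∈ TT r c) (eps : ℝ) (he : 0 < eps) (he1 : eps < 1) (t : ℕ)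
    (ht : 4 * ((Fintype.card I : ℝ) ^ 2 * (Fintype.card J : ℝ) ^ 2) * K *
      ((Fintype.card I : ℝ) * (Fintype.card J : ℝ) * Real.log ((sz c : ℝ) + 1) + Real.log (1 / eps)) ≤ t) :
    tv r c (law r c T0 t) ≤ eps := by
  set X := TT r c with hX
  set M : ℝ := (Fintype.card I : ℝ) ^ 2 * (Fintype.card J : ℝ) ^ 2 with hM
  have hcI : (1 : ℝ) ≤ Fintype.card I := by exact_mod_cast Fintype.card_pos
  have hcJ : (1 : ℝ) ≤ Fintype.card J := by exact_mod_cast Fintype.card_pos
  have hM1 : 1 ≤ M := by
    rw [hM]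
    nlinarith [mul_self_nonneg ((Fintype.card I : ℝ) - 1), one_le_pow₀ hcI (n := 2),
      one_le_pow₀ hcJ (n := 2)]
  have hMpos : 0 < M := by linarith
  have hXpos : (0 : ℝ) < X.card := by exact_mod_cast card_pos.2 ⟨T0, hT⟩
  have hs : ∀ T ∈ X, ∀ S ∈ X, qk T S = qk S T := fun T _ S _ => qk_symm T S
  have h0 : ∀ T ∈ X, ∀ S ∈ X, 0 ≤ qk T S := fun T _ S _ => qk_nonneg T S
  have h1 : ∀ T ∈ X, ∑ S ∈ X, qk T S = 1 := by
    intro T hTm
    have := sum_qk r c hTm (fun _ => 1)
    simp only [mul_one] at this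
    rw [this]
    simp only [sum_const, card_univ, nsmul_eq_mul, mul_one]
    rw [div_eq_one_iff_eq hMpos.ne', hM]
    ring
  have hP : ∀ f : (I → J → ℕ) → ℝ, ∑ S ∈ X, f S = 0 →
      ∑ S ∈ X, f S ^ 2 ≤ (K * M) * ∑ T ∈ X, ∑ S ∈ X, qk T S * (f S - f T) ^ 2 := by
    intro f hf
    have h2 := h f
    rw [← hX, hf] at h2
    have h3 : DF r c f = M * ∑ T ∈ X, ∑ S ∈ X, qk T S * (f S - f T) ^ 2 := by
      unfold DF
      rw [mul_sum]
      apply sum_congr rfl
      intro T hTm
      rw [sum_qk r c hTm (fun S => (f S - f T) ^ 2), mul_div_cancel₀ _ hMpos.ne']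
      apply sum_congr rfl
      intro i _
      apply sum_congr rfl
      intro j _
      apply sum_congr rfl
      intro a _
      apply sum_congr rfl
      intro b _
      unfold prop
      split_ifs
      · rfl
      · ring
    rw [h3] at h2
    have h4 : (X.card : ℝ) * ∑ S ∈ X, f S ^ 2
        ≤ (X.card : ℝ) * ((K * M) * ∑ T ∈ X, ∑ S ∈ X, qk T S * (f S - f T) ^ 2) := by
      calc (X.card : ℝ) * ∑ S ∈ X, f S ^ 2 = (X.card : ℝ) * ∑ S ∈ X, f S ^ 2 - 0 ^ 2 := by ring
        _ ≤ _ := h2
        _ = _ := by ring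
    exact le_of_mul_le_mul_left h4 hXpos
  have hKM : 1 ≤ K * M := by nlinarith
  set lam : ℝ := 1 - 1 / (4 * (K * M)) with hlam
  have hlpos : 0 ≤ lam := by
    have : 1 / (4 * (K * M)) ≤ 1 / 4 := by
      apply one_div_le_one_div_of_le (by norm_num)
      linarith
    rw [hlam]
    linarith
  -- the recursion
  have hstep : ∀ n, ∀ S ∈ X, law r c T0 (n + 1) S = opP X qk (law r c T0 n) S := by
    intro n S hS
    have e1 : law r c T0 (n + 1) S = ∑ T ∈ X, law r c T0 n T * step T S := rfl
    rw [e1]
    unfold opP opQ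
    have e2 : ∀ T, law r c T0 n T * step T S
        = (1 / 2) * (if S = T then law r c T0 n T else 0)
          + (1 / 2) * (law r c T0 n T * qk T S) := by
      intro T
      unfold step
      rw [show (∑ i : I, ∑ j : I, ∑ a : J, ∑ b : J, if prop T i j a b = S then (1 : ℝ) else 0)
        / ((Fintype.card I : ℝ) ^ 2 * (Fintype.card J : ℝ) ^ 2) = qk T S from rfl]
      split_ifs <;> ring
    simp_rw [e2]
    rw [sum_add_distrib, ← mul_sum, ← mul_sum, sum_ite_eq, if_pos hS]
  set g : ℕ → (I → J → ℕ) → ℝ := fun n S => law r c T0 n S - 1 / (X.card : ℝ) with hg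
  have hgstep : ∀ n, ∀ S ∈ X, g (n + 1) S = opP X qk (g n) S := by
    intro n S hS
    rw [hg]
    simp only
    rw [hstep n S hS]
    unfold opP opQ
    have e3 : ∑ T ∈ X, (law r c T0 n T - 1 / (X.card : ℝ)) * qk T S
        = ∑ T ∈ X, law r c T0 n T * qk T S - 1 / (X.card : ℝ) := by
      simp_rw [sub_mul]
      rw [sum_sub_distrib, ← mul_sum]
      have : ∑ T ∈ X, qk T S = 1 := by
        rw [← h1 S hS]
        exact sum_congr rfl fun T _ => qk_symm T S
      rw [this, mul_one]
    rw [e3]
    ring
  have hopP_congr : ∀ u v : (I → J → ℕ) → ℝ, (∀ S ∈ X, u S = v S) →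
      ∀ S ∈ X, opP X qk u S = opP X qk v S := by
    intro u v huv S hS
    unfold opP opQ
    rw [huv S hS]
    congr 2
    apply sum_congr rfl
    intro T hTm
    rw [huv T hTm]
  have hmain : ∀ n, ∑ S ∈ X, g n S = 0 ∧ ∑ S ∈ X, g n S ^ 2 ≤ lam ^ (2 * n) := by
    intro n
    induction n with
    | zero =>
      have e1 : ∑ S ∈ X, law r c T0 0 S = 1 := by
        have : ∀ S, law r c T0 0 S = if S = T0 then (1 : ℝ) else 0 := fun S => rfl
        simp_rw [this]
        rw [sum_ite_eq', if_pos hT]
      have e2 : ∑ S ∈ X, g 0 S = 0 := by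
        rw [hg]
        simp only
        rw [sum_sub_distrib, e1, sum_const, nsmul_eq_mul, mul_one_div_cancel hXpos.ne', sub_self]
      refine ⟨e2, ?_⟩
      rw [mul_zero, pow_zero]
      have e3 : ∑ S ∈ X, g 0 S ^ 2 = 1 - 1 / (X.card : ℝ) := by
        have e4 : ∀ S, g 0 S ^ 2 = law r c T0 0 S - (2 / (X.card : ℝ)) * law r c T0 0 S
            + 1 / (X.card : ℝ) ^ 2 := by
          intro S
          have : law r c T0 0 S = if S = T0 then (1 : ℝ) else 0 := rfl
          rw [hg]
          simp only
          rw [this]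
          split_ifs
          · field_simp
            ring
          · field_simp
            ring
        simp_rw [e4]
        rw [sum_add_distrib, sum_sub_distrib, ← mul_sum, e1, sum_const, nsmul_eq_mul]
        field_simp
        ring
      rw [e3]
      have : 0 < 1 / (X.card : ℝ) := by positivity
      linarith
    | succ n ih =>
      have e1 : ∑ S ∈ X, g (n + 1) S = ∑ S ∈ X, opP X qk (g n) S :=
        sum_congr rfl fun S hS => hgstep n S hS
      have e2 : ∑ S ∈ X, g (n + 1) S ^ 2 = ∑ S ∈ X, opP X qk (g n) S ^ 2 :=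
        sum_congr rfl fun S hS => by rw [hgstep n S hS]
      refine ⟨?_, ?_⟩
      · rw [e1, opP_sum X qk hs h1, ih.1]
      · rw [e2]
        have e3 := contraction X qk hs h1 h0 (K * M) hKM hP (g n) ih.1
        refine e3.trans ?_
        rw [← hlam, show 2 * (n + 1) = 2 + 2 * n by ring, pow_add]
        exact mul_le_mul_of_nonneg_left ih.2 (by positivity)
  -- conclusion
  have hcs : (∑ S ∈ X, |g t S|) ^ 2 ≤ X.card * ∑ S ∈ X, g t S ^ 2 := by
    have := sq_sum_le_card_mul_sum_sq (s := X) (f := fun S => |g t S|)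
    simpa only [sq_abs] using this
  have hlogN : 0 ≤ Real.log ((sz c : ℝ) + 1) := Real.log_nonneg (by
    have : (0 : ℝ) ≤ sz c := Nat.cast_nonneg _
    linarith)
  set Lg : ℝ := (Fintype.card I : ℝ) * (Fintype.card J : ℝ) * Real.log ((sz c : ℝ) + 1)
    + Real.log (1 / eps) with hLg
  have hNpos : (0 : ℝ) < (sz c : ℝ) + 1 := by positivity
  have hexpL : Real.exp (-Lg) = (((sz c : ℝ) + 1) ^ (Fintype.card I * Fintype.card J))⁻¹ * eps := by
    rw [hLg, neg_add, Real.exp_add, Real.log_div one_ne_zero he.ne', Real.log_one, zero_sub,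
      neg_neg, Real.exp_log he]
    congr 1
    rw [Real.exp_neg]
    congr 1
    rw [show (Fintype.card I : ℝ) * (Fintype.card J : ℝ) * Real.log ((sz c : ℝ) + 1)
      = ((Fintype.card I * Fintype.card J : ℕ) : ℝ) * Real.log ((sz c : ℝ) + 1) by push_cast; ring,
      ← Real.log_pow, Real.exp_log (by positivity)]
  have hlamt : lam ^ t ≤ Real.exp (-Lg) := by
    have e1 : lam ≤ Real.exp (-(1 / (4 * (K * M)))) := by
      have := Real.add_one_le_exp (-(1 / (4 * (K * M))))
      rw [hlam]
      linarith
    have e2 : lam ^ t ≤ Real.exp (-(1 / (4 * (K * M)))) ^ t := pow_le_pow_left₀ hlpos e1 t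
    refine e2.trans ?_
    rw [← Real.exp_nat_mul]
    apply Real.exp_le_exp.2
    have hKMpos : 0 < 4 * (K * M) := by linarith
    have e3 : Lg ≤ (t : ℝ) * (1 / (4 * (K * M))) := by
      rw [mul_one_div, le_div_iff₀ hKMpos]
      calc Lg * (4 * (K * M)) = 4 * M * K * Lg := by ring
        _ ≤ t := ht
    linarith
  have hfin : (∑ S ∈ X, |g t S|) ^ 2 ≤ eps ^ 2 := by
    refine hcs.trans ?_
    have hc1 := card_TT_le r c
    rw [← hX] at hc1
    set P : ℝ := ((sz c : ℝ) + 1) ^ (Fintype.card I * Fintype.card J) with hPdef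
    have hP1 : 1 ≤ P := by
      rw [hPdef]
      apply one_le_pow₀
      have : (0 : ℝ) ≤ sz c := Nat.cast_nonneg _
      linarith
    have hPpos : 0 < P := by linarith
    have e1 : ∑ S ∈ X, g t S ^ 2 ≤ (P⁻¹ * eps) ^ 2 := by
      refine (hmain t).2.trans ?_
      rw [mul_comm 2 t, pow_mul]
      rw [hexpL] at hlamt
      exact pow_le_pow_left₀ (pow_nonneg hlpos t) hlamt 2
    calc (X.card : ℝ) * ∑ S ∈ X, g t S ^ 2 ≤ P * (P⁻¹ * eps) ^ 2 :=
          mul_le_mul hc1 e1 (sum_nonneg fun S _ => sq_nonneg _) hPpos.le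
      _ = P⁻¹ * eps ^ 2 := by field_simp
      _ ≤ 1 * eps ^ 2 := by
          apply mul_le_mul_of_nonneg_right _ (by positivity)
          exact inv_le_one_of_one_le₀ hP1
      _ = eps ^ 2 := one_mul _
  have hnn : 0 ≤ ∑ S ∈ X, |g t S| := sum_nonneg fun S _ => abs_nonneg _
  have hle : ∑ S ∈ X, |g t S| ≤ eps := by
    exact le_of_sq_le_sq hfin he.le
  unfold tv
  rw [← hX]
  have : ∑ T ∈ X, |law r c T0 t T - 1 / (X.card : ℝ)| = ∑ S ∈ X, |g t S| := rfl
  rw [this]
  linarith

end CT
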