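import Vale.Agent.CT.BDefs
import Vale.Agent.CT.Mix
import Vale.Agent.CT2.HB

/-! # Mixing of the 3 x 3 block heat-bath chain from the Poincare inequality (helper2) -/

namespace CT

open Finset
open scoped Classical

variable {J : Type} [Fintype J] [DecidableEq J]
variable {I : Type} [Fintype I] [DecidableEq I]

/-- block indexed by three rows and three columns -/
def bk (p : (I × I × I) × (J × J × J)) : Finset (I × J) :=
  ({p.1.1, p.1.2.1, p.1.2.2} : Finset I) ×ˢ ({p.2.1, p.2.2.1, p.2.2.2} : Finset J)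

/-- agreement off a block -/
def Rb (p : (I × I × I) × (J × J × J)) (T T' : I → J → ℕ) : Prop :=
  ∀ i j, (i, j) ∉ bk p → T' i j = T i j

theorem Rb_equiv (p : (I × I × I) × (J × J × J)) : Equivalence (Rb p) where
  refl := fun _ _ _ _ => rfl
  symm := fun h i j hij => (h i j hij).symm
  trans := fun h1 h2 i j hij => (h2 i j hij).trans (h1 i j hij)

theorem av_eq_CE (r : I → ℕ) (c : J → ℕ) (p : (I × I × I) × (J × J × J))
    (f : (I → J → ℕ) → ℝ) (T : I → J → ℕ) :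
    CT2.av (TT r c) (Rb p) f T = CE r c (bk p) f T := by
  have h1 : (TT r c).filter (fun T' => Rb p T T') = fib r c (bk p) T := by
    unfold fib
    ext T'
    rw [mem_filter, mem_filter]
    rfl
  unfold CT2.av CE
  rw [← h1]

theorem sum_six (F : I → I → I → J → J → J → ℝ) :
    ∑ i : I, ∑ j : I, ∑ k : I, ∑ a : J, ∑ b : J, ∑ d : J, F i j k a b d
      = ∑ p : (I × I × I) × (J × J × J), F p.1.1 p.1.2.1 p.1.2.2 p.2.1 p.2.2.1 p.2.2.2 := by
  simp only [Fintype.sum_prod_type]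

theorem card_six : (Fintype.card ((I × I × I) × (J × J × J)) : ℝ)
    = (Fintype.card I : ℝ) ^ 3 * (Fintype.card J : ℝ) ^ 3 := by
  simp only [Fintype.card_prod, Nat.cast_mul]
  ring

/-- the operator of the chain is the abstract heat-bath operator -/
theorem hop_eq_six (r : I → ℕ) (c : J → ℕ) (f : (I → J → ℕ) → ℝ) (T : I → J → ℕ) :
    CT2.hop (TT r c) (Rb : (I × I × I) × (J × J × J) → _) f T
      = (∑ i : I, ∑ j : I, ∑ k : I, ∑ a : J, ∑ b : J, ∑ d : J,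
        CE r c (({i, j, k} : Finset I) ×ˢ ({a, b, d} : Finset J)) f T)
        / ((Fintype.card I : ℝ) ^ 3 * (Fintype.card J : ℝ) ^ 3) := by
  unfold CT2.hop
  rw [card_six, sum_six (fun i j k a b d =>
    CE r c (({i, j, k} : Finset I) ×ˢ ({a, b, d} : Finset J)) f T)]
  congr 1
  exact sum_congr rfl fun p _ => av_eq_CE r c p f T

theorem P3_poincare {r : I → ℕ} {c : J → ℕ} {C : ℝ} (h : P3 r c C) {T0 : I → J → ℕ}
    (hT : T0 ∈ TT r c) (f : (I → J → ℕ) → ℝ) (hf : ∑ T ∈ TT r c, f T = 0) :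
    ∑ T ∈ TT r c, f T ^ 2 ≤ C * ∑ p : (I × I × I) × (J × J × J),
      ∑ T ∈ TT r c, (f T - CT2.av (TT r c) (Rb p) f T) ^ 2 := by
  have hXpos : (0 : ℝ) < (TT r c).card := by exact_mod_cast card_pos.2 ⟨T0, hT⟩
  have h1 := h f
  rw [hf] at h1
  have h2 : ∑ p : (I × I × I) × (J × J × J),
      ∑ T ∈ TT r c, (f T - CT2.av (TT r c) (Rb p) f T) ^ 2
      = ∑ i : I, ∑ j : I, ∑ k : I, ∑ a : J, ∑ b : J, ∑ d : J,
          VV r c (({i, j, k} : Finset I) ×ˢ ({a, b, d} : Finset J)) f := by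
    rw [sum_six (fun i j k a b d => VV r c (({i, j, k} : Finset I) ×ˢ ({a, b, d} : Finset J)) f)]
    refine sum_congr rfl fun p _ => ?_
    unfold VV
    refine sum_congr rfl fun T _ => ?_
    rw [av_eq_CE]
    rfl
  rw [h2]
  have h3 : ((TT r c).card : ℝ) * ∑ T ∈ TT r c, f T ^ 2
      ≤ ((TT r c).card : ℝ) * (C * ∑ i : I, ∑ j : I, ∑ k : I, ∑ a : J, ∑ b : J, ∑ d : J,
          VV r c (({i, j, k} : Finset I) ×ˢ ({a, b, d} : Finset J)) f) := by
    calc ((TT r c).card : ℝ) * ∑ T ∈ TT r c, f T ^ 2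
        = ((TT r c).card : ℝ) * ∑ T ∈ TT r c, f T ^ 2 - 0 ^ 2 := by ring
      _ ≤ _ := h1
      _ = _ := by ring
  exact le_of_mul_le_mul_left h3 hXpos

theorem mixB_abs [Nonempty I] [Nonempty J] (r : I → ℕ) (c : J → ℕ) (C : ℝ) (hC : 1 ≤ C)
    (h : P3 r c C)
    (T0 : I → J → ℕ) (hT : T0 ∈ TT r c) (ε : ℝ) (hε : 0 < ε) (t : ℕ)
    (ht : 2 * ((Fintype.card I : ℝ) ^ 3 * (Fintype.card J : ℝ) ^ 3) * C *
      ((Fintype.card I : ℝ) * (Fintype.card J : ℝ) * Real.log ((sz c : ℝ) + 1) / 2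
        + Real.log (1 / ε)) ≤ t) :
    CT2.htv (TT r c) (CT2.hlaw (TT r c) (Rb : (I × I × I) × (J × J × J) → _) T0 t) ≤ ε := by
  refine CT2.hb_mix (TT r c) (R := (Rb : (I × I × I) × (J × J × J) → _)) Rb_equiv C hC
    (fun f hf => P3_poincare h hT f hf) T0 hT ε hε t ?_
  rw [card_six]
  have hcI : (1 : ℝ) ≤ Fintype.card I := by exact_mod_cast Fintype.card_pos
  have hcJ : (1 : ℝ) ≤ Fintype.card J := by exact_mod_cast Fintype.card_pos
  have hM1 : 0 ≤ (Fintype.card I : ℝ) ^ 3 * (Fintype.card J : ℝ) ^ 3 := by positivity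
  have hXpos : (0 : ℝ) < (TT r c).card := by exact_mod_cast card_pos.2 ⟨T0, hT⟩
  have hlog : Real.log ((TT r c).card : ℝ)
      ≤ (Fintype.card I : ℝ) * (Fintype.card J : ℝ) * Real.log ((sz c : ℝ) + 1) := by
    have h1 := Real.log_le_log hXpos (card_TT_le r c)
    rw [Real.log_pow] at h1
    push_cast at h1
    exact h1
  set M : ℝ := (Fintype.card I : ℝ) ^ 3 * (Fintype.card J : ℝ) ^ 3 with hM
  set L : ℝ := (Fintype.card I : ℝ) * (Fintype.card J : ℝ) * Real.log ((sz c : ℝ) + 1) with hL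
  set Y : ℝ := Real.log (1 / ε) with hY
  have hCM : 0 ≤ C * M := mul_nonneg (by linarith) hM1
  have hX' : 1 / 2 * Real.log ((TT r c).card : ℝ) + Y ≤ L / 2 + Y := by linarith
  rcases le_or_gt 0 (L / 2 + Y) with hpos | hneg
  · calc C * M * (1 / 2 * Real.log ((TT r c).card : ℝ) + Y)
        ≤ C * M * (L / 2 + Y) := mul_le_mul_of_nonneg_left hX' hCM
      _ ≤ 2 * (C * M * (L / 2 + Y)) := by
          have := mul_nonneg hCM hpos
          linarith
      _ = 2 * M * C * (L / 2 + Y) := by ring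
      _ ≤ t := ht
  · calc C * M * (1 / 2 * Real.log ((TT r c).card : ℝ) + Y)
        ≤ C * M * (L / 2 + Y) := mul_le_mul_of_nonneg_left hX' hCM
      _ ≤ 0 := mul_nonpos_of_nonneg_of_nonpos hCM hneg.le
      _ ≤ t := Nat.cast_nonneg t

/-- the arithmetic of the final theorem -/
theorem final_arith (m n g y x : ℝ) (hm : 1 ≤ m) (hn : 1 ≤ n) (hx : 0 ≤ x) (hg : g = 1 + x)
    (hy : 0 ≤ y) :
    2 * (m ^ 3 * n ^ 3) * (10 ^ 25 * (m + 1) ^ 2 * (n + 1) ^ 13 * g ^ 4) * (m * n * x / 2 + y)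
      ≤ 10 ^ 26 * (m + 1) ^ 6 * (n + 1) ^ 17 * g ^ 4 * (g + y) := by
  have hg1 : 1 ≤ g := by linarith
  have h1 : m * n * x / 2 + y ≤ m * n * (g + y) := by
    have hmn : 1 ≤ m * n := by nlinarith
    have e1 : m * n * x / 2 ≤ m * n * g := by
      have : 0 ≤ m * n := by linarith
      have : m * n * x ≤ m * n * g := mul_le_mul_of_nonneg_left (by linarith) this
      nlinarith [mul_nonneg (by linarith : (0 : ℝ) ≤ m * n) hx]
    have e2 : y ≤ m * n * y := by nlinarith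
    nlinarith
  have h2 : m ^ 3 * n ^ 3 * (m * n) ≤ (m + 1) ^ 4 * (n + 1) ^ 4 := by
    have e1 : m ^ 4 ≤ (m + 1) ^ 4 := by gcongr; linarith
    have e2 : n ^ 4 ≤ (n + 1) ^ 4 := by gcongr; linarith
    calc m ^ 3 * n ^ 3 * (m * n) = m ^ 4 * n ^ 4 := by ring
      _ ≤ (m + 1) ^ 4 * (n + 1) ^ 4 := by
        apply mul_le_mul e1 e2 <;> positivity
  have h3 : 0 ≤ (m + 1) ^ 2 * (n + 1) ^ 13 * g ^ 4 := by positivity
  have h4 : 0 ≤ g + y := by linarith
  calc 2 * (m ^ 3 * n ^ 3) * (10 ^ 25 * (m + 1) ^ 2 * (n + 1) ^ 13 * g ^ 4) * (m * n * x / 2 + y)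
      ≤ 2 * (m ^ 3 * n ^ 3) * (10 ^ 25 * (m + 1) ^ 2 * (n + 1) ^ 13 * g ^ 4)
        * (m * n * (g + y)) := mul_le_mul_of_nonneg_left h1 (by positivity)
    _ = 2 * 10 ^ 25 * (m ^ 3 * n ^ 3 * (m * n)) * (((m + 1) ^ 2 * (n + 1) ^ 13 * g ^ 4)
        * (g + y)) := by ring
    _ ≤ 2 * 10 ^ 25 * ((m + 1) ^ 4 * (n + 1) ^ 4) * (((m + 1) ^ 2 * (n + 1) ^ 13 * g ^ 4)
        * (g + y)) := by gcongr
    _ ≤ 10 ^ 26 * ((m + 1) ^ 4 * (n + 1) ^ 4) * (((m + 1) ^ 2 * (n + 1) ^ 13 * g ^ 4)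
        * (g + y)) := by
        apply mul_le_mul_of_nonneg_right _ (mul_nonneg h3 h4)
        apply mul_le_mul_of_nonneg_right _ (by positivity)
        norm_num
    _ = _ := by ring

end CT
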