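import Vale.Agent.CT.BBlk
import Vale.Agent.CT.BMixA

/-! # Mixing of the 3 x 3 block heat-bath chain (piece MIXB) -/

namespace CT

open Finset
open scoped Classical

variable {J : Type} [Fintype J] [DecidableEq J]
variable {I : Type} [Fintype I] [DecidableEq I]

/-- one step: choose three rows and three columns at random (with repetition) and resample the block
uniformly given all other cells; `CE` is self-adjoint, so this is also the evolution of laws -/
noncomputable def PB (r : I → ℕ) (c : J → ℕ) (f : (I → J → ℕ) → ℝ) (T : I → J → ℕ) : ℝ :=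
  (∑ i : I, ∑ j : I, ∑ k : I, ∑ a : J, ∑ b : J, ∑ d : J,
    CE r c (({i, j, k} : Finset I) ×ˢ ({a, b, d} : Finset J)) f T)
    / ((Fintype.card I : ℝ) ^ 3 * (Fintype.card J : ℝ) ^ 3)

/-- law of the chain started at `T0` -/
noncomputable def lawB (r : I → ℕ) (c : J → ℕ) (T0 : I → J → ℕ) : ℕ → (I → J → ℕ) → ℝ
  | 0 => fun T => if T = T0 then 1 else 0
  | t + 1 => PB r c (lawB r c T0 t)

/-- total variation distance to uniform -/
noncomputable def tvB (r : I → ℕ) (c : J → ℕ) (T0 : I → J → ℕ) (t : ℕ) : ℝ :=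
  (1 / 2) * ∑ T ∈ TT r c, |lawB r c T0 t T - 1 / ((TT r c).card : ℝ)|

/-- the law agrees with the law of the abstract heat-bath chain -/
theorem lawB_eq (r : I → ℕ) (c : J → ℕ) (T0 : I → J → ℕ) (t : ℕ) (T : I → J → ℕ) :
    lawB r c T0 t T
      = CT2.hlaw (TT r c) (Rb : (I × I × I) × (J × J × J) → _) T0 t T := by
  induction t generalizing T with
  | zero =>
    unfold lawB CT2.hlaw
    by_cases hTT : T = T0
    · rw [if_pos hTT, if_pos hTT]
    · rw [if_neg hTT, if_neg hTT]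
  | succ t ih =>
    have h1 : lawB r c T0 t = CT2.hlaw (TT r c) (Rb : (I × I × I) × (J × J × J) → _) T0 t :=
      funext ih
    rw [CT2.hlaw_step (TT r c) Rb_equiv, hop_eq_six, ← h1]
    rfl

/-- `P` is an average of orthogonal projections: `‖P f‖² ≤ ⟨f, P f⟩ ≤ (1 - 1/(m³n³C)) ‖f‖²` on mean zero
functions; `TV ≤ (1/2) sqrt |Ω| ‖P^t f0‖`, `|Ω| ≤ (N+1)^(mn)`. -/
theorem mixB [Nonempty I] [Nonempty J] (r : I → ℕ) (c : J → ℕ) (C : ℝ) (hC : 1 ≤ C) (h : P3 r c C)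
    (T0 : I → J → ℕ) (hT : T0 ∈ TT r c) (ε : ℝ) (hε : 0 < ε) (t : ℕ)
    (ht : 2 * ((Fintype.card I : ℝ) ^ 3 * (Fintype.card J : ℝ) ^ 3) * C *
      ((Fintype.card I : ℝ) * (Fintype.card J : ℝ) * Real.log ((sz c : ℝ) + 1) / 2
        + Real.log (1 / ε)) ≤ t) :
    tvB r c T0 t ≤ ε := by
  have h1 := mixB_abs r c C hC h T0 hT ε hε t ht
  unfold tvB
  unfold CT2.htv at h1
  simp_rw [lawB_eq]
  exact h1

/-- the final theorem -/
theorem binary_mix [Nonempty I] [Nonempty J] (r : I → ℕ) (c : J → ℕ) (T0 : I → J → ℕ)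
    (hT : T0 ∈ TT r c)
    (ε : ℝ) (hε : 0 < ε) (hε1 : ε ≤ 1) (t : ℕ)
    (ht : 10 ^ 26 * ((Fintype.card I : ℝ) + 1) ^ 6 * ((Fintype.card J : ℝ) + 1) ^ 17
      * lg (sz c) ^ 4 * (lg (sz c) + Real.log (1 / ε)) ≤ t) :
    tvB r c T0 t ≤ ε := by
  have hcI : (1 : ℝ) ≤ Fintype.card I := by exact_mod_cast Fintype.card_pos
  have hcJ : (1 : ℝ) ≤ Fintype.card J := by exact_mod_cast Fintype.card_pos
  have hx : 0 ≤ Real.log ((sz c : ℝ) + 1) := Real.log_nonneg (by
    have : (0 : ℝ) ≤ sz c := Nat.cast_nonneg _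
    linarith)
  have hy : 0 ≤ Real.log (1 / ε) := Real.log_nonneg (by
    rw [le_div_iff₀ hε]
    linarith)
  have hrc : ∑ i, r i = sz c := by
    obtain ⟨h1, h2⟩ := mem_TT.1 hT
    rw [← h2]
    unfold sz
    rw [sum_congr rfl fun i _ => (h1 i).symm]
    unfold sz
    rw [sum_comm]
    refine sum_congr rfl fun j _ => ?_
    rw [Finset.sum_apply]
  have hlg : 1 ≤ lg (sz c) := by
    unfold lg
    linarith
  have hC : 1 ≤ 10 ^ 25 * ((Fintype.card I : ℝ) + 1) ^ 2 * ((Fintype.card J : ℝ) + 1) ^ 13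
      * lg (sz c) ^ 4 := by
    have e1 : (1 : ℝ) ≤ ((Fintype.card I : ℝ) + 1) ^ 2 := one_le_pow₀ (by linarith)
    have e2 : (1 : ℝ) ≤ ((Fintype.card J : ℝ) + 1) ^ 13 := one_le_pow₀ (by linarith)
    have e3 : (1 : ℝ) ≤ lg (sz c) ^ 4 := one_le_pow₀ hlg
    exact one_le_mul_of_one_le_of_one_le (one_le_mul_of_one_le_of_one_le
      (one_le_mul_of_one_le_of_one_le (by norm_num) e1) e2) e3
  refine mixB r c _ hC (p3_all r c hrc) T0 hT ε hε t ?_
  refine le_trans ?_ ht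
  exact final_arith _ _ _ _ _ hcI hcJ hx rfl hy

end CT
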