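import Vale.Agent.CT.BPkA

/-! # Poincare with killing (piece PK)

For `x_b < v_b`: `N2 r2 (v-x) ≤ (n+1) #{z : z_b < (v-x)_b}` (cnt3; `N2 (y - e b)` counts these by
`card_use`).  Write the sum over `(x, z)` with active row `v - x - z` (complement: sum over the active
row `w` with `0 < w b`, `S = v - w`, `x ∈ box S r`), apply `stage1` with `A = {b, s}` for each fixed
active row (`2 x(A) ≤ S(A)` iff `x_b+x_s ≤ z_b+z_s`), then `stage2`.  If `x b = 0`, `x b < v b` there is
`d ≠ b` with `x d < v d` (otherwise `v s = x s ≤ r` and `v b ≥ r1 + r2`). -/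

namespace CT

open Finset
open scoped Classical

variable {J : Type} [Fintype J] [DecidableEq J]

theorem pk (v : J → ℕ) (r1 r2 r : ℕ) (hv : sz v = r1 + r2 + r) (h1 : 1 ≤ r1) (hr : r ≤ r2)
    (b s : J) (hbs : b ≠ s) (hvb : v b ≤ v s) (g : (J → ℕ) → ℝ) :
    PL v r2 r b g ≤ 20 * ((Fintype.card J : ℝ) + 1) * ((r : ℝ) + 1) ^ 2
      * (KL v r2 r b g + DL v r2 r b g) :=
  pkA v r1 r2 r hv h1 hr b s hbs hvb g

end CT
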