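import Vale.Agent.CT.BDefs

/-! # Stage 2 (piece ST2), proof -/

namespace CT

open Finset
open scoped Classical

variable {J : Type} [Fintype J] [DecidableEq J]

/-- move `k` units of column `b` to column `s` -/
def st2_sh (b s : J) (k : ℕ) (x : J → ℕ) : J → ℕ :=
  fun j => if j = b then x b - k else if j = s then x s + k else x j

theorem st2_sh_b (b s : J) (k : ℕ) (x : J → ℕ) : st2_sh b s k x b = x b - k := by
  simp [st2_sh]

theorem st2_sh_s {b s : J} (hbs : b ≠ s) (k : ℕ) (x : J → ℕ) : st2_sh b s k x s = x s + k := by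
  simp [st2_sh, hbs.symm]

theorem st2_sh_off {b s j : J} (hb : j ≠ b) (hs : j ≠ s) (k : ℕ) (x : J → ℕ) :
    st2_sh b s k x j = x j := by
  simp [st2_sh, hb, hs]

theorem st2_sh_zero (b s : J) (x : J → ℕ) : st2_sh b s 0 x = x := by
  funext j
  simp only [st2_sh, Nat.sub_zero, Nat.add_zero]
  split_ifs with h1 h2
  · rw [h1]
  · rw [h2]
  · rfl

theorem st2_sh_succ {b s : J} (hbs : b ≠ s) {k : ℕ} {x : J → ℕ} :
    st2_sh b s (k + 1) x = st2_sh b s k x - e b + e s := by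
  funext j
  by_cases h1 : j = b
  · subst h1
    simp [st2_sh, e, hbs]
    omega
  · by_cases h2 : j = s
    · subst h2
      simp [st2_sh, e, h1]
      omega
    · simp [st2_sh, e, h1, h2]

theorem st2_sh_sz {b s : J} (hbs : b ≠ s) {k : ℕ} {x : J → ℕ} (hk : k ≤ x b) :
    sz (st2_sh b s k x) = sz x := by
  have h : ∑ j, (st2_sh b s k x j + if j = b then k else 0)
      = ∑ j, (x j + if j = s then k else 0) := by
    refine Finset.sum_congr rfl fun j _ => ?_
    by_cases h1 : j = b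
    · subst h1
      simp only [st2_sh, if_true, if_neg hbs]
      omega
    · by_cases h2 : j = s
      · subst h2
        simp [st2_sh, h1]
      · simp [st2_sh, h1, h2]
  rw [Finset.sum_add_distrib, Finset.sum_add_distrib] at h
  simp only [Finset.sum_ite_eq', Finset.mem_univ, if_true] at h
  simp only [sz]
  omega

/-- the good hub states -/
noncomputable def st2_G (v : J → ℕ) (r2 : ℕ) (b s : J) (x : J → ℕ) : Finset (J → ℕ) :=
  (box (v - x) r2).filter (fun z => z b < (v - x) b ∧ x b + x s ≤ z b + z s)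

theorem st2_mem_G {v : J → ℕ} {r2 : ℕ} {b s : J} {x z : J → ℕ} :
    z ∈ st2_G v r2 b s x ↔
      z ≤ v - x ∧ sz z = r2 ∧ z b < v b - x b ∧ x b + x s ≤ z b + z s := by
  simp only [st2_G, Finset.mem_filter, mem_box, Pi.sub_apply]
  tauto

theorem st2_arith {xb xs vb vs β k : ℕ} (hk : k ≤ xb) (hxs : xs ≤ vs) (hv : vb ≤ vs)
    (hα : xb + xs ≤ β) :
    min (β + 1) (vb - xb) - (β - (vs - xs))
      ≤ 2 * (min (β + 1) (vb - (xb - k)) - (β - (vs - (xs + k)))) := by
  omega

theorem st2_sz_split {b s : J} (hbs : b ≠ s) (z : J → ℕ) :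
    sz z = z b + z s + ∑ j, (if j = b ∨ j = s then 0 else z j) := by
  have h : ∀ j, z j = (if j = b then z b else 0) + (if j = s then z s else 0)
      + (if j = b ∨ j = s then 0 else z j) := by
    intro j
    by_cases h1 : j = b
    · subst h1; simp [hbs]
    · by_cases h2 : j = s
      · subst h2; simp [h1]
      · simp [h1, h2]
  rw [sz, Finset.sum_congr rfl fun j _ => h j, Finset.sum_add_distrib, Finset.sum_add_distrib]
  simp

/-- the fibre invariant -/
def st2_f (b s : J) (z : J → ℕ) : (J → ℕ) × ℕ :=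
  (fun j => if j = b ∨ j = s then 0 else z j, z b + z s)

theorem st2_f_eq {b s : J} {z z' : J → ℕ} (h : st2_f b s z = st2_f b s z') :
    (∀ j, j ≠ b → j ≠ s → z j = z' j) ∧ z b + z s = z' b + z' s := by
  rw [st2_f, st2_f, Prod.mk.injEq] at h
  refine ⟨fun j h1 h2 => ?_, h.2⟩
  have := congrFun h.1 j
  simpa [h1, h2] using this

theorem st2_upper {v : J → ℕ} {r2 : ℕ} {b s : J} {x z0 : J → ℕ} :
    ((st2_G v r2 b s x).filter (fun z => st2_f b s z = st2_f b s z0)).card
      ≤ min (z0 b + z0 s + 1) (v b - x b) - (z0 b + z0 s - (v s - x s)) := by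
  rw [← Nat.card_Ico]
  refine Finset.card_le_card_of_injOn (fun z => z b) ?_ ?_
  · intro z hz
    rw [Finset.mem_coe, Finset.mem_filter, st2_mem_G] at hz
    obtain ⟨⟨h1, h2, h3, h4⟩, h5⟩ := hz
    have h6 := (st2_f_eq h5).2
    have h7 := h1 s
    simp only [Pi.sub_apply] at h7
    rw [Finset.mem_coe, Finset.mem_Ico]
    show z0 b + z0 s - (v s - x s) ≤ z b ∧ z b < min (z0 b + z0 s + 1) (v b - x b)
    omega
  · intro z hz z' hz' hzz
    rw [Finset.mem_coe, Finset.mem_filter] at hz hz'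
    obtain ⟨h6, h7⟩ := st2_f_eq hz.2
    obtain ⟨h6', h7'⟩ := st2_f_eq hz'.2
    simp only at hzz
    funext j
    by_cases h1 : j = b
    · rw [h1]; exact hzz
    · by_cases h2 : j = s
      · rw [h2]; omega
      · rw [h6 j h1 h2, h6' j h1 h2]

/-- the state with `i` units in column `b` -/
def st2_mk (b s : J) (z0 : J → ℕ) (i : ℕ) : J → ℕ :=
  fun j => if j = b then i else if j = s then z0 b + z0 s - i else z0 j

theorem st2_mk_b (b s : J) (z0 : J → ℕ) (i : ℕ) : st2_mk b s z0 i b = i := by simp [st2_mk]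

theorem st2_mk_s {b s : J} (hbs : b ≠ s) (z0 : J → ℕ) (i : ℕ) :
    st2_mk b s z0 i s = z0 b + z0 s - i := by simp [st2_mk, hbs.symm]

theorem st2_mk_off {b s j : J} (hb : j ≠ b) (hs : j ≠ s) (z0 : J → ℕ) (i : ℕ) :
    st2_mk b s z0 i j = z0 j := by simp [st2_mk, hb, hs]

theorem st2_mk_f {b s : J} (hbs : b ≠ s) {z0 : J → ℕ} {i : ℕ} (hi : i ≤ z0 b + z0 s) :
    st2_f b s (st2_mk b s z0 i) = st2_f b s z0 := by
  rw [st2_f, st2_f, Prod.mk.injEq]
  refine ⟨?_, ?_⟩
  · funext j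
    by_cases hb : j = b
    · simp [hb]
    · by_cases hs : j = s
      · simp [hs]
      · simp only [hb, hs, or_self, if_false, st2_mk_off hb hs]
  · rw [st2_mk_b, st2_mk_s hbs]
    omega

theorem st2_mk_sz {b s : J} (hbs : b ≠ s) {z0 : J → ℕ} {i : ℕ} (hi : i ≤ z0 b + z0 s) :
    sz (st2_mk b s z0 i) = sz z0 := by
  have hf := st2_mk_f hbs hi
  rw [st2_f, st2_f, Prod.mk.injEq] at hf
  rw [st2_sz_split hbs, st2_sz_split hbs z0, hf.2,
    Finset.sum_congr rfl fun j _ => congrFun hf.1 j]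

theorem st2_lower {v : J → ℕ} {r2 : ℕ} {b s : J} {x z0 : J → ℕ} (hbs : b ≠ s) {k : ℕ}
    (hk : k ≤ x b) (hz0 : z0 ∈ st2_G v r2 b s x) :
    min (z0 b + z0 s + 1) (v b - (x b - k)) - (z0 b + z0 s - (v s - (x s + k)))
      ≤ ((st2_G v r2 b s (st2_sh b s k x)).filter
          (fun z => st2_f b s z = st2_f b s z0)).card := by
  rw [← Nat.card_Ico]
  rw [st2_mem_G] at hz0
  obtain ⟨g1, g2, g3, g4⟩ := hz0
  refine Finset.card_le_card_of_injOn (st2_mk b s z0) ?_ ?_
  · intro i hi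
    rw [Finset.mem_coe, Finset.mem_Ico, lt_min_iff] at hi
    obtain ⟨h1, h2, h3⟩ := hi
    rw [Finset.mem_coe, Finset.mem_filter, st2_mem_G]
    have hi' : i ≤ z0 b + z0 s := by omega
    refine ⟨⟨?_, ?_, ?_, ?_⟩, st2_mk_f hbs hi'⟩
    · intro j
      by_cases hb : j = b
      · simp only [hb, st2_mk_b, Pi.sub_apply, st2_sh_b]
        omega
      · by_cases hs : j = s
        · simp only [hs, st2_mk_s hbs, Pi.sub_apply, st2_sh_s hbs]
          omega
        · rw [st2_mk_off hb hs, Pi.sub_apply, st2_sh_off hb hs]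
          exact g1 j
    · rw [st2_mk_sz hbs hi', g2]
    · rw [st2_mk_b, st2_sh_b]
      exact h3
    · rw [st2_mk_b, st2_mk_s hbs, st2_sh_b, st2_sh_s hbs]
      omega
  · intro i hi i' hi' hii
    have := congrFun hii b
    rwa [st2_mk_b, st2_mk_b] at this

theorem st2_card_le {v : J → ℕ} {r2 : ℕ} {b s : J} {x : J → ℕ} (hbs : b ≠ s) {k : ℕ}
    (hk : k ≤ x b) (hxs : x s ≤ v s) (hvb : v b ≤ v s) :
    (st2_G v r2 b s x).card ≤ 2 * (st2_G v r2 b s (st2_sh b s k x)).card := by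
  set S := (st2_G v r2 b s x).image (st2_f b s) with hS
  set S' := (st2_G v r2 b s (st2_sh b s k x)).image (st2_f b s) with hS'
  have h1 : (st2_G v r2 b s x).card
      = ∑ q ∈ S, ((st2_G v r2 b s x).filter (fun z => st2_f b s z = q)).card :=
    Finset.card_eq_sum_card_fiberwise fun z hz => Finset.mem_image_of_mem _ hz
  have h2 : (st2_G v r2 b s (st2_sh b s k x)).card
      = ∑ q ∈ S ∪ S', ((st2_G v r2 b s (st2_sh b s k x)).filter (fun z => st2_f b s z = q)).card :=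
    Finset.card_eq_sum_card_fiberwise fun z hz =>
      Finset.mem_union_right _ (Finset.mem_image_of_mem _ hz)
  have h3 : ∑ q ∈ S, ((st2_G v r2 b s (st2_sh b s k x)).filter (fun z => st2_f b s z = q)).card
      ≤ (st2_G v r2 b s (st2_sh b s k x)).card := by
    rw [h2]
    exact Finset.sum_le_sum_of_subset Finset.subset_union_left
  have h4 : ∑ q ∈ S, ((st2_G v r2 b s x).filter (fun z => st2_f b s z = q)).card
      ≤ ∑ q ∈ S, 2 * ((st2_G v r2 b s (st2_sh b s k x)).filter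
          (fun z => st2_f b s z = q)).card := by
    refine Finset.sum_le_sum fun q hq => ?_
    rw [hS, Finset.mem_image] at hq
    obtain ⟨z0, hz0, rfl⟩ := hq
    have hz0' := st2_mem_G.1 hz0
    exact st2_upper.trans ((st2_arith hk hxs hvb hz0'.2.2.2).trans
      (Nat.mul_le_mul_left _ (st2_lower hbs hk hz0)))
  rw [h1]
  refine h4.trans ?_
  rw [← Finset.mul_sum]
  exact Nat.mul_le_mul_left _ h3

/-- geometry of good states -/
theorem st2_geom {v : J → ℕ} {r2 : ℕ} {b s : J} {x : J → ℕ} (hx : x ≤ v) (hvb : v b ≤ v s)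
    (h : 0 < (st2_G v r2 b s x).card) : x b < v b ∧ x b < v s - x s := by
  obtain ⟨z, hz⟩ := Finset.card_pos.1 h
  obtain ⟨h1, -, h3, h4⟩ := st2_mem_G.1 hz
  have h5 := h1 s
  have h6 := hx s
  have h7 := hx b
  simp only [Pi.sub_apply] at h5
  omega

theorem st2_sh_mem {v : J → ℕ} {r r2 : ℕ} {b s : J} {x : J → ℕ} (hbs : b ≠ s) {k : ℕ}
    (hx : x ∈ box v r) (hk : k ≤ x b) (hvb : v b ≤ v s) (h : 0 < (st2_G v r2 b s x).card) :
    st2_sh b s k x ∈ box v r := by
  obtain ⟨h1, h2⟩ := mem_box.1 hx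
  obtain ⟨h3, h4⟩ := st2_geom h1 hvb h
  rw [mem_box]
  refine ⟨fun j => ?_, by rw [st2_sh_sz hbs hk, h2]⟩
  by_cases hb : j = b
  · simp only [hb, st2_sh_b]; omega
  · by_cases hs : j = s
    · simp only [hs, st2_sh_s hbs]; omega
    · rw [st2_sh_off hb hs]; exact h1 j

theorem st2_sh_inj {b s : J} (hbs : b ≠ s) {k : ℕ} {x x' : J → ℕ} (hk : k ≤ x b) (hk' : k ≤ x' b)
    (h : st2_sh b s k x = st2_sh b s k x') : x = x' := by
  funext j
  have hj := congrFun h j
  by_cases hb : j = b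
  · rw [hb] at hj ⊢
    rw [st2_sh_b, st2_sh_b] at hj
    omega
  · by_cases hs : j = s
    · rw [hs] at hj ⊢
      rw [st2_sh_s hbs, st2_sh_s hbs] at hj
      omega
    · rw [st2_sh_off hb hs, st2_sh_off hb hs] at hj
      exact hj

/-- telescoping along a line -/
theorem st2_tele (φ : ℕ → ℝ) (j : ℕ) :
    φ 0 ^ 2 ≤ ((j : ℝ) + 1) * (φ j ^ 2 + ∑ k ∈ range j, (φ k - φ (k + 1)) ^ 2) := by
  have h1 : φ 0 = φ j + ∑ k ∈ range j, (φ k - φ (k + 1)) := by
    rw [Finset.sum_range_sub']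
    ring
  have h2 : φ 0 = ∑ k ∈ range (j + 1), (if k = j then φ j else φ k - φ (k + 1)) := by
    rw [Finset.sum_range_succ, if_pos rfl, h1, add_comm]
    congr 1
    · exact Finset.sum_congr rfl fun k hk => by
        rw [if_neg (Finset.mem_range.1 hk).ne]
  rw [h2]
  refine (sq_sum_le_card_mul_sum_sq).trans ?_
  rw [Finset.card_range, Finset.sum_range_succ, if_pos rfl]
  push_cast
  refine mul_le_mul_of_nonneg_left (le_of_eq ?_) (by positivity)
  rw [add_comm]
  congr 1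
  exact Finset.sum_congr rfl fun k hk => by rw [if_neg (Finset.mem_range.1 hk).ne]

theorem st2_push {α : Type} (A B : Finset α) (φ : α → α) (hφ : ∀ a ∈ A, φ a ∈ B)
    (hinj : ∀ a ∈ A, ∀ a' ∈ A, φ a = φ a' → a = a') (H : α → ℝ) (hH : ∀ b ∈ B, 0 ≤ H b) :
    ∑ a ∈ A, H (φ a) ≤ ∑ b ∈ B, H b := by
  rw [← Finset.sum_image (f := H) (g := φ) (s := A)
    (fun a ha a' ha' h => hinj a ha a' ha' h)]
  refine Finset.sum_le_sum_of_subset_of_nonneg ?_ fun b hb _ => hH b hb
  intro y hy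
  obtain ⟨a, ha, rfl⟩ := Finset.mem_image.1 hy
  exact hφ a ha

theorem st2_line_abs (A φ : ℕ → ℝ) (C : ℝ) (j r : ℕ) (hj : j ≤ r) (hC0 : 0 ≤ C)
    (hC : ∀ k ≤ j, C ≤ 2 * A k) (hA : ∀ k, 0 ≤ A k) :
    C * φ 0 ^ 2 ≤ 2 * ((r : ℝ) + 1) * (A j * φ j ^ 2
      + ∑ k ∈ range j, A k * (φ k - φ (k + 1)) ^ 2) := by
  have ht := st2_tele φ j
  have h1 : C * φ 0 ^ 2 ≤ C * (((j : ℝ) + 1) * (φ j ^ 2
      + ∑ k ∈ range j, (φ k - φ (k + 1)) ^ 2)) := mul_le_mul_of_nonneg_left ht hC0
  have h2 : C * φ j ^ 2 ≤ 2 * (A j * φ j ^ 2) := by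
    have := mul_le_mul_of_nonneg_right (hC j le_rfl) (sq_nonneg (φ j))
    linarith
  have h3 : C * ∑ k ∈ range j, (φ k - φ (k + 1)) ^ 2
      ≤ 2 * ∑ k ∈ range j, A k * (φ k - φ (k + 1)) ^ 2 := by
    rw [Finset.mul_sum, Finset.mul_sum]
    refine Finset.sum_le_sum fun k hk => ?_
    have := mul_le_mul_of_nonneg_right (hC k (Finset.mem_range.1 hk).le)
      (sq_nonneg (φ k - φ (k + 1)))
    linarith
  set S := ∑ k ∈ range j, (φ k - φ (k + 1)) ^ 2 with hS
  set T := ∑ k ∈ range j, A k * (φ k - φ (k + 1)) ^ 2 with hT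
  have hT0 : 0 ≤ T := Finset.sum_nonneg fun k _ => mul_nonneg (hA k) (sq_nonneg _)
  have hj0 : (0 : ℝ) ≤ (j : ℝ) + 1 := by positivity
  have hjr : (j : ℝ) ≤ r := by exact_mod_cast hj
  have h4 : 0 ≤ A j * φ j ^ 2 + T := add_nonneg (mul_nonneg (hA j) (sq_nonneg _)) hT0
  calc C * φ 0 ^ 2 ≤ C * (((j : ℝ) + 1) * (φ j ^ 2 + S)) := h1
    _ = ((j : ℝ) + 1) * (C * φ j ^ 2 + C * S) := by ring
    _ ≤ ((j : ℝ) + 1) * (2 * (A j * φ j ^ 2) + 2 * T) :=
        mul_le_mul_of_nonneg_left (add_le_add h2 h3) hj0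
    _ = 2 * (((j : ℝ) + 1) * (A j * φ j ^ 2 + T)) := by ring
    _ ≤ 2 * (((r : ℝ) + 1) * (A j * φ j ^ 2 + T)) := by
        have := mul_le_mul_of_nonneg_right (by linarith : (j : ℝ) + 1 ≤ (r : ℝ) + 1) h4
        linarith
    _ = _ := by ring

theorem st2_line {v : J → ℕ} {r2 r : ℕ} {b s : J} {x : J → ℕ} (hbs : b ≠ s)
    (hx : x ∈ box v r) (hvb : v b ≤ v s) (g : (J → ℕ) → ℝ) :
    ((st2_G v r2 b s x).card : ℝ) * g x ^ 2
      ≤ 2 * ((r : ℝ) + 1) * (((st2_G v r2 b s (st2_sh b s (x b) x)).card : ℝ)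
          * g (st2_sh b s (x b) x) ^ 2
        + ∑ k ∈ range (x b), ((st2_G v r2 b s (st2_sh b s k x)).card : ℝ)
          * (g (st2_sh b s k x) - g (st2_sh b s (k + 1) x)) ^ 2) := by
  obtain ⟨h1, h2⟩ := mem_box.1 hx
  have hxb : x b ≤ r := by
    rw [← h2]
    exact Finset.single_le_sum (f := x) (fun _ _ => Nat.zero_le _) (Finset.mem_univ b)
  have hC : ∀ k ≤ x b, ((st2_G v r2 b s x).card : ℝ)
      ≤ 2 * ((st2_G v r2 b s (st2_sh b s k x)).card : ℝ) := by
    intro k hk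
    have := st2_card_le (v := v) (r2 := r2) hbs hk (h1 s) hvb
    exact_mod_cast this
  have ht := st2_line_abs (fun k => ((st2_G v r2 b s (st2_sh b s k x)).card : ℝ))
    (fun k => g (st2_sh b s k x)) ((st2_G v r2 b s x).card : ℝ) (x b) r hxb
    (Nat.cast_nonneg _) hC (fun k => Nat.cast_nonneg _)
  rw [st2_sh_zero] at ht
  exact ht

theorem stage2A (v : J → ℕ) (r2 r : ℕ)
    (b s : J) (hbs : b ≠ s) (hvb : v b ≤ v s) (g : (J → ℕ) → ℝ) :
    ∑ x ∈ box v r, (((box (v - x) r2).filter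
        (fun z => z b < (v - x) b ∧ x b + x s ≤ z b + z s)).card : ℝ) * g x ^ 2
      ≤ 2 * ((r : ℝ) + 1) ^ 2 * (
        (∑ x ∈ (box v r).filter (fun x => x b = 0 ∧ x b < v b), N2 r2 (v - x) * g x ^ 2)
        + ∑ x ∈ (box v r).filter (fun x => x b < v b ∧ 0 < x b ∧ x s < v s),
            N2 r2 (v - x) * (g x - g (x - e b + e s)) ^ 2) := by
  set H0 : (J → ℕ) → ℝ := fun x => ((st2_G v r2 b s x).card : ℝ) * g x ^ 2 with hH0
  set H1 : (J → ℕ) → ℝ := fun x => ((st2_G v r2 b s x).card : ℝ)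
    * (g x - g (x - e b + e s)) ^ 2 with hH1
  set X0 := (box v r).filter (fun x => x b = 0 ∧ x b < v b) with hX0
  set X1 := (box v r).filter (fun x => x b < v b ∧ 0 < x b ∧ x s < v s) with hX1
  set X := (box v r).filter (fun x => 0 < (st2_G v r2 b s x).card) with hX
  have hxb : ∀ x ∈ box v r, x b ≤ r := by
    intro x hx
    rw [← (mem_box.1 hx).2]
    exact Finset.single_le_sum (f := x) (fun _ _ => Nat.zero_le _) (Finset.mem_univ b)
  have hGN : ∀ x, ((st2_G v r2 b s x).card : ℝ) ≤ N2 r2 (v - x) := by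
    intro x
    rw [N2, st2_G]
    exact_mod_cast Finset.card_filter_le _ _
  have s1 : ∑ x ∈ box v r, (((box (v - x) r2).filter
        (fun z => z b < (v - x) b ∧ x b + x s ≤ z b + z s)).card : ℝ) * g x ^ 2
      = ∑ x ∈ X, ((st2_G v r2 b s x).card : ℝ) * g x ^ 2 := by
    rw [hX, Finset.sum_filter]
    refine Finset.sum_congr rfl fun x _ => ?_
    split_ifs with h
    · rfl
    · have h0 : (st2_G v r2 b s x).card = 0 := by omega
      show ((st2_G v r2 b s x).card : ℝ) * g x ^ 2 = 0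
      rw [h0]; simp
  have s2 : ∑ x ∈ X, ((st2_G v r2 b s x).card : ℝ) * g x ^ 2
      ≤ ∑ x ∈ X, 2 * ((r : ℝ) + 1) * (H0 (st2_sh b s (x b) x)
        + ∑ k ∈ range (x b), H1 (st2_sh b s k x)) := by
    refine Finset.sum_le_sum fun x hx => ?_
    have hx' := (Finset.mem_filter.1 hx).1
    have := st2_line (r2 := r2) hbs hx' hvb g
    simp only [st2_sh_succ hbs] at this
    exact this
  have s3 : ∑ x ∈ X, H0 (st2_sh b s (x b) x) ≤ ((r : ℝ) + 1) * ∑ x ∈ X0, H0 x := by
    calc ∑ x ∈ X, H0 (st2_sh b s (x b) x)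
        = ∑ x ∈ X, ∑ k ∈ range (r + 1), if x b = k then H0 (st2_sh b s k x) else 0 := by
          refine Finset.sum_congr rfl fun x hx => ?_
          rw [Finset.sum_ite_eq, if_pos]
          have := hxb x (Finset.mem_filter.1 hx).1
          rw [Finset.mem_range]; omega
      _ = ∑ k ∈ range (r + 1), ∑ x ∈ X.filter (fun x => x b = k), H0 (st2_sh b s k x) := by
          rw [Finset.sum_comm]
          exact Finset.sum_congr rfl fun k _ => (Finset.sum_filter _ _).symm
      _ ≤ ∑ k ∈ range (r + 1), ∑ x ∈ X0, H0 x := by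
          refine Finset.sum_le_sum fun k _ => ?_
          refine st2_push _ _ (fun x => st2_sh b s k x) ?_ ?_ H0 ?_
          · intro x hx
            rw [Finset.mem_filter, hX, Finset.mem_filter] at hx
            obtain ⟨⟨h1, h2⟩, h3⟩ := hx
            have h4 := st2_geom (mem_box.1 h1).1 hvb h2
            rw [hX0, Finset.mem_filter]
            refine ⟨st2_sh_mem hbs h1 h3.ge hvb h2, ?_, ?_⟩
            · rw [st2_sh_b]; omega
            · rw [st2_sh_b]; omega
          · intro x hx x' hx' h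
            have h1 := (Finset.mem_filter.1 hx).2
            have h2 := (Finset.mem_filter.1 hx').2
            exact st2_sh_inj hbs h1.ge h2.ge h
          · intro x _
            simp only [hH0]; positivity
      _ = ((r : ℝ) + 1) * ∑ x ∈ X0, H0 x := by
          rw [Finset.sum_const, Finset.card_range, nsmul_eq_mul]
          push_cast; ring
  have s4 : ∑ x ∈ X, ∑ k ∈ range (x b), H1 (st2_sh b s k x)
      ≤ ((r : ℝ) + 1) * ∑ x ∈ X1, H1 x := by
    calc ∑ x ∈ X, ∑ k ∈ range (x b), H1 (st2_sh b s k x)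
        = ∑ x ∈ X, ∑ k ∈ range (r + 1), if k < x b then H1 (st2_sh b s k x) else 0 := by
          refine Finset.sum_congr rfl fun x hx => ?_
          rw [← Finset.sum_filter]
          refine Finset.sum_congr ?_ fun _ _ => rfl
          have := hxb x (Finset.mem_filter.1 hx).1
          ext k
          rw [Finset.mem_filter, Finset.mem_range, Finset.mem_range]
          omega
      _ = ∑ k ∈ range (r + 1), ∑ x ∈ X.filter (fun x => k < x b), H1 (st2_sh b s k x) := by
          rw [Finset.sum_comm]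
          exact Finset.sum_congr rfl fun k _ => (Finset.sum_filter _ _).symm
      _ ≤ ∑ k ∈ range (r + 1), ∑ x ∈ X1, H1 x := by
          refine Finset.sum_le_sum fun k _ => ?_
          refine st2_push _ _ (fun x => st2_sh b s k x) ?_ ?_ H1 ?_
          · intro x hx
            rw [Finset.mem_filter, hX, Finset.mem_filter] at hx
            obtain ⟨⟨h1, h2⟩, h3⟩ := hx
            have h4 := st2_geom (mem_box.1 h1).1 hvb h2
            rw [hX1, Finset.mem_filter]
            refine ⟨st2_sh_mem hbs h1 h3.le hvb h2, ?_, ?_, ?_⟩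
            · rw [st2_sh_b]; omega
            · rw [st2_sh_b]; omega
            · rw [st2_sh_s hbs]; omega
          · intro x hx x' hx' h
            have h1 := (Finset.mem_filter.1 hx).2
            have h2 := (Finset.mem_filter.1 hx').2
            exact st2_sh_inj hbs h1.le h2.le h
          · intro x _
            simp only [hH1]; positivity
      _ = ((r : ℝ) + 1) * ∑ x ∈ X1, H1 x := by
          rw [Finset.sum_const, Finset.card_range, nsmul_eq_mul]
          push_cast; ring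
  have s5 : ∑ x ∈ X0, H0 x ≤ ∑ x ∈ X0, N2 r2 (v - x) * g x ^ 2 :=
    Finset.sum_le_sum fun x _ => mul_le_mul_of_nonneg_right (hGN x) (sq_nonneg _)
  have s6 : ∑ x ∈ X1, H1 x ≤ ∑ x ∈ X1, N2 r2 (v - x) * (g x - g (x - e b + e s)) ^ 2 :=
    Finset.sum_le_sum fun x _ => mul_le_mul_of_nonneg_right (hGN x) (sq_nonneg _)
  rw [s1]
  refine s2.trans ?_
  rw [← Finset.mul_sum, Finset.sum_add_distrib]
  have hr0 : (0 : ℝ) ≤ (r : ℝ) + 1 := by positivity
  calc 2 * ((r : ℝ) + 1) * (∑ x ∈ X, H0 (st2_sh b s (x b) x)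
        + ∑ x ∈ X, ∑ k ∈ range (x b), H1 (st2_sh b s k x))
      ≤ 2 * ((r : ℝ) + 1) * (((r : ℝ) + 1) * (∑ x ∈ X0, N2 r2 (v - x) * g x ^ 2)
        + ((r : ℝ) + 1) * ∑ x ∈ X1, N2 r2 (v - x) * (g x - g (x - e b + e s)) ^ 2) := by
        refine mul_le_mul_of_nonneg_left (add_le_add ?_ ?_) (by positivity)
        · exact s3.trans (mul_le_mul_of_nonneg_left s5 hr0)
        · exact s4.trans (mul_le_mul_of_nonneg_left s6 hr0)
    _ = _ := by ring

end CT
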