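import Vale.Agent.CT.BCnt
import Vale.Agent.CT.BSt2A

/-! # Stage 2 (piece ST2)

Rows `x, z, v - x - z` (totals `r, r2, r1`, `r ≤ r2`), columns `b ≠ s`, `v b ≤ v s`.  Good states:
`z_b < (v - x)_b` (the active row has a unit in column `b`) and `x_b + x_s ≤ z_b + z_s`.  Fix everything
outside the columns `b, s` and the row totals inside (`α = x_b + x_s ≤ β2 = z_b+z_s`,
`β0` for the active row): for `x_b = j` the number of hub states is
`g_j = min(t, β0-1, β2, β0-1+β2-t) + 1`, `t = v_b - 1 - j` (0 if some entry is negative), and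
`g_j ≤ 2 g_i` for `i ≤ j ≤ α`.  So on each line
`∑_j g_j φ_j² ≤ 2 (r+1)² (g_0 φ_0² + ∑ g_{i+1} (φ_{i+1} - φ_i)²)`. -/

namespace CT

open Finset
open scoped Classical

variable {J : Type} [Fintype J] [DecidableEq J]

theorem stage2 (v : J → ℕ) (r1 r2 r : ℕ) (hv : sz v = r1 + r2 + r) (hr : r ≤ r2)
    (b s : J) (hbs : b ≠ s) (hvb : v b ≤ v s) (g : (J → ℕ) → ℝ) :
    ∑ x ∈ box v r, (((box (v - x) r2).filter
        (fun z => z b < (v - x) b ∧ x b + x s ≤ z b + z s)).card : ℝ) * g x ^ 2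
      ≤ 2 * ((r : ℝ) + 1) ^ 2 * (
        (∑ x ∈ (box v r).filter (fun x => x b = 0 ∧ x b < v b), N2 r2 (v - x) * g x ^ 2)
        + ∑ x ∈ (box v r).filter (fun x => x b < v b ∧ 0 < x b ∧ x s < v s),
            N2 r2 (v - x) * (g x - g (x - e b + e s)) ^ 2) :=
  stage2A v r2 r b s hbs hvb g

end CT
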