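import Vale.Agent.CT.BSt1
import Vale.Agent.CT.BSt2

/-! # Poincare with killing (piece PK): proof -/

namespace CT

open Finset
open scoped Classical

variable {J : Type} [Fintype J] [DecidableEq J]

theorem pk_mem {v x w : J → ℕ} {r r1 : ℕ} :
    (x ∈ box v r ∧ w ∈ box (v - x) r1) ↔ (x ∈ box (v - w) r ∧ w ∈ box v r1) := by
  simp only [mem_box]
  constructor
  · rintro ⟨⟨h1, h2⟩, h3, h4⟩
    refine ⟨⟨?_, h2⟩, h3.trans tsub_le_self, h4⟩
    intro j
    have a : x j ≤ v j := h1 j
    have b : w j ≤ v j - x j := h3 j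
    simp only [Pi.sub_apply]
    omega
  · rintro ⟨⟨h1, h2⟩, h3, h4⟩
    refine ⟨⟨h1.trans tsub_le_self, h2⟩, ?_, h4⟩
    intro j
    have a : x j ≤ v j - w j := h1 j
    have b : w j ≤ v j := h3 j
    simp only [Pi.sub_apply]
    omega

theorem pk_swap (v : J → ℕ) (r r1 : ℕ) (Φ : (J → ℕ) → (J → ℕ) → ℝ) :
    ∑ x ∈ box v r, ∑ w ∈ box (v - x) r1, Φ x w = ∑ w ∈ box v r1, ∑ x ∈ box (v - w) r, Φ x w :=
  Finset.sum_comm' fun _ _ => pk_mem

theorem pk_compl (y : J → ℕ) (r1 r2 : ℕ) (h : sz y = r1 + r2) (Φ : (J → ℕ) → ℝ) :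
    ∑ w ∈ box y r1, Φ w = ∑ z ∈ box y r2, Φ (y - z) := by
  refine Finset.sum_nbij' (fun w => y - w) (fun z => y - z) ?_ ?_ ?_ ?_ ?_
  · intro w hw
    rw [mem_box] at hw ⊢
    refine ⟨tsub_le_self, ?_⟩
    rw [sz_sub hw.1]; omega
  · intro z hz
    rw [mem_box] at hz ⊢
    refine ⟨tsub_le_self, ?_⟩
    rw [sz_sub hz.1]; omega
  · intro w hw
    exact tsub_tsub_cancel_of_le (mem_box.1 hw).1
  · intro z hz
    exact tsub_tsub_cancel_of_le (mem_box.1 hz).1
  · intro w hw
    rw [tsub_tsub_cancel_of_le (mem_box.1 hw).1]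

theorem pkA (v : J → ℕ) (r1 r2 r : ℕ) (hv : sz v = r1 + r2 + r) (h1 : 1 ≤ r1) (hr : r ≤ r2)
    (b s : J) (hbs : b ≠ s) (hvb : v b ≤ v s) (g : (J → ℕ) → ℝ) :
    PL v r2 r b g ≤ 20 * ((Fintype.card J : ℝ) + 1) * ((r : ℝ) + 1) ^ 2
      * (KL v r2 r b g + DL v r2 r b g) := by
  have hn : (0 : ℝ) ≤ (Fintype.card J : ℝ) := Nat.cast_nonneg _
  have hszy : ∀ x ∈ box v r, sz (v - x) = r1 + r2 := by
    intro x hx
    rw [mem_box] at hx
    rw [sz_sub hx.1]; omega
  -- step 1: introduce the active row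
  have e1 : PL v r2 r b g ≤ ((Fintype.card J : ℝ) + 1) *
      ∑ x ∈ box v r, ∑ w ∈ box (v - x) r1, if 0 < w b then g x ^ 2 else 0 := by
    rw [PL, Finset.sum_filter, Finset.mul_sum]
    refine Finset.sum_le_sum fun x hx => ?_
    have hy := hszy x hx
    have hnn : 0 ≤ ∑ w ∈ box (v - x) r1, (if 0 < w b then g x ^ 2 else 0) :=
      Finset.sum_nonneg fun w _ => by split_ifs; exacts [sq_nonneg _, le_refl _]
    split_ifs with hb
    · have hyb : 0 < (v - x) b := by simp only [Pi.sub_apply]; omega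
      have h3 := cnt3 (v - x) r1 r2 hy h1 b hyb
      have h4 := card_use hy b
      rw [if_pos (e_le_iff.2 hyb)] at h4
      have h5 : ∑ w ∈ box (v - x) r1, (if 0 < w b then g x ^ 2 else 0)
          = N2 r2 (v - x - e b) * g x ^ 2 := by
        rw [← Finset.sum_filter, Finset.sum_const, nsmul_eq_mul, h4]
      rw [h5, ← mul_assoc]
      exact mul_le_mul_of_nonneg_right h3 (sq_nonneg _)
    · exact mul_nonneg (by linarith) hnn
  -- step 2: swap and apply stage 1
  set A : Finset J := {b, s} with hA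
  have hsumA : ∀ x : J → ℕ, ∑ a ∈ A, x a = x b + x s := by
    intro x; rw [hA, Finset.sum_pair hbs]
  have e2 : ∑ x ∈ box v r, ∑ w ∈ box (v - x) r1, (if 0 < w b then g x ^ 2 else 0)
      ≤ 3 * (∑ w ∈ box v r1, ∑ x ∈ box (v - w) r,
            if 0 < w b ∧ 2 * ∑ a ∈ A, x a ≤ ∑ a ∈ A, (v - w) a then g x ^ 2 else 0)
        + 2 * ((r : ℝ) + 1) ^ 2 * (∑ w ∈ box v r1, ∑ x ∈ box (v - w) r,
            if 0 < w b then ∑ a ∈ A.filter (fun a => 0 < x a),
            ∑ d ∈ univ.filter (fun d => d ∉ A ∧ x d < (v - w) d), (g x - g (x - e a + e d)) ^ 2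
            else 0) := by
    rw [pk_swap, Finset.mul_sum, Finset.mul_sum, ← Finset.sum_add_distrib]
    refine Finset.sum_le_sum fun w hw => ?_
    rw [mem_box] at hw
    by_cases hwb : 0 < w b
    · have hS : sz (v - w) = r + r2 := by rw [sz_sub hw.1]; omega
      have h := stage1 (v - w) r r2 hS hr A g
      simp only [hwb, if_true, true_and]
      rw [← Finset.sum_filter]
      exact h
    · simp [hwb]
  -- step 3: the good part
  have e3 : (∑ w ∈ box v r1, ∑ x ∈ box (v - w) r,
            if 0 < w b ∧ 2 * ∑ a ∈ A, x a ≤ ∑ a ∈ A, (v - w) a then g x ^ 2 else 0)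
      = ∑ x ∈ box v r, (((box (v - x) r2).filter
        (fun z => z b < (v - x) b ∧ x b + x s ≤ z b + z s)).card : ℝ) * g x ^ 2 := by
    rw [← pk_swap v r r1 (fun x w => if 0 < w b ∧ 2 * ∑ a ∈ A, x a ≤ ∑ a ∈ A, (v - w) a
      then g x ^ 2 else 0)]
    refine Finset.sum_congr rfl fun x hx => ?_
    have hy := hszy x hx
    rw [pk_compl (v - x) r1 r2 hy]
    rw [← Finset.sum_filter, Finset.sum_const, nsmul_eq_mul]
    congr 3
    ext z
    simp only [Finset.mem_filter, hsumA]
    rw [mem_box] at hx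
    constructor
    · rintro ⟨hz, h5, h6⟩
      have hz' := (mem_box.1 hz).1
      have a1 : x b ≤ v b := hx.1 b
      have a2 : x s ≤ v s := hx.1 s
      have a3 : z b ≤ v b - x b := hz' b
      have a4 : z s ≤ v s - x s := hz' s
      simp only [Pi.sub_apply] at h5 h6 ⊢
      exact ⟨hz, by omega, by omega⟩
    · rintro ⟨hz, h5, h6⟩
      have hz' := (mem_box.1 hz).1
      have a1 : x b ≤ v b := hx.1 b
      have a2 : x s ≤ v s := hx.1 s
      have a3 : z b ≤ v b - x b := hz' b
      have a4 : z s ≤ v s - x s := hz' s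
      simp only [Pi.sub_apply] at h5 h6 ⊢
      exact ⟨hz, by omega, by omega⟩
  have e4 := stage2 v r1 r2 r hv hr b s hbs hvb g
  -- kill part
  have e5 : (∑ x ∈ (box v r).filter (fun x => x b = 0 ∧ x b < v b), N2 r2 (v - x) * g x ^ 2)
      ≤ KL v r2 r b g := by
    rw [KL]
    apply le_of_eq
    apply Finset.sum_congr _ fun _ _ => rfl
    ext x
    simp only [Finset.mem_filter]
    constructor
    · rintro ⟨hx, h5, h6⟩
      refine ⟨hx, h5, h6, ?_⟩
      by_contra hcon
      push Not at hcon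
      rw [mem_box] at hx
      have h7 : ∀ d, d ≠ b → x d = v d := fun d hd => le_antisymm (hx.1 d) (hcon d hd)
      have h8 : sz v = v b + ∑ d ∈ univ.erase b, v d := by
        rw [sz, Finset.add_sum_erase _ _ (Finset.mem_univ b)]
      have h9 : sz x = x b + ∑ d ∈ univ.erase b, x d := by
        rw [sz, Finset.add_sum_erase _ _ (Finset.mem_univ b)]
      have h10 : ∑ d ∈ univ.erase b, x d = ∑ d ∈ univ.erase b, v d :=
        Finset.sum_congr rfl fun d hd => h7 d (Finset.ne_of_mem_erase hd)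
      have h11 : x s ≤ ∑ d ∈ univ.erase b, x d :=
        Finset.single_le_sum (f := x) (fun _ _ => Nat.zero_le _)
          (Finset.mem_erase.2 ⟨hbs.symm, Finset.mem_univ s⟩)
      have h12 : x s = v s := h7 s hbs.symm
      omega
    · rintro ⟨hx, h5, h6, -⟩
      exact ⟨hx, h5, h6⟩
  have e6 : (∑ x ∈ (box v r).filter (fun x => x b < v b ∧ 0 < x b ∧ x s < v s),
            N2 r2 (v - x) * (g x - g (x - e b + e s)) ^ 2) ≤ DL v r2 r b g := by
    rw [DL, Finset.sum_filter, Finset.sum_filter]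
    refine Finset.sum_le_sum fun x hx => ?_
    by_cases h5 : x b < v b
    · by_cases h6 : 0 < x b ∧ x s < v s
      · rw [if_pos ⟨h5, h6⟩, if_pos h5]
        apply mul_le_mul_of_nonneg_left _ (pp_N2_nonneg _ _)
        calc (g x - g (x - e b + e s)) ^ 2
            ≤ ∑ d ∈ univ.filter (fun d => d ≠ b ∧ x d < v d), (g x - g (x - e b + e d)) ^ 2 :=
              Finset.single_le_sum (f := fun d => (g x - g (x - e b + e d)) ^ 2)
                (fun _ _ => sq_nonneg _) (by simp [hbs.symm, h6.2])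
          _ ≤ _ := Finset.single_le_sum
                (f := fun a => ∑ d ∈ univ.filter (fun d => d ≠ b ∧ x d < v d),
                  (g x - g (x - e a + e d)) ^ 2)
                (fun _ _ => Finset.sum_nonneg fun _ _ => sq_nonneg _) (mem_sp.2 h6.1)
      · rw [if_neg (fun h => h6 h.2), if_pos h5]
        exact mul_nonneg (pp_N2_nonneg _ _)
          (Finset.sum_nonneg fun _ _ => Finset.sum_nonneg fun _ _ => sq_nonneg _)
    · rw [if_neg (fun h => h5 h.1), if_neg h5]
  -- energy part of stage 1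
  have e7 : (∑ w ∈ box v r1, ∑ x ∈ box (v - w) r,
            if 0 < w b then ∑ a ∈ A.filter (fun a => 0 < x a),
            ∑ d ∈ univ.filter (fun d => d ∉ A ∧ x d < (v - w) d), (g x - g (x - e a + e d)) ^ 2
            else 0) ≤ DL v r2 r b g := by
    rw [← pk_swap v r r1 (fun x w => if 0 < w b then ∑ a ∈ A.filter (fun a => 0 < x a),
            ∑ d ∈ univ.filter (fun d => d ∉ A ∧ x d < (v - w) d), (g x - g (x - e a + e d)) ^ 2
            else 0)]
    rw [DL, Finset.sum_filter]
    refine Finset.sum_le_sum fun x hx => ?_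
    have hy := hszy x hx
    rw [mem_box] at hx
    by_cases h5 : x b < v b
    · rw [if_pos h5]
      have h6 : ∀ w ∈ box (v - x) r1, (if 0 < w b then ∑ a ∈ A.filter (fun a => 0 < x a),
            ∑ d ∈ univ.filter (fun d => d ∉ A ∧ x d < (v - w) d), (g x - g (x - e a + e d)) ^ 2
            else 0) ≤ ∑ a ∈ sp x, ∑ d ∈ univ.filter (fun d => d ≠ b ∧ x d < v d),
              (g x - g (x - e a + e d)) ^ 2 := by
        intro w hw
        split_ifs with hwb
        · calc _ ≤ ∑ a ∈ sp x, ∑ d ∈ univ.filter (fun d => d ∉ A ∧ x d < (v - w) d),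
                (g x - g (x - e a + e d)) ^ 2 := by
                apply Finset.sum_le_sum_of_subset_of_nonneg
                · intro a ha
                  exact mem_sp.2 (Finset.mem_filter.1 ha).2
                · intro _ _ _
                  exact Finset.sum_nonneg fun _ _ => sq_nonneg _
            _ ≤ _ := by
                refine Finset.sum_le_sum fun a _ => ?_
                apply Finset.sum_le_sum_of_subset_of_nonneg
                · intro d hd
                  simp only [Finset.mem_filter, Finset.mem_univ, true_and, Pi.sub_apply] at hd ⊢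
                  refine ⟨?_, by omega⟩
                  rintro rfl
                  exact hd.1 (by rw [hA]; simp)
                · intro _ _ _
                  exact sq_nonneg _
        · exact Finset.sum_nonneg fun _ _ => Finset.sum_nonneg fun _ _ => sq_nonneg _
      refine le_trans (Finset.sum_le_sum h6) ?_
      rw [Finset.sum_const, nsmul_eq_mul, N2, card_box_compl hy]
    · rw [if_neg h5]
      apply le_of_eq
      apply Finset.sum_eq_zero
      intro w hw
      rw [mem_box] at hw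
      have a3 : w b ≤ v b - x b := hw.1 b
      rw [if_neg (by omega)]
  have hKL : 0 ≤ KL v r2 r b g := Finset.sum_nonneg fun x _ =>
    mul_nonneg (pp_N2_nonneg _ _) (sq_nonneg _)
  have hDL : 0 ≤ DL v r2 r b g := Finset.sum_nonneg fun x _ =>
    mul_nonneg (pp_N2_nonneg _ _)
      (Finset.sum_nonneg fun _ _ => Finset.sum_nonneg fun _ _ => sq_nonneg _)
  set R : ℝ := ((r : ℝ) + 1) ^ 2 with hR
  have hR0 : 0 ≤ R := by positivity
  rw [e3] at e2
  have f1 : ∑ x ∈ box v r, ∑ w ∈ box (v - x) r1, (if 0 < w b then g x ^ 2 else 0)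
      ≤ 8 * R * (KL v r2 r b g + DL v r2 r b g) := by
    have g1 := mul_le_mul_of_nonneg_left e7 (by positivity : (0:ℝ) ≤ 2 * R)
    have g2 : 2 * R * ((∑ x ∈ (box v r).filter (fun x => x b = 0 ∧ x b < v b),
        N2 r2 (v - x) * g x ^ 2)
        + ∑ x ∈ (box v r).filter (fun x => x b < v b ∧ 0 < x b ∧ x s < v s),
            N2 r2 (v - x) * (g x - g (x - e b + e s)) ^ 2) ≤ 2 * R * (KL v r2 r b g + DL v r2 r b g) :=
      mul_le_mul_of_nonneg_left (add_le_add e5 e6) (by positivity)
    nlinarith [mul_nonneg hR0 hKL, mul_nonneg hR0 hDL]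
  have hn1 : (0 : ℝ) ≤ (Fintype.card J : ℝ) + 1 := by linarith
  calc PL v r2 r b g ≤ ((Fintype.card J : ℝ) + 1) * (8 * R * (KL v r2 r b g + DL v r2 r b g)) :=
        le_trans e1 (mul_le_mul_of_nonneg_left f1 hn1)
    _ ≤ 20 * ((Fintype.card J : ℝ) + 1) * R * (KL v r2 r b g + DL v r2 r b g) := by
        have : 0 ≤ ((Fintype.card J : ℝ) + 1) * (R * (KL v r2 r b g + DL v r2 r b g)) :=
          mul_nonneg hn1 (mul_nonneg hR0 (add_nonneg hKL hDL))
        nlinarith

end CT
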