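import Vale.Agent.CT.BSt1A28

/-! # Stage 1 (piece ST1)

Two rows `x, S - x` of totals `r ≤ r2`.  Mass of `g²` on `{2 x(A) > S(A)}` is controlled by the mass on
`{2 x(A) ≤ S(A)}` and the energy.  Level `i = x(A)`: `L_i = box S_A i × box S_{A^c} (r-i)`; `mc` on
`S_A` (downwards) and on `S_{A^c}` (upwards) gives a coupling of the uniform measures on `L_i` and
`L_{i-1}` with density `≤ 1/|L_i|`, so `N_i^{1/2} ≤ N_{i-1}^{1/2} + ε_i`, `N_i` the mean of `g²` on `L_i`,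
`|L_i| ε_i² ≤` energy of `L_i`.  For `2i > S(A)`, `i* = S(A) - i`: `|L_k| ≥ |L_i|` for all
`k ∈ [i*, i]` (card_box_unimodal), hence
`|L_i| N_i ≤ 2 |L_{i*}| N_{i*} + 2 (r+1) ∑_{i* < k ≤ i} |L_k| ε_k²`. -/

namespace CT

open Finset
open scoped Classical

variable {J : Type} [Fintype J] [DecidableEq J]

theorem stage1 (S : J → ℕ) (r r2 : ℕ) (hS : sz S = r + r2) (hr : r ≤ r2) (A : Finset J)
    (g : (J → ℕ) → ℝ) :
    ∑ x ∈ box S r, g x ^ 2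
      ≤ 3 * (∑ x ∈ (box S r).filter (fun x => 2 * ∑ a ∈ A, x a ≤ ∑ a ∈ A, S a), g x ^ 2)
        + 2 * ((r : ℝ) + 1) ^ 2 * ∑ x ∈ box S r, ∑ a ∈ A.filter (fun a => 0 < x a),
            ∑ d ∈ univ.filter (fun d => d ∉ A ∧ x d < S d), (g x - g (x - e a + e d)) ^ 2 :=
  stage1_28 S r r2 hS hr A g

end CT
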