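import Vale.Agent.CT.Rx

/-! # Counting bound (piece DB), helper lemmas -/

namespace CT

open Finset
open scoped Classical

variable {J : Type} [Fintype J] [DecidableEq J]

/-- restriction of a row to a set of columns -/
def res (S : Finset J) (x : J → ℕ) : J → ℕ := fun j => if j ∈ S then x j else 0

theorem sz_res (S : Finset J) (x : J → ℕ) : sz (res S x) = ∑ j ∈ S, x j := by
  unfold sz res
  rw [sum_ite_mem, univ_inter]

theorem res_add_res (S : Finset J) (x : J → ℕ) : res S x + res Sᶜ x = x := by
  funext j
  simp only [res, Pi.add_apply, mem_compl]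
  by_cases h : j ∈ S <;> simp [h]

omit [Fintype J] in
theorem res_mono (S : Finset J) {x y : J → ℕ} (h : x ≤ y) : res S x ≤ res S y := by
  intro j
  unfold res
  split_ifs
  · exact h j
  · exact le_rfl

theorem split_card (S : Finset J) (y : J → ℕ) (r t : ℕ) (ht : t ≤ r) :
    ((box y r).filter (fun x => ∑ j ∈ S, x j = t)).card
      = (box (res S y) t).card * (box (res Sᶜ y) (r - t)).card := by
  rw [← card_product]
  refine card_nbij' (fun x => (res S x, res Sᶜ x)) (fun p => p.1 + p.2) ?_ ?_ ?_ ?_
  · intro x hx
    rw [mem_coe, mem_filter, mem_box] at hx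
    rw [mem_coe, mem_product, mem_box, mem_box]
    obtain ⟨⟨h1, h2⟩, h3⟩ := hx
    have h4 : sz (res S x) = t := by rw [sz_res, h3]
    have h5 : sz (res S x) + sz (res Sᶜ x) = sz x := by rw [← sz_add, res_add_res]
    refine ⟨⟨res_mono S h1, h4⟩, res_mono Sᶜ h1, ?_⟩
    simp only
    omega
  · rintro ⟨p, q⟩ hpq
    rw [mem_coe, mem_product, mem_box, mem_box] at hpq
    rw [mem_coe, mem_filter, mem_box]
    obtain ⟨⟨h1, h2⟩, h3, h4⟩ := hpq
    simp only at h1 h2 h3 h4 ⊢
    have hp0 : ∀ j, j ∉ S → p j = 0 := by
      intro j hj
      have := h1 j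
      simp only [res, if_neg hj] at this
      omega
    have hq0 : ∀ j, j ∈ S → q j = 0 := by
      intro j hj
      have := h3 j
      simp only [res, mem_compl, hj, not_true_eq_false, if_false] at this
      omega
    refine ⟨⟨?_, ?_⟩, ?_⟩
    · intro j
      rw [Pi.add_apply]
      by_cases hj : j ∈ S
      · have h5 := hq0 j hj
        have h6 : p j ≤ y j := by simpa [res, hj] using h1 j
        have h7 : p j + q j ≤ y j := by omega
        exact h7
      · have h5 := hp0 j hj
        have h6 : q j ≤ y j := by simpa [res, hj] using h3 j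
        have h7 : p j + q j ≤ y j := by omega
        exact h7
    · rw [sz_add, h2, h4]
      omega
    · have h5 : ∑ j ∈ S, (p + q) j = ∑ j ∈ S, p j := by
        refine sum_congr rfl fun j hj => ?_
        rw [Pi.add_apply, hq0 j hj]
        rfl
      rw [h5, ← h2]
      unfold sz
      refine sum_subset (subset_univ S) fun j _ hj => hp0 j hj
  · intro x _
    exact res_add_res S x
  · rintro ⟨p, q⟩ hpq
    rw [mem_coe, mem_product, mem_box, mem_box] at hpq
    obtain ⟨⟨h1, h2⟩, h3, h4⟩ := hpq
    simp only at h1 h2 h3 h4 ⊢
    refine Prod.ext ?_ ?_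
    · funext j
      simp only [res, Pi.add_apply]
      have h5 := h1 j
      have h6 := h3 j
      simp only [res, mem_compl] at h5 h6
      by_cases hj : j ∈ S <;> simp only [hj, if_true, if_false, not_true_eq_false,
        not_false_eq_true] at h5 h6 ⊢ <;> omega
    · funext j
      simp only [res, Pi.add_apply, mem_compl]
      have h5 := h1 j
      have h6 := h3 j
      simp only [res, mem_compl] at h5 h6
      by_cases hj : j ∈ S <;> simp only [hj, if_true, if_false, not_true_eq_false,
        not_false_eq_true] at h5 h6 ⊢ <;> omega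

/-- at least half of the rows use at most half of the capacity of the columns `S` -/
theorem half_card (S : Finset J) (y : J → ℕ) (r r2 : ℕ) (hy : sz y = r2 + r) (hr : r ≤ r2) :
    (box y r).card ≤ 2 * ((box y r).filter (fun x => 2 * ∑ j ∈ S, x j ≤ ∑ j ∈ S, y j)).card := by
  set cap := ∑ j ∈ S, y j with hcap
  have hsz1 : sz (res S y) = cap := sz_res S y
  have hsz2 : sz (res S y) + sz (res Sᶜ y) = sz y := by rw [← sz_add, res_add_res]
  let c : ℕ → ℕ := fun t => ((box y r).filter (fun x => ∑ j ∈ S, x j = t)).card
  have hc : ∀ t, cap < 2 * t → t ≤ cap → c t ≤ c (cap - t) := by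
    intro t h1 h2
    by_cases htr : t ≤ r
    · simp only [c]
      rw [split_card S y r t htr, split_card S y r (cap - t) (by omega)]
      have h3 : (box (res S y) t).card = (box (res S y) (cap - t)).card :=
        card_box_compl (by omega)
      rw [h3]
      refine Nat.mul_le_mul_left _ ?_
      refine card_box_unimodal (by omega) ?_
      omega
    · have h3 : c t = 0 := by
        simp only [c]
        rw [card_eq_zero, filter_eq_empty_iff]
        intro x hx hxt
        rw [mem_box] at hx
        have h4 : ∑ j ∈ S, x j ≤ sz x := by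
          unfold sz
          exact sum_le_sum_of_subset (subset_univ S)
        omega
      omega
  have hsplit : (box y r).card = ((box y r).filter (fun x => 2 * ∑ j ∈ S, x j ≤ cap)).card
      + ((box y r).filter (fun x => ¬ 2 * ∑ j ∈ S, x j ≤ cap)).card := by
    rw [card_filter_add_card_filter_not]
  have hle : ((box y r).filter (fun x => ¬ 2 * ∑ j ∈ S, x j ≤ cap)).card
      ≤ ((box y r).filter (fun x => 2 * ∑ j ∈ S, x j ≤ cap)).card := by
    have e1 : ((box y r).filter (fun x => ¬ 2 * ∑ j ∈ S, x j ≤ cap)).card
        = ∑ t ∈ (range (cap + 1)).filter (fun t => cap < 2 * t), c t := by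
      rw [card_eq_sum_card_fiberwise (f := fun x => ∑ j ∈ S, x j)
        (t := (range (cap + 1)).filter (fun t => cap < 2 * t))]
      · refine sum_congr rfl fun t ht => ?_
        simp only [c]
        congr 1
        rw [filter_filter]
        refine filter_congr fun x _ => ?_
        rw [mem_filter] at ht
        constructor
        · exact fun h => h.2
        · intro h
          have h' : ∑ j ∈ S, x j = t := h
          have ht2 := ht.2
          exact ⟨by rw [h']; omega, h⟩
      · intro x hx
        rw [mem_coe, mem_filter, mem_box] at hx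
        rw [mem_coe, mem_filter, mem_range]
        have h4 : ∑ j ∈ S, x j ≤ cap := sum_le_sum fun j _ => hx.1.1 j
        have h5 := hx.2
        change ∑ j ∈ S, x j < cap + 1 ∧ cap < 2 * ∑ j ∈ S, x j
        omega
    have e2 : ((box y r).filter (fun x => 2 * ∑ j ∈ S, x j ≤ cap)).card
        = ∑ t ∈ (range (cap + 1)).filter (fun t => 2 * t ≤ cap), c t := by
      rw [card_eq_sum_card_fiberwise (f := fun x => ∑ j ∈ S, x j)
        (t := (range (cap + 1)).filter (fun t => 2 * t ≤ cap))]
      · refine sum_congr rfl fun t ht => ?_
        simp only [c]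
        congr 1
        rw [filter_filter]
        refine filter_congr fun x _ => ?_
        rw [mem_filter] at ht
        constructor
        · exact fun h => h.2
        · intro h
          have h' : ∑ j ∈ S, x j = t := h
          have ht2 := ht.2
          exact ⟨by rw [h']; omega, h⟩
      · intro x hx
        rw [mem_coe, mem_filter, mem_box] at hx
        rw [mem_coe, mem_filter, mem_range]
        have h5 := hx.2
        change ∑ j ∈ S, x j < cap + 1 ∧ 2 * ∑ j ∈ S, x j ≤ cap
        omega
    rw [e1, e2]
    calc ∑ t ∈ (range (cap + 1)).filter (fun t => cap < 2 * t), c t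
        ≤ ∑ t ∈ (range (cap + 1)).filter (fun t => cap < 2 * t), c (cap - t) := by
          refine sum_le_sum fun t ht => ?_
          rw [mem_filter, mem_range] at ht
          exact hc t ht.2 (by omega)
      _ = ∑ t ∈ ((range (cap + 1)).filter (fun t => cap < 2 * t)).image (fun t => cap - t), c t := by
          rw [sum_image]
          intro t ht t' ht' h
          rw [mem_coe, mem_filter, mem_range] at ht ht'
          simp only at h
          omega
      _ ≤ ∑ t ∈ (range (cap + 1)).filter (fun t => 2 * t ≤ cap), c t := by
          refine sum_le_sum_of_subset ?_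
          intro t ht
          rw [mem_image] at ht
          obtain ⟨t', ht', rfl⟩ := ht
          rw [mem_filter, mem_range] at ht' ⊢
          omega
  omega

end CT
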