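import Vale.Agent.CT.BMc
import Vale.Agent.CT.Db18

/-! # Stage 1 (piece ST1), proof -/

namespace CT

open Finset
open scoped Classical

variable {J : Type} [Fintype J] [DecidableEq J]

/-- sum version of `split_card` -/
theorem s1_split (S : Finset J) (y : J → ℕ) (r t : ℕ) (ht : t ≤ r)
    (f : (J → ℕ) → (J → ℕ) → ℝ) :
    ∑ x ∈ (box y r).filter (fun x => ∑ j ∈ S, x j = t), f (res S x) (res Sᶜ x)
      = ∑ p ∈ box (res S y) t, ∑ q ∈ box (res Sᶜ y) (r - t), f p q := by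
  rw [← sum_product']
  refine sum_nbij' (fun x => (res S x, res Sᶜ x)) (fun p => p.1 + p.2) ?_ ?_ ?_ ?_ ?_
  · intro x hx
    rw [mem_filter, mem_box] at hx
    rw [mem_product, mem_box, mem_box]
    obtain ⟨⟨h1, h2⟩, h3⟩ := hx
    have h4 : sz (res S x) = t := by rw [sz_res, h3]
    have h5 : sz (res S x) + sz (res Sᶜ x) = sz x := by rw [← sz_add, res_add_res]
    refine ⟨⟨res_mono S h1, h4⟩, res_mono Sᶜ h1, ?_⟩
    simp only
    omega
  · rintro ⟨p, q⟩ hpq
    rw [mem_product, mem_box, mem_box] at hpq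
    rw [mem_filter, mem_box]
    obtain ⟨⟨h1, h2⟩, h3, h4⟩ := hpq
    simp only at h1 h2 h3 h4 ⊢
    have hp0 : ∀ j, j ∉ S → p j = 0 := by
      intro j hj
      have := h1 j
      simp only [res, if_neg hj] at this
      omega
    have hq0 : ∀ j, j ∈ S → q j = 0 := by
      intro j hj
      have := h3 j
      simp only [res, mem_compl, hj, not_true_eq_false, if_false] at this
      omega
    refine ⟨⟨?_, ?_⟩, ?_⟩
    · intro j
      rw [Pi.add_apply]
      by_cases hj : j ∈ S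
      · have h5 := hq0 j hj
        have h6 : p j ≤ y j := by simpa [res, hj] using h1 j
        have h7 : p j + q j ≤ y j := by omega
        exact h7
      · have h5 := hp0 j hj
        have h6 : q j ≤ y j := by simpa [res, hj] using h3 j
        have h7 : p j + q j ≤ y j := by omega
        exact h7
    · rw [sz_add, h2, h4]
      omega
    · have h5 : ∑ j ∈ S, (p + q) j = ∑ j ∈ S, p j := by
        refine sum_congr rfl fun j hj => ?_
        rw [Pi.add_apply, hq0 j hj]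
        rfl
      rw [h5, ← h2]
      unfold sz
      refine sum_subset (subset_univ S) fun j _ hj => hp0 j hj
  · intro x _
    exact res_add_res S x
  · rintro ⟨p, q⟩ hpq
    rw [mem_product, mem_box, mem_box] at hpq
    obtain ⟨⟨h1, h2⟩, h3, h4⟩ := hpq
    simp only at h1 h2 h3 h4 ⊢
    refine Prod.ext ?_ ?_
    · funext j
      simp only [res, Pi.add_apply]
      have h5 := h1 j
      have h6 := h3 j
      simp only [res, mem_compl] at h5 h6
      by_cases hj : j ∈ S <;> simp only [hj, if_true, if_false, not_true_eq_false,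
        not_false_eq_true] at h5 h6 ⊢ <;> omega
    · funext j
      simp only [res, Pi.add_apply, mem_compl]
      have h5 := h1 j
      have h6 := h3 j
      simp only [res, mem_compl] at h5 h6
      by_cases hj : j ∈ S <;> simp only [hj, if_true, if_false, not_true_eq_false,
        not_false_eq_true] at h5 h6 ⊢ <;> omega
  · intro x _
    rfl

/-- Minkowski along a coupling -/
theorem s1_mink {α : Type} (X X' : Finset α) (κ : α → α → ℝ) (h0 : ∀ x x', 0 ≤ κ x x')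
    (g : α → ℝ)
    (h1 : ∀ x ∈ X, ∑ x' ∈ X', κ x x' = 1 / (X.card : ℝ))
    (h2 : ∀ x' ∈ X', ∑ x ∈ X, κ x x' = 1 / (X'.card : ℝ)) :
    √((∑ x ∈ X, g x ^ 2) / (X.card : ℝ)) ≤ √((∑ x ∈ X', g x ^ 2) / (X'.card : ℝ))
      + √(∑ x ∈ X, ∑ x' ∈ X', κ x x' * (g x - g x') ^ 2) := by
  have hN : (∑ x ∈ X, g x ^ 2) / (X.card : ℝ) = ∑ x ∈ X, ∑ x' ∈ X', κ x x' * g x ^ 2 := by
    rw [Finset.sum_div]
    refine sum_congr rfl fun x hx => ?_
    rw [← Finset.sum_mul, h1 x hx]
    ring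
  have hN' : (∑ x ∈ X', g x ^ 2) / (X'.card : ℝ) = ∑ x ∈ X, ∑ x' ∈ X', κ x x' * g x' ^ 2 := by
    rw [Finset.sum_div, Finset.sum_comm]
    refine sum_congr rfl fun x hx => ?_
    rw [← Finset.sum_mul, h2 x hx]
    ring
  have hC : ∑ x ∈ X, ∑ x' ∈ X', κ x x' * (g x' * (g x - g x'))
      ≤ √(∑ x ∈ X, ∑ x' ∈ X', κ x x' * g x' ^ 2)
        * √(∑ x ∈ X, ∑ x' ∈ X', κ x x' * (g x - g x') ^ 2) := by
    have := Real.sum_mul_le_sqrt_mul_sqrt (X ×ˢ X')
      (fun p => √(κ p.1 p.2) * g p.2) (fun p => √(κ p.1 p.2) * (g p.1 - g p.2))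
    have e1 : ∑ p ∈ X ×ˢ X', (√(κ p.1 p.2) * g p.2) * (√(κ p.1 p.2) * (g p.1 - g p.2))
        = ∑ x ∈ X, ∑ x' ∈ X', κ x x' * (g x' * (g x - g x')) := by
      rw [Finset.sum_product]
      refine sum_congr rfl fun x _ => sum_congr rfl fun x' _ => ?_
      have := Real.mul_self_sqrt (h0 x x')
      simp only
      calc _ = (√(κ x x') * √(κ x x')) * (g x' * (g x - g x')) := by ring
        _ = _ := by rw [this]
    have e2 : ∑ p ∈ X ×ˢ X', (√(κ p.1 p.2) * g p.2) ^ 2
        = ∑ x ∈ X, ∑ x' ∈ X', κ x x' * g x' ^ 2 := by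
      rw [Finset.sum_product]
      refine sum_congr rfl fun x _ => sum_congr rfl fun x' _ => ?_
      simp only
      rw [mul_pow, Real.sq_sqrt (h0 x x')]
    have e3 : ∑ p ∈ X ×ˢ X', (√(κ p.1 p.2) * (g p.1 - g p.2)) ^ 2
        = ∑ x ∈ X, ∑ x' ∈ X', κ x x' * (g x - g x') ^ 2 := by
      rw [Finset.sum_product]
      refine sum_congr rfl fun x _ => sum_congr rfl fun x' _ => ?_
      simp only
      rw [mul_pow, Real.sq_sqrt (h0 x x')]
    rw [e1, e2, e3] at this
    exact this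
  rw [hN, hN']
  set N' := ∑ x ∈ X, ∑ x' ∈ X', κ x x' * g x' ^ 2 with hN'd
  set D := ∑ x ∈ X, ∑ x' ∈ X', κ x x' * (g x - g x') ^ 2 with hD
  have hN'0 : 0 ≤ N' := sum_nonneg fun x _ => sum_nonneg fun x' _ =>
    mul_nonneg (h0 x x') (sq_nonneg _)
  have hD0 : 0 ≤ D := sum_nonneg fun x _ => sum_nonneg fun x' _ =>
    mul_nonneg (h0 x x') (sq_nonneg _)
  have hexp : ∑ x ∈ X, ∑ x' ∈ X', κ x x' * g x ^ 2
      = N' + 2 * (∑ x ∈ X, ∑ x' ∈ X', κ x x' * (g x' * (g x - g x'))) + D := by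
    rw [hN'd, hD, Finset.mul_sum, ← Finset.sum_add_distrib, ← Finset.sum_add_distrib]
    refine sum_congr rfl fun x _ => ?_
    rw [Finset.mul_sum, ← Finset.sum_add_distrib, ← Finset.sum_add_distrib]
    refine sum_congr rfl fun x' _ => ?_
    ring
  rw [Real.sqrt_le_iff]
  refine ⟨by positivity, ?_⟩
  rw [hexp, add_sq, Real.sq_sqrt hN'0, Real.sq_sqrt hD0]
  nlinarith [hC]

/-- the level `x(A) = i` -/
noncomputable def s1L (S : J → ℕ) (r : ℕ) (A : Finset J) (i : ℕ) : Finset (J → ℕ) :=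
  (box S r).filter (fun x => ∑ a ∈ A, x a = i)

/-- local energy -/
noncomputable def s1E (S : J → ℕ) (A : Finset J) (g : (J → ℕ) → ℝ) (x : J → ℕ) : ℝ :=
  ∑ a ∈ A.filter (fun a => 0 < x a),
    ∑ d ∈ univ.filter (fun d => d ∉ A ∧ x d < S d), (g x - g (x - e a + e d)) ^ 2

theorem s1_supp (S : J → ℕ) (A : Finset J) {x x' : J → ℕ} (hx' : x' ≤ S) {a d : J}
    (h1 : res A x = res A x' + e a) (h2 : res Aᶜ x' = res Aᶜ x + e d) :
    a ∈ A ∧ 0 < x a ∧ d ∉ A ∧ x d < S d ∧ x' = x - e a + e d := by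
  have ha : a ∈ A := by
    by_contra h
    have := congrFun h1 a
    simp [res, h, e] at this
  have hd : d ∉ A := by
    intro h
    have := congrFun h2 d
    simp [res, h, e] at this
  have hxa : x a = x' a + 1 := by
    have := congrFun h1 a
    simpa [res, ha, e] using this
  have hxd : x' d = x d + 1 := by
    have := congrFun h2 d
    simpa [res, hd, e] using this
  refine ⟨ha, by omega, hd, ?_, ?_⟩
  · have h9 : x' d ≤ S d := hx' d
    omega
  · funext j
    have k1 := congrFun h1 j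
    have k2 := congrFun h2 j
    simp only [res, e, Pi.add_apply, Pi.single_apply, mem_compl] at k1 k2
    simp only [e, Pi.add_apply, Pi.sub_apply, Pi.single_apply]
    by_cases hj : j ∈ A
    · have hjd : j ≠ d := fun h => hd (h ▸ hj)
      simp only [hj, if_true, not_true_eq_false, if_false, hjd] at k1 k2 ⊢
      split_ifs at k1 ⊢ <;> omega
    · have hja : j ≠ a := fun h => hj (h ▸ ha)
      simp only [hj, if_true, not_false_eq_true, if_false, hja] at k1 k2 ⊢
      split_ifs at k2 ⊢ <;> omega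

theorem s1_step (S : J → ℕ) (r : ℕ) (A : Finset J) (g : (J → ℕ) → ℝ) (i : ℕ)
    (hi : i + 1 ≤ r) (h1 : (s1L S r A (i + 1)).Nonempty) (h2 : (s1L S r A i).Nonempty) :
    √((∑ x ∈ s1L S r A (i + 1), g x ^ 2) / ((s1L S r A (i + 1)).card : ℝ))
      ≤ √((∑ x ∈ s1L S r A i, g x ^ 2) / ((s1L S r A i).card : ℝ))
        + √((∑ x ∈ s1L S r A (i + 1), s1E S A g x) / ((s1L S r A (i + 1)).card : ℝ)) := by
  have hszA : sz (res A S) = ∑ a ∈ A, S a := sz_res A S
  have hszB : sz (res Aᶜ S) = ∑ a ∈ Aᶜ, S a := sz_res Aᶜ S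
  have hi1 : i < sz (res A S) := by
    obtain ⟨x, hx⟩ := h1
    rw [s1L, mem_filter, mem_box] at hx
    rw [hszA]
    have : ∑ a ∈ A, x a ≤ ∑ a ∈ A, S a := sum_le_sum fun a _ => hx.1.1 a
    omega
  have hi2 : r - (i + 1) < sz (res Aᶜ S) := by
    obtain ⟨x, hx⟩ := h2
    rw [s1L, mem_filter, mem_box] at hx
    rw [hszB]
    have h3 : ∑ a ∈ Aᶜ, x a ≤ ∑ a ∈ Aᶜ, S a := sum_le_sum fun a _ => hx.1.1 a
    have h4 : ∑ a ∈ A, x a + ∑ a ∈ Aᶜ, x a = r := by
      rw [Finset.sum_add_sum_compl]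
      exact hx.1.2
    omega
  obtain ⟨κA, a0, a1, a2, a3⟩ := mc (res A S) i hi1
  obtain ⟨κB, b0, b1, b2, b3⟩ := mc (res Aᶜ S) (r - (i + 1)) hi2
  have hri : r - (i + 1) + 1 = r - i := by omega
  rw [hri] at b1 b2
  have hc1 : ((s1L S r A (i + 1)).card : ℝ)
      = ((box (res A S) (i + 1)).card : ℝ) * ((box (res Aᶜ S) (r - (i + 1))).card : ℝ) := by
    rw [s1L, split_card A S r (i + 1) hi]
    push_cast
    ring
  have hc2 : ((s1L S r A i).card : ℝ)
      = ((box (res A S) i).card : ℝ) * ((box (res Aᶜ S) (r - i)).card : ℝ) := by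
    rw [s1L, split_card A S r i (by omega)]
    push_cast
    ring
  set κ : (J → ℕ) → (J → ℕ) → ℝ := fun x x' =>
    κA (res A x') (res A x) * κB (res Aᶜ x) (res Aᶜ x') with hκ
  have hκ0 : ∀ x x', 0 ≤ κ x x' := fun x x' => mul_nonneg (a0 _ _) (b0 _ _)
  have memres : ∀ k x, x ∈ s1L S r A k →
      res A x ∈ box (res A S) k ∧ res Aᶜ x ∈ box (res Aᶜ S) (r - k) := by
    intro k x hx
    rw [s1L, mem_filter, mem_box] at hx
    rw [mem_box, mem_box]
    have h4 : sz (res A x) = k := by rw [sz_res, hx.2]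
    have h5 : sz (res A x) + sz (res Aᶜ x) = sz x := by rw [← sz_add, res_add_res]
    refine ⟨⟨res_mono A hx.1.1, h4⟩, res_mono Aᶜ hx.1.1, ?_⟩
    have := hx.1.2
    omega
  have m1 : ∀ x ∈ s1L S r A (i + 1), ∑ x' ∈ s1L S r A i, κ x x'
      = 1 / ((s1L S r A (i + 1)).card : ℝ) := by
    intro x hx
    obtain ⟨u1, u2⟩ := memres _ _ hx
    have h3 := s1_split A S r i (by omega)
      (fun p q => κA p (res A x) * κB (res Aᶜ x) q)
    have h4 : ∑ x' ∈ s1L S r A i, κ x x' = ∑ p ∈ box (res A S) i,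
        ∑ q ∈ box (res Aᶜ S) (r - i), κA p (res A x) * κB (res Aᶜ x) q := by
      rw [← h3]
      rfl
    rw [h4, ← Finset.sum_mul_sum, a2 _ u1, b1 _ u2, hc1]
    rw [one_div_mul_one_div]
  have m2 : ∀ x' ∈ s1L S r A i, ∑ x ∈ s1L S r A (i + 1), κ x x'
      = 1 / ((s1L S r A i).card : ℝ) := by
    intro x' hx'
    obtain ⟨u1, u2⟩ := memres _ _ hx'
    have h3 := s1_split A S r (i + 1) hi
      (fun p q => κA (res A x') p * κB q (res Aᶜ x'))
    have h4 : ∑ x ∈ s1L S r A (i + 1), κ x x' = ∑ p ∈ box (res A S) (i + 1),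
        ∑ q ∈ box (res Aᶜ S) (r - (i + 1)), κA (res A x') p * κB q (res Aᶜ x') := by
      rw [← h3]
      rfl
    rw [h4, ← Finset.sum_mul_sum, a1 _ u1, b2 _ u2, hc2]
    rw [one_div_mul_one_div]
  refine (s1_mink _ _ κ hκ0 g m1 m2).trans ?_
  refine add_le_add_right (Real.sqrt_le_sqrt ?_) _
  rw [Finset.sum_div]
  refine sum_le_sum fun x hx => ?_
  have hxS := hx
  rw [s1L, mem_filter, mem_box] at hxS
  set P := (A.filter (fun a => 0 < x a)) ×ˢ (univ.filter (fun d => d ∉ A ∧ x d < S d)) with hP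
  have hE : s1E S A g x = ∑ p ∈ P, (g x - g (x - e p.1 + e p.2)) ^ 2 := by
    rw [s1E, hP, Finset.sum_product]
  have hb : ∀ x' ∈ s1L S r A i, κ x x' * (g x - g x') ^ 2
      ≤ (1 / ((s1L S r A (i + 1)).card : ℝ)) * ∑ p ∈ P,
        (if x - e p.1 + e p.2 = x' then (g x - g (x - e p.1 + e p.2)) ^ 2 else 0) := by
    intro x' hx'
    by_cases hk : κ x x' = 0
    · rw [hk, zero_mul]
      refine mul_nonneg (by positivity) (sum_nonneg fun p _ => ?_)
      split_ifs
      · positivity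
      · exact le_rfl
    · have hk1 : κ x x' ≤ 1 / ((s1L S r A (i + 1)).card : ℝ) := by
        rw [← m1 x hx]
        exact single_le_sum (f := fun x' => κ x x') (fun y _ => hκ0 x y) hx'
      have hkA : κA (res A x') (res A x) ≠ 0 := fun h => hk (by simp [hκ, h])
      have hkB : κB (res Aᶜ x) (res Aᶜ x') ≠ 0 := fun h => hk (by simp [hκ, h])
      obtain ⟨a, ha⟩ : ∃ d, res A x = res A x' + e d := a3 _ _ hkA
      obtain ⟨d, hd⟩ : ∃ d, res Aᶜ x' = res Aᶜ x + e d := b3 _ _ hkB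
      have hx'S : x' ≤ S := by
        rw [s1L, mem_filter, mem_box] at hx'
        exact hx'.1.1
      obtain ⟨q1, q2, q3, q4, q5⟩ := s1_supp S A hx'S ha hd
      have hmem : (a, d) ∈ P := by
        rw [hP, mem_product, mem_filter, mem_filter]
        exact ⟨⟨q1, q2⟩, mem_univ _, q3, q4⟩
      have hs : (g x - g x') ^ 2 ≤ ∑ p ∈ P,
          (if x - e p.1 + e p.2 = x' then (g x - g (x - e p.1 + e p.2)) ^ 2 else 0) := by
        refine le_trans ?_ (single_le_sum (f := fun p : J × J =>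
          (if x - e p.1 + e p.2 = x' then (g x - g (x - e p.1 + e p.2)) ^ 2 else 0))
          (fun p _ => ?_) hmem)
        · simp only
          rw [if_pos q5.symm, ← q5]
        · split_ifs
          · exact sq_nonneg _
          · exact le_rfl
      exact mul_le_mul hk1 hs (sq_nonneg _) (by positivity)
  refine (sum_le_sum hb).trans ?_
  rw [← Finset.mul_sum, Finset.sum_comm, hE]
  have key : ∑ p ∈ P, ∑ x' ∈ s1L S r A i,
      (if x - e p.1 + e p.2 = x' then (g x - g (x - e p.1 + e p.2)) ^ 2 else 0)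
      ≤ ∑ p ∈ P, (g x - g (x - e p.1 + e p.2)) ^ 2 := by
    refine sum_le_sum fun p _ => ?_
    rw [Finset.sum_ite_eq]
    split_ifs
    · exact le_rfl
    · positivity
  calc _ ≤ (1 / ((s1L S r A (i + 1)).card : ℝ)) * ∑ p ∈ P, (g x - g (x - e p.1 + e p.2)) ^ 2 :=
        mul_le_mul_of_nonneg_left key (by positivity)
    _ = _ := by ring

/-- telescoping -/
theorem s1_tel (S : J → ℕ) (r : ℕ) (A : Finset J) (g : (J → ℕ) → ℝ) (i0 : ℕ) (m : ℕ)
    (hi : i0 + m ≤ r) (hne : ∀ k, i0 ≤ k → k ≤ i0 + m → (s1L S r A k).Nonempty) :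
    √((∑ x ∈ s1L S r A (i0 + m), g x ^ 2) / ((s1L S r A (i0 + m)).card : ℝ))
      ≤ √((∑ x ∈ s1L S r A i0, g x ^ 2) / ((s1L S r A i0).card : ℝ))
        + ∑ k ∈ range m, √((∑ x ∈ s1L S r A (i0 + k + 1), s1E S A g x)
            / ((s1L S r A (i0 + k + 1)).card : ℝ)) := by
  induction m with
  | zero => simp
  | succ m ih =>
    have h1 := ih (by omega) (fun k hk1 hk2 => hne k hk1 (by omega))
    have h2 := s1_step S r A g (i0 + m) (by omega) (hne _ (by omega) (by omega))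
      (hne _ (by omega) (by omega))
    rw [sum_range_succ]
    have h3 : i0 + (m + 1) = i0 + m + 1 := by omega
    rw [h3]
    linarith

/-- one high level -/
theorem s1_level (S : J → ℕ) (r r2 : ℕ) (hS : sz S = r + r2) (hr : r ≤ r2) (A : Finset J)
    (g : (J → ℕ) → ℝ) (i : ℕ) (hi : ∑ a ∈ A, S a < 2 * i) (hiS : i ≤ ∑ a ∈ A, S a) (hir : i ≤ r) :
    ∑ x ∈ s1L S r A i, g x ^ 2
      ≤ 2 * (∑ x ∈ s1L S r A (∑ a ∈ A, S a - i), g x ^ 2)
        + 2 * ((r : ℝ) + 1) * ∑ k ∈ range (r + 1), ∑ x ∈ s1L S r A k, s1E S A g x := by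
  have hE0 : ∀ x, 0 ≤ s1E S A g x := fun x => sum_nonneg fun a _ => sum_nonneg fun d _ =>
    sq_nonneg _
  set cap := ∑ a ∈ A, S a with hcap
  by_cases hne : (s1L S r A i).Nonempty
  swap
  · rw [Finset.not_nonempty_iff_eq_empty] at hne
    rw [hne, sum_empty]
    have : 0 ≤ ∑ k ∈ range (r + 1), ∑ x ∈ s1L S r A k, s1E S A g x :=
      sum_nonneg fun k _ => sum_nonneg fun x _ => hE0 x
    have h2 : 0 ≤ ∑ x ∈ s1L S r A (cap - i), g x ^ 2 := sum_nonneg fun x _ => sq_nonneg _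
    positivity
  have hsz1 : sz (res A S) = cap := sz_res A S
  have hsz2 : sz (res A S) + sz (res Aᶜ S) = sz S := by rw [← sz_add, res_add_res]
  have hcard : ∀ k, cap - i ≤ k → k ≤ i → (s1L S r A i).card ≤ (s1L S r A k).card := by
    intro k hk1 hk2
    rw [s1L, s1L, split_card A S r i hir, split_card A S r k (by omega)]
    refine Nat.mul_le_mul ?_ ?_
    · by_cases h : k + i ≤ cap
      · have : k = cap - i := by omega
        rw [this]
        exact le_of_eq (card_box_compl (by omega))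
      · have h3 : (box (res A S) i).card = (box (res A S) (cap - i)).card :=
          card_box_compl (by omega)
        rw [h3]
        exact card_box_unimodal hk1 (by omega)
    · exact card_box_unimodal (by omega) (by omega)
  set i0 := cap - i with hi0
  obtain ⟨m, hm⟩ : ∃ m, i = i0 + m := ⟨i - i0, by omega⟩
  have hpos : 0 < ((s1L S r A i).card : ℝ) := by exact_mod_cast hne.card_pos
  have hcard' : ∀ k, i0 ≤ k → k ≤ i → ((s1L S r A i).card : ℝ) ≤ ((s1L S r A k).card : ℝ) :=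
    fun k h1 h2 => by exact_mod_cast hcard k h1 h2
  have htel := s1_tel S r A g i0 m (by omega) (fun k hk1 hk2 => by
    have := hcard k hk1 (by omega)
    exact card_pos.1 (lt_of_lt_of_le hne.card_pos this))
  rw [← hm] at htel
  set Ni := (∑ x ∈ s1L S r A i, g x ^ 2) / ((s1L S r A i).card : ℝ) with hNi
  set N0 := (∑ x ∈ s1L S r A i0, g x ^ 2) / ((s1L S r A i0).card : ℝ) with hN0
  have hNi0 : 0 ≤ Ni := div_nonneg (sum_nonneg fun x _ => sq_nonneg _) (Nat.cast_nonneg _)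
  have hN00 : 0 ≤ N0 := div_nonneg (sum_nonneg fun x _ => sq_nonneg _) (Nat.cast_nonneg _)
  set ε : ℕ → ℝ := fun k => √((∑ x ∈ s1L S r A (i0 + k + 1), s1E S A g x)
            / ((s1L S r A (i0 + k + 1)).card : ℝ)) with hε
  have hsq : Ni ≤ 2 * N0 + 2 * (m : ℝ) * ∑ k ∈ range m, ε k ^ 2 := by
    have h1 : (∑ k ∈ range m, ε k) ^ 2 ≤ (m : ℝ) * ∑ k ∈ range m, ε k ^ 2 := by
      have := sq_sum_le_card_mul_sum_sq (s := range m) (f := ε)
      rwa [card_range] at this
    have h2 : 0 ≤ √Ni := Real.sqrt_nonneg _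
    have h3 : Ni = √Ni ^ 2 := (Real.sq_sqrt hNi0).symm
    have h4 : N0 = √N0 ^ 2 := (Real.sq_sqrt hN00).symm
    have h5 : √Ni ^ 2 ≤ (√N0 + ∑ k ∈ range m, ε k) ^ 2 := pow_le_pow_left₀ h2 htel 2
    nlinarith [sq_nonneg (√N0 - ∑ k ∈ range m, ε k)]
  have hmul := mul_le_mul_of_nonneg_left hsq hpos.le
  have e1 : ((s1L S r A i).card : ℝ) * Ni = ∑ x ∈ s1L S r A i, g x ^ 2 := by
    rw [hNi, mul_comm]
    exact div_mul_cancel₀ _ hpos.ne'
  rw [e1] at hmul
  have e2 : ((s1L S r A i).card : ℝ) * N0 ≤ ∑ x ∈ s1L S r A i0, g x ^ 2 := by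
    have h1 := hcard' i0 le_rfl (by omega)
    have h2 : 0 < ((s1L S r A i0).card : ℝ) := lt_of_lt_of_le hpos h1
    calc _ ≤ ((s1L S r A i0).card : ℝ) * N0 := mul_le_mul_of_nonneg_right h1 hN00
      _ = _ := by
        rw [hN0, mul_comm]
        exact div_mul_cancel₀ _ h2.ne'
  have e3 : ∀ k ∈ range m, ((s1L S r A i).card : ℝ) * ε k ^ 2
      ≤ ∑ x ∈ s1L S r A (i0 + k + 1), s1E S A g x := by
    intro k hk
    rw [mem_range] at hk
    have h1 := hcard' (i0 + k + 1) (by omega) (by omega)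
    have h2 : 0 < ((s1L S r A (i0 + k + 1)).card : ℝ) := lt_of_lt_of_le hpos h1
    have h3 : 0 ≤ (∑ x ∈ s1L S r A (i0 + k + 1), s1E S A g x)
            / ((s1L S r A (i0 + k + 1)).card : ℝ) :=
      div_nonneg (sum_nonneg fun x _ => hE0 x) h2.le
    rw [hε]
    simp only
    rw [Real.sq_sqrt h3]
    calc _ ≤ ((s1L S r A (i0 + k + 1)).card : ℝ) * ((∑ x ∈ s1L S r A (i0 + k + 1), s1E S A g x)
            / ((s1L S r A (i0 + k + 1)).card : ℝ)) := mul_le_mul_of_nonneg_right h1 h3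
      _ = _ := by
        rw [mul_comm]
        exact div_mul_cancel₀ _ h2.ne'
  have e4 : ((s1L S r A i).card : ℝ) * ∑ k ∈ range m, ε k ^ 2
      ≤ ∑ k ∈ range (r + 1), ∑ x ∈ s1L S r A k, s1E S A g x := by
    rw [Finset.mul_sum]
    refine (sum_le_sum e3).trans ?_
    have himg : ∑ k ∈ range m, ∑ x ∈ s1L S r A (i0 + k + 1), s1E S A g x
        = ∑ k ∈ (range m).image (fun k => i0 + k + 1), ∑ x ∈ s1L S r A k, s1E S A g x := by
      rw [sum_image]
      intro a _ b _ h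
      simp only at h
      omega
    rw [himg]
    refine sum_le_sum_of_subset_of_nonneg ?_ fun k _ _ => sum_nonneg fun x _ => hE0 x
    intro k hk
    rw [mem_image] at hk
    obtain ⟨a, ha, rfl⟩ := hk
    rw [mem_range] at ha ⊢
    omega
  have hmr : (m : ℝ) ≤ (r : ℝ) + 1 := by
    have : m ≤ r + 1 := by omega
    exact_mod_cast this
  have hT0 : 0 ≤ ∑ k ∈ range (r + 1), ∑ x ∈ s1L S r A k, s1E S A g x :=
    sum_nonneg fun k _ => sum_nonneg fun x _ => hE0 x
  have e5 : ((s1L S r A i).card : ℝ) * (2 * (m : ℝ) * ∑ k ∈ range m, ε k ^ 2)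
      ≤ 2 * ((r : ℝ) + 1) * ∑ k ∈ range (r + 1), ∑ x ∈ s1L S r A k, s1E S A g x := by
    calc _ = 2 * (m : ℝ) * (((s1L S r A i).card : ℝ) * ∑ k ∈ range m, ε k ^ 2) := by ring
      _ ≤ 2 * (m : ℝ) * ∑ k ∈ range (r + 1), ∑ x ∈ s1L S r A k, s1E S A g x :=
        mul_le_mul_of_nonneg_left e4 (by positivity)
      _ ≤ _ := mul_le_mul_of_nonneg_right (by linarith) hT0
  rw [mul_add] at hmul
  linarith

theorem s1_levels (S : J → ℕ) (r : ℕ) (A : Finset J) (f : (J → ℕ) → ℝ) (p : ℕ → Prop)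
    [DecidablePred p] :
    ∑ x ∈ (box S r).filter (fun x => p (∑ a ∈ A, x a)), f x
      = ∑ k ∈ (range (r + 1)).filter p, ∑ x ∈ s1L S r A k, f x := by
  rw [← Finset.sum_fiberwise_of_maps_to (s := (box S r).filter (fun x => p (∑ a ∈ A, x a)))
    (t := (range (r + 1)).filter p) (g := fun x => ∑ a ∈ A, x a)]
  · refine sum_congr rfl fun k hk => sum_congr ?_ fun x _ => rfl
    ext x
    rw [s1L, mem_filter, mem_filter, mem_filter]
    rw [mem_filter] at hk
    constructor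
    · rintro ⟨⟨h1, h2⟩, h3⟩
      exact ⟨h1, h3⟩
    · rintro ⟨h1, h3⟩
      exact ⟨⟨h1, h3 ▸ hk.2⟩, h3⟩
  · intro x hx
    rw [mem_filter, mem_box] at hx
    rw [mem_filter, mem_range]
    refine ⟨?_, hx.2⟩
    have h4 : ∑ j ∈ A, x j ≤ sz x := by
      unfold sz
      exact sum_le_sum_of_subset (subset_univ A)
    have := hx.1.2
    omega

theorem stage1_28 (S : J → ℕ) (r r2 : ℕ) (hS : sz S = r + r2) (hr : r ≤ r2) (A : Finset J)
    (g : (J → ℕ) → ℝ) :
    ∑ x ∈ box S r, g x ^ 2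
      ≤ 3 * (∑ x ∈ (box S r).filter (fun x => 2 * ∑ a ∈ A, x a ≤ ∑ a ∈ A, S a), g x ^ 2)
        + 2 * ((r : ℝ) + 1) ^ 2 * ∑ x ∈ box S r, ∑ a ∈ A.filter (fun a => 0 < x a),
            ∑ d ∈ univ.filter (fun d => d ∉ A ∧ x d < S d), (g x - g (x - e a + e d)) ^ 2 := by
  have hE0 : ∀ x, 0 ≤ s1E S A g x := fun x => sum_nonneg fun a _ => sum_nonneg fun d _ =>
    sq_nonneg _
  set cap := ∑ a ∈ A, S a with hcap
  have hall : ∑ x ∈ box S r, g x ^ 2
      = ∑ x ∈ (box S r).filter (fun x => 2 * ∑ a ∈ A, x a ≤ cap), g x ^ 2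
        + ∑ x ∈ (box S r).filter (fun x => ¬ 2 * ∑ a ∈ A, x a ≤ cap), g x ^ 2 :=
    (sum_filter_add_sum_filter_not _ _ _).symm
  have hlow := s1_levels S r A (fun x => g x ^ 2) (fun k => 2 * k ≤ cap)
  have hhigh := s1_levels S r A (fun x => g x ^ 2) (fun k => ¬ 2 * k ≤ cap)
  have hen : ∑ x ∈ box S r, s1E S A g x
      = ∑ k ∈ range (r + 1), ∑ x ∈ s1L S r A k, s1E S A g x := by
    have h := s1_levels S r A (s1E S A g) (fun _ => True)
    simp only [Finset.filter_true] at h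
    exact h
  set T := ∑ k ∈ range (r + 1), ∑ x ∈ s1L S r A k, s1E S A g x with hT
  have hT0 : 0 ≤ T := sum_nonneg fun k _ => sum_nonneg fun x _ => hE0 x
  have hgoal : ∑ x ∈ box S r, ∑ a ∈ A.filter (fun a => 0 < x a),
            ∑ d ∈ univ.filter (fun d => d ∉ A ∧ x d < S d), (g x - g (x - e a + e d)) ^ 2 = T := by
    rw [← hen]
    rfl
  rw [hgoal, hall]
  have hb : ∀ k ∈ (range (r + 1)).filter (fun k => ¬ 2 * k ≤ cap),
      ∑ x ∈ s1L S r A k, g x ^ 2
        ≤ 2 * (if k ≤ cap then ∑ x ∈ s1L S r A (cap - k), g x ^ 2 else 0)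
          + 2 * ((r : ℝ) + 1) * T := by
    intro k hk
    rw [mem_filter, mem_range] at hk
    by_cases hkc : k ≤ cap
    · rw [if_pos hkc]
      exact s1_level S r r2 hS hr A g k (by omega) hkc (by omega)
    · rw [if_neg hkc]
      have : s1L S r A k = ∅ := by
        rw [s1L, filter_eq_empty_iff]
        intro x hx h
        rw [mem_box] at hx
        have : ∑ a ∈ A, x a ≤ ∑ a ∈ A, S a := sum_le_sum fun a _ => hx.1 a
        omega
      rw [this, sum_empty]
      positivity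
  have hsum := sum_le_sum hb
  rw [← hhigh, sum_add_distrib, ← Finset.mul_sum, sum_const, nsmul_eq_mul] at hsum
  have hcardf : (((range (r + 1)).filter (fun k => ¬ 2 * k ≤ cap)).card : ℝ) ≤ (r : ℝ) + 1 := by
    have h1 : ((range (r + 1)).filter (fun k => ¬ 2 * k ≤ cap)).card ≤ r + 1 := by
      refine (card_filter_le _ _).trans ?_
      rw [card_range]
    exact_mod_cast h1
  have hrefl : ∑ k ∈ (range (r + 1)).filter (fun k => ¬ 2 * k ≤ cap),
      (if k ≤ cap then ∑ x ∈ s1L S r A (cap - k), g x ^ 2 else 0)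
      ≤ ∑ x ∈ (box S r).filter (fun x => 2 * ∑ a ∈ A, x a ≤ cap), g x ^ 2 := by
    rw [hlow, ← sum_filter]
    have himg : ∑ k ∈ ((range (r + 1)).filter (fun k => ¬ 2 * k ≤ cap)).filter (fun k => k ≤ cap),
        ∑ x ∈ s1L S r A (cap - k), g x ^ 2
        = ∑ k ∈ (((range (r + 1)).filter (fun k => ¬ 2 * k ≤ cap)).filter
            (fun k => k ≤ cap)).image (fun k => cap - k), ∑ x ∈ s1L S r A k, g x ^ 2 := by
      rw [sum_image]
      intro a ha b hb h
      simp only [coe_filter, Set.mem_ofPred_eq, mem_filter] at ha hb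
      simp only at h
      omega
    rw [himg]
    refine sum_le_sum_of_subset_of_nonneg ?_ fun k _ _ => sum_nonneg fun x _ => sq_nonneg _
    intro k hk
    rw [mem_image] at hk
    obtain ⟨a, ha, rfl⟩ := hk
    rw [mem_filter, mem_filter, mem_range] at ha
    rw [mem_filter, mem_range]
    omega
  have h6 : (((range (r + 1)).filter (fun k => ¬ 2 * k ≤ cap)).card : ℝ)
      * (2 * ((r : ℝ) + 1) * T) ≤ 2 * ((r : ℝ) + 1) ^ 2 * T := by
    calc _ ≤ ((r : ℝ) + 1) * (2 * ((r : ℝ) + 1) * T) :=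
        mul_le_mul_of_nonneg_right hcardf (by positivity)
      _ = _ := by ring
  linarith

end CT
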