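import Vale.Agent.CT.BStarA

/-! # The inequality `‖L_k F‖² ≤ C A_k(F)` (piece STAR)

`∑_b N2 (y - e b) G_b = N2 y (∑_{b ∈ sp y} G_b) - ∑_{b ∈ sp y} (N2 y - N2 (y - e b)) G_b`; cnt6 bounds the
second sum by `HL`; `HL ≤ hardy_small + (2n/r2)² PL` (`y_b + 1 ≥ r2/(2n)`), `pk` (`b ≠ s`), `PL_last`
(`b = s`, `s` a largest column), `(r+1)²/r2² ≤ 4`, `DL_le`, `KL_le`, `div_le`. -/

namespace CT

open Finset
open scoped Classical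

variable {J : Type} [Fintype J] [DecidableEq J]

theorem HL_le (v : J → ℕ) (r1 r2 r : ℕ) (hv : sz v = r1 + r2 + r) (h1 : 2 ≤ r1) (h21 : r2 ≤ r1)
    (hr : r ≤ r2) (b : J) (F : (J → ℕ) → ℝ) :
    HL v r2 r b (fun x => GG F x b)
      ≤ 10 ^ 5 * ((Fintype.card J : ℝ) + 1) ^ 8 * lg (sz v) ^ 2 * AA v r2 r F := by
  exact HL_le_A v r1 r2 r hv h1 h21 hr b F

theorem star (v : J → ℕ) (r1 r2 r : ℕ) (hv : sz v = r1 + r2 + r) (h1 : 2 ≤ r1) (h21 : r2 ≤ r1)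
    (hr : r ≤ r2) (F : (J → ℕ) → ℝ) :
    SS v r2 r F ≤ 10 ^ 7 * ((Fintype.card J : ℝ) + 1) ^ 11 * lg (sz v) ^ 2 * AA v r2 r F := by
  exact star_A v r1 r2 r hv h1 h21 hr F

end CT
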