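import Vale.Agent.CT.BPk
import Vale.Agent.CT.BHd
import Vale.Agent.CT.BEn

/-! # Proofs for the piece STAR -/

namespace CT

open Finset
open scoped Classical

variable {J : Type} [Fintype J] [DecidableEq J]

theorem st_lg_one (N : ℕ) : 1 ≤ lg N := by
  rw [lg]
  have : 0 ≤ Real.log ((N : ℝ) + 1) :=
    Real.log_nonneg (by have := (Nat.cast_nonneg N : (0 : ℝ) ≤ N); linarith)
  linarith

theorem st_KD (v : J → ℕ) (r1 r2 r : ℕ) (hv : sz v = r1 + r2 + r) (h1 : 2 ≤ r1) (b : J)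
    (F : (J → ℕ) → ℝ) :
    KL v r2 r b (fun x => GG F x b) + DL v r2 r b (fun x => GG F x b)
      ≤ 5 * ((Fintype.card J : ℝ) + 1) ^ 3 * AA v r2 r F := by
  have h2 := DL_le v r1 r2 r hv h1 b F
  have h3 := KL_le v r1 r2 r hv h1 b F
  linarith

theorem st_PL (v : J → ℕ) (r1 r2 r : ℕ) (hv : sz v = r1 + r2 + r) (h1 : 2 ≤ r1)
    (hr : r ≤ r2) (b : J) (F : (J → ℕ) → ℝ) :
    PL v r2 r b (fun x => GG F x b)
      ≤ 200 * (Fintype.card J : ℝ) ^ 2 * ((Fintype.card J : ℝ) + 1) ^ 4 * ((r : ℝ) + 1) ^ 2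
        * AA v r2 r F := by
  set n := (Fintype.card J : ℝ) with hndef
  have hn : 1 ≤ n := by
    have : 0 < Fintype.card J := Fintype.card_pos_iff.2 ⟨b⟩
    rw [hndef]
    exact_mod_cast this
  have hn0 : 0 ≤ n := by linarith
  have hA := pp_AA_nonneg v r2 r F
  have key : ∀ b s : J, b ≠ s → v b ≤ v s → PL v r2 r b (fun x => GG F x b)
      ≤ 100 * (n + 1) ^ 4 * ((r : ℝ) + 1) ^ 2 * AA v r2 r F := by
    intro b s hbs hvb
    have h := pk v r1 r2 r hv (by omega) hr b s hbs hvb (fun x => GG F x b)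
    have h2 := st_KD v r1 r2 r hv h1 b F
    rw [← hndef] at h h2
    calc _ ≤ _ := h
      _ ≤ 20 * (n + 1) * ((r : ℝ) + 1) ^ 2 * (5 * (n + 1) ^ 3 * AA v r2 r F) :=
          mul_le_mul_of_nonneg_left h2 (by positivity)
      _ = _ := by ring
  have : Nonempty J := ⟨b⟩
  obtain ⟨s, hs⟩ := Finite.exists_max v
  set P := 100 * (n + 1) ^ 4 * ((r : ℝ) + 1) ^ 2 * AA v r2 r F with hP
  have hP0 : 0 ≤ P := by positivity
  by_cases hbs : b = s
  · subst hbs
    have h := PL_last v r1 r2 r hv b F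
    rw [← hndef] at h
    have h3 : ∑ d ∈ univ.erase b, PL v r2 r d (fun x => GG F x d) ≤ n * P := by
      calc ∑ d ∈ univ.erase b, PL v r2 r d (fun x => GG F x d) ≤ ∑ d ∈ univ.erase b, P :=
            Finset.sum_le_sum fun d hd => key d b (Finset.ne_of_mem_erase hd) (hs d)
        _ = ((univ.erase b).card : ℝ) * P := by rw [Finset.sum_const, nsmul_eq_mul]
        _ ≤ n * P := by
          apply mul_le_mul_of_nonneg_right _ hP0
          rw [hndef]
          exact_mod_cast Finset.card_le_univ _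
    calc _ ≤ _ := h
      _ ≤ 2 * n * (n * P) := mul_le_mul_of_nonneg_left h3 (by positivity)
      _ = _ := by rw [hP]; ring
  · have h := key b s hbs (hs b)
    have h4 : (1 : ℝ) ≤ 2 * n ^ 2 := by nlinarith
    calc _ ≤ P := h
      _ = 1 * P := (one_mul P).symm
      _ ≤ (2 * n ^ 2) * P := mul_le_mul_of_nonneg_right h4 hP0
      _ = _ := by rw [hP]; ring

theorem HL_le_A (v : J → ℕ) (r1 r2 r : ℕ) (hv : sz v = r1 + r2 + r) (h1 : 2 ≤ r1) (h21 : r2 ≤ r1)
    (hr : r ≤ r2) (b : J) (F : (J → ℕ) → ℝ) :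
    HL v r2 r b (fun x => GG F x b)
      ≤ 10 ^ 5 * ((Fintype.card J : ℝ) + 1) ^ 8 * lg (sz v) ^ 2 * AA v r2 r F := by
  have hA := pp_AA_nonneg v r2 r F
  have hL := st_lg_one (sz v)
  have hs := hardy_small v r1 r2 r hv (by omega) h21 hr b (fun x => GG F x b)
  have hkd := st_KD v r1 r2 r hv h1 b F
  have hPL := st_PL v r1 r2 r hv h1 hr b F
  have hcard : 0 < Fintype.card J := Fintype.card_pos_iff.2 ⟨b⟩
  rw [HL, ← Finset.sum_filter_add_sum_filter_not ((box v r).filter (fun x => x b < v b))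
    (fun x => 2 * Fintype.card J * (v b - x b) ≤ r2), Finset.filter_filter]
  set n := (Fintype.card J : ℝ) with hndef
  have hn : 1 ≤ n := by
    rw [hndef]
    exact_mod_cast hcard
  have hn0 : 0 ≤ n := by linarith
  have hr20 : (0 : ℝ) < (r2 : ℝ) + 1 := by positivity
  set q := 2 * n / ((r2 : ℝ) + 1) with hq
  have hq0 : 0 ≤ q := by positivity
  have h2 : ∑ x ∈ ((box v r).filter (fun x => x b < v b)).filter
      (fun x => ¬ 2 * Fintype.card J * (v b - x b) ≤ r2),
      N2 r2 (v - x) * (GG F x b) ^ 2 / (((v - x) b : ℝ) + 1) ^ 2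
      ≤ q ^ 2 * PL v r2 r b (fun x => GG F x b) := by
    rw [PL, Finset.mul_sum]
    refine (Finset.sum_le_sum (g := fun x => q ^ 2 * (N2 r2 (v - x) * GG F x b ^ 2)) ?_).trans
      (Finset.sum_le_sum_of_subset_of_nonneg (Finset.filter_subset _ _) ?_)
    · intro x hx
      rw [Finset.mem_filter, Finset.mem_filter] at hx
      have hx2 : r2 + 1 ≤ 2 * Fintype.card J * (v b - x b) := by omega
      have hx3 : (r2 : ℝ) + 1 ≤ 2 * n * (((v - x) b : ℝ)) := by
        have : ((v - x) b : ℕ) = v b - x b := rfl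
        rw [this, hndef]
        exact_mod_cast hx2
      set t := (((v - x) b : ℝ)) with ht
      have ht0 : 0 ≤ t := by rw [ht]; positivity
      rw [div_le_iff₀ (by positivity)]
      have h5 : 1 ≤ q * (t + 1) := by
        rw [hq, div_mul_eq_mul_div, le_div_iff₀ hr20]
        nlinarith
      have h6 : 1 ≤ q ^ 2 * (t + 1) ^ 2 := by
        have := one_le_pow₀ h5 (n := 2)
        rwa [mul_pow] at this
      have h7 : 0 ≤ N2 r2 (v - x) * GG F x b ^ 2 := mul_nonneg (pp_N2_nonneg _ _) (sq_nonneg _)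
      nlinarith [mul_le_mul_of_nonneg_right h6 h7]
    · intro x _ _
      exact mul_nonneg (sq_nonneg _) (mul_nonneg (pp_N2_nonneg _ _) (sq_nonneg _))
  have h3 : q ^ 2 * PL v r2 r b (fun x => GG F x b) ≤ 800 * (n + 1) ^ 8 * AA v r2 r F := by
    have h8 : q * ((r : ℝ) + 1) ≤ 2 * n := by
      rw [hq, div_mul_eq_mul_div, div_le_iff₀ hr20]
      have : (r : ℝ) ≤ r2 := by exact_mod_cast hr
      exact mul_le_mul_of_nonneg_left (by linarith) (by positivity)
    have h9 : q ^ 2 * ((r : ℝ) + 1) ^ 2 ≤ 4 * n ^ 2 := by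
      have := pow_le_pow_left₀ (by positivity) h8 2
      rw [mul_pow, mul_pow] at this
      linarith
    calc q ^ 2 * PL v r2 r b (fun x => GG F x b)
        ≤ q ^ 2 * (200 * n ^ 2 * (n + 1) ^ 4 * ((r : ℝ) + 1) ^ 2 * AA v r2 r F) :=
          mul_le_mul_of_nonneg_left hPL (sq_nonneg _)
      _ = (q ^ 2 * ((r : ℝ) + 1) ^ 2) * (200 * n ^ 2 * (n + 1) ^ 4 * AA v r2 r F) := by ring
      _ ≤ (4 * n ^ 2) * (200 * n ^ 2 * (n + 1) ^ 4 * AA v r2 r F) :=
          mul_le_mul_of_nonneg_right h9 (by positivity)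
      _ = 800 * (n ^ 4 * ((n + 1) ^ 4 * AA v r2 r F)) := by ring
      _ ≤ 800 * ((n + 1) ^ 4 * ((n + 1) ^ 4 * AA v r2 r F)) := by
          have : n ^ 4 ≤ (n + 1) ^ 4 := pow_le_pow_left₀ hn0 (by linarith) 4
          have h10 : 0 ≤ (n + 1) ^ 4 * AA v r2 r F := by positivity
          nlinarith [mul_le_mul_of_nonneg_right this h10]
      _ = _ := by ring
  have h4 : 1000 * n * lg (sz v) ^ 2 * (KL v r2 r b (fun x => GG F x b)
      + DL v r2 r b (fun x => GG F x b)) ≤ 5000 * (n + 1) ^ 8 * lg (sz v) ^ 2 * AA v r2 r F := by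
    calc _ ≤ 1000 * n * lg (sz v) ^ 2 * (5 * (n + 1) ^ 3 * AA v r2 r F) :=
          mul_le_mul_of_nonneg_left hkd (by positivity)
      _ = (n * (n + 1) ^ 3) * (5000 * lg (sz v) ^ 2 * AA v r2 r F) := by ring
      _ ≤ (n + 1) ^ 8 * (5000 * lg (sz v) ^ 2 * AA v r2 r F) := by
          apply mul_le_mul_of_nonneg_right _ (by positivity)
          calc n * (n + 1) ^ 3 ≤ (n + 1) * (n + 1) ^ 3 :=
                mul_le_mul_of_nonneg_right (by linarith) (by positivity)
            _ = (n + 1) ^ 4 := by ring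
            _ ≤ (n + 1) ^ 8 := pow_le_pow_right₀ (by linarith) (by norm_num)
      _ = _ := by ring
  have hL2 : 1 ≤ lg (sz v) ^ 2 := one_le_pow₀ hL
  have h5 : 800 * (n + 1) ^ 8 * AA v r2 r F
      ≤ 800 * (n + 1) ^ 8 * lg (sz v) ^ 2 * AA v r2 r F := by
    have h11 : 0 ≤ 800 * (n + 1) ^ 8 * AA v r2 r F := by positivity
    nlinarith [mul_le_mul_of_nonneg_left hL2 h11]
  have h12 : 0 ≤ (n + 1) ^ 8 * lg (sz v) ^ 2 * AA v r2 r F := by positivity
  have hs' : ∑ x ∈ (box v r).filter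
      (fun x => x b < v b ∧ 2 * Fintype.card J * (v b - x b) ≤ r2),
      N2 r2 (v - x) * (GG F x b) ^ 2 / (((v - x) b : ℝ) + 1) ^ 2
      ≤ 5000 * (n + 1) ^ 8 * lg (sz v) ^ 2 * AA v r2 r F := hs.trans h4
  have h13 := add_le_add hs' (h2.trans (h3.trans h5))
  refine h13.trans ?_
  nlinarith

theorem star_A (v : J → ℕ) (r1 r2 r : ℕ) (hv : sz v = r1 + r2 + r) (h1 : 2 ≤ r1) (h21 : r2 ≤ r1)
    (hr : r ≤ r2) (F : (J → ℕ) → ℝ) :
    SS v r2 r F ≤ 10 ^ 7 * ((Fintype.card J : ℝ) + 1) ^ 11 * lg (sz v) ^ 2 * AA v r2 r F := by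
  have hA := pp_AA_nonneg v r2 r F
  have hL := st_lg_one (sz v)
  have hL2 : 1 ≤ lg (sz v) ^ 2 := one_le_pow₀ hL
  set n := (Fintype.card J : ℝ) with hndef
  have hn0 : 0 ≤ n := by rw [hndef]; positivity
  set H := 10 ^ 5 * (n + 1) ^ 8 * lg (sz v) ^ 2 * AA v r2 r F with hH
  have hH0 : 0 ≤ H := by positivity
  have hHL : ∀ b, HL v r2 r b (fun x => GG F x b) ≤ H := fun b =>
    HL_le_A v r1 r2 r hv h1 h21 hr b F
  have hdiv := div_le v r1 r2 r hv (by omega) F
  rw [← hndef] at hdiv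
  -- pointwise
  have hpt : ∀ x ∈ box v r,
      (∑ b, if e b ≤ v - x then N2 r2 (v - x - e b) * GG F x b else 0) ^ 2 / N2 r2 (v - x)
      ≤ 2 * (N2 r2 (v - x) * (∑ b ∈ sp (v - x), GG F x b) ^ 2)
        + 2 * n * ∑ b, (if x b < v b then
            N2 r2 (v - x) * GG F x b ^ 2 / (((v - x) b : ℝ) + 1) ^ 2 else 0) := by
    intro x hx
    rw [mem_box] at hx
    have hy : sz (v - x) = r1 + r2 := by
      have := sz_sub_add hx.1
      omega
    set y := v - x with hydef
    set N := N2 r2 y with hN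
    have hNpos : 0 < N := N2_pos (by omega)
    have e1 : (∑ b, if e b ≤ y then N2 r2 (y - e b) * GG F x b else 0)
        = N * (∑ b ∈ sp y, GG F x b) - ∑ b ∈ sp y, (N - N2 r2 (y - e b)) * GG F x b := by
      have : ∀ b, e b ≤ y ↔ 0 < y b := fun b => e_le_iff
      simp only [this]
      rw [← Finset.sum_filter, ← sp, Finset.mul_sum, ← Finset.sum_sub_distrib]
      refine Finset.sum_congr rfl fun b _ => by ring
    set S1 := ∑ b ∈ sp y, GG F x b with hS1
    set S2 := ∑ b ∈ sp y, (N - N2 r2 (y - e b)) * GG F x b with hS2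
    have e2 : S2 ^ 2 ≤ N ^ 2 * (n * ∑ b ∈ sp y, GG F x b ^ 2 / ((y b : ℝ) + 1) ^ 2) := by
      have h6 : |S2| ≤ ∑ b ∈ sp y, N * (|GG F x b| / ((y b : ℝ) + 1)) := by
        refine (Finset.abs_sum_le_sum_abs _ _).trans (Finset.sum_le_sum fun b hb => ?_)
        have hb' : 0 < y b := mem_sp.1 hb
        have h7 := cnt6 y r1 r2 hy h21 b hb'
        rw [← hN] at h7
        have h8 : 0 ≤ N - N2 r2 (y - e b) := by
          rw [hN]
          have := pp_N2_mono (r2 := r2) (tsub_le_self : y - e b ≤ y)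
          linarith
        rw [abs_mul, abs_of_nonneg h8]
        have h9 : N - N2 r2 (y - e b) ≤ N / ((y b : ℝ) + 1) := by
          rw [le_div_iff₀ (by positivity)]
          linarith
        calc (N - N2 r2 (y - e b)) * |GG F x b| ≤ N / ((y b : ℝ) + 1) * |GG F x b| :=
              mul_le_mul_of_nonneg_right h9 (abs_nonneg _)
          _ = _ := by ring
      rw [← Finset.mul_sum] at h6
      have h10 : S2 ^ 2 ≤ (N * ∑ b ∈ sp y, |GG F x b| / ((y b : ℝ) + 1)) ^ 2 := by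
        rw [← sq_abs S2]
        exact pow_le_pow_left₀ (abs_nonneg _) h6 2
      refine h10.trans ?_
      rw [mul_pow]
      apply mul_le_mul_of_nonneg_left _ (sq_nonneg _)
      have h11 := sq_sum_le_card_mul_sum_sq (s := sp y)
        (f := fun b => |GG F x b| / ((y b : ℝ) + 1))
      refine h11.trans ?_
      have h12 : ∑ b ∈ sp y, (|GG F x b| / ((y b : ℝ) + 1)) ^ 2
          = ∑ b ∈ sp y, GG F x b ^ 2 / ((y b : ℝ) + 1) ^ 2 :=
        Finset.sum_congr rfl fun b _ => by rw [div_pow, sq_abs]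
      rw [h12]
      apply mul_le_mul_of_nonneg_right
      · rw [hndef]
        exact_mod_cast Finset.card_le_univ _
      · exact Finset.sum_nonneg fun b _ => by positivity
    have e3 : ∑ b, (if x b < v b then N * GG F x b ^ 2 / ((y b : ℝ) + 1) ^ 2 else 0)
        = N * ∑ b ∈ sp y, GG F x b ^ 2 / ((y b : ℝ) + 1) ^ 2 := by
      have h13 : ∀ b, x b < v b ↔ 0 < y b := fun b => by
        rw [hydef, Pi.sub_apply]
        omega
      simp only [h13]
      rw [← Finset.sum_filter, ← sp, Finset.mul_sum]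
      refine Finset.sum_congr rfl fun b _ => by ring
    rw [e1, e3, div_le_iff₀ hNpos]
    nlinarith [sq_nonneg (N * S1 + S2)]
  have hsum : SS v r2 r F ≤ 2 * (∑ x ∈ box v r, N2 r2 (v - x) * (∑ b ∈ sp (v - x), GG F x b) ^ 2)
      + 2 * n * ∑ b, HL v r2 r b (fun x => GG F x b) := by
    rw [SS]
    refine (Finset.sum_le_sum hpt).trans ?_
    rw [Finset.sum_add_distrib, ← Finset.mul_sum, ← Finset.mul_sum]
    have : ∑ x ∈ box v r, ∑ b, (if x b < v b then
            N2 r2 (v - x) * GG F x b ^ 2 / (((v - x) b : ℝ) + 1) ^ 2 else 0)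
        = ∑ b, HL v r2 r b (fun x => GG F x b) := by
      rw [Finset.sum_comm]
      refine Finset.sum_congr rfl fun b _ => ?_
      rw [HL, Finset.sum_filter]
    rw [this]
  have hcardsum : ∀ C : ℝ, ∑ _b : J, C = n * C := fun C => by
    rw [Finset.sum_const, nsmul_eq_mul, hndef, Finset.card_univ]
  have hHsum : ∑ b, HL v r2 r b (fun x => GG F x b) ≤ n * H := by
    rw [← hcardsum]
    exact Finset.sum_le_sum fun b _ => hHL b
  have hEsum : ∑ b, (DL v r2 r b (fun x => GG F x b)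
          + KL v r2 r b (fun x => GG F x b) + HL v r2 r b (fun x => GG F x b))
      ≤ n * (5 * (n + 1) ^ 3 * AA v r2 r F + H) := by
    rw [← hcardsum]
    refine Finset.sum_le_sum fun b _ => ?_
    have := st_KD v r1 r2 r hv h1 b F
    have := hHL b
    linarith
  have f1 : 5 * (n + 1) ^ 3 * AA v r2 r F ≤ H := by
    rw [hH]
    have h14 : (n + 1) ^ 3 ≤ (n + 1) ^ 8 := pow_le_pow_right₀ (by linarith) (by norm_num)
    calc 5 * (n + 1) ^ 3 * AA v r2 r F ≤ 5 * (n + 1) ^ 8 * AA v r2 r F := by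
          apply mul_le_mul_of_nonneg_right _ hA
          linarith
      _ = (5 * (n + 1) ^ 8 * AA v r2 r F) * 1 := by ring
      _ ≤ (5 * (n + 1) ^ 8 * AA v r2 r F) * lg (sz v) ^ 2 :=
          mul_le_mul_of_nonneg_left hL2 (by positivity)
      _ ≤ _ := by
          have h15 : 0 ≤ (n + 1) ^ 8 * AA v r2 r F * lg (sz v) ^ 2 := by positivity
          nlinarith
  calc SS v r2 r F
      ≤ 2 * (10 * (n + 1) ^ 2 * (n * (5 * (n + 1) ^ 3 * AA v r2 r F + H))) + 2 * n * (n * H) := by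
        refine hsum.trans (add_le_add ?_ ?_)
        · exact mul_le_mul_of_nonneg_left (hdiv.trans
            (mul_le_mul_of_nonneg_left hEsum (by positivity))) (by norm_num)
        · exact mul_le_mul_of_nonneg_left hHsum (by positivity)
    _ ≤ 2 * (10 * (n + 1) ^ 2 * (n * (H + H))) + 2 * n * (n * H) := by gcongr
    _ = (40 * (n + 1) ^ 2 * n + 2 * n ^ 2) * H := by ring
    _ ≤ (100 * (n + 1) ^ 3) * H := by
        apply mul_le_mul_of_nonneg_right _ hH0
        nlinarith [pow_nonneg hn0 3, pow_nonneg hn0 2]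
    _ = _ := by rw [hH]; ring

end CT
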