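import Vale.Agent.CT.BDefs
import Vale.Agent.CT.GapSec

/-! # Sectioning of `SX` and orthogonality (piece SX) -/

namespace CT

open Finset
open scoped Classical

variable {J : Type} [Fintype J] [DecidableEq J]
variable {K : Type} [Fintype K] [DecidableEq K]

theorem bs_row (c : J → ℕ) (rho : K → ℕ) (r2 : ℕ) (u : (K → J → ℕ) → ℝ) (k : K)
    {z : K → J → ℕ} (hz : z ∈ secs c rho k) (t : J → ℕ) :
    (∑ b, if e b ≤ yy c (Function.update z k t) then
      N2 r2 (yy c (Function.update z k t) - e b) * GK u (Function.update z k t) k b else 0)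
      = ∑ b, if e b ≤ yy c z - t then
        N2 r2 (yy c z - t - e b) * GG (fun s => u (Function.update z k s)) t b else 0 := by
  have h0 := (mem_secs hz).1
  refine Finset.sum_congr rfl fun b _ => ?_
  rw [yy_update c z k h0 t, GK_update]

theorem SX_sec (c : J → ℕ) (rho : K → ℕ) (r2 : ℕ) (u : (K → J → ℕ) → ℝ) (k : K) :
    SX c rho r2 u k = ∑ z ∈ secs c rho k, SS (yy c z) r2 (rho k)
      (fun s => u (Function.update z k s)) := by
  unfold SX
  rw [sum_sec c rho k]
  refine Finset.sum_congr rfl fun z hz => ?_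
  unfold SS
  refine Finset.sum_congr rfl fun t _ => ?_
  rw [bs_row c rho r2 u k hz t, yy_update c z k (mem_secs hz).1 t]

theorem SX_leA (c : J → ℕ) (rho : K → ℕ) (r2 : ℕ) (u : (K → J → ℕ) → ℝ) (k : K) (C : ℝ)
    (h : ∀ v : J → ℕ, v ≤ c → sz v + ∑ l, rho l = sz c + rho k → ∀ F : (J → ℕ) → ℝ,
      SS v r2 (rho k) F ≤ C * AA v r2 (rho k) F) :
    SX c rho r2 u k ≤ C * AX c rho r2 u k := by
  rw [SX_sec, AX_sec, Finset.mul_sum]
  refine Finset.sum_le_sum fun z hz => ?_
  exact h (yy c z) (fun j => Nat.sub_le _ _) (sz_yy_sec hz) _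

theorem bs_zero (v : J → ℕ) (r2 r : ℕ) (F : (J → ℕ) → ℝ) :
    ∑ t ∈ box v r, (∑ b, if e b ≤ v - t then N2 r2 (v - t - e b) * GG F t b else 0) = 0 := by
  have h := reidx1 v r (fun (t : J → ℕ) (b : J) => N2 r2 (v - t - e b) * GG F t b)
  rw [h]
  refine Finset.sum_eq_zero fun w _ => ?_
  have h2 : ∀ b ∈ sp w, N2 r2 (v - (w - e b) - e b) * GG F (w - e b) b
      = N2 r2 (v - w) * (DD F w - F (w - e b)) := by
    intro b hb
    rw [gx_sub_sub_e hb, gx_GG_at _ hb]
  rw [Finset.sum_congr rfl h2, ← Finset.mul_sum, gx_sum_sub_DD, mul_zero]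

theorem LK_orthA (c : J → ℕ) (rho : K → ℕ) (r2 : ℕ) (h φ : (K → J → ℕ) → ℝ) (k : K)
    (hφ : ∀ x x' : K → J → ℕ, (∀ l, l ≠ k → x l = x' l) → φ x = φ x') :
    ∑ x ∈ XX c rho, (∑ b, if e b ≤ yy c x then N2 r2 (yy c x - e b) * GK h x k b else 0) * φ x
      = 0 := by
  rw [sum_sec c rho k]
  refine Finset.sum_eq_zero fun z hz => ?_
  have h1 : ∀ t, φ (Function.update z k t) = φ z := by
    intro t
    refine hφ _ _ fun l hl => ?_
    rw [Function.update_of_ne hl]
  have h2 : ∀ t ∈ box (yy c z) (rho k),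
      (∑ b, if e b ≤ yy c (Function.update z k t) then
        N2 r2 (yy c (Function.update z k t) - e b) * GK h (Function.update z k t) k b else 0)
        * φ (Function.update z k t)
      = (∑ b, if e b ≤ yy c z - t then
        N2 r2 (yy c z - t - e b) * GG (fun s => h (Function.update z k s)) t b else 0) * φ z := by
    intro t _
    rw [bs_row c rho r2 h k hz t, h1]
  rw [Finset.sum_congr rfl h2, ← Finset.sum_mul, bs_zero, zero_mul]

end CT
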