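import Vale.Agent.CT.BDefs
import Vale.Agent.CT.GapX

/-! # Approximate tensorization (piece TEN): the duality argument -/

namespace CT

open Finset
open scoped Classical

variable {J : Type} [Fintype J] [DecidableEq J]
variable {K : Type} [Fintype K] [DecidableEq K]

/-- the `k`-th part of the generator -/
noncomputable def LK12 (c : J → ℕ) (r2 : ℕ) (h : (K → J → ℕ) → ℝ) (k : K) (x : K → J → ℕ) : ℝ :=
  ∑ b, if e b ≤ yy c x then N2 r2 (yy c x - e b) * GK h x k b else 0

theorem CX_indep12 (c : J → ℕ) (rho : K → ℕ) (r2 : ℕ) (k : K) (u : (K → J → ℕ) → ℝ)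
    (x x' : K → J → ℕ) (h : ∀ l, l ≠ k → x l = x' l) :
    CX c rho r2 k u x = CX c rho r2 k u x' := by
  unfold CX
  have h1 : (XX c rho).filter (fun z => ∀ l, l ≠ k → z l = x l)
      = (XX c rho).filter (fun z => ∀ l, l ≠ k → z l = x' l) := by
    ext z
    simp only [Finset.mem_filter]
    constructor
    · rintro ⟨h2, h3⟩
      exact ⟨h2, fun l hl => (h3 l hl).trans (h l hl)⟩
    · rintro ⟨h2, h3⟩
      exact ⟨h2, fun l hl => (h3 l hl).trans (h l hl).symm⟩
  rw [h1]

theorem tenA (c : J → ℕ) (rho : K → ℕ) (r1 r2 : ℕ) (hc : sz c = r1 + r2 + ∑ k, rho k)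
    (h2 : 2 ≤ r1) (C : ℝ) (hC : 0 ≤ C)
    (hSX : ∀ (h : (K → J → ℕ) → ℝ) (k : K), SX c rho r2 h k ≤ C * AX c rho r2 h k)
    (horth : ∀ (h φ : (K → J → ℕ) → ℝ) (k : K),
      (∀ x x' : K → J → ℕ, (∀ l, l ≠ k → x l = x' l) → φ x = φ x') →
      ∑ x ∈ XX c rho, LK12 c r2 h k x * φ x = 0)
    (u : (K → J → ℕ) → ℝ) :
    (∑ x ∈ XX c rho, N2 r2 (yy c x)) * (∑ x ∈ XX c rho, N2 r2 (yy c x) * u x ^ 2)
      - (∑ x ∈ XX c rho, N2 r2 (yy c x) * u x) ^ 2
      ≤ C * (∑ x ∈ XX c rho, N2 r2 (yy c x)) * ∑ k, VX c rho r2 u k := by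
  have hw : ∀ x ∈ XX c rho, 0 < N2 r2 (yy c x) := by
    intro x hx
    refine N2_pos ?_
    rw [gx_sz_yy hx hc]
    omega
  have hmul : ∀ (u : (K → J → ℕ) → ℝ), ∀ x ∈ XX c rho,
      N2 r2 (yy c x) * Lmap c r2 u x = LX c r2 u x := by
    intro u x hx
    have h := (hw x hx).ne'
    show N2 r2 (yy c x) * (LX c r2 u x / N2 r2 (yy c x)) = LX c r2 u x
    field_simp
  have hform : ∀ u : (K → J → ℕ) → ℝ,
      - ∑ x ∈ XX c rho, N2 r2 (yy c x) * (u x * Lmap c r2 u x) = ∑ k, EX c rho r2 u k := by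
    intro u
    rw [← LX_formA]
    congr 1
    refine Finset.sum_congr rfl fun x hx => ?_
    rw [← hmul u x hx]
    ring
  set T : ℝ := ∑ x ∈ XX c rho, N2 r2 (yy c x) with hT
  rcases (XX c rho).eq_empty_or_nonempty with hemp | hne
  · rw [hT, hemp]
    simp
  have hTpos : 0 < T := by
    rw [hT]
    exact Finset.sum_pos hw hne
  set m : ℝ := (∑ x ∈ XX c rho, N2 r2 (yy c x) * u x) / T with hm
  have hmT : ∑ x ∈ XX c rho, N2 r2 (yy c x) * u x = m * T := by
    rw [hm]; field_simp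
  set φ : (K → J → ℕ) → ℝ := fun x => u x - m with hφ
  have hφ0 : ∑ x ∈ XX c rho, N2 r2 (yy c x) * φ x = 0 := by
    have : ∀ x ∈ XX c rho, N2 r2 (yy c x) * φ x
        = N2 r2 (yy c x) * u x - m * N2 r2 (yy c x) := fun x _ => by rw [hφ]; ring
    rw [Finset.sum_congr rfl this, Finset.sum_sub_distrib, ← Finset.mul_sum, hmT, ← hT]
    ring
  set A : ℝ := ∑ x ∈ XX c rho, N2 r2 (yy c x) * φ x ^ 2 with hA
  have hA0 : 0 ≤ A := Finset.sum_nonneg fun x hx => mul_nonneg (hw x hx).le (sq_nonneg _)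
  have hvar : T * (∑ x ∈ XX c rho, N2 r2 (yy c x) * u x ^ 2)
      - (∑ x ∈ XX c rho, N2 r2 (yy c x) * u x) ^ 2 = T * A := by
    have h3 : A = (∑ x ∈ XX c rho, N2 r2 (yy c x) * u x ^ 2) - m ^ 2 * T := by
      have : ∀ x ∈ XX c rho, N2 r2 (yy c x) * φ x ^ 2
          = N2 r2 (yy c x) * u x ^ 2 - 2 * m * (N2 r2 (yy c x) * u x)
            + m ^ 2 * N2 r2 (yy c x) := fun x _ => by rw [hφ]; ring
      rw [hA, Finset.sum_congr rfl this, Finset.sum_add_distrib, Finset.sum_sub_distrib,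
        ← Finset.mul_sum, ← Finset.mul_sum, hmT, ← hT]
      ring
    rw [h3, hmT]; ring
  rw [hvar]
  -- solve `L h = φ`
  obtain ⟨h, hh⟩ := solve (XX c rho) (fun x => N2 r2 (yy c x)) hw (Lmap c r2)
    (by
      intro u v huv x hx
      show LX c r2 u x / _ = LX c r2 v x / _
      congr 1
      unfold LX
      refine Finset.sum_congr rfl fun k _ => ?_
      refine Finset.sum_congr rfl fun b _ => ?_
      by_cases hb : e b ≤ yy c x
      · rw [if_pos hb, if_pos hb]
        congr 1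
        unfold GK GG DD
        beta_reduce
        rw [Function.update_eq_self, huv x hx]
        congr 2
        refine Finset.sum_congr rfl fun a ha => ?_
        exact huv _ (gx_move_mem hx hb ha)
      · rw [if_neg hb, if_neg hb])
    (by
      intro u v
      have h1 : ∑ x ∈ XX c rho, N2 r2 (yy c x) * (Lmap c r2 u x * v x) =
          ∑ x ∈ XX c rho, LX c r2 u x * v x := by
        refine Finset.sum_congr rfl fun x hx => ?_
        rw [← hmul u x hx]; ring
      have h2 : ∑ x ∈ XX c rho, N2 r2 (yy c x) * (u x * Lmap c r2 v x) =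
          ∑ x ∈ XX c rho, u x * LX c r2 v x := by
        refine Finset.sum_congr rfl fun x hx => ?_
        rw [← hmul v x hx]; ring
      rw [h1, h2]
      exact LX_symmA c rho r2 u v)
    (by
      intro x hx
      show LX c r2 (fun _ => 1) x / _ = 0
      have h1 : LX c r2 (fun _ : K → J → ℕ => (1:ℝ)) x = 0 := by
        unfold LX
        refine Finset.sum_eq_zero fun k _ => Finset.sum_eq_zero fun b _ => ?_
        split_ifs
        · have h3 : GK (fun _ : K → J → ℕ => (1:ℝ)) x k b = 0 := by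
            unfold GK GG DD
            have h4 : 0 < (sp (x k + e b)).card := by
              rw [Finset.card_pos]
              refine ⟨b, mem_sp.2 ?_⟩
              simp [e]
            have h5 : ((sp (x k + e b)).card : ℝ) ≠ 0 := by exact_mod_cast h4.ne'
            rw [Finset.sum_const, nsmul_eq_mul, mul_one, div_self h5, sub_self]
          rw [h3, mul_zero]
        · rfl
      rw [h1, zero_div])
    (by
      intro u hu
      refine conn c rho r1 r2 hc (by omega) u ?_
      have h1 : ∑ k, EX c rho r2 u k = 0 := by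
        rw [← hform u, neg_eq_zero]
        refine Finset.sum_eq_zero fun x hx => ?_
        rw [hu x hx]; ring
      intro k
      exact (Finset.sum_eq_zero_iff_of_nonneg fun k _ => gx_EX_nonneg c rho r2 u k).1 h1 k
        (Finset.mem_univ k))
    φ hφ0
  have hLX : ∀ x ∈ XX c rho, LX c r2 h x = N2 r2 (yy c x) * φ x := by
    intro x hx
    rw [← hmul h x hx, hh x hx]
  have hLXK : ∀ x, LX c r2 h x = ∑ k, LK12 c r2 h k x := fun x => rfl
  -- `A` as a double sum
  have hA1 : A = ∑ k, ∑ x ∈ XX c rho, LK12 c r2 h k x * (u x - CX c rho r2 k u x) := by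
    have h3 : A = ∑ x ∈ XX c rho, ∑ k, LK12 c r2 h k x * φ x := by
      rw [hA]
      refine Finset.sum_congr rfl fun x hx => ?_
      rw [← Finset.sum_mul, ← hLXK, hLX x hx]
      ring
    rw [h3, Finset.sum_comm]
    refine Finset.sum_congr rfl fun k _ => ?_
    have h4 := horth h (fun x => CX c rho r2 k u x - m) k (fun x x' hxx => by
      show CX c rho r2 k u x - m = CX c rho r2 k u x' - m
      rw [CX_indep12 c rho r2 k u x x' hxx])
    have h5 : ∑ x ∈ XX c rho, LK12 c r2 h k x * φ x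
        = ∑ x ∈ XX c rho, LK12 c r2 h k x * (u x - CX c rho r2 k u x)
          + ∑ x ∈ XX c rho, LK12 c r2 h k x * (CX c rho r2 k u x - m) := by
      rw [← Finset.sum_add_distrib]
      refine Finset.sum_congr rfl fun x _ => ?_
      rw [hφ]; ring
    rw [h5, h4, add_zero]
  -- Cauchy-Schwarz
  have hCS : A ^ 2 ≤ (∑ k, SX c rho r2 h k) * ∑ k, VX c rho r2 u k := by
    rw [hA1]
    have h3 : ∑ k, ∑ x ∈ XX c rho, LK12 c r2 h k x * (u x - CX c rho r2 k u x)
        = ∑ p ∈ (univ : Finset K) ×ˢ XX c rho,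
          LK12 c r2 h p.1 p.2 * (u p.2 - CX c rho r2 p.1 u p.2) := by
      rw [Finset.sum_product]
    have h4 : ∑ k, SX c rho r2 h k = ∑ p ∈ (univ : Finset K) ×ˢ XX c rho,
        LK12 c r2 h p.1 p.2 ^ 2 / N2 r2 (yy c p.2) := by
      rw [Finset.sum_product]
      rfl
    have h5 : ∑ k, VX c rho r2 u k = ∑ p ∈ (univ : Finset K) ×ˢ XX c rho,
        N2 r2 (yy c p.2) * (u p.2 - CX c rho r2 p.1 u p.2) ^ 2 := by
      rw [Finset.sum_product]
      rfl
    rw [h3, h4, h5]
    apply Finset.sum_sq_le_sum_mul_sum_of_sq_eq_mul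
    · intro p hp
      have hx := (hw p.2 (Finset.mem_product.1 hp).2).le
      positivity
    · intro p hp
      have hx := (hw p.2 (Finset.mem_product.1 hp).2).le
      positivity
    · intro p hp
      have hx := (hw p.2 (Finset.mem_product.1 hp).2).ne'
      field_simp
  have hSum : ∑ k, SX c rho r2 h k ≤ C * A := by
    have h3 : ∑ k, SX c rho r2 h k ≤ C * ∑ k, AX c rho r2 h k := by
      rw [Finset.mul_sum]
      exact Finset.sum_le_sum fun k _ => hSX h k
    have h4 := main_ineq c rho r1 r2 hc h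
    have h5 : ∑ x ∈ XX c rho, (LX c r2 h x) ^ 2 / N2 r2 (yy c x) = A := by
      rw [hA]
      refine Finset.sum_congr rfl fun x hx => ?_
      have h6 := (hw x hx).ne'
      rw [hLX x hx]
      field_simp
    rw [h5] at h4
    exact h3.trans (mul_le_mul_of_nonneg_left h4 hC)
  have hV0 : 0 ≤ ∑ k, VX c rho r2 u k := by
    refine Finset.sum_nonneg fun k _ => Finset.sum_nonneg fun x hx => ?_
    exact mul_nonneg (hw x hx).le (sq_nonneg _)
  have hfin : A ≤ C * ∑ k, VX c rho r2 u k := by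
    rcases hA0.eq_or_lt with h0 | hpos
    · rw [← h0]
      exact mul_nonneg hC hV0
    · have h3 : A * A ≤ A * (C * ∑ k, VX c rho r2 u k) := by
        calc A * A = A ^ 2 := by ring
          _ ≤ (∑ k, SX c rho r2 h k) * ∑ k, VX c rho r2 u k := hCS
          _ ≤ (C * A) * ∑ k, VX c rho r2 u k := mul_le_mul_of_nonneg_right hSum hV0
          _ = _ := by ring
      exact le_of_mul_le_mul_left h3 hpos
  calc T * A ≤ T * (C * ∑ k, VX c rho r2 u k) := mul_le_mul_of_nonneg_left hfin hTpos.le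
    _ = _ := by ring

theorem lg_mono12 {a b : ℕ} (h : a ≤ b) : lg a ≤ lg b := by
  unfold lg
  have h1 : (a : ℝ) + 1 ≤ (b : ℝ) + 1 := by
    have : (a : ℝ) ≤ b := by exact_mod_cast h
    linarith
  have h2 : Real.log ((a : ℝ) + 1) ≤ Real.log ((b : ℝ) + 1) :=
    Real.log_le_log (by positivity) h1
  linarith

theorem lg_ge_one12 (a : ℕ) : 1 ≤ lg a := by
  unfold lg
  have h1 : (0 : ℝ) ≤ a := Nat.cast_nonneg a
  have h2 : 0 ≤ Real.log ((a : ℝ) + 1) := Real.log_nonneg (by linarith)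
  linarith

end CT
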