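import Vale.Agent.CT.BStar
import Vale.Agent.CT.GapX
import Vale.Agent.CT.Ten12
import Vale.Agent.CT.BTenS

/-! # Approximate tensorization for the non-hub rows (pieces SX, TEN) -/

namespace CT

open Finset
open scoped Classical

variable {J : Type} [Fintype J] [DecidableEq J]
variable {K : Type} [Fintype K] [DecidableEq K]

/-- SX: sectioning, as in `AX_ge`. -/
theorem SX_le (c : J → ℕ) (rho : K → ℕ) (r2 : ℕ) (u : (K → J → ℕ) → ℝ) (k : K) (C : ℝ)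
    (h : ∀ v : J → ℕ, v ≤ c → sz v + ∑ l, rho l = sz c + rho k → ∀ F : (J → ℕ) → ℝ,
      SS v r2 (rho k) F ≤ C * AA v r2 (rho k) F) :
    SX c rho r2 u k ≤ C * AX c rho r2 u k :=
  SX_leA c rho r2 u k C h

/-- `E_k L_k h = 0` in weak form: `∑ (L_k h) φ` vanishes if `φ` does not depend on row `k`. -/
theorem LK_orth (c : J → ℕ) (rho : K → ℕ) (r2 : ℕ) (h φ : (K → J → ℕ) → ℝ) (k : K)
    (hφ : ∀ x x' : K → J → ℕ, (∀ l, l ≠ k → x l = x' l) → φ x = φ x') :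
    ∑ x ∈ XX c rho, (∑ b, if e b ≤ yy c x then N2 r2 (yy c x - e b) * GK h x k b else 0) * φ x
      = 0 :=
  LK_orthA c rho r2 h φ k hφ

/-- TEN: solve `L h = u - mean` (`solve`, `conn`), then
`‖u‖² = ∑_k ⟨L_k h, u - E_k u⟩ ≤ (∑ SX)^{1/2} (∑ VX)^{1/2}` and `∑ SX ≤ C ∑ AX ≤ C ‖L h‖²` (main_ineq). -/
theorem ten (c : J → ℕ) (rho : K → ℕ) (r1 r2 : ℕ) (hc : sz c = r1 + r2 + ∑ k, rho k)
    (h1 : 2 ≤ r1) (h21 : r2 ≤ r1) (hrho : ∀ k, rho k ≤ r2) (u : (K → J → ℕ) → ℝ) :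
    (∑ x ∈ XX c rho, N2 r2 (yy c x)) * (∑ x ∈ XX c rho, N2 r2 (yy c x) * u x ^ 2)
      - (∑ x ∈ XX c rho, N2 r2 (yy c x) * u x) ^ 2
      ≤ (10 ^ 7 * ((Fintype.card J : ℝ) + 1) ^ 11 * lg (sz c) ^ 2)
        * (∑ x ∈ XX c rho, N2 r2 (yy c x)) * ∑ k, VX c rho r2 u k := by
  refine tenA c rho r1 r2 hc h1 _ (by positivity) ?_
    (fun h φ k hφ => LK_orth c rho r2 h φ k hφ) u
  intro h k
  refine SX_le c rho r2 h k _ fun v hv hsz F => ?_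
  have hle : sz v ≤ sz c := Finset.sum_le_sum (fun j _ => hv j)
  have hvs : sz v = r1 + r2 + rho k := by omega
  refine (star v r1 r2 (rho k) hvs h1 h21 (hrho k) F).trans ?_
  refine mul_le_mul_of_nonneg_right ?_ (gx_AA_nonneg _ _ _ _)
  have h3 : lg (sz v) ^ 2 ≤ lg (sz c) ^ 2 :=
    pow_le_pow_left₀ (by linarith [lg_ge_one12 (sz v)]) (lg_mono12 hle) 2
  exact mul_le_mul_of_nonneg_left h3 (by positivity)

end CT
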