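import Mathlib

/-!
# P328: contingency tables and the switch chain (definitions for the statement)
-/

namespace CTables

open Finset
open scoped Classical

/-- `T` is a contingency table with row sums `r` and column sums `c`. -/
def IsTable {m n : ℕ} (r : Fin m → ℕ) (c : Fin n → ℕ) (T : Fin m → Fin n → ℕ) : Prop :=
  (∀ i, ∑ j, T i j = r i) ∧ (∀ j, ∑ i, T i j = c j)

/-- The finite set `Ω(r,c)` of all contingency tables with these margins (every entry of a table
in column `j` is at most `c j`, so no table is lost; see `mem_tables`). -/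
noncomputable def tables {m n : ℕ} (r : Fin m → ℕ) (c : Fin n → ℕ) :
    Finset (Fin m → Fin n → ℕ) :=
  (Fintype.piFinset fun _ : Fin m => Fintype.piFinset fun j : Fin n => range (c j + 1)).filter
    (IsTable r c)

theorem mem_tables {m n : ℕ} {r : Fin m → ℕ} {c : Fin n → ℕ} {T : Fin m → Fin n → ℕ} :
    T ∈ tables r c ↔ IsTable r c T := by
  unfold tables
  rw [mem_filter]
  refine ⟨fun h => h.2, fun h => ⟨?_, h⟩⟩
  rw [Fintype.mem_piFinset]
  intro i
  rw [Fintype.mem_piFinset]
  intro j
  rw [mem_range, Nat.lt_succ_iff, ← h.2 j]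
  exact single_le_sum (f := fun i => T i j) (fun _ _ => Nat.zero_le _) (mem_univ i)

/-- The proposal of the switch chain for the rows `i, k` and the columns `a, b`: if `i ≠ k` and
the entries `T i a` and `T k b` are positive, move one unit from `(i,a)` to `(i,b)` and one unit
from `(k,b)` to `(k,a)`; otherwise do nothing. -/
noncomputable def move {m n : ℕ} (T : Fin m → Fin n → ℕ) (i k : Fin m) (a b : Fin n) :
    Fin m → Fin n → ℕ :=
  if i ≠ k ∧ 0 < T i a ∧ 0 < T k b then
    fun l j =>
      if l = i then T i j - (if j = a then 1 else 0) + (if j = b then 1 else 0)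
      else if l = k then T k j - (if j = b then 1 else 0) + (if j = a then 1 else 0)
      else T l j
  else T

/-- Transition probability of the lazy switch chain from `T` to `S`: with probability `1/2` stay;
otherwise choose `i, k` among the `m` rows and `a, b` among the `n` columns, uniformly and
independently, and make the proposed move. -/
noncomputable def trans {m n : ℕ} (T S : Fin m → Fin n → ℕ) : ℝ :=
  (1 / 2) * (if S = T then 1 else 0) +
    (1 / 2) * ((univ.filter fun q : (Fin m × Fin m) × (Fin n × Fin n) =>
      move T q.1.1 q.1.2 q.2.1 q.2.2 = S).card / ((m : ℝ) ^ 2 * (n : ℝ) ^ 2))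

/-- The law of the chain after `t` steps, started from the table `T₀`. -/
noncomputable def law {m n : ℕ} (r : Fin m → ℕ) (c : Fin n → ℕ) (T₀ : Fin m → Fin n → ℕ) :
    ℕ → (Fin m → Fin n → ℕ) → ℝ
  | 0 => fun S => if S = T₀ then 1 else 0
  | t + 1 => fun S => ∑ T ∈ tables r c, law r c T₀ t T * trans T S

/-- Total variation distance between `mu` and the uniform law on `Ω(r,c)`. -/
noncomputable def tvUnif {m n : ℕ} (r : Fin m → ℕ) (c : Fin n → ℕ)
    (mu : (Fin m → Fin n → ℕ) → ℝ) : ℝ :=
  (1 / 2) * ∑ T ∈ tables r c, |mu T - 1 / ((tables r c).card : ℝ)|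

end CTables
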