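import Vale.Agent.CT.TrA

/-! # Transposition (piece TR): scalar Poincare on `J` from the switch chain on `J x 3` tables -/

namespace CT

open Finset
open scoped Classical

variable {J : Type} [Fintype J] [DecidableEq J]

theorem tr (v : J → ℕ) (r2 r : ℕ) (h : r + r2 < sz v) (K : ℝ) (hK : 0 ≤ K)
    (hP : PIn v ![sz v - r2 - r, r2, r] K) :
    SP v r2 r (4 * ((Fintype.card J : ℝ) + 1) ^ 2 * K) :=
  trA v r2 r h K hK hP

end CT
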