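import Vale.Agent.CT.MainThm
import Vale.Agent.CT.Sp3
import Vale.Agent.CT.Tr

/-! # Polynomial spectral gap of the switch chain, all margins (piece FIN) -/

namespace CT

open Finset
open scoped Classical

theorem N2_nonneg {J : Type} [Fintype J] [DecidableEq J] (r2 : ℕ) (y : J → ℕ) : 0 ≤ N2 r2 y := by
  rw [N2]
  exact Nat.cast_nonneg _

theorem EE_nonneg {J : Type} [Fintype J] [DecidableEq J] (v : J → ℕ) (r2 r : ℕ)
    (F : (J → ℕ) → ℝ) : 0 ≤ EE v r2 r F := by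
  rw [EE]
  exact Finset.sum_nonneg fun w _ =>
    mul_nonneg (N2_nonneg _ _) (Finset.sum_nonneg fun b _ => sq_nonneg _)

theorem SP_mono {J : Type} [Fintype J] [DecidableEq J] {v : J → ℕ} {r2 r : ℕ} {L L' : ℝ}
    (h : SP v r2 r L) (hL : L ≤ L') : SP v r2 r L' := by
  intro F
  refine (h F).trans ?_
  have h1 : 0 ≤ ∑ x ∈ box v r, N2 r2 (v - x) := Finset.sum_nonneg fun x _ => N2_nonneg _ _
  have h2 := EE_nonneg v r2 r F
  gcongr

theorem sp_J {J : Type} [Fintype J] [DecidableEq J] (v : J → ℕ) (s t : ℕ) (h : t + s < sz v) :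
    SP v s t (16 * ((Fintype.card J : ℝ) + 1) ^ 2 *
      (100 * ((Fintype.card J : ℝ) + 1) * ((Fintype.card (Fin 3) : ℝ) + 1) ^ 6
      * ((sz v : ℝ) + 1) ^ 2 * (3 * ((sz v : ℝ) + 1) ^ 7) ^ 2)) := by
  have hc : sz (![sz v - s - t, s, t] : Fin 3 → ℕ) = sz v := by
    rw [sz, Fin.sum_univ_three]
    simp only [Matrix.cons_val_zero, Matrix.cons_val_one, Matrix.cons_val]
    omega
  have h1 : (1 : ℝ) ≤ 3 * ((sz v : ℝ) + 1) ^ 7 := by
    have : (1 : ℝ) ≤ ((sz v : ℝ) + 1) ^ 7 := by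
      apply one_le_pow₀
      have : (0 : ℝ) ≤ sz v := Nat.cast_nonneg _
      linarith
    linarith
  have hP := main_thm (I := J) v (![sz v - s - t, s, t] : Fin 3 → ℕ) (by rw [hc, sz])
    (3 * ((sz v : ℝ) + 1) ^ 7) h1 (by
      intro v' hv' s' t' h'
      refine SP_mono (sp3 v' s' t' h') ?_
      rw [hc] at hv'
      have : (sz v' : ℝ) ≤ sz v := by exact_mod_cast hv'
      gcongr)
  rw [hc] at hP
  refine SP_mono (tr v s t h _ (by positivity) hP) ?_
  first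
    | exact le_refl _
    | (gcongr; norm_num)

theorem poly_gap {I J : Type} [Fintype I] [DecidableEq I] [Fintype J] [DecidableEq J]
    (r : I → ℕ) (c : J → ℕ) (hrc : ∑ i, r i = sz c) :
    PIn r c (10 ^ 20 * ((Fintype.card I : ℝ) + 1) * ((Fintype.card J : ℝ) + 1) ^ 12
      * ((sz c : ℝ) + 1) ^ 34) := by
  set N : ℝ := (sz c : ℝ) + 1 with hN
  set j : ℝ := (Fintype.card J : ℝ) + 1 with hj
  set i : ℝ := (Fintype.card I : ℝ) + 1 with hi
  have hN1 : 1 ≤ N := by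
    have : (0 : ℝ) ≤ sz c := Nat.cast_nonneg _
    linarith
  have hj1 : 1 ≤ j := by
    have : (0 : ℝ) ≤ Fintype.card J := Nat.cast_nonneg _
    linarith
  have hi1 : 1 ≤ i := by
    have : (0 : ℝ) ≤ Fintype.card I := Nat.cast_nonneg _
    linarith
  set L : ℝ := 58982400 * j ^ 3 * N ^ 16 with hL
  have hL1 : 1 ≤ L := by
    have h1 : 1 ≤ j ^ 3 := one_le_pow₀ hj1
    have h2 : 1 ≤ N ^ 16 := one_le_pow₀ hN1
    have h3 : 1 ≤ j ^ 3 * N ^ 16 := one_le_mul_of_one_le_of_one_le h1 h2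
    rw [hL]
    nlinarith
  have hmain := main_thm r c hrc L hL1 (by
    intro v hv s t h
    refine SP_mono (sp_J v s t h) ?_
    have h1 : (sz v : ℝ) + 1 ≤ N := by
      have : (sz v : ℝ) ≤ sz c := by exact_mod_cast hv
      linarith
    have h0 : (0 : ℝ) ≤ (sz v : ℝ) + 1 := by positivity
    rw [Fintype.card_fin, ← hj]
    calc 16 * j ^ 2 * (100 * j * (((3 : ℕ) : ℝ) + 1) ^ 6 * ((sz v : ℝ) + 1) ^ 2 *
          (3 * ((sz v : ℝ) + 1) ^ 7) ^ 2)
        = 58982400 * j ^ 3 * ((sz v : ℝ) + 1) ^ 16 := by push_cast; ring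
      _ ≤ L := by
          rw [hL]
          gcongr)
  refine PIn_mono hmain ?_
  rw [← hN, ← hj, ← hi, hL]
  calc 100 * i * j ^ 6 * N ^ 2 * (58982400 * j ^ 3 * N ^ 16) ^ 2
      = 347892350976000000 * (i * j ^ 12 * N ^ 34) := by ring
    _ ≤ 10 ^ 20 * (i * j ^ 12 * N ^ 34) := by
        apply mul_le_mul_of_nonneg_right (by norm_num) (by positivity)
    _ = 10 ^ 20 * i * j ^ 12 * N ^ 34 := by ring

end CT
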