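import Vale.Agent.CT.Chain26
import Vale.Agent.CT.Mix
import Vale.Agent.CT.FinC

/-! # P328: the statement from `poly_gap` and `mix` -/

namespace CTables

open Finset
open scoped Classical

variable {m n : ℕ}

theorem tables_eq (r : Fin m → ℕ) (c : Fin n → ℕ) : tables r c = CT.TT r c := by
  ext T
  rw [mem_tables, CT.mem_TT]
  unfold IsTable CT.sz
  refine and_congr Iff.rfl ?_
  constructor
  · intro h
    funext j
    rw [Finset.sum_apply]
    exact h j
  · intro h j
    have := congrFun h j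
    rw [Finset.sum_apply] at this
    exact this

theorem move_eq (T : Fin m → Fin n → ℕ) (i k : Fin m) (a b : Fin n) :
    move T i k a b = CT.prop T i k a b := by
  unfold move CT.prop
  split_ifs with h
  · funext l j
    unfold CT.sw CT.e
    by_cases hk : l = k
    · subst hk
      rw [if_neg (Ne.symm h.1), if_pos rfl, Function.update_self]
      simp only [Pi.add_apply, Pi.sub_apply, Pi.single_apply]
    · rw [Function.update_of_ne hk]
      by_cases hi : l = i
      · subst hi
        rw [if_pos rfl, Function.update_self]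
        simp only [Pi.add_apply, Pi.sub_apply, Pi.single_apply]
      · rw [if_neg hi, if_neg hk, Function.update_of_ne hi]
  · rfl

theorem trans_eq (T S : Fin m → Fin n → ℕ) : trans T S = CT.step T S := by
  unfold trans CT.step
  rw [Fintype.card_fin, Fintype.card_fin]
  congr 3
  rw [Finset.card_filter]
  push_cast
  rw [Fintype.sum_prod_type, Fintype.sum_prod_type]
  refine Finset.sum_congr rfl fun i _ => Finset.sum_congr rfl fun k _ => ?_
  rw [Fintype.sum_prod_type]
  refine Finset.sum_congr rfl fun a _ => Finset.sum_congr rfl fun b _ => ?_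
  simp only [move_eq]

theorem law_eq (r : Fin m → ℕ) (c : Fin n → ℕ) (T₀ : Fin m → Fin n → ℕ) (t : ℕ) :
    law r c T₀ t = CT.law r c T₀ t := by
  induction t with
  | zero => rfl
  | succ t ih =>
    funext S
    unfold law CT.law
    rw [ih, tables_eq]
    refine Finset.sum_congr rfl fun T _ => ?_
    rw [trans_eq]

theorem tv_eq (r : Fin m → ℕ) (c : Fin n → ℕ) (mu : (Fin m → Fin n → ℕ) → ℝ) :
    tvUnif r c mu = CT.tv r c mu := by
  unfold tvUnif CT.tv
  rw [tables_eq]

theorem mixing (hm : 1 ≤ m) (hn : 1 ≤ n) (r : Fin m → ℕ) (c : Fin n → ℕ) (N : ℕ)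
    (hr : ∑ i, r i = N) (hc : ∑ j, c j = N) (T₀ : Fin m → Fin n → ℕ) (hT : IsTable r c T₀)
    (ε : ℝ) (h0 : 0 < ε) (h1 : ε < 1) (t : ℕ)
    (ht : 4 * 10 ^ 20 * (m : ℝ) ^ 2 * (n : ℝ) ^ 2 * ((m : ℝ) + 1) * ((n : ℝ) + 1) ^ 12 *
      ((N : ℝ) + 1) ^ 34 * ((m : ℝ) * n * Real.log ((N : ℝ) + 1) + Real.log (1 / ε)) ≤ t) :
    tvUnif r c (law r c T₀ t) ≤ ε := by
  have hmI : Nonempty (Fin m) := ⟨⟨0, hm⟩⟩
  have hnJ : Nonempty (Fin n) := ⟨⟨0, hn⟩⟩
  have hszc : CT.sz c = N := hc
  have hg := CT.poly_gap r c (by rw [hr, hszc])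
  rw [tv_eq, law_eq]
  refine CT.mix r c _ ?_ hg T₀ (by rw [← tables_eq, mem_tables]; exact hT) ε h0 h1 t ?_
  · have ha : (1 : ℝ) ≤ (Fintype.card (Fin m) : ℝ) + 1 := by
      have : (0 : ℝ) ≤ Fintype.card (Fin m) := by positivity
      linarith
    have hb : (1 : ℝ) ≤ ((Fintype.card (Fin n) : ℝ) + 1) ^ 12 := by
      apply one_le_pow₀
      have : (0 : ℝ) ≤ Fintype.card (Fin n) := by positivity
      linarith
    have hd : (1 : ℝ) ≤ ((CT.sz c : ℝ) + 1) ^ 34 := by
      apply one_le_pow₀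
      have : (0 : ℝ) ≤ (CT.sz c : ℝ) := by positivity
      linarith
    have h10 : (1 : ℝ) ≤ 10 ^ 20 := by norm_num
    exact one_le_mul_of_one_le_of_one_le (one_le_mul_of_one_le_of_one_le
      (one_le_mul_of_one_le_of_one_le h10 ha) hb) hd
  · rw [hszc, Fintype.card_fin, Fintype.card_fin]
    refine le_trans (le_of_eq ?_) ht
    ring

end CTables
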