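import Vale.Agent.CT.Db18

/-! # Counting bound (piece DB) -/

namespace CT

open Finset
open scoped Classical

variable {J : Type} [Fintype J] [DecidableEq J]

/-- number of pairs of rows with a property -/
noncomputable def cp (V : J → ℕ) (r R : ℕ) (P : (J → ℕ) → (J → ℕ) → Prop) : ℕ :=
  ((box V r ×ˢ box V R).filter (fun p => p.1 + p.2 ≤ V ∧ P p.1 p.2)).card

/-- number of rows with a property -/
noncomputable def cf (y : J → ℕ) (k : ℕ) (Q : (J → ℕ) → Prop) : ℕ :=
  ((box y k).filter (fun z => Q z)).card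

theorem card_pairs (V : J → ℕ) (r R : ℕ) (P : (J → ℕ) → (J → ℕ) → Prop) :
    cp V r R P = ∑ x ∈ box V r, cf (V - x) R (fun z => P x z) := by
  unfold cp cf
  rw [card_eq_sum_card_fiberwise (f := Prod.fst) (t := box V r)]
  · refine sum_congr rfl fun x hx => ?_
    refine card_nbij' (fun p => p.2) (fun z => (x, z)) ?_ ?_ ?_ ?_
    · rintro ⟨x', z⟩ hp
      rw [mem_coe, mem_filter, mem_filter, mem_product] at hp
      obtain ⟨⟨⟨h1, h2⟩, h3, h4⟩, h5⟩ := hp
      simp only at h1 h2 h3 h4 h5 ⊢
      subst h5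
      rw [mem_coe, mem_filter, mem_box]
      rw [mem_box] at h2
      refine ⟨⟨?_, h2.2⟩, h4⟩
      exact le_tsub_of_add_le_left h3
    · intro z hz
      rw [mem_coe, mem_filter, mem_box] at hz
      rw [mem_coe, mem_filter, mem_filter, mem_product]
      have hxV := (mem_box.mp hx).1
      refine ⟨⟨⟨hx, ?_⟩, ?_, hz.2⟩, rfl⟩
      · rw [mem_box]
        exact ⟨hz.1.1.trans tsub_le_self, hz.1.2⟩
      · simp only
        calc x + z ≤ x + (V - x) := by gcongr; exact hz.1.1
          _ = V := add_tsub_cancel_of_le hxV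
    · rintro ⟨x', z⟩ hp
      rw [mem_coe, mem_filter] at hp
      have h5 := hp.2
      simp only at h5 ⊢
      rw [h5]
    · intro z _
      rfl
  · intro p hp
    rw [mem_coe, mem_filter, mem_product] at hp
    exact hp.1.1

theorem card_pairs' (V : J → ℕ) (r R : ℕ) (P : (J → ℕ) → (J → ℕ) → Prop) :
    cp V r R P = ∑ z ∈ box V R, cf (V - z) r (fun x => P x z) := by
  rw [← card_pairs V R r (fun z x => P x z)]
  unfold cp
  refine card_nbij' Prod.swap Prod.swap ?_ ?_ ?_ ?_
  · rintro ⟨x, z⟩ hp
    rw [mem_coe, mem_filter, mem_product] at hp ⊢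
    exact ⟨⟨hp.1.2, hp.1.1⟩, by simpa [add_comm] using hp.2.1, hp.2.2⟩
  · rintro ⟨x, z⟩ hp
    rw [mem_coe, mem_filter, mem_product] at hp ⊢
    exact ⟨⟨hp.1.2, hp.1.1⟩, by simpa [add_comm] using hp.2.1, hp.2.2⟩
  · intro p _
    exact Prod.swap_swap p
  · intro p _
    exact Prod.swap_swap p

/-- two columns and the rest -/
theorem sz_split2 (x : J → ℕ) {b s : J} (hbs : b ≠ s) :
    sz x = x b + x s + ∑ j ∈ (univ.erase b).erase s, x j := by
  unfold sz
  rw [← add_sum_erase univ x (mem_univ b)]
  rw [← add_sum_erase (univ.erase b) x (mem_erase.mpr ⟨hbs.symm, mem_univ s⟩)]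
  ring

/-- refilled column pair -/
def refill (x : J → ℕ) (b s : J) (m n : ℕ) : J → ℕ :=
  fun j => if j = b then m else if j = s then n else x j

theorem refill_b (x : J → ℕ) (b s : J) (m n : ℕ) : refill x b s m n b = m := by
  simp [refill]

theorem refill_s (x : J → ℕ) {b s : J} (hbs : b ≠ s) (m n : ℕ) : refill x b s m n s = n := by
  simp [refill, hbs.symm]

theorem refill_o (x : J → ℕ) {b s d : J} (h1 : d ≠ b) (h2 : d ≠ s) (m n : ℕ) :
    refill x b s m n d = x d := by
  simp [refill, h1, h2]

theorem sz_refill (x : J → ℕ) {b s : J} (hbs : b ≠ s) (m n : ℕ) (h : m + n = x b + x s) :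
    sz (refill x b s m n) = sz x := by
  rw [sz_split2 _ hbs, sz_split2 x hbs, refill_b, refill_s x hbs, h]
  congr 1
  refine sum_congr rfl fun j hj => ?_
  rw [mem_erase, mem_erase] at hj
  exact refill_o x hj.2.1 hj.1 m n

theorem nice_le_good (V : J → ℕ) (r R : ℕ) (hR : 1 ≤ R) {b s : J} (hbs : b ≠ s)
    (hV : V b < V s) :
    cp V r R (fun x _ => x b + x s < V s)
      ≤ cp V r R (fun x z => x b = 0 ∧ ∃ d, d ≠ b ∧ 0 < z d) * ((V b + 1) * (V b + 1)) := by
  unfold cp
  -- new entry of the active row in column `b`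
  let m : (J → ℕ) × (J → ℕ) → ℕ := fun p =>
    V b - (V b + V s - (p.1 b + p.1 s) - (p.2 b + p.2 s))
  let φ : (J → ℕ) × (J → ℕ) → (J → ℕ) × (J → ℕ) := fun p =>
    (refill p.1 b s 0 (p.1 b + p.1 s), refill p.2 b s (m p) (p.2 b + p.2 s - m p))
  have hcard : ((range (V b + 1)) ×ˢ (range (V b + 1))).card = (V b + 1) * (V b + 1) := by
    rw [card_product, card_range]
  rw [← hcard, ← card_product]
  refine card_le_card_of_injOn (fun p => (φ p, (p.1 b, p.2 b))) ?_ ?_
  · rintro ⟨x, z⟩ hp
    simp only [mem_coe, mem_filter, mem_product, mem_box] at hp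
    obtain ⟨⟨⟨h1, h2⟩, h3, h4⟩, h5, h6⟩ := hp
    have hb : x b + z b ≤ V b := h5 b
    have hs : x s + z s ≤ V s := h5 s
    have hm : m (x, z) ≤ z b + z s := by
      simp only [m]
      omega
    have hmb : m (x, z) ≤ V b := by
      simp only [m]
      omega
    have hms : (x b + x s) + (z b + z s - m (x, z)) ≤ V s := by
      simp only [m]
      omega
    simp only [mem_coe, mem_product, mem_filter, mem_box, mem_range]
    refine ⟨⟨⟨⟨?_, ?_⟩, ?_, ?_⟩, ?_, ?_, ?_⟩, ?_, ?_⟩
    · intro j
      simp only [φ]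
      by_cases hj : j = b
      · subst hj; rw [refill_b]; exact Nat.zero_le _
      · by_cases hj2 : j = s
        · subst hj2; rw [refill_s x hbs]
          have : x b + x j ≤ V j := by omega
          exact this
        · rw [refill_o x hj hj2]; exact h1 j
    · simp only [φ]
      rw [sz_refill x hbs _ _ (by omega), h2]
    · intro j
      simp only [φ]
      by_cases hj : j = b
      · subst hj; rw [refill_b]; exact hmb
      · by_cases hj2 : j = s
        · subst hj2; rw [refill_s z hbs]
          have : z b + z j - m (x, z) ≤ V j := by omega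
          exact this
        · rw [refill_o z hj hj2]; exact h3 j
    · simp only [φ]
      rw [sz_refill z hbs _ _ (by omega), h4]
    · intro j
      simp only [φ]
      rw [Pi.add_apply]
      by_cases hj : j = b
      · subst hj; rw [refill_b, refill_b, zero_add]; exact hmb
      · by_cases hj2 : j = s
        · subst hj2; rw [refill_s x hbs, refill_s z hbs]; exact hms
        · rw [refill_o x hj hj2, refill_o z hj hj2]; exact h5 j
    · simp only [φ]
      exact refill_b x b s _ _
    · simp only [φ]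
      by_cases h7 : 0 < z b + z s - m (x, z)
      · refine ⟨s, hbs.symm, ?_⟩
        rw [refill_s z hbs]
        exact h7
      · have h8 : z b = 0 ∧ z s = 0 := by
          simp only [m] at h7
          omega
        have h9 : ∑ j ∈ (univ.erase b).erase s, z j = R := by
          have := sz_split2 z hbs
          omega
        have h10 : ∃ j ∈ (univ.erase b).erase s, 0 < z j := by
          by_contra hcon
          push Not at hcon
          have h11 : ∑ j ∈ (univ.erase b).erase s, z j = 0 :=
            sum_eq_zero fun j hj => Nat.le_zero.mp (hcon j hj)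
          omega
        obtain ⟨d, hd, hd0⟩ := h10
        rw [mem_erase, mem_erase] at hd
        refine ⟨d, hd.2.1, ?_⟩
        rw [refill_o z hd.2.1 hd.1]
        exact hd0
    · change x b < V b + 1
      omega
    · change z b < V b + 1
      omega
  · rintro ⟨x, z⟩ hp ⟨x', z'⟩ hp' heq
    simp only [mem_coe, mem_filter] at hp hp'
    simp only [φ, Prod.mk.injEq] at heq
    obtain ⟨⟨e1, e2⟩, e3, e4⟩ := heq
    have hpb : x b + z b ≤ V b := hp.2.1 b
    have hps : x s + z s ≤ V s := hp.2.1 s
    have hpb' : x' b + z' b ≤ V b := hp'.2.1 b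
    have hps' : x' s + z' s ≤ V s := hp'.2.1 s
    have hn : x b + x s < V s := hp.2.2
    have hn' : x' b + x' s < V s := hp'.2.2
    have e5 := congrFun e1 s
    rw [refill_s x hbs, refill_s x' hbs] at e5
    have e6 := congrFun e2 b
    rw [refill_b, refill_b] at e6
    have e7 := congrFun e2 s
    rw [refill_s z hbs, refill_s z' hbs] at e7
    simp only [m] at e6 e7
    have hx : x = x' := by
      funext j
      by_cases hj : j = b
      · subst hj; exact e3
      · by_cases hj2 : j = s
        · subst hj2; omega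
        · have := congrFun e1 j
          rwa [refill_o x hj hj2, refill_o x' hj hj2] at this
    have hz : z = z' := by
      funext j
      by_cases hj : j = b
      · subst hj; exact e4
      · by_cases hj2 : j = s
        · subst hj2; omega
        · have := congrFun e2 j
          rwa [refill_o z hj hj2, refill_o z' hj hj2] at this
    rw [hx, hz]

theorem db' (v : J → ℕ) (r1 r2 r : ℕ) (hv : sz v = r1 + r2 + r) (h2 : 2 ≤ r1) (_h21 : r2 ≤ r1)
    (hr : r ≤ r2) (b s : J) (hbs : b ≠ s) (hvb : 0 < v b) (hle : v b ≤ v s) :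
    (∑ x ∈ box (v - e b) r, N2 r2 (v - e b - x))
      ≤ 2 * ((sz v : ℝ) + 1) ^ 2 *
        ∑ x ∈ (box (v - e b) r).filter (fun x => x b = 0),
          ∑ d, if d ≠ b ∧ e d ≤ v - e b - x then N2 r2 (v - e b - x - e d) else 0 := by
  set V := v - e b with hVdef
  have heb : e b ≤ v := e_le_iff.mpr hvb
  have hsze : sz (e b : J → ℕ) = 1 := by
    unfold sz e
    simp
  have hVb : V b = v b - 1 := by
    rw [hVdef, Pi.sub_apply]
    simp [e]
  have hVs : V s = v s := by
    rw [hVdef, Pi.sub_apply]
    simp [e, hbs.symm]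
  have hVlt : V b < V s := by omega
  have hszV : sz V = (r1 - 1) + r2 + r := by
    rw [hVdef, sz_sub heb, hsze]
    omega
  set R := r1 - 1 with hR
  have hR1 : 1 ≤ R := by omega
  -- left side
  have hL : (∑ x ∈ box V r, N2 r2 (V - x)) = (cp V r R (fun _ _ => True) : ℝ) := by
    rw [card_pairs V r R (fun _ _ => True)]
    push_cast
    refine sum_congr rfl fun x hx => ?_
    rw [mem_box] at hx
    unfold N2 cf
    have h3 : (box (V - x) r2).card = (box (V - x) R).card := by
      refine card_box_compl ?_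
      rw [sz_sub hx.1, hx.2]
      omega
    rw [h3]
    congr 2
    ext z
    simp
  have hnat : cp V r R (fun _ _ => True)
      ≤ 2 * (cp V r R (fun x z => x b = 0 ∧ ∃ d, d ≠ b ∧ 0 < z d)
        * ((V b + 1) * (V b + 1))) := by
    refine le_trans ?_ (Nat.mul_le_mul_left 2 (nice_le_good V r R hR1 hbs hVlt))
    rw [card_pairs' V r R (fun _ _ => True), card_pairs' V r R (fun x _ => x b + x s < V s),
      mul_sum]
    refine sum_le_sum fun z hz => ?_
    rw [mem_box] at hz
    have h3 := half_card ({b, s} : Finset J) (V - z) r r2 (by rw [sz_sub hz.1, hz.2]; omega) hr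
    have h4 : cf (V - z) r (fun _ => True) = (box (V - z) r).card := by
      unfold cf
      congr 1
      ext z
      simp
    rw [h4]
    refine h3.trans (Nat.mul_le_mul_left 2 ?_)
    unfold cf
    refine card_le_card ?_
    intro x hx
    simp only [mem_filter] at hx ⊢
    refine ⟨hx.1, ?_⟩
    have h5 := hx.2
    rw [sum_pair hbs, sum_pair hbs] at h5
    have h6 : (V - z) b ≤ V b := by
      rw [Pi.sub_apply]; omega
    have h7 : (V - z) s ≤ V s := by
      rw [Pi.sub_apply]; omega
    omega
  -- right side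
  have hRt : (cp V r R (fun x z => x b = 0 ∧ ∃ d, d ≠ b ∧ 0 < z d) : ℝ)
      ≤ ∑ x ∈ (box V r).filter (fun x => x b = 0),
          ∑ d, if d ≠ b ∧ e d ≤ V - x then N2 r2 (V - x - e d) else 0 := by
    rw [card_pairs V r R (fun x z => x b = 0 ∧ ∃ d, d ≠ b ∧ 0 < z d), sum_filter]
    push_cast
    refine sum_le_sum fun x hx => ?_
    rw [mem_box] at hx
    by_cases hx0 : x b = 0
    · rw [if_pos hx0]
      have hszx : sz (V - x) = R + r2 := by
        rw [sz_sub hx.1, hx.2]
        omega
      have h3 : ∀ d, (if d ≠ b ∧ e d ≤ V - x then N2 r2 (V - x - e d) else 0)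
          = if d ≠ b then (((box (V - x) R).filter (fun z => 0 < z d)).card : ℝ) else 0 := by
        intro d
        by_cases hd : d = b
        · simp [hd]
        · have h4 := card_use hszx d
          rw [if_pos hd, h4]
          simp [hd]
      simp only [h3]
      have h5 : ((box (V - x) R).filter (fun z => x b = 0 ∧ ∃ d, d ≠ b ∧ 0 < z d))
          ⊆ (univ.filter (fun d => d ≠ b)).biUnion
            (fun d => (box (V - x) R).filter (fun z => 0 < z d)) := by
        intro z hz
        rw [mem_filter] at hz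
        obtain ⟨h6, _, d, hd, hd0⟩ := hz
        rw [mem_biUnion]
        exact ⟨d, mem_filter.mpr ⟨mem_univ _, hd⟩, mem_filter.mpr ⟨h6, hd0⟩⟩
      have h6 : cf (V - x) R (fun z => x b = 0 ∧ ∃ d, d ≠ b ∧ 0 < z d)
          ≤ ∑ d ∈ univ.filter (fun d => d ≠ b), ((box (V - x) R).filter (fun z => 0 < z d)).card := by
        refine le_trans ?_ ((card_le_card h5).trans card_biUnion_le)
        unfold cf
        exact card_le_card (by intro z hz; simp only [mem_filter] at hz ⊢; exact hz)
      rw [← sum_filter]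
      exact_mod_cast h6
    · rw [if_neg hx0]
      have : cf (V - x) R (fun z => x b = 0 ∧ ∃ d, d ≠ b ∧ 0 < z d) = 0 := by
        unfold cf
        rw [card_eq_zero]
        ext z
        simp [hx0]
      rw [this]
      simp
  rw [hL]
  have hnatR : (cp V r R (fun _ _ => True) : ℝ)
      ≤ 2 * ((cp V r R (fun x z => x b = 0 ∧ ∃ d, d ≠ b ∧ 0 < z d) : ℝ)
        * (((V b : ℝ) + 1) * ((V b : ℝ) + 1))) := by
    exact_mod_cast hnat
  have hVbN : (V b : ℝ) ≤ (sz v : ℝ) := by
    have h3 : V b ≤ sz v := by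
      have h4 : v b ≤ sz v := by
        unfold sz
        exact single_le_sum (f := fun j => v j) (fun _ _ => Nat.zero_le _) (mem_univ b)
      omega
    exact_mod_cast h3
  have hVb0 : (0 : ℝ) ≤ (V b : ℝ) := Nat.cast_nonneg _
  have h8 : ((V b : ℝ) + 1) * ((V b : ℝ) + 1) ≤ ((sz v : ℝ) + 1) ^ 2 := by
    nlinarith
  set G := (cp V r R (fun x z => x b = 0 ∧ ∃ d, d ≠ b ∧ 0 < z d) : ℝ) with hG
  have hG0 : 0 ≤ G := Nat.cast_nonneg _
  calc _ ≤ 2 * (G * (((V b : ℝ) + 1) * ((V b : ℝ) + 1))) := hnatR
    _ ≤ 2 * (G * ((sz v : ℝ) + 1) ^ 2) := by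
        refine mul_le_mul_of_nonneg_left ?_ (by norm_num)
        exact mul_le_mul_of_nonneg_left h8 hG0
    _ = 2 * ((sz v : ℝ) + 1) ^ 2 * G := by ring
    _ ≤ _ := mul_le_mul_of_nonneg_left hRt (by positivity)

end CT
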