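import Mathlib

/-!
# Contingency tables: definitions

`J` = columns.  A row is a vector `x : J → ℕ`; `sz x` its total, `box s r` = rows `x ≤ s` of total `r`.
-/

namespace CT

open Finset
open scoped Classical

variable {J : Type} [Fintype J] [DecidableEq J]

/-- total of a row -/
def sz (x : J → ℕ) : ℕ := ∑ j, x j

/-- one unit in column `b` -/
def e (b : J) : J → ℕ := Pi.single b 1

/-- support -/
def sp (x : J → ℕ) : Finset J := univ.filter (fun j => 0 < x j)

/-- rows `x ≤ s` with total `r` -/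
def box (s : J → ℕ) (r : ℕ) : Finset (J → ℕ) := (Finset.Iic s).filter (fun x => sz x = r)

/-- average of `F (w - e b)` over the support of `w` -/
noncomputable def DD (F : (J → ℕ) → ℝ) (w : J → ℕ) : ℝ :=
  (∑ b ∈ sp w, F (w - e b)) / ((sp w).card : ℝ)

/-- `G_b(x) = DF(x+e_b) - F(x)` -/
noncomputable def GG (F : (J → ℕ) → ℝ) (x : J → ℕ) (b : J) : ℝ := DD F (x + e b) - F x

/-- the local form at `w`, `|w| = r+2` -/
noncomputable def QQ (F : (J → ℕ) → ℝ) (w : J → ℕ) : ℝ :=
  ∑ b, ∑ d, if e b + e d ≤ w then GG F (w - e b - e d) b * GG F (w - e b - e d) d else 0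

/-- number of passive rows of total `r2` below `y` -/
noncomputable def N2 (r2 : ℕ) (y : J → ℕ) : ℝ := ((box y r2).card : ℝ)

/-- Dirichlet form of the scalar 3-row system (active row, passive row of total `r2`, row `x` of
total `r`), column sums `v` -/
noncomputable def EE (v : J → ℕ) (r2 r : ℕ) (F : (J → ℕ) → ℝ) : ℝ :=
  ∑ w ∈ box v (r + 1), N2 r2 (v - w) * ∑ b ∈ sp w, (F (w - e b) - DD F w) ^ 2

/-- second order form of the 3-row system -/
noncomputable def AA (v : J → ℕ) (r2 r : ℕ) (F : (J → ℕ) → ℝ) : ℝ :=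
  ∑ w ∈ box v (r + 2), N2 r2 (v - w) * QQ F w

/-- scalar Poincare inequality of the 3-row system -/
def SP (v : J → ℕ) (r2 r : ℕ) (L : ℝ) : Prop :=
  ∀ F : (J → ℕ) → ℝ,
    (∑ x ∈ box v r, N2 r2 (v - x)) * (∑ x ∈ box v r, N2 r2 (v - x) * F x ^ 2)
      - (∑ x ∈ box v r, N2 r2 (v - x) * F x) ^ 2
      ≤ L * (∑ x ∈ box v r, N2 r2 (v - x)) * EE v r2 r F

/-! ## full tables -/

variable {I : Type} [Fintype I] [DecidableEq I]

/-- tables with row sums `r` and column sums `c` -/
noncomputable def TT (r : I → ℕ) (c : J → ℕ) : Finset (I → J → ℕ) :=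
  (Fintype.piFinset (fun i => box c (r i))).filter (fun T => ∑ i, T i = c)

/-- the switch in rows `i, j` and columns `a, b` -/
def sw (T : I → J → ℕ) (i j : I) (a b : J) : I → J → ℕ :=
  Function.update (Function.update T i (T i - e a + e b)) j (T j - e b + e a)

/-- Dirichlet form of the simple switch chain -/
noncomputable def DF (r : I → ℕ) (c : J → ℕ) (f : (I → J → ℕ) → ℝ) : ℝ :=
  ∑ T ∈ TT r c, ∑ i, ∑ j, ∑ a, ∑ b,
    if i ≠ j ∧ 0 < T i a ∧ 0 < T j b then (f (sw T i j a b) - f T) ^ 2 else 0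

/-- Poincare inequality of the simple switch chain with constant `K` -/
def PIn (r : I → ℕ) (c : J → ℕ) (K : ℝ) : Prop :=
  ∀ f : (I → J → ℕ) → ℝ,
    ((TT r c).card : ℝ) * (∑ T ∈ TT r c, f T ^ 2) - (∑ T ∈ TT r c, f T) ^ 2
      ≤ K * ((TT r c).card : ℝ) * DF r c f

/-! ## non-hub configurations: rows `k : K` of totals `rho k`, the hub rows have totals `r1, r2` -/

variable {K : Type} [Fintype K] [DecidableEq K]

/-- configurations of the non-hub rows -/
noncomputable def XX (c : J → ℕ) (rho : K → ℕ) : Finset (K → J → ℕ) :=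
  (Fintype.piFinset (fun k => box c (rho k))).filter (fun x => ∑ k, x k ≤ c)

/-- what is left for the hub -/
def yy (c : J → ℕ) (x : K → J → ℕ) : J → ℕ := c - ∑ k, x k

/-- `G^k_b` -/
noncomputable def GK (u : (K → J → ℕ) → ℝ) (x : K → J → ℕ) (k : K) (b : J) : ℝ :=
  GG (fun t => u (Function.update x k t)) (x k) b

/-- `N2(y) * (L u)(x)` -/
noncomputable def LX (c : J → ℕ) (r2 : ℕ) (u : (K → J → ℕ) → ℝ) (x : K → J → ℕ) : ℝ :=
  ∑ k, ∑ b, if e b ≤ yy c x then N2 r2 (yy c x - e b) * GK u x k b else 0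

/-- Dirichlet form of row `k` against the active hub row -/
noncomputable def EX (c : J → ℕ) (rho : K → ℕ) (r2 : ℕ) (u : (K → J → ℕ) → ℝ) (k : K) : ℝ :=
  ∑ x ∈ XX c rho, ∑ b, if e b ≤ yy c x then N2 r2 (yy c x - e b) * GK u x k b ^ 2 else 0

/-- second order form of row `k` -/
noncomputable def AX (c : J → ℕ) (rho : K → ℕ) (r2 : ℕ) (u : (K → J → ℕ) → ℝ) (k : K) : ℝ :=
  ∑ x ∈ XX c rho, ∑ b, ∑ d,
    if e b + e d ≤ yy c x then N2 r2 (yy c x - e b - e d) * (GK u x k b * GK u x k d) else 0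

end CT
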