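import Vale.Agent.CT.FullC

/-! # From the non-hub configurations to full tables (piece FULL) -/

namespace CT

open Finset
open scoped Classical

variable {J : Type} [Fintype J] [DecidableEq J]
variable {K : Type} [Fintype K] [DecidableEq K]

/-- FULL. `f = ubar + g`, `ubar` = average over the hub given the other rows; `∑ g²` by the two-row
Poincare inequality `SP y 0 r2 L` (`N2 0 = 1`), `ubar` by `gapX`,
`(ubar T' - ubar T)^2 ≤ 3 (f T' - f T)^2 + 3 g T'^2 + 3 g T^2`. -/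
theorem full (c : J → ℕ) (rho : K → ℕ) (r1 r2 : ℕ) (hc : sz c = r1 + r2 + ∑ k, rho k)
    (h2 : 2 ≤ r1) (h21 : r2 ≤ r1) (hrho : ∀ k, rho k ≤ r2) (L : ℝ) (hL : 1 ≤ L)
    (hSP : ∀ v : J → ℕ, sz v ≤ sz c → ∀ s r, r + s < sz v → SP v s r L) :
    PIn (rr r1 r2 rho) c (100 * ((Fintype.card K : ℝ) + 1) * ((Fintype.card J : ℝ) + 1) ^ 6
      * ((sz c : ℝ) + 1) ^ 2 * L ^ 2) :=
  full_proof c rho r1 r2 hc h2 h21 hrho L hL hSP

end CT
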