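import Vale.Agent.CT.FullA

/-! # Piece FULL, part B: hub fibres -/

namespace CT

open Finset
open scoped Classical

variable {J : Type} [Fintype J] [DecidableEq J]
variable {K : Type} [Fintype K] [DecidableEq K]

/-- row sums of the table with hub rows `none` (active, `r1`), `some none` (passive, `r2`) -/
def rr (r1 r2 : ℕ) (rho : K → ℕ) : Option (Option K) → ℕ
  | none => r1
  | some none => r2
  | some (some k) => rho k

/-- the table with non-hub rows `x` and active row `z` -/
def mkT (c : J → ℕ) (x : K → J → ℕ) (z : J → ℕ) : Option (Option K) → J → ℕ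
  | none => z
  | some none => yy c x - z
  | some (some k) => x k

theorem fl_mem_XX {c : J → ℕ} {rho : K → ℕ} {x : K → J → ℕ} :
    x ∈ XX c rho ↔ (∀ k, sz (x k) = rho k) ∧ ∑ k, x k ≤ c := by
  unfold XX
  rw [mem_filter, Fintype.mem_piFinset]
  constructor
  · rintro ⟨h1, h2⟩
    exact ⟨fun k => (mem_box.1 (h1 k)).2, h2⟩
  · rintro ⟨h1, h2⟩
    refine ⟨fun k => mem_box.2 ⟨le_trans ?_ h2, h1 k⟩, h2⟩
    intro j
    rw [Finset.sum_apply]
    exact single_le_sum (f := fun k => x k j) (fun _ _ => Nat.zero_le _) (mem_univ k)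

theorem fl_sz_yy {c : J → ℕ} {rho : K → ℕ} {r1 r2 : ℕ} (hc : sz c = r1 + r2 + ∑ k, rho k)
    {x : K → J → ℕ} (hx : x ∈ XX c rho) : sz (yy c x) = r1 + r2 := by
  obtain ⟨h1, h2⟩ := fl_mem_XX.1 hx
  have h3 := fl_sz_sub h2
  have h4 : ∑ k, sz (x k) = ∑ k, rho k := sum_congr rfl fun k _ => h1 k
  rw [fl_sz_sum, h4, hc] at h3
  unfold yy
  omega

theorem fl_sum_TT (c : J → ℕ) (rho : K → ℕ) (r1 r2 : ℕ) (hc : sz c = r1 + r2 + ∑ k, rho k)
    (G : (Option (Option K) → J → ℕ) → ℝ) :
    ∑ T ∈ TT (rr r1 r2 rho) c, G T = ∑ x ∈ XX c rho, ∑ z ∈ box (yy c x) r1, G (mkT c x z) := by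
  rw [sum_sigma']
  refine sum_nbij' (fun T => (⟨fun k => T (some (some k)), T none⟩ : (_ : K → J → ℕ) × (J → ℕ)))
    (fun p => mkT c p.1 p.2) ?_ ?_ ?_ ?_ ?_
  · intro T hT
    rw [fl_mem_TT] at hT
    obtain ⟨h1, h2⟩ := hT
    rw [Fintype.sum_option, Fintype.sum_option] at h2
    rw [mem_sigma]
    have hle : ∑ k, T (some (some k)) ≤ c := by
      intro l
      rw [← h2]
      simp only [Pi.add_apply]
      omega
    refine ⟨fl_mem_XX.2 ⟨fun k => h1 (some (some k)), hle⟩, mem_box.2 ⟨?_, h1 none⟩⟩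
    unfold yy
    intro l
    have h3 : T none l + (T (some none) l + (∑ k, T (some (some k))) l) = c l := by
      have := congrFun h2 l
      simpa using this
    show T none l ≤ c l - (∑ k, T (some (some k))) l
    omega
  · rintro ⟨x, z⟩ hp
    rw [mem_sigma] at hp
    obtain ⟨hx, hz⟩ := hp
    have hy := fl_sz_yy hc hx
    rw [mem_box] at hz
    obtain ⟨h1, h2⟩ := fl_mem_XX.1 hx
    simp only at h1 h2 hz hy ⊢
    rw [fl_mem_TT]
    constructor
    · intro i
      match i with
      | none => exact hz.2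
      | some none =>
        have h3 := fl_sz_sub hz.1
        show sz (yy c x - z) = r2
        omega
      | some (some k) => exact h1 k
    · rw [Fintype.sum_option, Fintype.sum_option]
      show z + (yy c x - z + ∑ k, x k) = c
      ext l
      have h3 : z l ≤ yy c x l := hz.1 l
      have h4 : (∑ k, x k) l ≤ c l := h2 l
      have h5 : yy c x l = c l - (∑ k, x k) l := rfl
      show z l + (yy c x l - z l + (∑ k, x k) l) = c l
      omega
  · intro T hT
    rw [fl_mem_TT] at hT
    obtain ⟨h1, h2⟩ := hT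
    rw [Fintype.sum_option, Fintype.sum_option] at h2
    funext i
    match i with
    | none => rfl
    | some none =>
      show yy c (fun k => T (some (some k))) - T none = T (some none)
      unfold yy
      ext l
      have h3 : T none l + (T (some none) l + (∑ k, T (some (some k))) l) = c l := by
        have := congrFun h2 l
        simpa using this
      show c l - (∑ k, T (some (some k))) l - T none l = T (some none) l
      omega
    | some (some k) => rfl
  · rintro ⟨x, z⟩ _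
    rfl
  · intro T hT
    rw [fl_mem_TT] at hT
    obtain ⟨h1, h2⟩ := hT
    rw [Fintype.sum_option, Fintype.sum_option] at h2
    congr 1
    funext i
    match i with
    | none => rfl
    | some none =>
      show T (some none) = yy c (fun k => T (some (some k))) - T none
      unfold yy
      ext l
      have h3 : T none l + (T (some none) l + (∑ k, T (some (some k))) l) = c l := by
        have := congrFun h2 l
        simpa using this
      show T (some none) l = c l - (∑ k, T (some (some k))) l - T none l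
      omega
    | some (some k) => rfl

theorem fl_var (S : Finset J) (g : J → ℝ) :
    ∑ b ∈ S, (g b - (∑ d ∈ S, g d) / (S.card : ℝ)) ^ 2
      ≤ 1 / 2 * ∑ b ∈ S, ∑ d ∈ S, (g b - g d) ^ 2 := by
  rcases S.eq_empty_or_nonempty with h | h
  · simp [h]
  have hn : (1 : ℝ) ≤ (S.card : ℝ) := by exact_mod_cast h.card_pos
  set n : ℝ := (S.card : ℝ) with hn'
  set A : ℝ := ∑ b ∈ S, g b ^ 2 with hA
  set M : ℝ := ∑ b ∈ S, g b with hM
  have h1 : ∑ b ∈ S, (g b - M / n) ^ 2 = A - M ^ 2 / n := by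
    have : ∀ b ∈ S, (g b - M / n) ^ 2 = g b ^ 2 - 2 * (M / n) * g b + (M / n) ^ 2 := by
      intro b _; ring
    rw [sum_congr rfl this, sum_add_distrib, sum_sub_distrib, ← mul_sum, ← hA, ← hM, sum_const,
      nsmul_eq_mul, ← hn']
    field_simp
    ring
  have h2 : ∑ b ∈ S, ∑ d ∈ S, (g b - g d) ^ 2 = 2 * (n * A - M ^ 2) := by
    have : ∀ b ∈ S, ∑ d ∈ S, (g b - g d) ^ 2 = n * g b ^ 2 - 2 * M * g b + A := by
      intro b _
      have : ∀ d ∈ S, (g b - g d) ^ 2 = g b ^ 2 - 2 * g b * g d + g d ^ 2 := by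
        intro d _; ring
      rw [sum_congr rfl this, sum_add_distrib, sum_sub_distrib, ← mul_sum, ← hA, ← hM, sum_const,
        nsmul_eq_mul, ← hn']
      ring
    rw [sum_congr rfl this, sum_add_distrib, sum_sub_distrib, ← mul_sum, ← mul_sum, ← hA, ← hM,
      sum_const, nsmul_eq_mul, ← hn']
    ring
  rw [h1, h2]
  have h3 : M ^ 2 ≤ n * A := by
    have := sq_sum_le_card_mul_sum_sq (s := S) (f := g)
    simpa [hn', hA, hM] using this
  have h4 : 0 ≤ A - M ^ 2 / n := by
    rw [sub_nonneg, div_le_iff₀ (by linarith)]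
    linarith
  have h5 : n * A - M ^ 2 = n * (A - M ^ 2 / n) := by
    field_simp
  nlinarith

theorem fl_N2_zero (y : J → ℕ) : N2 0 y = 1 := by
  have : box y 0 = {0} := by
    ext x
    rw [mem_box, mem_singleton]
    constructor
    · rintro ⟨_, h⟩
      funext j
      unfold sz at h
      rw [sum_eq_zero_iff] at h
      exact h j (mem_univ j)
    · rintro rfl
      exact ⟨fun _ => Nat.zero_le _, by simp [sz]⟩
  unfold N2
  rw [this]
  simp

theorem fl_sum_compl (y : J → ℕ) {r1 r2 : ℕ} (hy : sz y = r1 + r2) (H : (J → ℕ) → ℝ) :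
    ∑ p ∈ box y r2, H (y - p) = ∑ z ∈ box y r1, H z := by
  have hyy : ∀ p : J → ℕ, p ≤ y → y - (y - p) = p := by
    intro p hp
    ext l
    have h1 : p l ≤ y l := hp l
    show y l - (y l - p l) = p l
    omega
  refine sum_nbij' (fun p => y - p) (fun z => y - z) ?_ ?_ ?_ ?_ ?_
  · intro p hp
    rw [mem_box] at hp
    refine mem_box.2 ⟨fun l => Nat.sub_le _ _, ?_⟩
    have := fl_sz_sub hp.1
    show sz (y - p) = r1
    omega
  · intro p hp
    rw [mem_box] at hp
    refine mem_box.2 ⟨fun l => Nat.sub_le _ _, ?_⟩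
    have := fl_sz_sub hp.1
    show sz (y - p) = r2
    omega
  · intro p hp
    exact hyy p (mem_box.1 hp).1
  · intro p hp
    exact hyy p (mem_box.1 hp).1
  · intro p _
    rfl

/-- two-row Poincare inequality in the form used for the hub -/
theorem fl_hub (y : J → ℕ) {r1 r2 : ℕ} (hy : sz y = r1 + r2) (F : (J → ℕ) → ℝ) (L : ℝ)
    (hL : 0 ≤ L) (hSP : SP y 0 r2 L) :
    N2 r2 y * (∑ z ∈ box y r1, F z ^ 2) - (∑ z ∈ box y r1, F z) ^ 2
      ≤ L * N2 r2 y * (1 / 2 * ∑ z ∈ box y r1, ∑ a, ∑ b,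
        if 0 < z a ∧ 0 < (y - z) b then (F (z - e a + e b) - F z) ^ 2 else 0) := by
  have h := hSP (fun p => F (y - p))
  simp only [fl_N2_zero, one_mul] at h
  have h1 : (∑ _x ∈ box y r2, (1 : ℝ)) = N2 r2 y := by
    rw [sum_const, nsmul_eq_mul, mul_one]
    rfl
  rw [h1, fl_sum_compl y hy (fun z => F z ^ 2), fl_sum_compl y hy F] at h
  refine h.trans ?_
  have hN : 0 ≤ N2 r2 y := by unfold N2; positivity
  refine mul_le_mul_of_nonneg_left ?_ (mul_nonneg hL hN)
  -- the Dirichlet form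
  set Fp : (J → ℕ) → ℝ := fun p => F (y - p) with hFp
  have h2 : EE y 0 r2 Fp ≤ 1 / 2 * ∑ w ∈ box y (r2 + 1), ∑ b ∈ sp w,
      ∑ d ∈ sp w, (Fp (w - e b) - Fp (w - e d)) ^ 2 := by
    unfold EE
    rw [mul_sum]
    refine sum_le_sum fun w _ => ?_
    rw [fl_N2_zero, one_mul]
    exact fl_var (sp w) (fun b => Fp (w - e b))
  refine h2.trans ?_
  refine mul_le_mul_of_nonneg_left ?_ (by norm_num)
  have h3 : ∑ w ∈ box y (r2 + 1), ∑ b ∈ sp w, ∑ d ∈ sp w, (Fp (w - e b) - Fp (w - e d)) ^ 2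
      = ∑ p ∈ box y r2, ∑ b, if e b ≤ y - p then
          ∑ d ∈ sp (p + e b), (Fp p - Fp (p + e b - e d)) ^ 2 else 0 := by
    rw [reidx1 y r2 (fun p b => ∑ d ∈ sp (p + e b), (Fp p - Fp (p + e b - e d)) ^ 2)]
    refine sum_congr rfl fun w _ => sum_congr rfl fun b hb => ?_
    have : w - e b + e b = w := fl_sub_add (e_le_iff.2 (mem_sp.1 hb))
    rw [this]
  rw [h3]
  have h4 : ∑ z ∈ box y r1, (∑ a, ∑ b,
        if 0 < z a ∧ 0 < (y - z) b then (F (z - e a + e b) - F z) ^ 2 else 0)
      = ∑ p ∈ box y r2, ∑ a, ∑ b,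
        if 0 < (y - p) a ∧ 0 < p b then (F (y - p - e a + e b) - F (y - p)) ^ 2 else 0 := by
    rw [← fl_sum_compl y hy]
    refine sum_congr rfl fun p hp => ?_
    have : y - (y - p) = p := by
      have hp' := (mem_box.1 hp).1
      ext l
      have h1 : p l ≤ y l := hp' l
      show y l - (y l - p l) = p l
      omega
    rw [this]
  rw [h4]
  refine sum_le_sum fun p hp => sum_le_sum fun b _ => ?_
  have hp' := (mem_box.1 hp).1
  by_cases hb : e b ≤ y - p
  · rw [if_pos hb]
    have hb' : 0 < (y - p) b := e_le_iff.1 hb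
    unfold sp
    rw [sum_filter]
    refine sum_le_sum fun d _ => ?_
    by_cases hd : 0 < p d
    · have h5 : 0 < (p + e b) d := by
        show 0 < p d + e b d
        omega
      rw [if_pos h5, if_pos ⟨hb', hd⟩]
      have h6 : y - (p + e b - e d) = y - p - e b + e d := by
        have hed := e_le_iff.2 hd
        ext l
        have h7 : p l ≤ y l := hp' l
        have h8 : e b l ≤ y l - p l := hb l
        have h9 : e d l ≤ p l := hed l
        show y l - (p l + e b l - e d l) = y l - p l - e b l + e d l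
        omega
      simp only [hFp]
      rw [h6]
      apply le_of_eq
      ring
    · have hneg : ¬ (0 < (y - p) b ∧ 0 < p d) := fun h => hd h.2
      rw [if_neg hneg]
      by_cases hdb : 0 < (p + e b) d
      · rw [if_pos hdb]
        have h5 : d = b := by
          by_contra hne
          apply hd
          have h6 : e b d = 0 := by simp [e, hne]
          have h7 : 0 < p d + e b d := hdb
          omega
        have h6 : p + e b - e d = p := by
          rw [h5]
          ext l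
          show p l + e b l - e b l = p l
          omega
        rw [h6]
        simp
      · rw [if_neg hdb]
  · rw [if_neg hb]
    refine sum_nonneg fun d _ => ?_
    split_ifs
    · positivity
    · exact le_rfl

theorem fl_avg (S : Finset J) (hS : S.Nonempty) (g : J → ℝ) (t : ℝ) :
    ((∑ b ∈ S, g b) / (S.card : ℝ) - t) ^ 2 ≤ ∑ b ∈ S, (g b - t) ^ 2 := by
  have hn : (1 : ℝ) ≤ (S.card : ℝ) := by exact_mod_cast hS.card_pos
  have h1 : (∑ b ∈ S, g b) / (S.card : ℝ) - t = (∑ b ∈ S, (g b - t)) / (S.card : ℝ) := by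
    rw [sum_sub_distrib, sum_const, nsmul_eq_mul]
    field_simp
  rw [h1, div_pow]
  have h2 := sq_sum_le_card_mul_sum_sq (s := S) (f := fun b => g b - t)
  have h3 : 0 ≤ ∑ b ∈ S, (g b - t) ^ 2 := sum_nonneg fun _ _ => sq_nonneg _
  rw [div_le_iff₀ (by positivity)]
  refine h2.trans ?_
  nlinarith [mul_nonneg h3 (mul_nonneg (sub_nonneg.2 hn) (by linarith : (0 : ℝ) ≤ (S.card : ℝ)))]

theorem fl_GK (u : (K → J → ℕ) → ℝ) (x : K → J → ℕ) (k : K) (a : J) :
    GK u x k a ^ 2 ≤ ∑ b, if 0 < x k b then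
      (u (Function.update x k (x k - e b + e a)) - u x) ^ 2 else 0 := by
  unfold GK GG DD
  have hx : Function.update x k (x k) = x := Function.update_eq_self k x
  beta_reduce
  rw [hx]
  have hne : (sp (x k + e a)).Nonempty := ⟨a, mem_sp.2 (fl_pos_add_e _ _)⟩
  refine (fl_avg _ hne _ _).trans ?_
  unfold sp
  rw [sum_filter]
  refine sum_le_sum fun b _ => ?_
  by_cases hb : 0 < x k b
  · have h5 : 0 < (x k + e a) b := by
      show 0 < x k b + e a b
      omega
    rw [if_pos h5, if_pos hb]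
    have h6 : x k + e a - e b = x k - e b + e a := by
      have hed := e_le_iff.2 hb
      ext l
      have h9 : e b l ≤ x k l := hed l
      show x k l + e a l - e b l = x k l - e b l + e a l
      omega
    rw [h6]
  · rw [if_neg hb]
    by_cases hba : 0 < (x k + e a) b
    · rw [if_pos hba]
      have h5 : b = a := by
        by_contra hne
        apply hb
        have h6 : e a b = 0 := by simp [e, hne]
        have h7 : 0 < x k b + e a b := hba
        omega
      have h6 : x k + e a - e b = x k := by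
        rw [h5]
        ext l
        show x k l + e a l - e a l = x k l
        omega
      rw [h6, hx]
      simp
    · rw [if_neg hba]

theorem fl_sw_row (c : J → ℕ) (x : K → J → ℕ) (z : J → ℕ) (k : K) (a b : J) :
    (fun l => sw (mkT c x z) none (some (some k)) a b (some (some l)))
      = Function.update x k (x k - e b + e a) := by
  funext l
  by_cases hl : l = k
  · subst hl
    rw [fl_sw_snd, Function.update_self]
    rfl
  · rw [Function.update_of_ne hl, fl_sw_oth (by simp) (by simpa using hl)]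
    rfl

theorem fl_EX (c : J → ℕ) (rho : K → ℕ) (r1 r2 : ℕ) (hc : sz c = r1 + r2 + ∑ k, rho k)
    (u : (K → J → ℕ) → ℝ) (k : K) :
    EX c rho r2 u k ≤ ∑ T ∈ TT (rr r1 r2 rho) c, ∑ a, ∑ b,
      if 0 < T none a ∧ 0 < T (some (some k)) b then
        (u (fun l => sw T none (some (some k)) a b (some (some l)))
          - u (fun l => T (some (some l)))) ^ 2 else 0 := by
  rw [fl_sum_TT c rho r1 r2 hc]
  unfold EX
  refine sum_le_sum fun x hx => ?_
  rw [sum_comm]
  refine sum_le_sum fun a _ => ?_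
  have hy := fl_sz_yy hc hx
  have hcu := card_use hy a
  have h1 : (if e a ≤ yy c x then N2 r2 (yy c x - e a) * GK u x k a ^ 2 else 0)
      = (if e a ≤ yy c x then N2 r2 (yy c x - e a) else 0) * GK u x k a ^ 2 := by
    split_ifs <;> ring
  have h2 : (if e a ≤ yy c x then N2 r2 (yy c x - e a) else 0) * GK u x k a ^ 2
      = ∑ z ∈ box (yy c x) r1, if 0 < z a then GK u x k a ^ 2 else 0 := by
    rw [← hcu, ← sum_filter, sum_const, nsmul_eq_mul]
  rw [h1, h2]
  refine sum_le_sum fun z _ => ?_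
  have hx' : (fun l => mkT c x z (some (some l))) = x := rfl
  by_cases hz : 0 < z a
  · rw [if_pos hz]
    refine (fl_GK u x k a).trans (le_of_eq ?_)
    refine sum_congr rfl fun b _ => ?_
    rw [fl_sw_row, hx']
    have e1 : mkT c x z none = z := rfl
    have e2 : mkT c x z (some (some k)) = x k := rfl
    rw [e1, e2]
    simp only [hz, true_and]
  · rw [if_neg hz]
    refine sum_nonneg fun b _ => ?_
    split_ifs
    · positivity
    · exact le_rfl

theorem fl_mk_hub (c : J → ℕ) (x : K → J → ℕ) (z : J → ℕ) (a b : J) (hz : z ≤ yy c x)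
    (ha : 0 < z a) (hb : 0 < (yy c x - z) b) :
    sw (mkT c x z) none (some none) a b = mkT c x (z - e a + e b) := by
  funext i
  match i with
  | none => exact fl_sw_fst (by simp) a b
  | some none =>
    rw [fl_sw_snd]
    show yy c x - z - e b + e a = yy c x - (z - e a + e b)
    have h1 := e_le_iff.2 ha
    have h2 := e_le_iff.2 hb
    ext l
    have h3 : e a l ≤ z l := h1 l
    have h4 : e b l ≤ yy c x l - z l := h2 l
    have h5 : z l ≤ yy c x l := hz l
    show yy c x l - z l - e b l + e a l = yy c x l - (z l - e a l + e b l)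
    omega
  | some (some k) =>
    rw [fl_sw_oth (by simp) (by simp)]
    rfl

theorem fl_num (κ j m L Dh Ds G : ℝ) (hκ : 0 ≤ κ) (hj : 0 ≤ j) (hm : 1 ≤ m) (hL : 1 ≤ L)
    (hDh : 0 ≤ Dh) (hDs : 0 ≤ Ds) (hG : G ≤ L / 2 * Dh) :
    G + 40 * (j + 1) ^ 4 * m ^ 2 * L * (3 * Ds + 6 * κ * j ^ 2 * G)
      ≤ 100 * (κ + 1) * (j + 1) ^ 6 * m ^ 2 * L ^ 2 * (2 * (Dh + Ds)) := by
  have hj1 : 1 ≤ (j + 1) := by linarith
  have hC : 0 ≤ 40 * (j + 1) ^ 4 * m ^ 2 * L := by positivity
  have h1 : G * (1 + 40 * (j + 1) ^ 4 * m ^ 2 * L * (6 * κ * j ^ 2))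
      ≤ L / 2 * Dh * (1 + 40 * (j + 1) ^ 4 * m ^ 2 * L * (6 * κ * j ^ 2)) := by
    apply mul_le_mul_of_nonneg_right hG
    positivity
  set P : ℝ := (j + 1) ^ 4 * m ^ 2 with hP
  have hP1 : 1 ≤ P := by
    rw [hP]
    have e1 : 1 ≤ (j + 1) ^ 4 := one_le_pow₀ hj1
    have e2 : 1 ≤ m ^ 2 := one_le_pow₀ hm
    nlinarith
  have hQ1 : j ^ 2 ≤ (j + 1) ^ 2 := by nlinarith
  have hQ2 : 1 ≤ (j + 1) ^ 2 := one_le_pow₀ hj1
  have hL2 : L ≤ L ^ 2 := by nlinarith
  have hL1 : 1 ≤ L ^ 2 := by nlinarith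
  have e6 : (j + 1) ^ 6 * m ^ 2 = P * (j + 1) ^ 2 := by rw [hP]; ring
  have hA : L / 2 * (1 + 40 * P * L * (6 * κ * j ^ 2)) ≤ 200 * (κ + 1) * (P * (j + 1) ^ 2) * L ^ 2 := by
    have t1 : P * (κ * j ^ 2) ≤ P * (κ * (j + 1) ^ 2) :=
      mul_le_mul_of_nonneg_left (mul_le_mul_of_nonneg_left hQ1 hκ) (by linarith)
    have t2 : 1 ≤ P * (j + 1) ^ 2 := by nlinarith
    have t3 : L ^ 2 * (P * (κ * j ^ 2)) ≤ L ^ 2 * (P * (κ * (j + 1) ^ 2)) :=
      mul_le_mul_of_nonneg_left t1 (by positivity)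
    have t4 : L ^ 2 ≤ L ^ 2 * (P * (j + 1) ^ 2) := by nlinarith
    have t5 : 0 ≤ L ^ 2 * (P * (κ * (j + 1) ^ 2)) := by positivity
    have t6 : 0 ≤ L ^ 2 * (P * (j + 1) ^ 2) := by positivity
    nlinarith
  have hB : 3 * (40 * P * L) ≤ 200 * (κ + 1) * (P * (j + 1) ^ 2) * L ^ 2 := by
    have t2 : P ≤ P * (j + 1) ^ 2 := by nlinarith
    have t3 : P * L ≤ P * (j + 1) ^ 2 * L ^ 2 := by
      apply mul_le_mul t2 hL2 (by linarith) (by positivity)
    have t5 : 0 ≤ κ * (P * (j + 1) ^ 2 * L ^ 2) := by positivity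
    have t6 : 0 ≤ P * (j + 1) ^ 2 * L ^ 2 := by positivity
    nlinarith
  have e40 : 40 * (j + 1) ^ 4 * m ^ 2 * L = 40 * P * L := by rw [hP]; ring
  rw [e40] at h1 ⊢
  have e100 : 100 * (κ + 1) * (j + 1) ^ 6 * m ^ 2 * L ^ 2 * (2 * (Dh + Ds))
      = (200 * (κ + 1) * (P * (j + 1) ^ 2) * L ^ 2) * Dh
        + (200 * (κ + 1) * (P * (j + 1) ^ 2) * L ^ 2) * Ds := by
    rw [← e6]; ring
  rw [e100]
  have f1 := mul_le_mul_of_nonneg_right hA hDh
  have f2 := mul_le_mul_of_nonneg_right hB hDs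
  nlinarith

end CT
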