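import Vale.Agent.CT.BP3A24
import Vale.Agent.CT.BHdC

/-! # Three rows and at most three columns: from the whole table to pairs of rows -/

namespace CT

open Finset
open scoped Classical

variable {J : Type} [Fintype J] [DecidableEq J]

theorem sz_erase25 (x : J → ℕ) (j0 : J) : sz x = x j0 + ∑ j ∈ univ.erase j0, x j := by
  rw [sz, ← Finset.add_sum_erase univ x (mem_univ j0)]

theorem up25 (S : J → ℕ) (r : ℕ) (j0 : J) :
    (box S r).card ≤ ∏ j ∈ univ.erase j0, (min (S j) r + 1) := by
  have h1 : (box S r).card ≤ (Fintype.piFinset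
      (fun j => if j = j0 then ({0} : Finset ℕ) else range (min (S j) r + 1))).card := by
    refine Finset.card_le_card_of_injOn (fun x => Function.update x j0 0) ?_ ?_
    · intro x hx
      have hx' := mem_box.1 (Finset.mem_coe.1 hx)
      rw [Finset.mem_coe, Fintype.mem_piFinset]
      intro j
      by_cases hj : j = j0
      · subst hj; simp
      · simp only [hj, if_false, Function.update_of_ne hj, mem_range]
        have h1 : x j ≤ S j := hx'.1 j
        have h2 : x j ≤ r := by
          rw [← hx'.2, sz]
          exact Finset.single_le_sum (f := x) (fun _ _ => Nat.zero_le _) (mem_univ j)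
        omega
    · intro x hx x' hx' h
      have hx1 := mem_box.1 (Finset.mem_coe.1 hx)
      have hx2 := mem_box.1 (Finset.mem_coe.1 hx')
      have h3 : ∀ j, j ≠ j0 → x j = x' j := by
        intro j hj
        have := congrFun h j
        simpa [Function.update_of_ne hj] using this
      funext j
      by_cases hj : j = j0
      · subst hj
        have e1 := sz_erase25 x j
        have e2 := sz_erase25 x' j
        have e3 : ∑ i ∈ univ.erase j, x i = ∑ i ∈ univ.erase j, x' i :=
          Finset.sum_congr rfl fun i hi => h3 i (Finset.ne_of_mem_erase hi)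
        have := hx1.2
        have := hx2.2
        omega
      · exact h3 j hj
  refine h1.trans (le_of_eq ?_)
  rw [Fintype.card_piFinset, ← Finset.mul_prod_erase univ _ (mem_univ j0)]
  simp only [if_true, card_singleton, one_mul]
  refine Finset.prod_congr rfl fun j hj => ?_
  rw [if_neg (Finset.ne_of_mem_erase hj), card_range]

theorem lo25 (u : J → ℕ) (r : ℕ) (j0 : J) (z a : J → ℕ) (h1 : ∀ j, j ≠ j0 → z j + a j ≤ u j)
    (h2 : ∑ j ∈ univ.erase j0, (z j + a j) ≤ r) (h3 : r ≤ u j0 + ∑ j ∈ univ.erase j0, z j) :
    ∏ j ∈ univ.erase j0, (a j + 1) ≤ (box u r).card := by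
  have h0 : ∏ j ∈ univ.erase j0, (a j + 1) = (Fintype.piFinset
      (fun j => if j = j0 then ({0} : Finset ℕ) else range (a j + 1))).card := by
    rw [Fintype.card_piFinset, ← Finset.mul_prod_erase univ _ (mem_univ j0)]
    simp only [if_true, card_singleton, one_mul]
    refine Finset.prod_congr rfl fun j hj => ?_
    rw [if_neg (Finset.ne_of_mem_erase hj), card_range]
  rw [h0]
  refine Finset.card_le_card_of_injOn
    (fun w => Function.update (fun j => z j + w j) j0
      (r - ∑ j ∈ univ.erase j0, (z j + w j))) ?_ ?_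
  · intro w hw
    rw [Finset.mem_coe, Fintype.mem_piFinset] at hw
    have hw' : ∀ j, j ≠ j0 → w j ≤ a j := by
      intro j hj
      have := hw j
      simp only [hj, if_false, mem_range] at this
      omega
    have hs1 : ∑ j ∈ univ.erase j0, (z j + w j) ≤ ∑ j ∈ univ.erase j0, (z j + a j) :=
      Finset.sum_le_sum fun j hj => by
        have := hw' j (Finset.ne_of_mem_erase hj); omega
    have hs2 : ∑ j ∈ univ.erase j0, z j ≤ ∑ j ∈ univ.erase j0, (z j + w j) :=
      Finset.sum_le_sum fun j hj => by omega
    rw [Finset.mem_coe, mem_box]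
    beta_reduce
    constructor
    · intro j
      by_cases hj : j = j0
      · subst hj
        rw [Function.update_self]
        show r - ∑ i ∈ univ.erase j, (z i + w i) ≤ u j
        omega
      · rw [Function.update_of_ne hj]
        have := h1 j hj
        have := hw' j hj
        show z j + w j ≤ u j
        omega
    · rw [sz_erase25 _ j0, Function.update_self]
      have e3 : ∑ j ∈ univ.erase j0, Function.update (fun j => z j + w j) j0
          (r - ∑ j ∈ univ.erase j0, (z j + w j)) j = ∑ j ∈ univ.erase j0, (z j + w j) :=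
        Finset.sum_congr rfl fun i hi => by
          rw [Function.update_of_ne (Finset.ne_of_mem_erase hi)]
      rw [e3]
      omega
  · intro w hw w' hw' h
    rw [Finset.mem_coe, Fintype.mem_piFinset] at hw hw'
    funext j
    by_cases hj : j = j0
    · subst hj
      have e1 := hw j
      have e2 := hw' j
      simp only [if_true, mem_singleton] at e1 e2
      rw [e1, e2]
    · have h9 := congrFun h j
      beta_reduce at h9
      rw [Function.update_of_ne hj, Function.update_of_ne hj] at h9
      omega

/-- the main counting lemma -/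
theorem cl25 (hJ : Fintype.card J ≤ 3) (S u : J → ℕ) (r M : ℕ) (hM : sz S = M) (hM0 : 0 < M)
    (j0 : J) (hj0 : ∀ j, S j ≤ S j0)
    (h1 : ∀ j, r * S j / M + min (S j) r / 12 ≤ u j)
    (h3 : (r : ℝ) * S j0 / M + 2 ≤ u j0) :
    ((box S r).card : ℝ) ≤ 144 * ((box u r).card : ℝ) := by
  have hcard : (univ.erase j0 : Finset J).card ≤ 2 := by
    rw [Finset.card_erase_of_mem (mem_univ j0), Finset.card_univ]; omega
  have hMr : (0 : ℝ) < M := by exact_mod_cast hM0
  have hsz : (M : ℝ) = S j0 + ∑ j ∈ univ.erase j0, (S j : ℝ) := by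
    rw [← hM, sz_erase25 S j0]; push_cast; rfl
  have hsum3 : (M : ℝ) ≤ 3 * S j0 := by
    have : ∑ j ∈ univ.erase j0, (S j : ℝ) ≤ ∑ j ∈ univ.erase j0, (S j0 : ℝ) :=
      Finset.sum_le_sum fun j _ => by exact_mod_cast hj0 j
    rw [Finset.sum_const, nsmul_eq_mul] at this
    have h2 : ((univ.erase j0 : Finset J).card : ℝ) ≤ 2 := by exact_mod_cast hcard
    have h4 : (0 : ℝ) ≤ S j0 := Nat.cast_nonneg _
    nlinarith
  have hz1 : ∀ j, ((r * S j / M : ℕ) : ℝ) ≤ (r : ℝ) * S j / M := by
    intro j
    have := @Nat.cast_div_le ℝ _ _ _ (r * S j) M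
    push_cast at this
    exact this
  have hz2 : ∀ j, (r : ℝ) * S j / M - 1 ≤ ((r * S j / M : ℕ) : ℝ) := by
    intro j
    have h5 : r * S j < M * (r * S j / M + 1) := Nat.lt_mul_div_succ _ hM0
    have h6 : ((r * S j : ℕ) : ℝ) < (M : ℝ) * (((r * S j / M : ℕ) : ℝ) + 1) := by
      exact_mod_cast h5
    rw [sub_le_iff_le_add, div_le_iff₀ hMr]
    push_cast at h6 ⊢
    nlinarith
  have ha1 : ∀ j, ((min (S j) r / 12 : ℕ) : ℝ) ≤ (r : ℝ) / 12 := by
    intro j
    have h5 : 12 * (min (S j) r / 12) ≤ r := by
      have := Nat.mul_div_le (min (S j) r) 12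
      omega
    have h6 : (12 : ℝ) * ((min (S j) r / 12 : ℕ) : ℝ) ≤ r := by exact_mod_cast h5
    linarith
  have hr0 : (0 : ℝ) ≤ r := Nat.cast_nonneg _
  have hrsum : ∑ j ∈ univ.erase j0, (r : ℝ) * S j / M = r - r * S j0 / M := by
    rw [← Finset.sum_div, ← Finset.mul_sum]
    have : ∑ j ∈ univ.erase j0, (S j : ℝ) = M - S j0 := by linarith
    rw [this]
    field_simp
  have hlow := lo25 u r j0 (fun j => r * S j / M) (fun j => min (S j) r / 12)
    (fun j _ => h1 j)
    (by
      have h7 : ((∑ j ∈ univ.erase j0, (r * S j / M + min (S j) r / 12) : ℕ) : ℝ) ≤ r := by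
        push_cast
        calc _ ≤ ∑ j ∈ univ.erase j0, ((r : ℝ) * S j / M + r / 12) :=
              Finset.sum_le_sum fun j _ => add_le_add (by exact_mod_cast hz1 j)
                (by exact_mod_cast ha1 j)
          _ = (r - r * S j0 / M) + ((univ.erase j0 : Finset J).card : ℝ) * (r / 12) := by
              rw [Finset.sum_add_distrib, hrsum, Finset.sum_const, nsmul_eq_mul]
          _ ≤ r := by
              have h8 : ((univ.erase j0 : Finset J).card : ℝ) ≤ 2 := by exact_mod_cast hcard
              have h9 : (r : ℝ) / 3 ≤ r * S j0 / M := by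
                rw [div_le_div_iff₀ (by norm_num) hMr]
                nlinarith
              nlinarith
      exact_mod_cast h7)
    (by
      have h7 : (r : ℝ) ≤ ((u j0 + ∑ j ∈ univ.erase j0, r * S j / M : ℕ) : ℝ) := by
        push_cast
        have h8 : ∑ j ∈ univ.erase j0, ((r : ℝ) * S j / M - 1)
            ≤ ∑ j ∈ univ.erase j0, ((r * S j / M : ℕ) : ℝ) :=
          Finset.sum_le_sum fun j _ => hz2 j
        rw [Finset.sum_sub_distrib, hrsum, Finset.sum_const, nsmul_eq_mul] at h8
        have h9 : ((univ.erase j0 : Finset J).card : ℝ) ≤ 2 := by exact_mod_cast hcard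
        push_cast at h8
        linarith
      exact_mod_cast h7)
  have hup := up25 S r j0
  have hcmp : ∏ j ∈ univ.erase j0, (min (S j) r + 1)
      ≤ 144 * ∏ j ∈ univ.erase j0, (min (S j) r / 12 + 1) := by
    calc _ ≤ ∏ j ∈ univ.erase j0, (12 * (min (S j) r / 12 + 1)) := by
          refine Finset.prod_le_prod' fun j _ => ?_
          omega
      _ = 12 ^ (univ.erase j0 : Finset J).card * ∏ j ∈ univ.erase j0, (min (S j) r / 12 + 1) := by
          rw [Finset.prod_mul_distrib, Finset.prod_const]
      _ ≤ 12 ^ 2 * ∏ j ∈ univ.erase j0, (min (S j) r / 12 + 1) :=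
          Nat.mul_le_mul_right _ (Nat.pow_le_pow_right (by norm_num) hcard)
      _ = _ := by norm_num
  have : (box S r).card ≤ 144 * (box u r).card := by
    refine hup.trans (hcmp.trans ?_)
    exact Nat.mul_le_mul_left _ hlow
  exact_mod_cast this

/-- small tables -/
theorem small25 (hJ : Fintype.card J ≤ 3) (S u : J → ℕ) (r : ℕ) (hS : sz S ≤ 215)
    (hu : r ≤ sz u) : ((box S r).card : ℝ) ≤ 46656 * ((box u r).card : ℝ) := by
  have h1 : 1 ≤ (box u r).card := Finset.card_pos.mpr (box_nonempty hu)
  have h2 : (box S r).card ≤ 46656 := by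
    rcases isEmpty_or_nonempty J with hE | ⟨⟨j0⟩⟩
    · have : (box S r).card ≤ 1 := Finset.card_le_one_of_subsingleton _
      omega
    · refine (up25 S r j0).trans ?_
      have hcard : (univ.erase j0 : Finset J).card ≤ 2 := by
        rw [Finset.card_erase_of_mem (mem_univ j0), Finset.card_univ]; omega
      calc ∏ j ∈ univ.erase j0, (min (S j) r + 1) ≤ ∏ _j ∈ univ.erase j0, 216 := by
            refine Finset.prod_le_prod' fun j _ => ?_
            have : S j ≤ sz S := by
              rw [sz]
              exact Finset.single_le_sum (f := S) (fun _ _ => Nat.zero_le _) (mem_univ j)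
            omega
        _ = 216 ^ (univ.erase j0 : Finset J).card := by rw [Finset.prod_const]
        _ ≤ 216 ^ 2 := Nat.pow_le_pow_right (by norm_num) hcard
        _ = 46656 := by norm_num
  have h3 : (box S r).card ≤ 46656 * (box u r).card := by nlinarith
  exact_mod_cast h3

end CT
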