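import Vale.Agent.CT.Q
import Vale.Agent.CT.Abs
import Vale.Agent.CT.ConnA

/-! # The variance inequality for two-row tables (piece LOR) -/

namespace CT

open Finset
open scoped Classical

variable {J : Type} [Fintype J] [DecidableEq J]

theorem DD_add (u v : (J → ℕ) → ℝ) (w : J → ℕ) : DD (u + v) w = DD u w + DD v w := by
  unfold DD
  simp only [Pi.add_apply, Finset.sum_add_distrib, add_div]

theorem DD_smul (c : ℝ) (u : (J → ℕ) → ℝ) (w : J → ℕ) : DD (c • u) w = c * DD u w := by
  unfold DD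
  simp only [Pi.smul_apply, smul_eq_mul, ← Finset.mul_sum, mul_div_assoc]

theorem GG_add (u v : (J → ℕ) → ℝ) (x : J → ℕ) (b : J) : GG (u + v) x b = GG u x b + GG v x b := by
  unfold GG
  rw [DD_add, Pi.add_apply]
  ring

theorem GG_smul (c : ℝ) (u : (J → ℕ) → ℝ) (x : J → ℕ) (b : J) :
    GG (c • u) x b = c * GG u x b := by
  unfold GG
  rw [DD_smul, Pi.smul_apply, smul_eq_mul]
  ring

/-- the generator of the two-row chain -/
noncomputable def LB (y : J → ℕ) : ((J → ℕ) → ℝ) →ₗ[ℝ] ((J → ℕ) → ℝ) where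
  toFun u x := ∑ b, if e b ≤ y - x then GG u x b else 0
  map_add' u v := by
    funext x
    rw [Pi.add_apply, ← Finset.sum_add_distrib]
    apply Finset.sum_congr rfl
    intro b _
    split_ifs
    · rw [GG_add]
    · rw [add_zero]
  map_smul' c u := by
    funext x
    rw [Pi.smul_apply, smul_eq_mul, Finset.mul_sum]
    apply Finset.sum_congr rfl
    intro b _
    split_ifs
    · rw [GG_smul]; rfl
    · rw [mul_zero]

theorem LB_apply (y : J → ℕ) (u : (J → ℕ) → ℝ) (x : J → ℕ) :
    LB y u x = ∑ b, if e b ≤ y - x then GG u x b else 0 := rfl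

theorem DD_mul_card (v : (J → ℕ) → ℝ) (w : J → ℕ) :
    ((sp w).card : ℝ) * DD v w = ∑ b ∈ sp w, v (w - e b) := by
  unfold DD
  by_cases h : (sp w).card = 0
  · rw [Finset.card_eq_zero] at h
    rw [h]
    simp
  · rw [mul_div_cancel₀]
    exact_mod_cast h

theorem sum_DD_sub (u : (J → ℕ) → ℝ) (w : J → ℕ) :
    ∑ b ∈ sp w, (DD u w - u (w - e b)) = 0 := by
  rw [Finset.sum_sub_distrib, Finset.sum_const, nsmul_eq_mul, DD_mul_card, sub_self]

theorem LB_form (y : J → ℕ) (r : ℕ) (u v : (J → ℕ) → ℝ) :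
    ∑ x ∈ box y r, v x * LB y u x
      = ∑ w ∈ box y (r + 1), ∑ b ∈ sp w, v (w - e b) * (DD u w - u (w - e b)) := by
  have h1 : ∑ x ∈ box y r, v x * LB y u x
      = ∑ x ∈ box y r, ∑ b, if e b ≤ y - x then v x * GG u x b else 0 := by
    apply Finset.sum_congr rfl
    intro x _
    rw [LB_apply, Finset.mul_sum]
    apply Finset.sum_congr rfl
    intro b _
    split_ifs
    · rfl
    · rw [mul_zero]
  rw [h1, reidx1 y r (fun x b => v x * GG u x b)]
  apply Finset.sum_congr rfl
  intro w _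
  apply Finset.sum_congr rfl
  intro b hb
  have hle : e b ≤ w := e_le_iff.2 (mem_sp.1 hb)
  unfold GG
  rw [tsub_add_cancel_of_le hle]

theorem LB_symm (y : J → ℕ) (r : ℕ) (u v : (J → ℕ) → ℝ) :
    ∑ x ∈ box y r, v x * LB y u x = ∑ x ∈ box y r, u x * LB y v x := by
  rw [LB_form, LB_form]
  apply Finset.sum_congr rfl
  intro w _
  have h1 : ∀ p q : (J → ℕ) → ℝ, ∑ b ∈ sp w, p (w - e b) * (DD q w - q (w - e b))
      = ((sp w).card : ℝ) * DD p w * DD q w - ∑ b ∈ sp w, p (w - e b) * q (w - e b) := by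
    intro p q
    simp only [mul_sub]
    rw [Finset.sum_sub_distrib, ← Finset.sum_mul, DD_mul_card]
  rw [h1, h1]
  have h2 : ∑ b ∈ sp w, v (w - e b) * u (w - e b) = ∑ b ∈ sp w, u (w - e b) * v (w - e b) :=
    Finset.sum_congr rfl (fun b _ => mul_comm _ _)
  rw [h2]
  ring

theorem LB_neg_form (y : J → ℕ) (r : ℕ) (u : (J → ℕ) → ℝ) :
    - ∑ x ∈ box y r, u x * LB y u x
      = ∑ w ∈ box y (r + 1), ∑ b ∈ sp w, (DD u w - u (w - e b)) ^ 2 := by
  rw [LB_form, ← Finset.sum_neg_distrib]
  apply Finset.sum_congr rfl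
  intro w _
  have h := sum_DD_sub u w
  have h1 : ∑ b ∈ sp w, (DD u w - u (w - e b)) ^ 2
      = DD u w * ∑ b ∈ sp w, (DD u w - u (w - e b))
        - ∑ b ∈ sp w, u (w - e b) * (DD u w - u (w - e b)) := by
    rw [Finset.mul_sum, ← Finset.sum_sub_distrib]
    apply Finset.sum_congr rfl
    intro b _
    ring
  rw [h1, h, mul_zero, zero_sub]

theorem LB_ker (y : J → ℕ) (r : ℕ) (u : (J → ℕ) → ℝ) (h : ∀ x ∈ box y r, LB y u x = 0) :
    ∀ x ∈ box y r, ∀ x' ∈ box y r, u x = u x' := by
  apply box_connA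
  have h1 := LB_neg_form y r u
  have h2 : ∑ x ∈ box y r, u x * LB y u x = 0 :=
    Finset.sum_eq_zero (fun x hx => by rw [h x hx, mul_zero])
  rw [h2, neg_zero] at h1
  intro w hw a ha b hb
  have h3 := (Finset.sum_eq_zero_iff_of_nonneg (fun w _ =>
    Finset.sum_nonneg (fun b _ => sq_nonneg (DD u w - u (w - e b))))).1 h1.symm w hw
  have h4 := (Finset.sum_eq_zero_iff_of_nonneg
    (fun b _ => sq_nonneg (DD u w - u (w - e b)))).1 h3
  have ha' := pow_eq_zero_iff (two_ne_zero) |>.1 (h4 a ha)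
  have hb' := pow_eq_zero_iff (two_ne_zero) |>.1 (h4 b hb)
  linarith

theorem LB_loc (y : J → ℕ) (r : ℕ) (u v : (J → ℕ) → ℝ) (h : ∀ x ∈ box y r, u x = v x) :
    ∀ x ∈ box y r, LB y u x = LB y v x := by
  intro x hx
  rw [LB_apply, LB_apply]
  apply Finset.sum_congr rfl
  intro b _
  split_ifs with hb
  · unfold GG DD
    rw [h x hx]
    congr 2
    apply Finset.sum_congr rfl
    intro d hd
    apply h
    have hx' := mem_box.1 hx
    have hle : e d ≤ x + e b := e_le_iff.2 (mem_sp.1 hd)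
    rw [mem_box]
    refine ⟨?_, by rw [sz_sub hle, sz_add, sz_e, sz_e, hx'.2]; omega⟩
    refine tsub_le_self.trans ?_
    intro j
    have h1 : x j ≤ y j := hx'.1 j
    have h2 : (e b : J → ℕ) j ≤ y j - x j := hb j
    show x j + (e b : J → ℕ) j ≤ y j
    omega
  · rfl

theorem LB_one (y : J → ℕ) (x : J → ℕ) : LB y (fun _ => 1) x = 0 := by
  rw [LB_apply]
  apply Finset.sum_eq_zero
  intro b _
  split_ifs
  · unfold GG DD
    rw [Finset.sum_const, nsmul_eq_mul, mul_one, div_self, sub_self]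
    have : (sp (x + e b)).Nonempty := ⟨b, by rw [mem_sp]; simp [e]⟩
    have := this.card_pos
    positivity
  · rfl

theorem phi_form (y : J → ℕ) (r : ℕ) (u : (J → ℕ) → ℝ) (b : J) :
    ∑ x ∈ box y r, (if e b ≤ y - x then (1 : ℝ) else 0) * LB y u x
      = ∑ x ∈ box y r, if (y - x) b = 1 then GG u x b else 0 := by
  rw [LB_form y r u (fun x => if e b ≤ y - x then (1 : ℝ) else 0)]
  have h1 : ∑ x ∈ box y r, (if (y - x) b = 1 then GG u x b else 0)
      = ∑ x ∈ box y r, ∑ d, if e d ≤ y - x then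
        (if d = b ∧ x b + 1 = y b then GG u x d else 0) else 0 := by
    apply Finset.sum_congr rfl
    intro x hx
    have hx' : x b ≤ y b := (mem_box.1 hx).1 b
    have hyx : (y - x) b = y b - x b := rfl
    rw [Finset.sum_eq_single b]
    · by_cases h : x b + 1 = y b
      · rw [if_pos (by rw [hyx]; omega), if_pos (by rw [e_le_iff, hyx]; omega),
          if_pos ⟨rfl, h⟩]
      · rw [if_neg (by rw [hyx]; omega)]
        split_ifs with h3 h4
        · exact absurd h4.2 h
        · rfl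
        · rfl
    · intro d _ hd
      split_ifs with h3 h4
      · exact absurd h4.1 hd
      · rfl
      · rfl
    · intro h
      exact absurd (mem_univ b) h
  rw [h1, reidx1 y r (fun x d => if d = b ∧ x b + 1 = y b then GG u x d else 0)]
  apply Finset.sum_congr rfl
  intro w hw
  have hw' : w b ≤ y b := (mem_box.1 hw).1 b
  have hterm : ∀ d ∈ sp w, (y - (w - e d)) b = y b - (w b - (if b = d then 1 else 0)) := by
    intro d _
    simp [e, Pi.single_apply]
  by_cases hwb : w b = y b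
  · apply Finset.sum_congr rfl
    intro d hd
    have hd0 : 0 < w d := mem_sp.1 hd
    have hle : e d ≤ w := e_le_iff.2 hd0
    by_cases hdb : d = b
    · subst hdb
      have h2 : e d ≤ y - (w - e d) := by
        rw [e_le_iff, hterm d hd, if_pos rfl]
        omega
      have h3 : (w - e d) d + 1 = y d := by
        have : (e d : J → ℕ) d = 1 := by simp [e]
        rw [Pi.sub_apply, this]
        omega
      rw [if_pos h2, if_pos ⟨rfl, h3⟩, one_mul]
      unfold GG
      rw [tsub_add_cancel_of_le hle]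
    · have h2 : ¬ e b ≤ y - (w - e d) := by
        rw [e_le_iff, hterm d hd, if_neg (fun h => hdb h.symm)]
        omega
      rw [if_neg h2, if_neg (fun h => hdb h.1), zero_mul]
  · have hlt : w b < y b := lt_of_le_of_ne hw' hwb
    have h2 : ∑ d ∈ sp w, (if e b ≤ y - (w - e d) then (1 : ℝ) else 0)
        * (DD u w - u (w - e d)) = ∑ d ∈ sp w, (DD u w - u (w - e d)) := by
      apply Finset.sum_congr rfl
      intro d hd
      have h3 : e b ≤ y - (w - e d) := by
        rw [e_le_iff, hterm d hd]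
        split_ifs <;> omega
      rw [if_pos h3, one_mul]
    rw [h2, sum_DD_sub]
    symm
    apply Finset.sum_eq_zero
    intro d hd
    rw [if_neg]
    rintro ⟨hdb, h4⟩
    subst hdb
    have : (e d : J → ℕ) d = 1 := by simp [e]
    rw [Pi.sub_apply, this] at h4
    have hd0 : 0 < w d := mem_sp.1 hd
    omega

theorem sum_ind (y : J → ℕ) (r : ℕ) (g : J → ℕ) :
    ∑ x ∈ box y r, (if g ≤ y - x then (1 : ℝ) else 0) = if g ≤ y then N2 r (y - g) else 0 := by
  rw [Finset.sum_ite, Finset.sum_const_zero, add_zero, Finset.sum_const, nsmul_eq_mul, mul_one]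
  split_ifs with hg
  · unfold N2
    congr 2
    ext x
    rw [Finset.mem_filter, mem_box, mem_box]
    constructor
    · rintro ⟨⟨h1, h2⟩, h3⟩
      refine ⟨fun j => ?_, h2⟩
      have a1 : x j ≤ y j := h1 j
      have a2 : g j ≤ y j - x j := h3 j
      show x j ≤ y j - g j
      omega
    · rintro ⟨h1, h2⟩
      refine ⟨⟨h1.trans tsub_le_self, h2⟩, fun j => ?_⟩
      have a1 : x j ≤ y j - g j := h1 j
      have a2 : g j ≤ y j := hg j
      show g j ≤ y j - x j
      omega
  · rw [Nat.cast_eq_zero, Finset.card_eq_zero, Finset.filter_eq_empty_iff]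
    intro x _ h
    exact hg (h.trans tsub_le_self)

theorem ee_le (z : J → ℕ) (b d : J) :
    e b + e d ≤ z ↔ if b = d then 2 ≤ z b else (0 < z b ∧ 0 < z d) := by
  rw [ee_le_iff, mem_sp, mem_sp]
  have h : (z - e b) d = z d - (if d = b then 1 else 0) := by
    simp [e, Pi.single_apply]
  rw [h]
  by_cases hbd : b = d
  · subst hbd
    simp only [if_true]
    omega
  · rw [if_neg hbd, if_neg (fun h => hbd h.symm)]
    simp

theorem sq_expand (z : J → ℕ) (p : J → ℝ) :
    (∑ b, if e b ≤ z then p b else 0) ^ 2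
      = (∑ b, ∑ d, if e b + e d ≤ z then p b * p d else 0)
        + ∑ b, if z b = 1 then p b ^ 2 else 0 := by
  rw [sq, Finset.sum_mul_sum]
  have h1 : ∑ b, (if z b = 1 then p b ^ 2 else 0)
      = ∑ b, ∑ d, if b = d ∧ z b = 1 then p b * p d else 0 := by
    apply Finset.sum_congr rfl
    intro b _
    rw [Finset.sum_eq_single b]
    · simp only [true_and]
      split_ifs
      · ring
      · rfl
    · intro d _ hd
      rw [if_neg]
      rintro ⟨h, _⟩
      exact hd h.symm
    · intro h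
      exact absurd (mem_univ b) h
  rw [h1, ← Finset.sum_add_distrib]
  apply Finset.sum_congr rfl
  intro b _
  rw [← Finset.sum_add_distrib]
  apply Finset.sum_congr rfl
  intro d _
  rw [ee_le, e_le_iff, e_le_iff]
  by_cases hbd : b = d
  · subst hbd
    simp only [if_true, true_and]
    by_cases h2 : 2 ≤ z b
    · rw [if_pos (by omega), if_pos h2, if_neg (by omega), add_zero]
    · rw [if_neg h2]
      by_cases h3 : z b = 1
      · rw [if_pos (by omega), if_pos h3, zero_add]
      · rw [if_neg (by omega), if_neg h3]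
        ring
  · rw [if_neg hbd, if_neg (fun h : b = d ∧ z b = 1 => hbd h.1), add_zero]
    by_cases h2 : 0 < z b
    · by_cases h3 : 0 < z d
      · rw [if_pos h2, if_pos h3, if_pos ⟨h2, h3⟩]
      · rw [if_neg h3, mul_zero, if_neg (fun h : 0 < z b ∧ 0 < z d => h3 h.2)]
    · rw [if_neg h2, zero_mul, if_neg (fun h : 0 < z b ∧ 0 < z d => h2 h.1)]

theorem lorA (y : J → ℕ) (r2 : ℕ) (hr : r2 ≤ sz y) (g : J → ℝ) :
    N2 r2 y * (∑ b, ∑ d, if e b + e d ≤ y then N2 r2 (y - e b - e d) * (g b * g d) else 0)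
      ≤ (∑ b, if e b ≤ y then N2 r2 (y - e b) * g b else 0) ^ 2 := by
  have hN : 0 < N2 r2 y := N2_pos hr
  have hNc : N2 r2 y = ((box y r2).card : ℝ) := rfl
  set Φ : (J → ℕ) → ℝ := fun x => ∑ b, if e b ≤ y - x then g b else 0 with hΦ
  -- the right side
  have hsum1 : (∑ b, if e b ≤ y then N2 r2 (y - e b) * g b else 0) = ∑ x ∈ box y r2, Φ x := by
    rw [hΦ, Finset.sum_comm]
    apply Finset.sum_congr rfl
    intro b _
    have h1 := sum_ind y r2 (e b)
    have h2 : ∑ x ∈ box y r2, (if e b ≤ y - x then g b else 0)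
        = (∑ x ∈ box y r2, (if e b ≤ y - x then (1 : ℝ) else 0)) * g b := by
      rw [Finset.sum_mul]
      apply Finset.sum_congr rfl
      intro x _
      split_ifs <;> simp
    rw [h2, h1]
    split_ifs <;> simp
  have hsum2 : (∑ b, ∑ d, if e b + e d ≤ y then N2 r2 (y - e b - e d) * (g b * g d) else 0)
      = ∑ x ∈ box y r2, ∑ b, ∑ d, if e b + e d ≤ y - x then g b * g d else 0 := by
    rw [Finset.sum_comm (s := box y r2)]
    apply Finset.sum_congr rfl
    intro b _
    rw [Finset.sum_comm (s := box y r2)]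
    apply Finset.sum_congr rfl
    intro d _
    have h1 := sum_ind y r2 (e b + e d)
    have h2 : ∑ x ∈ box y r2, (if e b + e d ≤ y - x then g b * g d else 0)
        = (∑ x ∈ box y r2, (if e b + e d ≤ y - x then (1 : ℝ) else 0)) * (g b * g d) := by
      rw [Finset.sum_mul]
      apply Finset.sum_congr rfl
      intro x _
      split_ifs <;> simp
    rw [h2, h1, tsub_add_eq_tsub_tsub]
    split_ifs <;> simp
  rw [hsum1, hsum2]
  set m : ℝ := (∑ x ∈ box y r2, Φ x) / N2 r2 y with hm
  have hmN : N2 r2 y * m = ∑ x ∈ box y r2, Φ x := by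
    rw [hm, mul_div_cancel₀ _ hN.ne']
  have hmean : ∑ x ∈ box y r2, (Φ x - m) = 0 := by
    rw [Finset.sum_sub_distrib, Finset.sum_const, nsmul_eq_mul, ← hNc, hmN, sub_self]
  obtain ⟨ψ, hψ⟩ := solve (box y r2) (fun _ => (1 : ℝ)) (fun _ _ => one_pos) (LB y)
    (fun u v h => LB_loc y r2 u v h)
    (fun u v => by
      simp only [one_mul]
      have := LB_symm y r2 u v
      rw [← this]
      exact Finset.sum_congr rfl (fun x _ => mul_comm _ _))
    (fun x _ => LB_one y x)
    (fun u h => LB_ker y r2 u h)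
    (fun x => Φ x - m) (by simpa only [one_mul] using hmean)
  -- the variance
  set V : ℝ := ∑ x ∈ box y r2, (Φ x - m) ^ 2 with hV
  set G : ℝ := ∑ x ∈ box y r2, ∑ b, (if (y - x) b = 1 then g b ^ 2 else 0) with hG
  set S : ℝ := ∑ x ∈ box y r2, ∑ b, (if (y - x) b = 1 then GG ψ x b ^ 2 else 0) with hS
  have hV1 : V = ∑ x ∈ box y r2, ∑ b, (if (y - x) b = 1 then g b * GG ψ x b else 0) := by
    have h1 : V = ∑ x ∈ box y r2, Φ x * LB y ψ x := by
      have h2 : ∑ x ∈ box y r2, Φ x * LB y ψ x = ∑ x ∈ box y r2, Φ x * (Φ x - m) :=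
        Finset.sum_congr rfl (fun x hx => by rw [hψ x hx])
      rw [h2, hV]
      have h3 : ∑ x ∈ box y r2, (Φ x - m) ^ 2
          = ∑ x ∈ box y r2, Φ x * (Φ x - m) - m * ∑ x ∈ box y r2, (Φ x - m) := by
        rw [Finset.mul_sum, ← Finset.sum_sub_distrib]
        apply Finset.sum_congr rfl
        intro x _
        ring
      rw [h3, hmean, mul_zero, sub_zero]
    rw [h1]
    have h4 : ∑ x ∈ box y r2, Φ x * LB y ψ x
        = ∑ b, g b * ∑ x ∈ box y r2, (if e b ≤ y - x then (1 : ℝ) else 0) * LB y ψ x := by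
      simp only [hΦ, Finset.sum_mul, Finset.mul_sum]
      rw [Finset.sum_comm]
      apply Finset.sum_congr rfl
      intro b _
      apply Finset.sum_congr rfl
      intro x _
      split_ifs <;> simp
    rw [h4, Finset.sum_comm]
    apply Finset.sum_congr rfl
    intro b _
    rw [phi_form, Finset.mul_sum]
    apply Finset.sum_congr rfl
    intro x _
    split_ifs <;> simp
  have hV2 : S ≤ V := by
    have h1 : V = ∑ x ∈ box y r2, (LB y ψ x) ^ 2 :=
      Finset.sum_congr rfl (fun x hx => by rw [hψ x hx])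
    have h2 : ∑ x ∈ box y r2, (LB y ψ x) ^ 2
        = (∑ x ∈ box y r2, ∑ b, ∑ d, if e b + e d ≤ y - x then GG ψ x b * GG ψ x d else 0)
          + S := by
      rw [hS, ← Finset.sum_add_distrib]
      apply Finset.sum_congr rfl
      intro x _
      rw [LB_apply, sq_expand]
    rw [h1, h2, reidx2 y r2 (fun x b d => GG ψ x b * GG ψ x d)]
    have h3 : 0 ≤ ∑ w ∈ box y (r2 + 2), ∑ b, ∑ d,
        if e b + e d ≤ w then GG ψ (w - e b - e d) b * GG ψ (w - e b - e d) d else 0 := by
      apply Finset.sum_nonneg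
      intro w hw
      have h4 := QQ_nonneg ψ w (by rw [(mem_box.1 hw).2]; omega)
      exact h4
    linarith
  have hVG : V ≤ G := by
    have h1 : 2 * V ≤ G + S := by
      rw [hV1, hG, hS, Finset.mul_sum, ← Finset.sum_add_distrib]
      apply Finset.sum_le_sum
      intro x _
      rw [Finset.mul_sum, ← Finset.sum_add_distrib]
      apply Finset.sum_le_sum
      intro b _
      split_ifs
      · nlinarith [sq_nonneg (g b - GG ψ x b)]
      · simp
    linarith
  -- conclusion
  have hΦ2 : ∑ x ∈ box y r2, Φ x ^ 2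
      = (∑ x ∈ box y r2, ∑ b, ∑ d, if e b + e d ≤ y - x then g b * g d else 0) + G := by
    rw [hG, ← Finset.sum_add_distrib]
    apply Finset.sum_congr rfl
    intro x _
    rw [hΦ]
    exact sq_expand (y - x) g
  have hV3 : N2 r2 y * V = N2 r2 y * ∑ x ∈ box y r2, Φ x ^ 2 - (∑ x ∈ box y r2, Φ x) ^ 2 := by
    have h1 : V = ∑ x ∈ box y r2, Φ x ^ 2 - 2 * m * ∑ x ∈ box y r2, Φ x + N2 r2 y * m ^ 2 := by
      rw [hV]
      have : ∀ x ∈ box y r2, (Φ x - m) ^ 2 = Φ x ^ 2 - 2 * m * Φ x + m ^ 2 :=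
        fun x _ => by ring
      rw [Finset.sum_congr rfl this, Finset.sum_add_distrib, Finset.sum_sub_distrib,
        Finset.sum_const, nsmul_eq_mul, ← Finset.mul_sum, hNc]
    rw [h1, ← hmN]
    ring
  set A : ℝ := ∑ x ∈ box y r2, ∑ b, ∑ d, if e b + e d ≤ y - x then g b * g d else 0 with hA
  have h5 : N2 r2 y * A = N2 r2 y * ∑ x ∈ box y r2, Φ x ^ 2 - N2 r2 y * G := by
    rw [hΦ2]; ring
  have h6 := mul_le_mul_of_nonneg_left hVG hN.le
  linarith

end CT
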