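import Vale.Agent.CT.Q
import Vale.Agent.CT.Abs
import Vale.Agent.CT.LorA

/-! # The variance inequality for two-row tables (piece LOR)

Proof: on `box y r2` (row `x`, other row `y - x`, uniform) put `L psi(x) = ∑_b [e_b ≤ y-x] GG psi x b`.
`∑ (L psi)² = ∑_{w ∈ box y (r2+2)} QQ psi w + ∑_x ∑_{b : (y-x) b = 1} (GG psi x b)²` (reidx2), and
`∑_x [e_b ≤ y-x] L psi(x) = ∑_{x : (y-x) b = 1} GG psi x b` (reversibility).  Take `psi` with
`L psi = Phi - mean`, `Phi(x) = ∑_b g_b [e_b ≤ y-x]` (solvability: `CT.solve`, kernel by connectivity),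
Cauchy-Schwarz. -/

namespace CT

open Finset
open scoped Classical

variable {J : Type} [Fintype J] [DecidableEq J]

/-- connectivity of the box level set -/
theorem box_conn (y : J → ℕ) (r : ℕ) (F : (J → ℕ) → ℝ)
    (h : ∀ w ∈ box y (r + 1), ∀ a ∈ sp w, ∀ b ∈ sp w, F (w - e a) = F (w - e b)) :
    ∀ x ∈ box y r, ∀ x' ∈ box y r, F x = F x' :=
  box_connA y r F h

theorem lor (y : J → ℕ) (r2 : ℕ) (hr : r2 ≤ sz y) (g : J → ℝ) :
    N2 r2 y * (∑ b, ∑ d, if e b + e d ≤ y then N2 r2 (y - e b - e d) * (g b * g d) else 0)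
      ≤ (∑ b, if e b ≤ y then N2 r2 (y - e b) * g b else 0) ^ 2 :=
  lorA y r2 hr g

end CT
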