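import Vale.Agent.CT.Rx

/-! # Cross terms are nonnegative (piece CR) -/

namespace CT

open Finset
open scoped Classical

variable {J : Type} [Fintype J] [DecidableEq J]
variable {K : Type} [Fintype K] [DecidableEq K]

namespace CRx

theorem mem_XX {c : J → ℕ} {rho : K → ℕ} {x : K → J → ℕ} :
    x ∈ XX c rho ↔ (∀ l, sz (x l) = rho l) ∧ ∑ l, x l ≤ c := by
  rw [XX, Finset.mem_filter, Fintype.mem_piFinset]
  constructor
  · rintro ⟨h1, h2⟩
    exact ⟨fun l => (mem_box.1 (h1 l)).2, h2⟩
  · rintro ⟨h1, h2⟩
    refine ⟨fun l => mem_box.2 ⟨?_, h1 l⟩, h2⟩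
    exact (Finset.single_le_sum (f := x) (fun i _ => zero_le) (Finset.mem_univ l)).trans h2

theorem sum_upd (x : K → J → ℕ) (k : K) (t : J → ℕ) :
    ∑ l, Function.update x k t l = t + ∑ l ∈ univ \ {k}, x l :=
  Finset.sum_update_of_mem (Finset.mem_univ k) x t

theorem sum_split (x : K → J → ℕ) (k : K) :
    ∑ l, x l = x k + ∑ l ∈ univ \ {k}, x l := by
  rw [← sum_upd, Function.update_eq_self]

/-- reindexing of one row of the non-hub configurations -/
theorem reidxX (c : J → ℕ) (rho : K → ℕ) (k : K) (g : J → ℕ) (f : (K → J → ℕ) → ℝ) :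
    (∑ x ∈ XX c rho, if g ≤ yy c x then f x else 0)
      = ∑ z ∈ XX c (Function.update rho k (rho k + sz g)),
          if g ≤ z k then f (Function.update z k (z k - g)) else 0 := by
  rw [← Finset.sum_filter, ← Finset.sum_filter]
  refine Finset.sum_nbij' (fun x => Function.update x k (x k + g))
    (fun z => Function.update z k (z k - g)) ?_ ?_ ?_ ?_ ?_
  · intro x hx
    simp only [Finset.mem_filter, mem_XX] at hx ⊢
    obtain ⟨⟨h1, h2⟩, h3⟩ := hx
    refine ⟨⟨?_, ?_⟩, ?_⟩
    · intro l
      by_cases hl : l = k
      · subst hl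
        simp only [Function.update_self]
        rw [sz_add, h1]
      · rw [Function.update_of_ne hl, Function.update_of_ne hl, h1]
    · rw [sum_upd]
      have h4 := sum_split x k
      intro j
      have a := h3 j
      have b := h2 j
      rw [h4] at b
      simp only [yy, h4, Pi.sub_apply, Pi.add_apply] at a b ⊢
      omega
    · simp only [Function.update_self]
      exact le_add_self
  · intro z hz
    simp only [Finset.mem_filter, mem_XX] at hz ⊢
    obtain ⟨⟨h1, h2⟩, h3⟩ := hz
    refine ⟨⟨?_, ?_⟩, ?_⟩
    · intro l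
      by_cases hl : l = k
      · subst hl
        have := h1 l
        rw [Function.update_self] at this ⊢
        rw [sz_sub h3, this]; omega
      · have := h1 l
        rw [Function.update_of_ne hl] at this ⊢
        exact this
    · rw [sum_upd]
      have h4 := sum_split z k
      intro j
      have b := h2 j
      rw [h4] at b
      simp only [Pi.sub_apply, Pi.add_apply] at b ⊢
      omega
    · intro j
      have h4 := sum_split z k
      have a := h3 j
      have b := h2 j
      rw [h4] at b
      simp only [yy, sum_upd, Pi.sub_apply, Pi.add_apply] at a b ⊢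
      omega
  · intro x hx
    simp
  · intro z hz
    simp only [Finset.mem_filter] at hz
    simp [tsub_add_cancel_of_le hz.2]
  · intro x hx
    simp

theorem matrix_nonneg {α β : Type} (S : Finset α) (T : Finset β) (M : α → β → ℝ) :
    0 ≤ ∑ b ∈ S, ∑ d ∈ T, ((∑ a ∈ S, M a d) / (S.card : ℝ) - M b d)
        * ((∑ a ∈ T, M b a) / (T.card : ℝ) - M b d) := by
  rcases S.eq_empty_or_nonempty with hS | hS
  · subst hS; simp
  rcases T.eq_empty_or_nonempty with hT | hT
  · subst hT; simp
  have hs : (S.card : ℝ) ≠ 0 := by exact_mod_cast hS.card_pos.ne'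
  have ht : (T.card : ℝ) ≠ 0 := by exact_mod_cast hT.card_pos.ne'
  set r : α → ℝ := fun b => (∑ a ∈ T, M b a) / (T.card : ℝ) with hr
  set s : β → ℝ := fun d => (∑ a ∈ S, M a d) / (S.card : ℝ) with hsd
  set m : ℝ := (∑ b ∈ S, r b) / (S.card : ℝ) with hm
  have hm' : m = (∑ d ∈ T, s d) / (T.card : ℝ) := by
    rw [hm]
    simp only [hr, hsd]
    rw [← Finset.sum_div, ← Finset.sum_div, Finset.sum_comm, div_div, div_div, mul_comm (T.card : ℝ)]
  have e1 : ∀ b ∈ S, ∑ d ∈ T, (M b d - r b - s d + m) = 0 := by
    intro b _
    rw [Finset.sum_add_distrib, Finset.sum_sub_distrib, Finset.sum_sub_distrib]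
    simp only [Finset.sum_const, nsmul_eq_mul]
    have h1 : (T.card : ℝ) * r b = ∑ d ∈ T, M b d := by
      simp only [hr]; field_simp
    have h2 : (T.card : ℝ) * m = ∑ d ∈ T, s d := by
      rw [hm']; field_simp
    rw [h1, h2]; ring
  have e2 : ∀ d ∈ T, ∑ b ∈ S, (M b d - r b - s d + m) = 0 := by
    intro d _
    rw [Finset.sum_add_distrib, Finset.sum_sub_distrib, Finset.sum_sub_distrib]
    simp only [Finset.sum_const, nsmul_eq_mul]
    have h1 : (S.card : ℝ) * s d = ∑ b ∈ S, M b d := by
      simp only [hsd]; field_simp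
    have h2 : (S.card : ℝ) * m = ∑ b ∈ S, r b := by
      rw [hm]; field_simp
    rw [h1, h2]; ring
  have e3 : ∑ b ∈ S, (r b - m) = 0 := by
    rw [Finset.sum_sub_distrib]
    simp only [Finset.sum_const, nsmul_eq_mul]
    have h2 : (S.card : ℝ) * m = ∑ b ∈ S, r b := by
      rw [hm]; field_simp
    rw [h2]; ring
  have key : ∑ b ∈ S, ∑ d ∈ T, (s d - M b d) * (r b - M b d)
      = ∑ b ∈ S, ∑ d ∈ T, (M b d - r b - s d + m) ^ 2 := by
    have h0 : ∀ b d, (s d - M b d) * (r b - M b d)
        = (M b d - r b - s d + m) ^ 2 + (r b - m) * (M b d - r b - s d + m)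
          + (s d - m) * (M b d - r b - s d + m) + (r b - m) * (s d - m) := by
      intro b d; ring
    simp only [h0, Finset.sum_add_distrib]
    have t1 : ∑ b ∈ S, ∑ d ∈ T, (r b - m) * (M b d - r b - s d + m) = 0 := by
      refine Finset.sum_eq_zero fun b hb => ?_
      rw [← Finset.mul_sum, e1 b hb, mul_zero]
    have t2 : ∑ b ∈ S, ∑ d ∈ T, (s d - m) * (M b d - r b - s d + m) = 0 := by
      rw [Finset.sum_comm]
      refine Finset.sum_eq_zero fun d hd => ?_
      rw [← Finset.mul_sum, e2 d hd, mul_zero]
    have t3 : ∑ b ∈ S, ∑ d ∈ T, (r b - m) * (s d - m) = 0 := by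
      rw [← Finset.sum_mul_sum, e3, zero_mul]
    rw [t1, t2, t3]; ring
  rw [key]
  positivity

theorem sum_sp (w : J → ℕ) (f : J → ℝ) : ∑ b ∈ sp w, f b = ∑ b, if 0 < w b then f b else 0 := by
  rw [sp, Finset.sum_filter]

theorem yy_upd_sub {c : J → ℕ} {x : K → J → ℕ} {k : K} {g : J → ℕ} (h : ∑ l, x l ≤ c)
    (hg : g ≤ x k) : yy c (Function.update x k (x k - g)) = yy c x + g := by
  have h4 := sum_split x k
  funext j
  have a := hg j
  have b := h j
  rw [h4] at b
  simp only [yy, sum_upd, h4, Pi.sub_apply, Pi.add_apply] at a b ⊢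
  omega

end CRx

open CRx in
theorem cross_nonnegA (c : J → ℕ) (rho : K → ℕ) (r2 : ℕ) (u : (K → J → ℕ) → ℝ) {k l : K}
    (hkl : k ≠ l) :
    0 ≤ ∑ x ∈ XX c rho, ∑ b, ∑ d,
      if e b + e d ≤ yy c x then N2 r2 (yy c x - e b - e d) * (GK u x k b * GK u x l d) else 0 := by
  set P : (K → J → ℕ) → J → J → ℝ :=
    fun x b d => N2 r2 (yy c x - e b - e d) * (GK u x k b * GK u x l d) with hP
  set rho1 := Function.update rho k (rho k + 1) with hrho1
  set rho2 := Function.update rho1 l (rho1 l + 1) with hrho2
  have step1 : ∀ b d, (∑ x ∈ XX c rho, if e b + e d ≤ yy c x then P x b d else 0)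
      = ∑ z ∈ XX c rho2, if e d ≤ z l ∧ e b ≤ z k then
          P (Function.update (Function.update z l (z l - e d)) k (z k - e b)) b d else 0 := by
    intro b d
    have s1 : (∑ x ∈ XX c rho, if e b + e d ≤ yy c x then P x b d else 0)
        = ∑ x ∈ XX c rho, if e b ≤ yy c x then
            (if e d ≤ yy c x - e b then P x b d else 0) else 0 := by
      refine Finset.sum_congr rfl fun x _ => ?_
      by_cases h1 : e b ≤ yy c x
      · rw [if_pos h1]
        have : (e b + e d ≤ yy c x) ↔ (e d ≤ yy c x - e b) := (le_tsub_iff_left h1).symm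
        simp only [this]
      · rw [if_neg h1, if_neg]
        intro h2
        exact h1 (le_trans le_self_add h2)
    rw [s1, reidxX c rho k (e b) (fun x => if e d ≤ yy c x - e b then P x b d else 0), sz_e, ← hrho1]
    have s2 : ∀ z ∈ XX c rho1, (if e b ≤ z k then
          (if e d ≤ yy c (Function.update z k (z k - e b)) - e b then
            P (Function.update z k (z k - e b)) b d else 0) else 0)
        = if e d ≤ yy c z then
            (if e b ≤ z k then P (Function.update z k (z k - e b)) b d else 0) else 0 := by
      intro z hz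
      by_cases h1 : e b ≤ z k
      · rw [if_pos h1, yy_upd_sub (mem_XX.1 hz).2 h1, add_tsub_cancel_right, if_pos h1]
      · rw [if_neg h1, if_neg h1, ite_self]
    rw [Finset.sum_congr rfl s2, reidxX c rho1 l (e d) (fun z => if e b ≤ z k then
      P (Function.update z k (z k - e b)) b d else 0), sz_e, ← hrho2]
    refine Finset.sum_congr rfl fun z _ => ?_
    have hk : Function.update z l (z l - e d) k = z k := Function.update_of_ne hkl _ _
    rw [hk]
    by_cases h1 : e d ≤ z l
    · by_cases h2 : e b ≤ z k
      · simp [h1, h2]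
      · simp [h2]
    · simp [h1]
  have step2 : (∑ x ∈ XX c rho, ∑ b, ∑ d, if e b + e d ≤ yy c x then P x b d else 0)
      = ∑ z ∈ XX c rho2, N2 r2 (yy c z) * ∑ b ∈ sp (z k), ∑ d ∈ sp (z l),
          ((∑ a ∈ sp (z k), u (Function.update (Function.update z l (z l - e d)) k (z k - e a)))
              / ((sp (z k)).card : ℝ)
            - u (Function.update (Function.update z l (z l - e d)) k (z k - e b)))
          * ((∑ a ∈ sp (z l), u (Function.update (Function.update z l (z l - e a)) k (z k - e b)))
              / ((sp (z l)).card : ℝ)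
            - u (Function.update (Function.update z l (z l - e d)) k (z k - e b))) := by
    rw [Finset.sum_comm]
    have : ∀ b, (∑ x ∈ XX c rho, ∑ d, if e b + e d ≤ yy c x then P x b d else 0)
        = ∑ z ∈ XX c rho2, ∑ d, if e d ≤ z l ∧ e b ≤ z k then
          P (Function.update (Function.update z l (z l - e d)) k (z k - e b)) b d else 0 := by
      intro b
      rw [Finset.sum_comm, Finset.sum_comm (s := XX c rho2)]
      exact Finset.sum_congr rfl fun d _ => step1 b d
    simp only [this]
    rw [Finset.sum_comm]
    refine Finset.sum_congr rfl fun z hz => ?_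
    rw [sum_sp (z k), Finset.mul_sum]
    refine Finset.sum_congr rfl fun b _ => ?_
    by_cases hb : 0 < z k b
    swap
    · rw [if_neg hb, mul_zero]
      refine Finset.sum_eq_zero fun d _ => ?_
      rw [if_neg]
      rintro ⟨_, h2⟩
      exact hb (e_le_iff.1 h2)
    rw [if_pos hb, sum_sp (z l), Finset.mul_sum]
    refine Finset.sum_congr rfl fun d _ => ?_
    by_cases hd : 0 < z l d
    swap
    · rw [if_neg hd, mul_zero, if_neg]
      rintro ⟨h1, _⟩
      exact hd (e_le_iff.1 h1)
    have h1 : e d ≤ z l := e_le_iff.2 hd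
    have h2 : e b ≤ z k := e_le_iff.2 hb
    rw [if_pos ⟨h1, h2⟩, if_pos hd]
    have hsum := (mem_XX.1 hz).2
    have hyy : yy c (Function.update (Function.update z l (z l - e d)) k (z k - e b))
        = yy c z + e d + e b := by
      have hk : Function.update z l (z l - e d) k = z k := Function.update_of_ne hkl _ _
      have hs : ∑ i, Function.update z l (z l - e d) i ≤ c := by
        refine le_trans ?_ hsum
        refine Finset.sum_le_sum fun i _ => ?_
        by_cases hi : i = l
        · subst hi; simp
        · rw [Function.update_of_ne hi]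
      have h3 := yy_upd_sub (c := c) (x := Function.update z l (z l - e d)) (k := k) (g := e b) hs
        (by rw [hk]; exact h2)
      rw [hk] at h3
      rw [h3, yy_upd_sub hsum h1]
    simp only [hP, hyy]
    have hN : yy c z + e d + e b - e b - e d = yy c z := by
      rw [add_tsub_cancel_right, add_tsub_cancel_right]
    rw [hN]
    congr 1
    have g1 : GK u (Function.update (Function.update z l (z l - e d)) k (z k - e b)) k b
        = (∑ a ∈ sp (z k), u (Function.update (Function.update z l (z l - e d)) k (z k - e a)))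
              / ((sp (z k)).card : ℝ)
            - u (Function.update (Function.update z l (z l - e d)) k (z k - e b)) := by
      simp only [GK, GG, DD, Function.update_self, Function.update_idem, tsub_add_cancel_of_le h2]
    have g2 : GK u (Function.update (Function.update z l (z l - e d)) k (z k - e b)) l d
        = (∑ a ∈ sp (z l), u (Function.update (Function.update z l (z l - e a)) k (z k - e b)))
              / ((sp (z l)).card : ℝ)
            - u (Function.update (Function.update z l (z l - e d)) k (z k - e b)) := by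
      have hl : Function.update (Function.update z l (z l - e d)) k (z k - e b) l = z l - e d := by
        rw [Function.update_of_ne hkl.symm, Function.update_self]
      have hc : ∀ t, Function.update (Function.update (Function.update z l (z l - e d)) k
          (z k - e b)) l t = Function.update (Function.update z l t) k (z k - e b) := by
        intro t
        rw [Function.update_comm hkl, Function.update_idem]
      simp only [GK, GG, DD, hl, hc, tsub_add_cancel_of_le h1]
    rw [g1, g2]
  rw [step2]
  refine Finset.sum_nonneg fun z _ => mul_nonneg ?_ ?_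
  · exact Nat.cast_nonneg _
  · exact matrix_nonneg (sp (z k)) (sp (z l))
      (fun b d => u (Function.update (Function.update z l (z l - e d)) k (z k - e b)))

end CT
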