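import Vale.Agent.CT.MainIneqM
import Vale.Agent.CT.MainIneqA

/-! # The main inequality (pieces CR, M) -/

namespace CT

open Finset
open scoped Classical

variable {J : Type} [Fintype J] [DecidableEq J]
variable {K : Type} [Fintype K] [DecidableEq K]

/-- CR: cross terms of two different non-hub rows are nonnegative (commuting averages).
Fix the other rows; reindex `w' = x k + e b`, `w'' = x l + e d`. -/
theorem cross_nonneg (c : J → ℕ) (rho : K → ℕ) (r2 : ℕ) (u : (K → J → ℕ) → ℝ) {k l : K}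
    (hkl : k ≠ l) :
    0 ≤ ∑ x ∈ XX c rho, ∑ b, ∑ d,
      if e b + e d ≤ yy c x then N2 r2 (yy c x - e b - e d) * (GK u x k b * GK u x l d) else 0 :=
  cross_nonnegA c rho r2 u hkl

/-- M: main inequality. From `lor` at every `x` with `g b = ∑ k, GK u x k b`, and `cross_nonneg`. -/
theorem main_ineq (c : J → ℕ) (rho : K → ℕ) (r1 r2 : ℕ) (hc : sz c = r1 + r2 + ∑ k, rho k)
    (u : (K → J → ℕ) → ℝ) :
    ∑ k, AX c rho r2 u k ≤ ∑ x ∈ XX c rho, (LX c r2 u x) ^ 2 / N2 r2 (yy c x) := by
  exact main_ineq_of c rho r1 r2 hc u fun k l hkl => cross_nonneg c rho r2 u hkl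

end CT
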