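import Vale.Agent.CT.Lor

/-! # The main inequality (piece M), from `lor` and the cross terms -/

namespace CT

open Finset
open scoped Classical

variable {J : Type} [Fintype J] [DecidableEq J]
variable {K : Type} [Fintype K] [DecidableEq K]

theorem sz_sum (x : K → J → ℕ) : sz (∑ k, x k) = ∑ k, sz (x k) := by
  unfold sz
  simp only [Finset.sum_apply]
  rw [Finset.sum_comm]

theorem sz_yy {c : J → ℕ} {rho : K → ℕ} {r : ℕ} (hc : sz c = r + ∑ k, rho k)
    {x : K → J → ℕ} (hx : x ∈ XX c rho) : sz (yy c x) = r := by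
  unfold XX at hx
  rw [Finset.mem_filter, Fintype.mem_piFinset] at hx
  obtain ⟨h1, h2⟩ := hx
  have h3 : yy c x + ∑ k, x k = c := by
    unfold yy
    exact tsub_add_cancel_of_le h2
  have h4 : sz (yy c x) + sz (∑ k, x k) = sz c := by rw [← sz_add, h3]
  have h5 : sz (∑ k, x k) = ∑ k, rho k := by
    rw [sz_sum]
    exact Finset.sum_congr rfl fun k _ => (mem_box.mp (h1 k)).2
  omega

theorem sum4_comm (t : K → K → J → J → ℝ) :
    ∑ k, ∑ l, ∑ b, ∑ d, t k l b d = ∑ b, ∑ d, ∑ k, ∑ l, t k l b d := by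
  have h1 : ∀ k, ∑ l, ∑ b, ∑ d, t k l b d = ∑ b, ∑ d, ∑ l, t k l b d := by
    intro k
    rw [Finset.sum_comm]
    exact Finset.sum_congr rfl fun b _ => Finset.sum_comm
  simp only [h1]
  rw [Finset.sum_comm]
  exact Finset.sum_congr rfl fun b _ => Finset.sum_comm

/-- M: main inequality, with the cross terms as a hypothesis. -/
theorem main_ineq_of (c : J → ℕ) (rho : K → ℕ) (r1 r2 : ℕ) (hc : sz c = r1 + r2 + ∑ k, rho k)
    (u : (K → J → ℕ) → ℝ)
    (hcross : ∀ k l : K, k ≠ l → 0 ≤ ∑ x ∈ XX c rho, ∑ b, ∑ d,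
      if e b + e d ≤ yy c x then N2 r2 (yy c x - e b - e d) * (GK u x k b * GK u x l d) else 0) :
    ∑ k, AX c rho r2 u k ≤ ∑ x ∈ XX c rho, (LX c r2 u x) ^ 2 / N2 r2 (yy c x) := by
  -- the bilinear form at one `x`
  set BB : (K → J → ℕ) → K → K → ℝ := fun x k l => ∑ b, ∑ d,
    if e b + e d ≤ yy c x then N2 r2 (yy c x - e b - e d) * (GK u x k b * GK u x l d) else 0
    with hBB
  have h1 : ∀ x ∈ XX c rho, ∑ k, ∑ l, BB x k l ≤ (LX c r2 u x) ^ 2 / N2 r2 (yy c x) := by
    intro x hx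
    have hsz : sz (yy c x) = r1 + r2 := sz_yy hc hx
    have hpos : 0 < N2 r2 (yy c x) := N2_pos (by omega)
    rw [le_div_iff₀ hpos]
    have hl := lor (yy c x) r2 (by omega) (fun b => ∑ k, GK u x k b)
    have e1 : ∑ k, ∑ l, BB x k l = ∑ b, ∑ d, if e b + e d ≤ yy c x then
        N2 r2 (yy c x - e b - e d) * ((∑ k, GK u x k b) * (∑ l, GK u x l d)) else 0 := by
      simp only [hBB]
      have : ∀ b d : J, (if e b + e d ≤ yy c x then
          N2 r2 (yy c x - e b - e d) * ((∑ k, GK u x k b) * (∑ l, GK u x l d)) else 0)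
          = ∑ k, ∑ l, if e b + e d ≤ yy c x then
          N2 r2 (yy c x - e b - e d) * (GK u x k b * GK u x l d) else 0 := by
        intro b d
        by_cases h : e b + e d ≤ yy c x
        · simp only [if_pos h]
          rw [Finset.sum_mul_sum, Finset.mul_sum]
          exact Finset.sum_congr rfl fun k _ => by rw [Finset.mul_sum]
        · simp only [if_neg h, Finset.sum_const_zero]
      simp only [this]
      exact sum4_comm _
    have e2 : LX c r2 u x = ∑ b, if e b ≤ yy c x then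
        N2 r2 (yy c x - e b) * (∑ k, GK u x k b) else 0 := by
      unfold LX
      rw [Finset.sum_comm]
      refine Finset.sum_congr rfl fun b _ => ?_
      by_cases h : e b ≤ yy c x
      · simp only [if_pos h]
        rw [Finset.mul_sum]
      · simp only [if_neg h, Finset.sum_const_zero]
    rw [e1, e2, mul_comm]
    exact hl
  have h2 : ∑ x ∈ XX c rho, ∑ k, ∑ l, BB x k l = ∑ k, ∑ l, ∑ x ∈ XX c rho, BB x k l := by
    rw [Finset.sum_comm]
    exact Finset.sum_congr rfl fun k _ => by rw [Finset.sum_comm]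
  have h3 : ∀ k, AX c rho r2 u k ≤ ∑ l, ∑ x ∈ XX c rho, BB x k l := by
    intro k
    have e3 : AX c rho r2 u k = ∑ x ∈ XX c rho, BB x k k := rfl
    rw [e3, ← Finset.add_sum_erase univ (fun l => ∑ x ∈ XX c rho, BB x k l) (Finset.mem_univ k)]
    have e4 : 0 ≤ ∑ l ∈ univ.erase k, ∑ x ∈ XX c rho, BB x k l :=
      Finset.sum_nonneg fun l hl => hcross k l (Finset.ne_of_mem_erase hl).symm
    linarith
  calc ∑ k, AX c rho r2 u k ≤ ∑ k, ∑ l, ∑ x ∈ XX c rho, BB x k l :=
        Finset.sum_le_sum fun k _ => h3 k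
    _ = ∑ x ∈ XX c rho, ∑ k, ∑ l, BB x k l := h2.symm
    _ ≤ _ := Finset.sum_le_sum h1

end CT
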