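import Mathlib

/-!
# P328: the local quadratic identity (abstract form)
-/

namespace CT

open Finset

variable {J : Type} [DecidableEq J]

/-- Abstract form of the identity: `S` finite set, `T ⊆ S` (the `b` with `w_b = 1`), `A` symmetric,
row averages `f b` over `S` (if `b ∉ T`) or `S \ {b}` (if `b ∈ T`). -/
theorem absQ {S T : Finset J} (hT : T ⊆ S) (hn : 1 ≤ S.card) (hn2 : T.Nonempty → 2 ≤ S.card)
    (A : J → J → ℝ) (hA : ∀ b d, A b d = A d b) (N : J → Finset J)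
    (hN : ∀ b, N b = if b ∈ T then S.erase b else S)
    (f h : J → ℝ) (hf : ∀ b ∈ S, f b = (∑ d ∈ N b, A b d) / ((N b).card : ℝ))
    (hh : ∀ b ∈ S, h b = (∑ d ∈ N b, (f d - A b d)) / ((N b).card : ℝ)) :
    ∑ b ∈ S, ∑ d ∈ N b, (f d - A b d) * (f b - A b d)
      = ∑ b ∈ S, ∑ d ∈ N b, (f d - A b d - h b) ^ 2
        + (((S.card : ℝ) - 1) / (S.card : ℝ)) * ∑ b ∈ T, (h b) ^ 2 := by
  obtain ⟨n, hndef⟩ : ∃ n : ℝ, n = (S.card : ℝ) := ⟨_, rfl⟩
  rw [← hndef]
  have hn1 : (1 : ℝ) ≤ n := by rw [hndef]; exact_mod_cast hn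
  have hn0 : n ≠ 0 := by linarith
  -- indicator
  set c : J → J → ℝ := fun b d => if b = d ∧ b ∈ T then 0 else 1 with hc
  have hcs : ∀ b d, c b d = c d b := by
    intro b d
    simp only [hc]
    by_cases h1 : b = d
    · subst h1; rfl
    · have h2 : ¬ d = b := fun h => h1 h.symm
      simp [h1, h2]
  have hsum : ∀ b ∈ S, ∀ g : J → ℝ, ∑ d ∈ N b, g d = ∑ d ∈ S, c b d * g d := by
    intro b hb g
    rw [hN b]
    by_cases hbT : b ∈ T
    · rw [if_pos hbT, ← Finset.add_sum_erase S (fun d => c b d * g d) hb]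
      have h1 : c b b = 0 := by simp [hc, hbT]
      rw [h1, zero_mul, zero_add]
      refine Finset.sum_congr rfl fun d hd => ?_
      have h2 : b ≠ d := fun h => (Finset.ne_of_mem_erase hd) h.symm
      simp [hc, h2]
    · rw [if_neg hbT]
      refine Finset.sum_congr rfl fun d _ => ?_
      simp [hc, hbT]
  -- card
  set k : J → ℝ := fun b => ((N b).card : ℝ) with hk
  have hkT : ∀ b ∈ T, k b = n - 1 := by
    intro b hb
    simp only [hk]
    rw [hN b, if_pos hb, Finset.card_erase_of_mem (hT hb), Nat.cast_sub hn, ← hndef, Nat.cast_one]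
  have hkS : ∀ b, b ∉ T → k b = n := by
    intro b hb
    simp only [hk]
    rw [hN b, if_neg hb, ← hndef]
  have hk0 : ∀ b ∈ S, k b ≠ 0 := by
    intro b hb
    by_cases hbT : b ∈ T
    · rw [hkT b hbT]
      have h2 : (2 : ℝ) ≤ n := by rw [hndef]; exact_mod_cast hn2 ⟨b, hbT⟩
      linarith
    · rw [hkS b hbT]; exact hn0
  have hkc : ∀ b ∈ S, ∑ d ∈ S, c b d = k b := by
    intro b hb
    have := hsum b hb (fun _ => 1)
    simp only [mul_one, Finset.sum_const, nsmul_eq_mul] at this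
    rw [← this]
  have hAf : ∀ b ∈ S, ∑ d ∈ S, c b d * A b d = k b * f b := by
    intro b hb
    rw [← hsum b hb, hf b hb]
    have := hk0 b hb
    simp only [hk] at this ⊢
    rw [mul_div_cancel₀ _ this]
  have hhk : ∀ b ∈ S, ∑ d ∈ S, c b d * (f d - A b d) = k b * h b := by
    intro b hb
    rw [← hsum b hb, hh b hb]
    have := hk0 b hb
    simp only [hk] at this ⊢
    rw [mul_div_cancel₀ _ this]
  set Fs : ℝ := ∑ b ∈ S, f b with hFs
  have hkh : ∀ b ∈ S, k b * h b = Fs - n * f b := by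
    intro b hb
    rw [← hhk b hb]
    have h1 : ∑ d ∈ S, c b d * (f d - A b d) = ∑ d ∈ S, c b d * f d - k b * f b := by
      rw [← hAf b hb, ← Finset.sum_sub_distrib]
      exact Finset.sum_congr rfl fun d _ => by ring
    rw [h1, ← hsum b hb f, hN b]
    by_cases hbT : b ∈ T
    · rw [if_pos hbT, hkT b hbT]
      have h2 := Finset.add_sum_erase S f hb
      rw [hFs, ← h2]
      ring
    · rw [if_neg hbT, hkS b hbT]
  -- left side
  have hL : ∑ b ∈ S, ∑ d ∈ N b, (f d - A b d) * (f b - A b d)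
      = ∑ b ∈ S, ∑ d ∈ S, c b d * (f d - A b d) ^ 2
        - (1 / 2) * ∑ b ∈ S, ∑ d ∈ S, c b d * (f b - f d) ^ 2 := by
    have h1 : ∑ b ∈ S, ∑ d ∈ N b, (f d - A b d) * (f b - A b d)
        = ∑ b ∈ S, ∑ d ∈ S, c b d * ((f d - A b d) * (f b - A b d)) :=
      Finset.sum_congr rfl fun b hb => hsum b hb _
    have h2 : ∑ b ∈ S, ∑ d ∈ S, c b d * (f d - A b d) ^ 2
        = ∑ b ∈ S, ∑ d ∈ S, c b d * (f b - A b d) ^ 2 := by
      rw [Finset.sum_comm]
      refine Finset.sum_congr rfl fun d _ => Finset.sum_congr rfl fun b _ => ?_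
      rw [hcs b d, hA b d]
    have h3 : ∑ b ∈ S, ∑ d ∈ S, c b d * ((f d - A b d) * (f b - A b d))
        = (1 / 2) * (∑ b ∈ S, ∑ d ∈ S, c b d * (f d - A b d) ^ 2
          + ∑ b ∈ S, ∑ d ∈ S, c b d * (f b - A b d) ^ 2)
          - (1 / 2) * ∑ b ∈ S, ∑ d ∈ S, c b d * (f b - f d) ^ 2 := by
      rw [← mul_sub, ← Finset.sum_add_distrib, ← Finset.sum_sub_distrib, Finset.mul_sum]
      refine Finset.sum_congr rfl fun b _ => ?_
      rw [← Finset.sum_add_distrib, ← Finset.sum_sub_distrib, Finset.mul_sum]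
      refine Finset.sum_congr rfl fun d _ => ?_
      ring
    rw [h1, h3, ← h2]
    ring
  have hR : ∑ b ∈ S, ∑ d ∈ N b, (f d - A b d - h b) ^ 2
      = ∑ b ∈ S, ∑ d ∈ S, c b d * (f d - A b d) ^ 2 - ∑ b ∈ S, k b * h b ^ 2 := by
    rw [← Finset.sum_sub_distrib]
    refine Finset.sum_congr rfl fun b hb => ?_
    rw [hsum b hb]
    have h1 : ∑ d ∈ S, c b d * (f d - A b d - h b) ^ 2
        = ∑ d ∈ S, c b d * (f d - A b d) ^ 2 - 2 * h b * ∑ d ∈ S, c b d * (f d - A b d)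
          + h b ^ 2 * ∑ d ∈ S, c b d := by
      rw [Finset.mul_sum, Finset.mul_sum, ← Finset.sum_sub_distrib, ← Finset.sum_add_distrib]
      exact Finset.sum_congr rfl fun d _ => by ring
    rw [h1, hhk b hb, hkc b hb]
    ring
  have hD : (1 / 2) * ∑ b ∈ S, ∑ d ∈ S, c b d * (f b - f d) ^ 2
      = ∑ b ∈ S, (Fs - n * f b) ^ 2 / n := by
    have h1 : ∀ b ∈ S, ∑ d ∈ S, c b d * (f b - f d) ^ 2 = ∑ d ∈ S, (f b - f d) ^ 2 := by
      intro b _
      refine Finset.sum_congr rfl fun d _ => ?_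
      by_cases h2 : b = d
      · subst h2; simp
      · simp [hc, h2]
    rw [Finset.sum_congr rfl h1]
    have h2 : ∀ b ∈ S, ∑ d ∈ S, (f b - f d) ^ 2
        = n * f b ^ 2 - 2 * f b * Fs + ∑ d ∈ S, f d ^ 2 := by
      intro b _
      have : ∀ d ∈ S, (f b - f d) ^ 2 = f b ^ 2 - 2 * f b * f d + f d ^ 2 := fun d _ => by ring
      rw [Finset.sum_congr rfl this, Finset.sum_add_distrib, Finset.sum_sub_distrib,
        ← Finset.mul_sum, Finset.sum_const, nsmul_eq_mul, ← hndef]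
    rw [Finset.sum_congr rfl h2, Finset.sum_add_distrib, Finset.sum_sub_distrib,
      ← Finset.mul_sum, Finset.sum_const, nsmul_eq_mul, ← Finset.sum_mul, ← Finset.mul_sum,
      ← Finset.sum_div]
    have h3 : ∑ b ∈ S, (Fs - n * f b) ^ 2 = n * Fs ^ 2 - 2 * n * Fs * Fs + n ^ 2 * ∑ b ∈ S, f b ^ 2 := by
      have : ∀ b ∈ S, (Fs - n * f b) ^ 2 = Fs ^ 2 - 2 * n * Fs * f b + n ^ 2 * f b ^ 2 :=
        fun b _ => by ring
      rw [Finset.sum_congr rfl this, Finset.sum_add_distrib, Finset.sum_sub_distrib,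
        ← Finset.mul_sum, ← Finset.mul_sum, Finset.sum_const, nsmul_eq_mul, ← hndef]
    rw [h3, ← hFs, ← hndef]
    field_simp
    ring
  have hE : ∑ b ∈ S, k b * h b ^ 2
      = ∑ b ∈ S, (Fs - n * f b) ^ 2 / n + ((n - 1) / n) * ∑ b ∈ T, h b ^ 2 := by
    have h1 : ∑ b ∈ T, h b ^ 2 = ∑ b ∈ S, (if b ∈ T then h b ^ 2 else 0) := by
      rw [← Finset.sum_filter]
      congr 1
      ext b
      simp only [Finset.mem_filter]
      exact ⟨fun hb => ⟨hT hb, hb⟩, fun hb => hb.2⟩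
    rw [h1, Finset.mul_sum, ← Finset.sum_add_distrib]
    refine Finset.sum_congr rfl fun b hb => ?_
    rw [← hkh b hb]
    by_cases hbT : b ∈ T
    · rw [if_pos hbT, hkT b hbT]
      field_simp
      ring
    · rw [if_neg hbT, hkS b hbT]
      field_simp
      ring
  rw [hL, hR, hD, hE]
  ring

end CT
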