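import Vale.Agent.CT.Rx
import Vale.Agent.CT.QA

/-! # The local identity (piece Q) -/

namespace CT

open Finset
open scoped Classical

variable {J : Type} [Fintype J] [DecidableEq J]

theorem sp_sub_e {w : J → ℕ} {b : J} (hb : b ∈ sp w) :
    sp (w - e b) = if b ∈ (sp w).filter (fun b => w b = 1) then (sp w).erase b else sp w := by
  ext d
  have hb' : 0 < w b := mem_sp.mp hb
  by_cases h1 : w b = 1
  · rw [if_pos (Finset.mem_filter.mpr ⟨hb, h1⟩), mem_sp, Finset.mem_erase, mem_sp]
    by_cases hd : d = b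
    · subst hd
      simp [e, h1]
    · simp [e, Pi.single_apply, hd]
  · have hnot : b ∉ (sp w).filter (fun b => w b = 1) := fun h => h1 (Finset.mem_filter.mp h).2
    rw [if_neg hnot, mem_sp, mem_sp]
    by_cases hd : d = b
    · subst hd
      simp only [e, Pi.sub_apply, Pi.single_eq_same]
      omega
    · simp [e, Pi.single_apply, hd]

theorem ee_le_iff {w : J → ℕ} {b d : J} :
    e b + e d ≤ w ↔ b ∈ sp w ∧ d ∈ sp (w - e b) := by
  rw [mem_sp, mem_sp]
  constructor
  · intro h
    have hb := h b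
    have hd := h d
    simp only [e, Pi.add_apply, Pi.single_eq_same] at hb hd
    constructor
    · omega
    · simp only [e, Pi.sub_apply]
      by_cases hbd : d = b
      · subst hbd
        simp only [Pi.single_eq_same] at hb ⊢
        omega
      · simp only [Pi.single_apply, hbd, if_false] at hd ⊢
        omega
  · rintro ⟨hb, hd⟩ i
    simp only [e, Pi.add_apply, Pi.sub_apply] at hd ⊢
    by_cases hib : i = b
    · subst hib
      by_cases hid : i = d
      · subst hid
        simp only [Pi.single_eq_same] at hd ⊢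
        omega
      · have : ¬ d = i := fun h => hid h.symm
        simp only [Pi.single_eq_same, Pi.single_apply, hid, if_false]
        omega
    · by_cases hid : i = d
      · subst hid
        simp only [Pi.single_apply, hib, if_false, if_true] at hd ⊢
        omega
      · simp only [Pi.single_apply, hib, hid, if_false]
        omega

theorem sub_sub_add_e {w : J → ℕ} {b d : J} (h : e b + e d ≤ w) :
    w - e b - e d + e b = w - e d := by
  ext i
  have hi := h i
  simp only [Pi.add_apply, Pi.sub_apply] at hi ⊢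
  omega

theorem GG_sub {F : (J → ℕ) → ℝ} {w : J → ℕ} {b d : J} (h : e b + e d ≤ w) :
    GG F (w - e b - e d) b = DD F (w - e d) - F (w - e b - e d) := by
  unfold GG
  rw [sub_sub_add_e h]

theorem GG_sub' {F : (J → ℕ) → ℝ} {w : J → ℕ} {b d : J} (h : e b + e d ≤ w) :
    GG F (w - e b - e d) d = DD F (w - e b) - F (w - e b - e d) := by
  have h1 : w - e b - e d = w - e d - e b := tsub_right_comm
  rw [h1]
  exact GG_sub (by rwa [add_comm])

theorem QQ_sum (F : (J → ℕ) → ℝ) (w : J → ℕ) :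
    QQ F w = ∑ b ∈ sp w, ∑ d ∈ sp (w - e b),
      (DD F (w - e d) - F (w - e b - e d)) * (DD F (w - e b) - F (w - e b - e d)) := by
  unfold QQ
  have h1 : ∀ b : J, (∑ d, if e b + e d ≤ w then
        GG F (w - e b - e d) b * GG F (w - e b - e d) d else 0)
      = if b ∈ sp w then ∑ d ∈ sp (w - e b),
        (DD F (w - e d) - F (w - e b - e d)) * (DD F (w - e b) - F (w - e b - e d)) else 0 := by
    intro b
    by_cases hb : b ∈ sp w
    · rw [if_pos hb]
      have h2 : (sp (w - e b)) = univ.filter (fun d => e b + e d ≤ w) := by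
        ext d
        simp only [Finset.mem_filter, Finset.mem_univ, true_and]
        rw [ee_le_iff]
        exact ⟨fun h => ⟨hb, h⟩, fun h => h.2⟩
      rw [h2, Finset.sum_filter]
      refine Finset.sum_congr rfl fun d _ => ?_
      by_cases h3 : e b + e d ≤ w
      · rw [if_pos h3, if_pos h3, GG_sub h3, GG_sub' h3]
      · rw [if_neg h3, if_neg h3]
    · rw [if_neg hb]
      refine Finset.sum_eq_zero fun d _ => ?_
      rw [if_neg]
      intro h
      exact hb (ee_le_iff.mp h).1
  rw [Finset.sum_congr rfl fun b _ => h1 b, ← Finset.sum_filter]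
  congr 1
  ext b
  simp

theorem sz_eq_sum_sp (w : J → ℕ) : sz w = ∑ b ∈ sp w, w b := by
  unfold sz sp
  rw [Finset.sum_filter]
  refine Finset.sum_congr rfl fun b _ => ?_
  by_cases h : 0 < w b
  · rw [if_pos h]
  · rw [if_neg h]; omega

theorem sp_card_pos {w : J → ℕ} (hw : 2 ≤ sz w) : 1 ≤ (sp w).card := by
  rw [Nat.one_le_iff_ne_zero, Ne, Finset.card_eq_zero]
  intro h
  rw [sz_eq_sum_sp, h] at hw
  simp at hw

theorem sp_card_two {w : J → ℕ} (hw : 2 ≤ sz w) (b : J) (hb : w b = 1) : 2 ≤ (sp w).card := by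
  by_contra hc
  have h1 := sp_card_pos hw
  have h2 : (sp w).card = 1 := by omega
  obtain ⟨d, hd⟩ := Finset.card_eq_one.mp h2
  have hbd : b = d := by
    have : b ∈ sp w := mem_sp.mpr (by omega)
    rw [hd] at this
    exact Finset.mem_singleton.mp this
  subst hbd
  rw [sz_eq_sum_sp, hd, Finset.sum_singleton, hb] at hw
  omega

/-- local identity: for `2 ≤ |w|`. -/
theorem QQ_eq (F : (J → ℕ) → ℝ) (w : J → ℕ) (hw : 2 ≤ sz w) :
    QQ F w = (∑ b ∈ sp w, ∑ d ∈ sp (w - e b),
        (GG F (w - e b - e d) b - DD (fun t => GG F t b) (w - e b)) ^ 2)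
      + (((sp w).card : ℝ) - 1) / ((sp w).card : ℝ) *
        ∑ b ∈ (sp w).filter (fun b => w b = 1), (DD (fun t => GG F t b) (w - e b)) ^ 2 := by
  have hQ := absQ (S := sp w) (T := (sp w).filter (fun b => w b = 1)) (Finset.filter_subset _ _)
    (sp_card_pos hw)
    (by
      rintro ⟨b, hb⟩
      exact sp_card_two hw b (Finset.mem_filter.mp hb).2)
    (fun b d => F (w - e b - e d))
    (fun b d => by
      show F (w - e b - e d) = F (w - e d - e b)
      rw [tsub_right_comm])
    (fun b => if b ∈ (sp w).filter (fun b => w b = 1) then (sp w).erase b else sp w)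
    (fun b => rfl)
    (fun b => DD F (w - e b))
    (fun b => DD (fun t => GG F t b) (w - e b))
    (fun b hb => by
      show DD F (w - e b) = _
      rw [← sp_sub_e hb]
      rfl)
    (fun b hb => by
      show DD (fun t => GG F t b) (w - e b) = _
      rw [← sp_sub_e hb]
      unfold DD
      congr 1
      refine Finset.sum_congr rfl fun d hd => ?_
      have h3 : e b + e d ≤ w := ee_le_iff.mpr ⟨hb, hd⟩
      exact GG_sub h3)
  rw [QQ_sum]
  have hl : ∑ b ∈ sp w, ∑ d ∈ sp (w - e b),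
      (DD F (w - e d) - F (w - e b - e d)) * (DD F (w - e b) - F (w - e b - e d))
      = ∑ b ∈ sp w, ∑ d ∈ (if b ∈ (sp w).filter (fun b => w b = 1) then (sp w).erase b else sp w),
      (DD F (w - e d) - F (w - e b - e d)) * (DD F (w - e b) - F (w - e b - e d)) := by
    refine Finset.sum_congr rfl fun b hb => ?_
    rw [← sp_sub_e hb]
  have hr : ∑ b ∈ sp w, ∑ d ∈ sp (w - e b),
        (GG F (w - e b - e d) b - DD (fun t => GG F t b) (w - e b)) ^ 2
      = ∑ b ∈ sp w, ∑ d ∈ (if b ∈ (sp w).filter (fun b => w b = 1) then (sp w).erase b else sp w),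
        (DD F (w - e d) - F (w - e b - e d) - DD (fun t => GG F t b) (w - e b)) ^ 2 := by
    refine Finset.sum_congr rfl fun b hb => ?_
    rw [← sp_sub_e hb]
    refine Finset.sum_congr rfl fun d hd => ?_
    rw [GG_sub (ee_le_iff.mpr ⟨hb, hd⟩)]
  rw [hl, hr]
  exact hQ

theorem QQ_coef_nonneg {w : J → ℕ} (hw : 2 ≤ sz w) :
    0 ≤ (((sp w).card : ℝ) - 1) / ((sp w).card : ℝ) := by
  have h1 : (1 : ℝ) ≤ ((sp w).card : ℝ) := by exact_mod_cast sp_card_pos hw
  apply div_nonneg <;> linarith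

theorem QQ_nonneg (F : (J → ℕ) → ℝ) (w : J → ℕ) (hw : 2 ≤ sz w) : 0 ≤ QQ F w := by
  rw [QQ_eq F w hw]
  apply add_nonneg
  · exact Finset.sum_nonneg fun b _ => Finset.sum_nonneg fun d _ => sq_nonneg _
  · exact mul_nonneg (QQ_coef_nonneg hw) (Finset.sum_nonneg fun b _ => sq_nonneg _)

/-- energy of the scalar function `G_b` -/
theorem QQ_ge_energy (F : (J → ℕ) → ℝ) (w : J → ℕ) (hw : 2 ≤ sz w) (b : J) (hb : 0 < w b) :
    (∑ d ∈ sp (w - e b), (GG F (w - e b - e d) b - DD (fun t => GG F t b) (w - e b)) ^ 2)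
      ≤ QQ F w := by
  rw [QQ_eq F w hw]
  have h1 : (∑ d ∈ sp (w - e b), (GG F (w - e b - e d) b - DD (fun t => GG F t b) (w - e b)) ^ 2)
      ≤ ∑ b ∈ sp w, ∑ d ∈ sp (w - e b),
        (GG F (w - e b - e d) b - DD (fun t => GG F t b) (w - e b)) ^ 2 :=
    Finset.single_le_sum (f := fun b => ∑ d ∈ sp (w - e b),
        (GG F (w - e b - e d) b - DD (fun t => GG F t b) (w - e b)) ^ 2)
      (fun b _ => Finset.sum_nonneg fun d _ => sq_nonneg _) (mem_sp.mpr hb)
  have h2 : 0 ≤ (((sp w).card : ℝ) - 1) / ((sp w).card : ℝ) *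
        ∑ b ∈ (sp w).filter (fun b => w b = 1), (DD (fun t => GG F t b) (w - e b)) ^ 2 :=
    mul_nonneg (QQ_coef_nonneg hw) (Finset.sum_nonneg fun b _ => sq_nonneg _)
  linarith

/-- killing at `w b = 1` -/
theorem QQ_ge_kill (F : (J → ℕ) → ℝ) (w : J → ℕ) (hw : 2 ≤ sz w) (b : J) (hb : w b = 1) :
    (∑ d ∈ sp (w - e b), GG F (w - e b - e d) b ^ 2) ≤ (Fintype.card J : ℝ) * QQ F w := by
  have hbs : b ∈ sp w := mem_sp.mpr (by omega)
  have hbT : b ∈ (sp w).filter (fun b => w b = 1) := Finset.mem_filter.mpr ⟨hbs, hb⟩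
  set h : ℝ := DD (fun t => GG F t b) (w - e b) with hh
  have hn2 : 2 ≤ (sp w).card := sp_card_two hw b hb
  have hn2' : (2 : ℝ) ≤ ((sp w).card : ℝ) := by exact_mod_cast hn2
  have hcard : (sp (w - e b)).card = (sp w).card - 1 := by
    rw [sp_sub_e hbs, if_pos hbT, Finset.card_erase_of_mem hbs]
  have hcardR : ((sp (w - e b)).card : ℝ) = ((sp w).card : ℝ) - 1 := by
    rw [hcard, Nat.cast_sub (by omega)]; simp
  have hpos : (0 : ℝ) < ((sp (w - e b)).card : ℝ) := by rw [hcardR]; linarith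
  -- variance decomposition
  have hsum : ∑ d ∈ sp (w - e b), GG F (w - e b - e d) b = ((sp (w - e b)).card : ℝ) * h := by
    rw [hh]
    unfold DD
    rw [mul_div_cancel₀ _ hpos.ne']
  have hvar : ∑ d ∈ sp (w - e b), GG F (w - e b - e d) b ^ 2
      = (∑ d ∈ sp (w - e b), (GG F (w - e b - e d) b - h) ^ 2)
        + ((sp (w - e b)).card : ℝ) * h ^ 2 := by
    have : ∀ d ∈ sp (w - e b), (GG F (w - e b - e d) b - h) ^ 2
        = GG F (w - e b - e d) b ^ 2 - 2 * h * GG F (w - e b - e d) b + h ^ 2 := fun d _ => by ring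
    rw [Finset.sum_congr rfl this, Finset.sum_add_distrib, Finset.sum_sub_distrib,
      ← Finset.mul_sum, Finset.sum_const, nsmul_eq_mul, hsum]
    ring
  have hQ := QQ_eq F w hw
  have h1 : (∑ d ∈ sp (w - e b), (GG F (w - e b - e d) b - h) ^ 2)
      ≤ ∑ b ∈ sp w, ∑ d ∈ sp (w - e b),
        (GG F (w - e b - e d) b - DD (fun t => GG F t b) (w - e b)) ^ 2 :=
    Finset.single_le_sum (f := fun b => ∑ d ∈ sp (w - e b),
        (GG F (w - e b - e d) b - DD (fun t => GG F t b) (w - e b)) ^ 2)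
      (fun b _ => Finset.sum_nonneg fun d _ => sq_nonneg _) hbs
  have h2 : h ^ 2 ≤ ∑ b ∈ (sp w).filter (fun b => w b = 1),
      (DD (fun t => GG F t b) (w - e b)) ^ 2 :=
    Finset.single_le_sum (f := fun b => (DD (fun t => GG F t b) (w - e b)) ^ 2)
      (fun b _ => sq_nonneg _) hbT
  have hnJ : ((sp w).card : ℝ) ≤ (Fintype.card J : ℝ) := by
    exact_mod_cast Finset.card_le_univ _
  set V : ℝ := ∑ b ∈ sp w, ∑ d ∈ sp (w - e b),
        (GG F (w - e b - e d) b - DD (fun t => GG F t b) (w - e b)) ^ 2 with hV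
  set H : ℝ := ∑ b ∈ (sp w).filter (fun b => w b = 1),
      (DD (fun t => GG F t b) (w - e b)) ^ 2 with hH
  have hV0 : 0 ≤ V := Finset.sum_nonneg fun b _ => Finset.sum_nonneg fun d _ => sq_nonneg _
  have hH0 : 0 ≤ H := le_trans (sq_nonneg h) h2
  rw [hvar, hcardR, hQ]
  set n : ℝ := ((sp w).card : ℝ) with hn
  set m : ℝ := (Fintype.card J : ℝ) with hm
  have hn0 : 0 < n := by linarith
  have h3 : m * ((n - 1) / n * H) = (m / n) * ((n - 1) * H) := by
    field_simp
  have h4 : 1 ≤ m / n := by rw [le_div_iff₀ hn0]; linarith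
  have h5 : (n - 1) * h ^ 2 ≤ (n - 1) * H := mul_le_mul_of_nonneg_left h2 (by linarith)
  have h6 : (n - 1) * H ≤ (m / n) * ((n - 1) * H) :=
    le_mul_of_one_le_left (mul_nonneg (by linarith) hH0) h4
  have h7 : V ≤ m * V := le_mul_of_one_le_left hV0 (by linarith)
  rw [mul_add, h3]
  linarith

end CT
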