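import Vale.Agent.CT.Rx

/-! # Trivial scalar Poincare inequality on three columns (piece SP3, helper5)

`|F x - F x'|² ≤ N² 2 EE`, every weight `N2 r2 (v-w) ≥ 1`, `∑ N2 ≤ (N+1)^4`. -/

namespace CT

namespace SP3

open Finset
open scoped Classical

variable {J : Type} [Fintype J] [DecidableEq J]

theorem exists_mem_box (s : J → ℕ) (r : ℕ) (h : r ≤ sz s) : ∃ x, x ∈ box s r := by
  induction r with
  | zero => exact ⟨0, mem_box.2 ⟨zero_le, by simp [sz]⟩⟩
  | succ r ih =>
    obtain ⟨x, hx⟩ := ih (by omega)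
    rw [mem_box] at hx
    have h1 : sz x < sz s := by omega
    have h2 : ∃ j, x j < s j := by
      by_contra hcon
      push Not at hcon
      have : sz s ≤ sz x := Finset.sum_le_sum fun j _ => hcon j
      omega
    obtain ⟨j, hj⟩ := h2
    refine ⟨x + e j, mem_box.2 ⟨?_, by rw [sz_add, sz_e, hx.2]⟩⟩
    intro i
    have := hx.1 i
    by_cases hij : i = j
    · subst hij; simp [e]; omega
    · simp [e, hij]; omega

theorem N2_one_le (s : J → ℕ) (r : ℕ) (h : r ≤ sz s) : (1 : ℝ) ≤ N2 r s := by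
  obtain ⟨x, hx⟩ := exists_mem_box s r h
  unfold N2
  exact_mod_cast Finset.card_pos.2 ⟨x, hx⟩

theorem EE_term {v : J → ℕ} {r2 r : ℕ} (F : (J → ℕ) → ℝ) {w : J → ℕ} (hw : w ∈ box v (r + 1))
    (h : r + r2 < sz v) :
    ∑ b ∈ sp w, (F (w - e b) - DD F w) ^ 2 ≤ EE v r2 r F := by
  have h1 : N2 r2 (v - w) * ∑ b ∈ sp w, (F (w - e b) - DD F w) ^ 2 ≤ EE v r2 r F := by
    unfold EE
    apply Finset.single_le_sum
      (f := fun w => N2 r2 (v - w) * ∑ b ∈ sp w, (F (w - e b) - DD F w) ^ 2) _ hw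
    intro w' _
    exact mul_nonneg (Nat.cast_nonneg _) (Finset.sum_nonneg fun b _ => sq_nonneg _)
  have h2 : (1 : ℝ) ≤ N2 r2 (v - w) := by
    apply N2_one_le
    rw [mem_box] at hw
    rw [sz_sub hw.1]
    omega
  have h3 : 0 ≤ ∑ b ∈ sp w, (F (w - e b) - DD F w) ^ 2 := Finset.sum_nonneg fun b _ => sq_nonneg _
  nlinarith

theorem step_sq {v : J → ℕ} {r2 r : ℕ} (F : (J → ℕ) → ℝ) {w : J → ℕ} (hw : w ∈ box v (r + 1))
    (h : r + r2 < sz v) {b d : J} (hb : 0 < w b) (hd : 0 < w d) (hbd : b ≠ d) :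
    (F (w - e b) - F (w - e d)) ^ 2 ≤ 2 * EE v r2 r F := by
  have h1 := EE_term F hw h
  have h2 : (F (w - e b) - DD F w) ^ 2 + (F (w - e d) - DD F w) ^ 2
      ≤ ∑ b ∈ sp w, (F (w - e b) - DD F w) ^ 2 := by
    have h3 : ({b, d} : Finset J) ⊆ sp w := by
      intro x hx
      rw [Finset.mem_insert, Finset.mem_singleton] at hx
      rw [mem_sp]
      rcases hx with rfl | rfl <;> assumption
    have h4 := Finset.sum_le_sum_of_subset_of_nonneg
      (f := fun b => (F (w - e b) - DD F w) ^ 2) h3 (fun i _ _ => sq_nonneg _)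
    rwa [Finset.sum_pair hbd] at h4
  nlinarith [sq_nonneg ((F (w - e b) - DD F w) + (F (w - e d) - DD F w))]

theorem path_bound {v : J → ℕ} {r2 r : ℕ} (F : (J → ℕ) → ℝ) (h : r + r2 < sz v) {x' : J → ℕ}
    (hx' : x' ∈ box v r) : ∀ (m : ℕ) (x : J → ℕ), x ∈ box v r → ∑ j, (x j - x' j) = m →
      |F x - F x'| ≤ m * Real.sqrt (2 * EE v r2 r F) := by
  intro m
  induction m with
  | zero =>
    intro x hx hm
    have hxx : x ≤ x' := by
      intro j
      have h0 := (Finset.sum_eq_zero_iff.1 hm) j (Finset.mem_univ j)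
      exact Nat.sub_eq_zero_iff_le.1 h0
    have hxe : x = x' := by
      rw [mem_box] at hx hx'
      have h1 : ∑ j, (x' j - x j) = 0 := by
        have h2 := sz_sub hxx
        have h3 : sz (x' - x) = 0 := by rw [h2]; omega
        exact h3
      funext j
      have h4 := (Finset.sum_eq_zero_iff.1 h1) j (Finset.mem_univ j)
      exact le_antisymm (hxx j) (Nat.sub_eq_zero_iff_le.1 h4)
    rw [hxe]
    simp
  | succ m ih =>
    intro x hx hm
    rw [mem_box] at hx hx'
    -- a column with `x d > x' d`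
    have hd : ∃ d, x' d < x d := by
      by_contra hcon
      push Not at hcon
      have : ∑ j, (x j - x' j) = 0 := Finset.sum_eq_zero fun j _ => by have := hcon j; omega
      omega
    obtain ⟨d, hd⟩ := hd
    have hb : ∃ b, x b < x' b := by
      by_contra hcon
      push Not at hcon
      have h1 : sz x' < sz x := Finset.sum_lt_sum (fun j _ => hcon j) ⟨d, Finset.mem_univ d, hd⟩
      omega
    obtain ⟨b, hb⟩ := hb
    have hbd : b ≠ d := by
      rintro rfl
      omega
    set w := x + e b with hw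
    have hwb : w b = x b + 1 := by simp [hw, e]
    have hwd : w d = x d := by simp [hw, e, hbd.symm]
    have hwo : ∀ j, j ≠ b → w j = x j := by
      intro j hj
      simp [hw, e, hj]
    have hwbox : w ∈ box v (r + 1) := by
      rw [mem_box]
      refine ⟨?_, by rw [hw, sz_add, sz_e, hx.2]⟩
      intro j
      by_cases hj : j = b
      · subst hj
        rw [hwb]
        have h0 : x' j ≤ v j := hx'.1 j
        have h00 : x j + 1 ≤ v j := by omega
        exact h00
      · rw [hwo j hj]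
        exact hx.1 j
    have hwx : w - e b = x := by rw [hw]; simp
    set x1 := w - e d with hx1
    have hew : e d ≤ w := e_le_iff.2 (by rw [hwd]; omega)
    have hx1d : x1 d = x d - 1 := by simp [hx1, e, hwd]
    have hx1o : ∀ j, j ≠ d → x1 j = w j := by
      intro j hj
      simp [hx1, e, hj]
    have hx1box : x1 ∈ box v r := by
      rw [mem_box]
      refine ⟨?_, ?_⟩
      · exact tsub_le_self.trans (mem_box.1 hwbox).1
      · rw [hx1, sz_sub hew, (mem_box.1 hwbox).2, sz_e]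
        omega
    have hm1 : ∑ j, (x1 j - x' j) = m := by
      have h1 : ∀ j, (x j - x' j) = (x1 j - x' j) + (if j = d then 1 else 0) := by
        intro j
        by_cases hj : j = d
        · subst hj
          rw [hx1d]
          simp
          omega
        · rw [hx1o j hj]
          by_cases hj2 : j = b
          · subst hj2
            rw [hwb]
            simp [hj]
            omega
          · rw [hwo j hj2]
            simp [hj]
      have h2 : ∑ j, (x j - x' j) = ∑ j, (x1 j - x' j) + 1 := by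
        rw [Finset.sum_congr rfl (fun j _ => h1 j), Finset.sum_add_distrib]
        simp
      omega
    have h1 := ih x1 hx1box hm1
    have h2 : |F x - F x1| ≤ Real.sqrt (2 * EE v r2 r F) := by
      rw [← Real.sqrt_sq_eq_abs]
      apply Real.sqrt_le_sqrt
      have := step_sq (r2 := r2) F hwbox h (b := b) (d := d) (by rw [hwb]; omega)
        (by rw [hwd]; omega) hbd
      rw [hwx] at this
      exact this
    calc |F x - F x'| ≤ |F x - F x1| + |F x1 - F x'| := abs_sub_le _ _ _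
      _ ≤ Real.sqrt (2 * EE v r2 r F) + m * Real.sqrt (2 * EE v r2 r F) := add_le_add h2 h1
      _ = ((m + 1 : ℕ) : ℝ) * Real.sqrt (2 * EE v r2 r F) := by push_cast; ring

theorem diff_sq_le {v : J → ℕ} {r2 r : ℕ} (F : (J → ℕ) → ℝ) (h : r + r2 < sz v) {x x' : J → ℕ}
    (hx : x ∈ box v r) (hx' : x' ∈ box v r) :
    (F x - F x') ^ 2 ≤ 2 * (sz v : ℝ) ^ 2 * EE v r2 r F := by
  have h1 := path_bound F h hx' _ x hx rfl
  have hE : 0 ≤ EE v r2 r F := by
    unfold EE
    exact Finset.sum_nonneg fun w _ => mul_nonneg (Nat.cast_nonneg _)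
      (Finset.sum_nonneg fun b _ => sq_nonneg _)
  have h2 : ((∑ j, (x j - x' j) : ℕ) : ℝ) ≤ sz v := by
    have h3 : ∑ j, (x j - x' j) ≤ sz v :=
      Finset.sum_le_sum fun j _ => (Nat.sub_le _ _).trans ((mem_box.1 hx).1 j)
    exact_mod_cast h3
  have h4 : |F x - F x'| ≤ (sz v : ℝ) * Real.sqrt (2 * EE v r2 r F) :=
    h1.trans (mul_le_mul_of_nonneg_right h2 (Real.sqrt_nonneg _))
  calc (F x - F x') ^ 2 = |F x - F x'| ^ 2 := (sq_abs _).symm
    _ ≤ ((sz v : ℝ) * Real.sqrt (2 * EE v r2 r F)) ^ 2 :=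
        pow_le_pow_left₀ (abs_nonneg _) h4 2
    _ = 2 * (sz v : ℝ) ^ 2 * EE v r2 r F := by
        rw [mul_pow, Real.sq_sqrt (by positivity)]; ring

theorem card_box3 (v : Fin 3 → ℕ) (r : ℕ) : (box v r).card ≤ (sz v + 1) ^ 2 := by
  have h1 : (box v r).card ≤ ((Finset.range (sz v + 1)) ×ˢ (Finset.range (sz v + 1))).card := by
    apply Finset.card_le_card_of_injOn (fun x => (x 0, x 1))
    · intro x hx
      rw [Finset.mem_coe, mem_box] at hx
      simp only [Finset.coe_product, Set.mem_prod, Finset.mem_coe, Finset.mem_range]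
      have h2 : ∀ j, x j ≤ sz v := by
        intro j
        have h3 : x j ≤ v j := hx.1 j
        have h4 : v j ≤ sz v := Finset.single_le_sum (fun _ _ => Nat.zero_le _) (Finset.mem_univ j)
        exact h3.trans h4
      exact ⟨Nat.lt_succ_of_le (h2 0), Nat.lt_succ_of_le (h2 1)⟩
    · intro x hx y hy hxy
      rw [Finset.mem_coe, mem_box] at hx hy
      simp only [Prod.mk.injEq] at hxy
      have h2 := hx.2
      have h3 := hy.2
      simp only [sz, Fin.sum_univ_three] at h2 h3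
      funext j
      fin_cases j
      · exact hxy.1
      · exact hxy.2
      · show x 2 = y 2
        omega
  rw [Finset.card_product, Finset.card_range] at h1
  rw [pow_two]
  exact h1

theorem var_le_of_diff {α : Type} (S : Finset α) (m F : α → ℝ) (hm : ∀ x ∈ S, 0 ≤ m x) {D : ℝ}
    (hD : ∀ x ∈ S, ∀ y ∈ S, (F x - F y) ^ 2 ≤ 2 * D) :
    (∑ x ∈ S, m x) * (∑ x ∈ S, m x * F x ^ 2) - (∑ x ∈ S, m x * F x) ^ 2
      ≤ (∑ x ∈ S, m x) ^ 2 * D := by
  have h1 : ∑ x ∈ S, ∑ y ∈ S, m x * m y * (F x - F y) ^ 2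
      = 2 * ((∑ x ∈ S, m x) * (∑ x ∈ S, m x * F x ^ 2) - (∑ x ∈ S, m x * F x) ^ 2) := by
    have e1 : ∀ x ∈ S, ∑ y ∈ S, m x * m y * (F x - F y) ^ 2
        = m x * F x ^ 2 * (∑ y ∈ S, m y) + m x * (∑ y ∈ S, m y * F y ^ 2)
          - 2 * (m x * F x) * (∑ y ∈ S, m y * F y) := by
      intro x _
      rw [Finset.mul_sum, Finset.mul_sum, Finset.mul_sum, ← Finset.sum_add_distrib,
        ← Finset.sum_sub_distrib]
      exact Finset.sum_congr rfl fun y _ => by ring
    rw [Finset.sum_congr rfl e1, Finset.sum_sub_distrib, Finset.sum_add_distrib,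
      ← Finset.sum_mul, ← Finset.sum_mul, ← Finset.sum_mul]
    have e2 : ∑ i ∈ S, 2 * (m i * F i) = 2 * ∑ i ∈ S, m i * F i := by rw [Finset.mul_sum]
    rw [e2]
    ring
  have h2 : ∑ x ∈ S, ∑ y ∈ S, m x * m y * (F x - F y) ^ 2
      ≤ ∑ x ∈ S, ∑ y ∈ S, m x * m y * (2 * D) := by
    apply Finset.sum_le_sum
    intro x hx
    apply Finset.sum_le_sum
    intro y hy
    exact mul_le_mul_of_nonneg_left (hD x hx y hy) (mul_nonneg (hm x hx) (hm y hy))
  have h3 : ∑ x ∈ S, ∑ y ∈ S, m x * m y * (2 * D) = 2 * ((∑ x ∈ S, m x) ^ 2 * D) := by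
    have e1 : ∀ x ∈ S, ∑ y ∈ S, m x * m y * (2 * D) = m x * ((∑ y ∈ S, m y) * (2 * D)) := by
      intro x _
      rw [Finset.sum_mul, Finset.mul_sum]
      exact Finset.sum_congr rfl fun y _ => by ring
    rw [Finset.sum_congr rfl e1, ← Finset.sum_mul]
    ring
  linarith

end SP3

open SP3 in
theorem sp3 (v : Fin 3 → ℕ) (r2 r : ℕ) (h : r + r2 < sz v) :
    SP v r2 r (3 * ((sz v : ℝ) + 1) ^ 7) := by
  intro F
  set M := ∑ x ∈ box v r, N2 r2 (v - x) with hM
  have hE : 0 ≤ EE v r2 r F := by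
    unfold EE
    exact Finset.sum_nonneg fun w _ => mul_nonneg (Nat.cast_nonneg _)
      (Finset.sum_nonneg fun b _ => sq_nonneg _)
  have hM0 : 0 ≤ M := Finset.sum_nonneg fun x _ => Nat.cast_nonneg _
  have h1 := var_le_of_diff (box v r) (fun x => N2 r2 (v - x)) F (fun x _ => Nat.cast_nonneg _)
    (D := (sz v : ℝ) ^ 2 * EE v r2 r F) (by
      intro x hx y hy
      have := diff_sq_le F h hx hy
      linarith)
  refine h1.trans ?_
  have h2 : M ≤ ((sz v : ℝ) + 1) ^ 4 := by
    calc M ≤ ∑ x ∈ box v r, ((sz v : ℝ) + 1) ^ 2 := by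
          apply Finset.sum_le_sum
          intro x _
          unfold N2
          have h3 := card_box3 (v - x) r2
          have h4 : sz (v - x) ≤ sz v := sz_mono tsub_le_self
          have h5 : (box (v - x) r2).card ≤ (sz v + 1) ^ 2 :=
            h3.trans (Nat.pow_le_pow_left (by omega) 2)
          exact_mod_cast h5
      _ = ((box v r).card : ℝ) * ((sz v : ℝ) + 1) ^ 2 := by
          rw [Finset.sum_const, nsmul_eq_mul]
      _ ≤ ((sz v : ℝ) + 1) ^ 2 * ((sz v : ℝ) + 1) ^ 2 := by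
          apply mul_le_mul_of_nonneg_right _ (by positivity)
          have := card_box3 v r
          exact_mod_cast this
      _ = ((sz v : ℝ) + 1) ^ 4 := by ring
  have hN : (0 : ℝ) ≤ sz v := Nat.cast_nonneg _
  have h3 : M * (sz v : ℝ) ^ 2 ≤ 3 * ((sz v : ℝ) + 1) ^ 7 := by
    calc M * (sz v : ℝ) ^ 2 ≤ ((sz v : ℝ) + 1) ^ 4 * ((sz v : ℝ) + 1) ^ 2 := by
          apply mul_le_mul h2 _ (by positivity) (by positivity)
          exact pow_le_pow_left₀ hN (by linarith) 2
      _ = ((sz v : ℝ) + 1) ^ 6 := by ring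
      _ ≤ ((sz v : ℝ) + 1) ^ 7 := pow_le_pow_right₀ (by linarith) (by norm_num)
      _ ≤ 3 * ((sz v : ℝ) + 1) ^ 7 := by
          have : 0 ≤ ((sz v : ℝ) + 1) ^ 7 := by positivity
          linarith
  calc M ^ 2 * ((sz v : ℝ) ^ 2 * EE v r2 r F) = (M * (sz v : ℝ) ^ 2) * (M * EE v r2 r F) := by ring
    _ ≤ (3 * ((sz v : ℝ) + 1) ^ 7) * (M * EE v r2 r F) :=
        mul_le_mul_of_nonneg_right h3 (mul_nonneg hM0 hE)
    _ = 3 * ((sz v : ℝ) + 1) ^ 7 * M * EE v r2 r F := by ring

end CT
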