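import Vale.Agent.CT.Rx

/-! # Transposition (piece TR): scalar Poincare on `J` from the switch chain on `J x 3` tables -/

namespace CT

open Finset
open scoped Classical

set_option linter.unusedSectionVars false

variable {J : Type} [Fintype J] [DecidableEq J]

theorem mem_TT_tr {I J : Type} [Fintype I] [DecidableEq I] [Fintype J] [DecidableEq J]
    {r : I → ℕ} {c : J → ℕ} {T : I → J → ℕ} :
    T ∈ TT r c ↔ (∀ i, sz (T i) = r i) ∧ ∑ i, T i = c := by
  unfold TT
  rw [Finset.mem_filter, Fintype.mem_piFinset]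
  constructor
  · rintro ⟨h1, h2⟩
    exact ⟨fun i => (mem_box.mp (h1 i)).2, h2⟩
  · rintro ⟨h1, h2⟩
    refine ⟨fun i => mem_box.mpr ⟨?_, h1 i⟩, h2⟩
    rw [← h2]
    exact Finset.single_le_sum (f := T) (fun j _ => zero_le) (Finset.mem_univ i)

/-- the table with rows `v`, third column `x`, second column `z` -/
def tof (v x z : J → ℕ) : J → Fin 3 → ℕ := fun j => ![v j - x j - z j, z j, x j]

theorem sum_TT3 (v : J → ℕ) (r2 r : ℕ) (h : r + r2 ≤ sz v) (g : (J → Fin 3 → ℕ) → ℝ) :
    ∑ T ∈ TT v ![sz v - r2 - r, r2, r], g T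
      = ∑ x ∈ box v r, ∑ z ∈ box (v - x) r2, g (tof v x z) := by
  rw [Finset.sum_sigma']
  refine Finset.sum_nbij' (fun T => ⟨fun j => T j 2, fun j => T j 1⟩) (fun p => tof v p.1 p.2)
    ?_ ?_ ?_ ?_ ?_
  · intro T hT
    rw [mem_TT_tr] at hT
    obtain ⟨h1, h2⟩ := hT
    have hrow : ∀ j, T j 0 + T j 1 + T j 2 = v j := by
      intro j
      have := h1 j
      simp only [sz, Fin.sum_univ_three] at this
      exact this
    have hc1 : ∑ j, T j 1 = r2 := by
      have := congrFun h2 1
      simpa [Finset.sum_apply] using this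
    have hc2 : ∑ j, T j 2 = r := by
      have := congrFun h2 2
      simpa [Finset.sum_apply] using this
    rw [Finset.mem_sigma, mem_box, mem_box]
    refine ⟨⟨fun j => ?_, hc2⟩, fun j => ?_, hc1⟩
    · have := hrow j
      show T j 2 ≤ v j
      omega
    · have := hrow j
      show T j 1 ≤ v j - T j 2
      omega
  · rintro ⟨x, z⟩ hp
    rw [Finset.mem_sigma, mem_box, mem_box] at hp
    obtain ⟨⟨hx1, hx2⟩, hz1, hz2⟩ := hp
    rw [mem_TT_tr]
    have hle : ∀ j, x j + z j ≤ v j := by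
      intro j
      have a1 : x j ≤ v j := hx1 j
      have a2 : z j ≤ v j - x j := hz1 j
      omega
    refine ⟨fun j => ?_, ?_⟩
    · have := hle j
      simp only [sz, Fin.sum_univ_three]
      show v j - x j - z j + z j + x j = v j
      omega
    · have hs0 : ∑ j, (v j - x j - z j) = sz v - r2 - r := by
        have : ∑ j, (v j - x j - z j) + (∑ j, x j + ∑ j, z j) = ∑ j, v j := by
          rw [← Finset.sum_add_distrib, ← Finset.sum_add_distrib]
          exact Finset.sum_congr rfl fun j _ => by have := hle j; omega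
        have hx2' : ∑ j, x j = r := hx2
        have hz2' : ∑ j, z j = r2 := hz2
        have hv : ∑ j, v j = sz v := rfl
        omega
      funext a
      rw [Finset.sum_apply]
      fin_cases a
      · exact hs0
      · exact hz2
      · exact hx2
  · intro T hT
    rw [mem_TT_tr] at hT
    obtain ⟨h1, h2⟩ := hT
    funext j a
    have hrow : T j 0 + T j 1 + T j 2 = v j := by
      have := h1 j
      simp only [sz, Fin.sum_univ_three] at this
      exact this
    fin_cases a
    · show v j - T j 2 - T j 1 = T j 0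
      omega
    · rfl
    · rfl
  · rintro ⟨x, z⟩ _
    rfl
  · intro T hT
    rw [mem_TT_tr] at hT
    obtain ⟨h1, h2⟩ := hT
    congr 1
    funext j a
    have hrow : T j 0 + T j 1 + T j 2 = v j := by
      have := h1 j
      simp only [sz, Fin.sum_univ_three] at this
      exact this
    fin_cases a
    · show T j 0 = v j - T j 2 - T j 1
      omega
    · rfl
    · rfl

/-- third column of a table -/
def col2 (T : J → Fin 3 → ℕ) : J → ℕ := fun j => T j 2

theorem col2_sw_same (T : J → Fin 3 → ℕ) {i j : J} (hij : i ≠ j) {a b : Fin 3}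
    (ha : 0 < T i a) (hb : 0 < T j b) (h : (a = 2 ∧ b = 2) ∨ (a ≠ 2 ∧ b ≠ 2)) :
    col2 (sw T i j a b) = col2 T := by
  funext l
  unfold col2 sw
  by_cases hlj : l = j
  · subst hlj
    rw [Function.update_self]
    rcases h with ⟨rfl, rfl⟩ | ⟨h1, h2⟩
    · simp only [Pi.add_apply, Pi.sub_apply, e, Pi.single_eq_same]
      omega
    · simp only [Pi.add_apply, Pi.sub_apply, e, Pi.single_eq_of_ne (Ne.symm h1),
        Pi.single_eq_of_ne (Ne.symm h2)]
      omega
  · rw [Function.update_of_ne hlj]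
    by_cases hli : l = i
    · subst hli
      rw [Function.update_self]
      rcases h with ⟨rfl, rfl⟩ | ⟨h1, h2⟩
      · simp only [Pi.add_apply, Pi.sub_apply, e, Pi.single_eq_same]
        omega
      · simp only [Pi.add_apply, Pi.sub_apply, e, Pi.single_eq_of_ne (Ne.symm h1),
          Pi.single_eq_of_ne (Ne.symm h2)]
        omega
    · rw [Function.update_of_ne hli]

theorem col2_sw_left (T : J → Fin 3 → ℕ) {i j : J} (hij : i ≠ j) {b : Fin 3} (hb2 : b ≠ 2)
    : col2 (sw T i j 2 b) = col2 T - e i + e j := by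
  funext l
  unfold col2 sw
  by_cases hlj : l = j
  · subst hlj
    rw [Function.update_self]
    simp only [Pi.add_apply, Pi.sub_apply, e, Pi.single_eq_same,
      Pi.single_eq_of_ne (Ne.symm hb2), Pi.single_eq_of_ne (Ne.symm hij)]
  · rw [Function.update_of_ne hlj]
    by_cases hli : l = i
    · subst hli
      rw [Function.update_self]
      simp only [Pi.add_apply, Pi.sub_apply, e, Pi.single_eq_same,
        Pi.single_eq_of_ne (Ne.symm hb2), Pi.single_eq_of_ne hlj]
    · rw [Function.update_of_ne hli]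
      simp only [Pi.add_apply, Pi.sub_apply, e, Pi.single_eq_of_ne hli, Pi.single_eq_of_ne hlj]
      omega

theorem col2_sw_right (T : J → Fin 3 → ℕ) {i j : J} (hij : i ≠ j) {a : Fin 3} (ha2 : a ≠ 2)
    : col2 (sw T i j a 2) = col2 T - e j + e i := by
  funext l
  unfold col2 sw
  by_cases hlj : l = j
  · subst hlj
    rw [Function.update_self]
    simp only [Pi.add_apply, Pi.sub_apply, e, Pi.single_eq_same,
      Pi.single_eq_of_ne (Ne.symm ha2), Pi.single_eq_of_ne (Ne.symm hij)]
  · rw [Function.update_of_ne hlj]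
    by_cases hli : l = i
    · subst hli
      rw [Function.update_self]
      simp only [Pi.add_apply, Pi.sub_apply, e, Pi.single_eq_same,
        Pi.single_eq_of_ne (Ne.symm ha2), Pi.single_eq_of_ne hlj]
    · rw [Function.update_of_ne hli]
      simp only [Pi.add_apply, Pi.sub_apply, e, Pi.single_eq_of_ne hli, Pi.single_eq_of_ne hlj]
      omega

/-- the switch energy of a function of the third column at one table -/
theorem inner_le (F : (J → ℕ) → ℝ) (T : J → Fin 3 → ℕ) (i j : J) :
    (∑ a : Fin 3, ∑ b : Fin 3, if i ≠ j ∧ 0 < T i a ∧ 0 < T j b then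
        (F (col2 (sw T i j a b)) - F (col2 T)) ^ 2 else 0)
      = (if i ≠ j ∧ 0 < T i 2 ∧ 0 < T j 0 then (F (col2 T - e i + e j) - F (col2 T)) ^ 2 else 0)
      + (if i ≠ j ∧ 0 < T i 2 ∧ 0 < T j 1 then (F (col2 T - e i + e j) - F (col2 T)) ^ 2 else 0)
      + ((if i ≠ j ∧ 0 < T j 2 ∧ 0 < T i 0 then (F (col2 T - e j + e i) - F (col2 T)) ^ 2 else 0)
      + (if i ≠ j ∧ 0 < T j 2 ∧ 0 < T i 1 then (F (col2 T - e j + e i) - F (col2 T)) ^ 2 else 0)) := by
  have key : ∀ a b : Fin 3, ((a = 2 ∧ b = 2) ∨ (a ≠ 2 ∧ b ≠ 2)) →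
      (if i ≠ j ∧ 0 < T i a ∧ 0 < T j b then
        (F (col2 (sw T i j a b)) - F (col2 T)) ^ 2 else 0) = 0 := by
    intro a b hab
    split_ifs with h
    · rw [col2_sw_same T h.1 h.2.1 h.2.2 hab]
      simp
    · rfl
  have kl : ∀ b : Fin 3, b ≠ 2 →
      (if i ≠ j ∧ 0 < T i 2 ∧ 0 < T j b then
        (F (col2 (sw T i j 2 b)) - F (col2 T)) ^ 2 else 0)
      = (if i ≠ j ∧ 0 < T i 2 ∧ 0 < T j b then (F (col2 T - e i + e j) - F (col2 T)) ^ 2 else 0) := by
    intro b hb
    split_ifs with h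
    · rw [col2_sw_left T h.1 hb]
    · rfl
  have kr : ∀ a : Fin 3, a ≠ 2 →
      (if i ≠ j ∧ 0 < T i a ∧ 0 < T j 2 then
        (F (col2 (sw T i j a 2)) - F (col2 T)) ^ 2 else 0)
      = (if i ≠ j ∧ 0 < T j 2 ∧ 0 < T i a then (F (col2 T - e j + e i) - F (col2 T)) ^ 2 else 0) := by
    intro a ha
    by_cases h : i ≠ j ∧ 0 < T i a ∧ 0 < T j 2
    · rw [if_pos h, if_pos ⟨h.1, h.2.2, h.2.1⟩, col2_sw_right T h.1 ha]
    · rw [if_neg h, if_neg (fun hh => h ⟨hh.1, hh.2.2, hh.2.1⟩)]
  rw [Fin.sum_univ_three, Fin.sum_univ_three, Fin.sum_univ_three, Fin.sum_univ_three]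
  rw [key 0 0 (Or.inr ⟨by decide, by decide⟩), key 0 1 (Or.inr ⟨by decide, by decide⟩),
    key 1 0 (Or.inr ⟨by decide, by decide⟩), key 1 1 (Or.inr ⟨by decide, by decide⟩),
    key 2 2 (Or.inl ⟨rfl, rfl⟩), kl 0 (by decide), kl 1 (by decide), kr 0 (by decide),
    kr 1 (by decide)]
  ring

/-- counting the second columns -/
theorem count_le (v x : J → ℕ) (r2 r : ℕ) (h : r + r2 < sz v) (hx : x ∈ box v r) (j : J) :
    (∑ z ∈ box (v - x) r2, ((if 0 < tof v x z j 0 then (1:ℝ) else 0)
        + (if 0 < tof v x z j 1 then (1:ℝ) else 0)))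
      ≤ ((Fintype.card J : ℝ) + 1) * (if e j ≤ v - x then N2 r2 (v - x - e j) else 0) := by
  rw [mem_box] at hx
  obtain ⟨hx1, hx2⟩ := hx
  have hsz : sz (v - x) = (sz v - r2 - r) + r2 := by
    have := sz_sub_add hx1
    omega
  have hsz' : sz (v - x) = r2 + (sz v - r2 - r) := by omega
  rw [Finset.sum_add_distrib]
  have h1 : (∑ z ∈ box (v - x) r2, (if 0 < tof v x z j 1 then (1:ℝ) else 0))
      = if e j ≤ v - x then N2 (sz v - r2 - r) (v - x - e j) else 0 := by
    rw [← card_use hsz' j, ← Finset.sum_filter, Finset.sum_const, nsmul_eq_mul, mul_one]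
    rfl
  have h0 : (∑ z ∈ box (v - x) r2, (if 0 < tof v x z j 0 then (1:ℝ) else 0))
      = if e j ≤ v - x then N2 r2 (v - x - e j) else 0 := by
    rw [← card_use hsz j, ← Finset.sum_filter, Finset.sum_const, nsmul_eq_mul, mul_one]
    norm_cast
    refine Finset.card_nbij' (fun z => (v - x) - z) (fun z => (v - x) - z) ?_ ?_ ?_ ?_
    · intro z hz
      rw [Finset.mem_coe, Finset.mem_filter, mem_box] at hz
      rw [Finset.mem_coe, Finset.mem_filter, mem_box]
      obtain ⟨⟨h1, h2⟩, h3⟩ := hz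
      have := sz_sub_add h1
      exact ⟨⟨tsub_le_self, by show sz (v - x - z) = _; omega⟩, h3⟩
    · intro z hz
      rw [Finset.mem_coe, Finset.mem_filter, mem_box] at hz
      rw [Finset.mem_coe, Finset.mem_filter, mem_box]
      obtain ⟨⟨h1, h2⟩, h3⟩ := hz
      have := sz_sub_add h1
      refine ⟨⟨tsub_le_self, by show sz (v - x - z) = _; omega⟩, ?_⟩
      have a1 : z j ≤ v j - x j := h1 j
      show 0 < v j - x j - (v j - x j - z j)
      omega
    · intro z hz
      rw [Finset.mem_coe, Finset.mem_filter, mem_box] at hz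
      exact tsub_tsub_cancel_of_le hz.1.1
    · intro z hz
      rw [Finset.mem_coe, Finset.mem_filter, mem_box] at hz
      exact tsub_tsub_cancel_of_le hz.1.1
  rw [h0, h1]
  split_ifs with hj
  · have hs : sz (v - x - e j) = (sz v - r2 - r - 1) + r2 := by
      have := sz_sub_add hj
      rw [sz_e] at this
      omega
    have hcompl := card_box_compl hs
    have hsucc := card_box_succ_le (v - x - e j) (sz v - r2 - r - 1)
    have hr1 : sz v - r2 - r - 1 + 1 = sz v - r2 - r := by omega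
    rw [hr1, hcompl] at hsucc
    unfold N2
    linarith
  · simp

/-- sum of squared differences versus the variance -/
theorem sum_sq_diff_le {α : Type} (s : Finset α) (a : α → ℝ) (m : ℝ) :
    ∑ j ∈ s, ∑ i ∈ s, (a i - a j) ^ 2 ≤ 2 * (s.card : ℝ) * ∑ j ∈ s, (a j - m) ^ 2 := by
  have h : ∀ j ∈ s, ∑ i ∈ s, (a i - a j) ^ 2
      = (∑ i ∈ s, (a i - m) ^ 2) - 2 * (a j - m) * (∑ i ∈ s, (a i - m))
        + (s.card : ℝ) * (a j - m) ^ 2 := by
    intro j _
    calc ∑ i ∈ s, (a i - a j) ^ 2
        = ∑ i ∈ s, ((a i - m) ^ 2 - 2 * (a j - m) * (a i - m) + (a j - m) ^ 2) :=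
          Finset.sum_congr rfl fun i _ => by ring
      _ = _ := by
          rw [Finset.sum_add_distrib, Finset.sum_sub_distrib, ← Finset.mul_sum, Finset.sum_const,
            nsmul_eq_mul]
  rw [Finset.sum_congr rfl h, Finset.sum_add_distrib, Finset.sum_sub_distrib, Finset.sum_const,
    nsmul_eq_mul, ← Finset.mul_sum, ← Finset.sum_mul, ← Finset.mul_sum]
  nlinarith [sq_nonneg (∑ i ∈ s, (a i - m))]

theorem DF_le (v : J → ℕ) (r2 r : ℕ) (h : r + r2 < sz v) (F : (J → ℕ) → ℝ) :
    DF v ![sz v - r2 - r, r2, r] (fun T => F (col2 T))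
      ≤ 4 * ((Fintype.card J : ℝ) + 1) ^ 2 * EE v r2 r F := by
  set n : ℝ := (Fintype.card J : ℝ) with hn
  have hn0 : 0 ≤ n := by positivity
  unfold DF
  -- step 1: reduce the switch sum
  have s1 : ∀ T : J → Fin 3 → ℕ, (∑ i, ∑ j, ∑ a, ∑ b,
      if i ≠ j ∧ 0 < T i a ∧ 0 < T j b then (F (col2 (sw T i j a b)) - F (col2 T)) ^ 2 else 0)
      = 2 * ∑ j, ∑ i, ((if 0 < T j 0 then (1:ℝ) else 0) + (if 0 < T j 1 then (1:ℝ) else 0)) *
        (if i ≠ j ∧ 0 < T i 2 then (F (col2 T - e i + e j) - F (col2 T)) ^ 2 else 0) := by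
    intro T
    have e1 : ∀ i j : J, (∑ a : Fin 3, ∑ b : Fin 3, if i ≠ j ∧ 0 < T i a ∧ 0 < T j b then
        (F (col2 (sw T i j a b)) - F (col2 T)) ^ 2 else 0)
        = ((if 0 < T j 0 then (1:ℝ) else 0) + (if 0 < T j 1 then (1:ℝ) else 0)) *
          (if i ≠ j ∧ 0 < T i 2 then (F (col2 T - e i + e j) - F (col2 T)) ^ 2 else 0)
        + ((if 0 < T i 0 then (1:ℝ) else 0) + (if 0 < T i 1 then (1:ℝ) else 0)) *
          (if j ≠ i ∧ 0 < T j 2 then (F (col2 T - e j + e i) - F (col2 T)) ^ 2 else 0) := by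
      intro i j
      rw [inner_le]
      by_cases hij : i = j
      · subst hij
        simp
      · have hji : j ≠ i := Ne.symm hij
        by_cases c1 : 0 < T j 0 <;> by_cases c2 : 0 < T j 1 <;> by_cases c3 : 0 < T i 0 <;>
          by_cases c4 : 0 < T i 1 <;> by_cases c5 : 0 < T i 2 <;> by_cases c6 : 0 < T j 2 <;>
          simp only [c1, c2, c3, c4, c5, c6, hij, hji, ne_eq, not_false_eq_true, and_true, and_self,
            and_false, if_true, if_false] <;> ring
    simp only [e1]
    simp only [Finset.sum_add_distrib]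
    rw [two_mul]
    congr 1
    rw [Finset.sum_comm]
  simp only [s1]
  rw [sum_TT3 v r2 r h.le]
  have s2 : ∀ x ∈ box v r, (∑ z ∈ box (v - x) r2, 2 * ∑ j, ∑ i,
      ((if 0 < tof v x z j 0 then (1:ℝ) else 0) + (if 0 < tof v x z j 1 then (1:ℝ) else 0)) *
        (if i ≠ j ∧ 0 < tof v x z i 2 then
          (F (col2 (tof v x z) - e i + e j) - F (col2 (tof v x z))) ^ 2 else 0))
      ≤ 2 * (n + 1) * ∑ j, if e j ≤ v - x then N2 r2 (v - x - e j) *
          (∑ i, if i ≠ j ∧ 0 < x i then (F (x - e i + e j) - F x) ^ 2 else 0) else 0 := by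
    intro x hx
    have hcol : ∀ z, col2 (tof v x z) = x := by
      intro z
      rfl
    have h2 : ∀ z i, tof v x z i 2 = x i := fun z i => rfl
    simp only [hcol, h2]
    rw [← Finset.mul_sum, Finset.sum_comm]
    rw [mul_assoc]
    apply mul_le_mul_of_nonneg_left _ (by norm_num : (0:ℝ) ≤ 2)
    rw [Finset.mul_sum]
    apply Finset.sum_le_sum
    intro j _
    have h3 : ∀ z ∈ box (v - x) r2, (∑ i,
      ((if 0 < tof v x z j 0 then (1:ℝ) else 0) + (if 0 < tof v x z j 1 then (1:ℝ) else 0)) *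
        (if i ≠ j ∧ 0 < x i then (F (x - e i + e j) - F x) ^ 2 else 0))
        = ((if 0 < tof v x z j 0 then (1:ℝ) else 0) + (if 0 < tof v x z j 1 then (1:ℝ) else 0)) *
          (∑ i, if i ≠ j ∧ 0 < x i then (F (x - e i + e j) - F x) ^ 2 else 0) := by
      intro z _
      rw [Finset.mul_sum]
    rw [Finset.sum_congr rfl h3, ← Finset.sum_mul]
    have hG : 0 ≤ ∑ i, if i ≠ j ∧ 0 < x i then (F (x - e i + e j) - F x) ^ 2 else 0 := by
      apply Finset.sum_nonneg
      intro i _
      split_ifs <;> positivity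
    refine (mul_le_mul_of_nonneg_right (count_le v x r2 r h hx j) hG).trans (le_of_eq ?_)
    split_ifs <;> ring
  refine (Finset.sum_le_sum s2).trans ?_
  rw [← Finset.mul_sum]
  have s3 := reidx1 v r (fun x j => N2 r2 (v - x - e j) *
          (∑ i, if i ≠ j ∧ 0 < x i then (F (x - e i + e j) - F x) ^ 2 else 0))
  rw [s3]
  have s4 : ∀ w ∈ box v (r + 1), (∑ b ∈ sp w, N2 r2 (v - (w - e b) - e b) *
          (∑ i, if i ≠ b ∧ 0 < (w - e b) i then (F (w - e b - e i + e b) - F (w - e b)) ^ 2 else 0))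
      ≤ 2 * n * (N2 r2 (v - w) * ∑ b ∈ sp w, (F (w - e b) - DD F w) ^ 2) := by
    intro w hw
    rw [mem_box] at hw
    have h5 : ∀ b ∈ sp w, N2 r2 (v - (w - e b) - e b) *
          (∑ i, if i ≠ b ∧ 0 < (w - e b) i then (F (w - e b - e i + e b) - F (w - e b)) ^ 2 else 0)
        ≤ N2 r2 (v - w) * ∑ i ∈ sp w, (F (w - e i) - F (w - e b)) ^ 2 := by
      intro b hb
      rw [mem_sp] at hb
      have e1 : v - (w - e b) - e b = v - w := by
        funext l
        have := hw.1 l
        simp only [Pi.sub_apply]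
        by_cases hl : l = b
        · subst hl
          simp only [e, Pi.single_eq_same]
          omega
        · simp only [e, Pi.single_eq_of_ne hl]
          omega
      rw [e1]
      apply mul_le_mul_of_nonneg_left _ (by unfold N2; positivity)
      rw [sp, Finset.sum_filter]
      apply Finset.sum_le_sum
      intro i _
      by_cases hib : i = b
      · subst hib
        simp
      · have e2 : (w - e b) i = w i := by
          simp only [Pi.sub_apply, e, Pi.single_eq_of_ne hib]
          omega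
        rw [e2]
        by_cases hwi : 0 < w i
        · rw [if_pos ⟨hib, hwi⟩, if_pos hwi]
          have e3 : w - e b - e i + e b = w - e i := by
            funext l
            simp only [Pi.sub_apply, Pi.add_apply]
            by_cases hl : l = b
            · subst hl
              simp only [e, Pi.single_eq_same, Pi.single_eq_of_ne (Ne.symm hib)]
              omega
            · simp only [e, Pi.single_eq_of_ne hl]
              omega
          rw [e3]
        · rw [if_neg (fun hh => hwi hh.2), if_neg hwi]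
    refine (Finset.sum_le_sum h5).trans ?_
    rw [← Finset.mul_sum]
    have h6 := sum_sq_diff_le (sp w) (fun i => F (w - e i)) (DD F w)
    have h7 : ((sp w).card : ℝ) ≤ n := by
      rw [hn]
      exact_mod_cast Finset.card_le_univ _
    have h8 : 0 ≤ ∑ b ∈ sp w, (F (w - e b) - DD F w) ^ 2 :=
      Finset.sum_nonneg fun b _ => sq_nonneg _
    have h9 : 0 ≤ N2 r2 (v - w) := by unfold N2; positivity
    calc N2 r2 (v - w) * ∑ b ∈ sp w, ∑ i ∈ sp w, (F (w - e i) - F (w - e b)) ^ 2
        ≤ N2 r2 (v - w) * (2 * ((sp w).card : ℝ) * ∑ b ∈ sp w, (F (w - e b) - DD F w) ^ 2) :=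
          mul_le_mul_of_nonneg_left h6 h9
      _ ≤ N2 r2 (v - w) * (2 * n * ∑ b ∈ sp w, (F (w - e b) - DD F w) ^ 2) := by
          apply mul_le_mul_of_nonneg_left _ h9
          apply mul_le_mul_of_nonneg_right _ h8
          linarith
      _ = _ := by ring
  have hEE : 0 ≤ EE v r2 r F := by
    unfold EE
    apply Finset.sum_nonneg
    intro w _
    apply mul_nonneg (by unfold N2; positivity)
    exact Finset.sum_nonneg fun b _ => sq_nonneg _
  calc 2 * (n + 1) * ∑ w ∈ box v (r + 1), (∑ b ∈ sp w, N2 r2 (v - (w - e b) - e b) *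
          (∑ i, if i ≠ b ∧ 0 < (w - e b) i then (F (w - e b - e i + e b) - F (w - e b)) ^ 2 else 0))
      ≤ 2 * (n + 1) * ∑ w ∈ box v (r + 1),
          2 * n * (N2 r2 (v - w) * ∑ b ∈ sp w, (F (w - e b) - DD F w) ^ 2) :=
        mul_le_mul_of_nonneg_left (Finset.sum_le_sum s4) (by positivity)
    _ = 4 * (n + 1) * n * EE v r2 r F := by
        rw [← Finset.mul_sum]
        unfold EE
        ring
    _ ≤ 4 * (n + 1) ^ 2 * EE v r2 r F := by
        apply mul_le_mul_of_nonneg_right _ hEE
        nlinarith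

theorem trA (v : J → ℕ) (r2 r : ℕ) (h : r + r2 < sz v) (K : ℝ) (hK : 0 ≤ K)
    (hP : PIn v ![sz v - r2 - r, r2, r] K) :
    SP v r2 r (4 * ((Fintype.card J : ℝ) + 1) ^ 2 * K) := by
  intro F
  have hp := hP (fun T => F (col2 T))
  have hcard : ((TT v ![sz v - r2 - r, r2, r]).card : ℝ) = ∑ x ∈ box v r, N2 r2 (v - x) := by
    have := sum_TT3 v r2 r h.le (fun _ => 1)
    rw [Finset.sum_const, nsmul_eq_mul, mul_one] at this
    rw [this]
    refine Finset.sum_congr rfl fun x _ => ?_
    rw [Finset.sum_const, nsmul_eq_mul, mul_one]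
    rfl
  have h1 : ∑ T ∈ TT v ![sz v - r2 - r, r2, r], F (col2 T) ^ 2
      = ∑ x ∈ box v r, N2 r2 (v - x) * F x ^ 2 := by
    rw [sum_TT3 v r2 r h.le (fun T => F (col2 T) ^ 2)]
    refine Finset.sum_congr rfl fun x _ => ?_
    have : ∀ z, col2 (tof v x z) = x := fun z => rfl
    simp only [this]
    rw [Finset.sum_const, nsmul_eq_mul]
    rfl
  have h2 : ∑ T ∈ TT v ![sz v - r2 - r, r2, r], F (col2 T)
      = ∑ x ∈ box v r, N2 r2 (v - x) * F x := by
    rw [sum_TT3 v r2 r h.le (fun T => F (col2 T))]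
    refine Finset.sum_congr rfl fun x _ => ?_
    have : ∀ z, col2 (tof v x z) = x := fun z => rfl
    simp only [this]
    rw [Finset.sum_const, nsmul_eq_mul]
    rfl
  rw [h1, h2, hcard] at hp
  refine hp.trans ?_
  have h3 := DF_le v r2 r h F
  have h4 : 0 ≤ ∑ x ∈ box v r, N2 r2 (v - x) :=
    Finset.sum_nonneg fun x _ => by unfold N2; positivity
  calc K * (∑ x ∈ box v r, N2 r2 (v - x)) * DF v ![sz v - r2 - r, r2, r] (fun T => F (col2 T))
      ≤ K * (∑ x ∈ box v r, N2 r2 (v - x)) * (4 * ((Fintype.card J : ℝ) + 1) ^ 2 * EE v r2 r F) :=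
        mul_le_mul_of_nonneg_left h3 (mul_nonneg hK h4)
    _ = _ := by ring

end CT
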