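import Vale.Agent.CT.Defs

/-! # Tables all of whose rows have at most one unit (piece UN)

The average of `f` over the row permutations preserving `r` is constant (transitivity); Jensen;
`T ↦ T ∘ σ` changes `f` by at most `|supp σ|` times the Dirichlet form in the square mean. -/

namespace CT

open Finset
open scoped Classical

variable {J : Type} [Fintype J] [DecidableEq J]
variable {I : Type} [Fintype I] [DecidableEq I]

namespace Un

theorem mem_TT {r : I → ℕ} {c : J → ℕ} {T : I → J → ℕ} :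
    T ∈ TT r c ↔ (∀ i, T i ≤ c ∧ sz (T i) = r i) ∧ ∑ i, T i = c := by
  simp [TT, box]

/-- permutations preserving `r` and fixing the zero rows -/
noncomputable def GP (r : I → ℕ) : Finset (Equiv.Perm I) :=
  univ.filter (fun σ => ∀ i, r (σ i) = r i ∧ (r i = 0 → σ i = i))

theorem mem_GP {r : I → ℕ} {σ : Equiv.Perm I} :
    σ ∈ GP r ↔ ∀ i, r (σ i) = r i ∧ (r i = 0 → σ i = i) := by
  simp [GP]

theorem comp_mem {r : I → ℕ} {c : J → ℕ} {T : I → J → ℕ} {σ : Equiv.Perm I} (hσ : σ ∈ GP r)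
    (hT : T ∈ TT r c) : (fun i => T (σ i)) ∈ TT r c := by
  rw [mem_TT] at hT ⊢
  refine ⟨fun i => ⟨(hT.1 _).1, ?_⟩, ?_⟩
  · rw [(hT.1 _).2, (mem_GP.1 hσ i).1]
  · rw [Equiv.sum_comp σ T]; exact hT.2

theorem inv_mem {r : I → ℕ} {σ : Equiv.Perm I} (hσ : σ ∈ GP r) : σ⁻¹ ∈ GP r := by
  rw [mem_GP] at hσ ⊢
  intro i
  have h1 := (hσ (σ⁻¹ i)).1
  have h2 : σ (σ⁻¹ i) = i := by simp
  rw [h2] at h1
  refine ⟨h1.symm, fun h0 => ?_⟩
  rw [h1] at h0
  have h3 := (hσ (σ⁻¹ i)).2 h0
  rw [h2] at h3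
  exact h3.symm

theorem mul_mem {r : I → ℕ} {σ τ : Equiv.Perm I} (hσ : σ ∈ GP r) (hτ : τ ∈ GP r) :
    σ * τ ∈ GP r := by
  rw [mem_GP] at hσ hτ ⊢
  intro i
  rw [Equiv.Perm.mul_apply]
  refine ⟨by rw [(hσ _).1, (hτ _).1], fun h0 => ?_⟩
  rw [(hτ i).2 h0, (hσ i).2 h0]

theorem sum_comp {r : I → ℕ} {c : J → ℕ} {σ : Equiv.Perm I} (hσ : σ ∈ GP r)
    (g : (I → J → ℕ) → ℝ) :
    ∑ T ∈ TT r c, g (fun i => T (σ i)) = ∑ T ∈ TT r c, g T := by
  refine Finset.sum_nbij' (fun T => fun i => T (σ i)) (fun T => fun i => T (σ⁻¹ i)) ?_ ?_ ?_ ?_ ?_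
  · intro T hT; exact comp_mem hσ hT
  · intro T hT; exact comp_mem (inv_mem hσ) hT
  · intro T _; funext i; simp
  · intro T _; funext i; simp
  · intro T _; rfl

/-- a row of total at most one -/
theorem row_cases {r : I → ℕ} (hr : ∀ i, r i ≤ 1) {c : J → ℕ} {T : I → J → ℕ} (hT : T ∈ TT r c)
    (i : I) : (r i = 0 ∧ T i = 0) ∨ (r i = 1 ∧ ∃ a, T i = e a) := by
  have hs := ((mem_TT.1 hT).1 i).2
  have hi := hr i
  rcases Nat.eq_zero_or_pos (r i) with h | h
  · left
    refine ⟨h, ?_⟩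
    rw [h] at hs
    funext j
    unfold sz at hs
    exact (Finset.sum_eq_zero_iff.1 hs) j (mem_univ j)
  · right
    have h1 : r i = 1 := by omega
    refine ⟨h1, ?_⟩
    rw [h1] at hs
    unfold sz at hs
    have h2 : ∃ a, T i a ≠ 0 := by
      by_contra hcon
      push Not at hcon
      rw [Finset.sum_eq_zero (fun j _ => hcon j)] at hs
      omega
    obtain ⟨a, ha⟩ := h2
    refine ⟨a, ?_⟩
    have h3 : T i a + ∑ j ∈ univ.erase a, T i j = 1 := by
      rw [Finset.add_sum_erase _ _ (mem_univ a)]; exact hs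
    have h4 : T i a = 1 := by omega
    have h5 : ∑ j ∈ univ.erase a, T i j = 0 := by omega
    funext j
    unfold e
    by_cases hj : j = a
    · rw [hj, Pi.single_eq_same]; exact h4
    · rw [Pi.single_eq_of_ne hj]
      exact (Finset.sum_eq_zero_iff.1 h5) j (mem_erase.2 ⟨hj, mem_univ j⟩)

theorem e_inj {a b : J} (h : (e a : J → ℕ) = e b) : a = b := by
  by_contra hab
  have h1 := congrFun h a
  unfold e at h1
  rw [Pi.single_eq_same, Pi.single_eq_of_ne hab] at h1
  omega

theorem e_ne_zero (a : J) : (e a : J → ℕ) ≠ 0 := by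
  intro h
  have h1 := congrFun h a
  unfold e at h1
  simp at h1

theorem card_fiber {r : I → ℕ} (hr : ∀ i, r i ≤ 1) {c : J → ℕ} {T : I → J → ℕ}
    (hT : T ∈ TT r c) (a : J) : (univ.filter (fun i => T i = e a)).card = c a := by
  have h1 := congrFun (mem_TT.1 hT).2 a
  rw [Finset.sum_apply] at h1
  rw [← h1, Finset.card_filter]
  refine Finset.sum_congr rfl fun i _ => ?_
  rcases row_cases hr hT i with ⟨-, h⟩ | ⟨-, b, h⟩
  · rw [h, if_neg (fun h2 => e_ne_zero a h2.symm)]; rfl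
  · rw [h]
    by_cases hab : b = a
    · rw [if_pos (by rw [hab]), hab]; simp [e]
    · rw [if_neg (fun h2 => hab (e_inj h2))]
      unfold e
      rw [Pi.single_eq_of_ne (Ne.symm hab)]

theorem trans {r : I → ℕ} (hr : ∀ i, r i ≤ 1) {c : J → ℕ} {T T' : I → J → ℕ}
    (hT : T ∈ TT r c) (hT' : T' ∈ TT r c) : ∃ σ ∈ GP r, (fun i => T (σ i)) = T' := by
  have hcard : ∀ y : J → ℕ, Nonempty ({i // T' i = y} ≃ {i // T i = y}) := by
    intro y
    rw [← Fintype.card_eq]
    rw [Fintype.card_subtype, Fintype.card_subtype]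
    by_cases hy : ∃ a, y = e a
    · obtain ⟨a, rfl⟩ := hy
      rw [card_fiber hr hT, card_fiber hr hT']
    · by_cases hy0 : y = 0
      · subst hy0
        have h1 : ∀ S : I → J → ℕ, S ∈ TT r c → univ.filter (fun i => S i = 0)
            = univ.filter (fun i => r i = 0) := by
          intro S hS
          ext i
          rw [mem_filter, mem_filter]
          rcases row_cases hr hS i with ⟨h2, h3⟩ | ⟨h2, b, h3⟩
          · simp [h2, h3]
          · rw [h2, h3]
            simp [e_ne_zero b]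
        rw [h1 T hT, h1 T' hT']
      · have h1 : ∀ S : I → J → ℕ, S ∈ TT r c → univ.filter (fun i => S i = y) = ∅ := by
          intro S hS
          rw [Finset.filter_eq_empty_iff]
          intro i _ h2
          rcases row_cases hr hS i with ⟨-, h3⟩ | ⟨-, b, h3⟩
          · exact hy0 (by rw [← h2, h3])
          · exact hy ⟨b, by rw [← h2, h3]⟩
        rw [h1 T hT, h1 T' hT']
  have hz : ∀ y : J → ℕ, y = 0 → ∀ i, (T' i = y ↔ T i = y) := by
    rintro y rfl i
    rcases row_cases hr hT i with ⟨h2, h3⟩ | ⟨h2, b, h3⟩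
    · rcases row_cases hr hT' i with ⟨h4, h5⟩ | ⟨h4, d, h5⟩
      · rw [h3, h5]
      · omega
    · rcases row_cases hr hT' i with ⟨h4, h5⟩ | ⟨h4, d, h5⟩
      · omega
      · rw [h3, h5]; simp [e_ne_zero b, e_ne_zero d]
  let ee : ∀ y : J → ℕ, {i // T' i = y} ≃ {i // T i = y} := fun y =>
    if hy : y = 0 then Equiv.subtypeEquivRight (hz y hy) else (hcard y).some
  have hee : ∀ y : J → ℕ, y = 0 → ∀ i : {i // T' i = y}, ((ee y) i).1 = i.1 := by
    intro y hy i
    simp only [ee, dif_pos hy]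
    rfl
  let σ : Equiv.Perm I := (Equiv.sigmaFiberEquiv T').symm.trans
    ((Equiv.sigmaCongrRight ee).trans (Equiv.sigmaFiberEquiv T))
  have hσ : ∀ i, T (σ i) = T' i := by
    intro i
    exact (ee (T' i) ⟨i, rfl⟩).2
  refine ⟨σ, ?_, funext hσ⟩
  rw [mem_GP]
  intro i
  have h1 := ((mem_TT.1 hT).1 (σ i)).2
  have h2 := ((mem_TT.1 hT').1 i).2
  rw [hσ i] at h1
  refine ⟨by rw [← h1, h2], fun h0 => ?_⟩
  have h3 : T' i = 0 := by
    rcases row_cases hr hT' i with ⟨h4, h5⟩ | ⟨h4, d, h5⟩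
    · exact h5
    · omega
  exact hee (T' i) h3 ⟨i, rfl⟩

theorem DF_nonneg (r : I → ℕ) (c : J → ℕ) (f : (I → J → ℕ) → ℝ) : 0 ≤ DF r c f := by
  unfold DF
  refine Finset.sum_nonneg fun T _ => Finset.sum_nonneg fun i _ => Finset.sum_nonneg fun j _ =>
    Finset.sum_nonneg fun a _ => Finset.sum_nonneg fun b _ => ?_
  split_ifs
  · positivity
  · exact le_rfl

theorem swap_le {r : I → ℕ} (hr : ∀ i, r i ≤ 1) (c : J → ℕ) (f : (I → J → ℕ) → ℝ) {i j : I}
    (hij : i ≠ j) (hrij : r i = r j) :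
    ∑ T ∈ TT r c, (f (fun l => T (Equiv.swap i j l)) - f T) ^ 2 ≤ DF r c f := by
  unfold DF
  refine Finset.sum_le_sum fun T hT => ?_
  have hnn : ∀ i j a b, 0 ≤ (if i ≠ j ∧ 0 < T i a ∧ 0 < T j b then (f (sw T i j a b) - f T) ^ 2
      else 0) := by
    intro i j a b
    split_ifs
    · positivity
    · exact le_rfl
  rcases row_cases hr hT i with ⟨h1, h2⟩ | ⟨h1, a, h2⟩
  · rcases row_cases hr hT j with ⟨h3, h4⟩ | ⟨h3, b, h4⟩
    · have h5 : (fun l => T (Equiv.swap i j l)) = T := by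
        funext l
        by_cases hl : l = i
        · rw [hl, Equiv.swap_apply_left, h2, h4]
        · by_cases hl2 : l = j
          · rw [hl2, Equiv.swap_apply_right, h2, h4]
          · rw [Equiv.swap_apply_of_ne_of_ne hl hl2]
      rw [h5, sub_self]
      simp only [ne_eq, OfNat.ofNat_ne_zero, not_false_eq_true, zero_pow]
      exact Finset.sum_nonneg fun i _ => Finset.sum_nonneg fun j _ => Finset.sum_nonneg fun a _ =>
        Finset.sum_nonneg fun b _ => hnn i j a b
    · omega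
  · rcases row_cases hr hT j with ⟨h3, h4⟩ | ⟨h3, b, h4⟩
    · omega
    · have h5 : (fun l => T (Equiv.swap i j l)) = sw T i j a b := by
        funext l
        unfold sw
        by_cases hl2 : l = j
        · rw [hl2, Equiv.swap_apply_right, Function.update_self, h2, h4]
          funext x
          simp
        · rw [Function.update_of_ne hl2]
          by_cases hl : l = i
          · rw [hl, Equiv.swap_apply_left, Function.update_self, h2, h4]
            funext x
            simp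
          · rw [Function.update_of_ne hl, Equiv.swap_apply_of_ne_of_ne hl hl2]
      rw [h5]
      have h6 : (f (sw T i j a b) - f T) ^ 2 = (if i ≠ j ∧ 0 < T i a ∧ 0 < T j b then
          (f (sw T i j a b) - f T) ^ 2 else 0) := by
        rw [if_pos]
        refine ⟨hij, ?_, ?_⟩
        · rw [h2]; simp [e]
        · rw [h4]; simp [e]
      rw [h6]
      calc _ ≤ ∑ b, (if i ≠ j ∧ 0 < T i a ∧ 0 < T j b then
            (f (sw T i j a b) - f T) ^ 2 else 0) :=
            Finset.single_le_sum (f := fun b => (if i ≠ j ∧ 0 < T i a ∧ 0 < T j b then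
              (f (sw T i j a b) - f T) ^ 2 else 0)) (fun b _ => hnn i j a b) (mem_univ b)
        _ ≤ ∑ a, ∑ b, (if i ≠ j ∧ 0 < T i a ∧ 0 < T j b then
            (f (sw T i j a b) - f T) ^ 2 else 0) :=
            Finset.single_le_sum (f := fun a => ∑ b, (if i ≠ j ∧ 0 < T i a ∧ 0 < T j b then
              (f (sw T i j a b) - f T) ^ 2 else 0))
              (fun a _ => Finset.sum_nonneg fun b _ => hnn i j a b) (mem_univ a)
        _ ≤ ∑ j, ∑ a, ∑ b, (if i ≠ j ∧ 0 < T i a ∧ 0 < T j b then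
            (f (sw T i j a b) - f T) ^ 2 else 0) :=
            Finset.single_le_sum (f := fun j => ∑ a, ∑ b, (if i ≠ j ∧ 0 < T i a ∧ 0 < T j b then
              (f (sw T i j a b) - f T) ^ 2 else 0))
              (fun j _ => Finset.sum_nonneg fun a _ => Finset.sum_nonneg fun b _ => hnn i j a b)
              (mem_univ j)
        _ ≤ _ :=
            Finset.single_le_sum (f := fun i => ∑ j, ∑ a, ∑ b,
              (if i ≠ j ∧ 0 < T i a ∧ 0 < T j b then (f (sw T i j a b) - f T) ^ 2 else 0))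
              (fun i _ => Finset.sum_nonneg fun j _ => Finset.sum_nonneg fun a _ =>
                Finset.sum_nonneg fun b _ => hnn i j a b) (mem_univ i)

theorem perm_le {r : I → ℕ} (hr : ∀ i, r i ≤ 1) (c : J → ℕ) (f : (I → J → ℕ) → ℝ) (k : ℕ) :
    ∀ σ ∈ GP r, σ.support.card ≤ k →
      ∑ T ∈ TT r c, (f (fun l => T (σ l)) - f T) ^ 2 ≤ (k : ℝ) ^ 2 * DF r c f := by
  induction k with
  | zero =>
    intro σ _ hk
    have h1 : σ = 1 := by
      rw [← Equiv.Perm.card_support_eq_zero]; omega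
    subst h1
    simp
  | succ k ih =>
    intro σ hσ hk
    by_cases h1 : σ = 1
    · subst h1
      simp only [Equiv.Perm.one_apply, sub_self, ne_eq, OfNat.ofNat_ne_zero, not_false_eq_true,
        zero_pow, Finset.sum_const_zero]
      have := DF_nonneg r c f
      positivity
    · obtain ⟨x, hx⟩ : ∃ x, σ x ≠ x := by
        by_contra hcon
        push Not at hcon
        exact h1 (Equiv.ext hcon)
      set s : Equiv.Perm I := Equiv.swap x (σ x) with hs
      have hrx : r x = r (σ x) := ((mem_GP.1 hσ x).1).symm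
      have hrx0 : r x ≠ 0 := fun h0 => hx ((mem_GP.1 hσ x).2 h0)
      have hsG : s ∈ GP r := by
        rw [mem_GP]
        intro i
        by_cases hi : i = x
        · rw [hi, hs, Equiv.swap_apply_left]; exact ⟨hrx.symm, fun h0 => absurd h0 hrx0⟩
        · by_cases hi2 : i = σ x
          · rw [hi2, hs, Equiv.swap_apply_right]
            exact ⟨hrx, fun h0 => absurd h0 (by rw [← hrx]; exact hrx0)⟩
          · rw [hs, Equiv.swap_apply_of_ne_of_ne hi hi2]
            exact ⟨rfl, fun _ => rfl⟩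
      set τ : Equiv.Perm I := s * σ with hτ
      have hτG : τ ∈ GP r := mul_mem hsG hσ
      have hτc : τ.support.card ≤ k := by
        have h2 := Equiv.Perm.card_support_swap_mul hx
        rw [← hs, ← hτ] at h2
        omega
      have hστ : σ = s * τ := by
        rw [hτ, ← mul_assoc, hs, Equiv.swap_mul_self, one_mul]
      have hA := ih τ hτG hτc
      have hB := swap_le hr c f (Ne.symm hx) hrx
      have hA' : ∑ T ∈ TT r c, (f (fun l => T (s (τ l))) - f (fun l => T (s l))) ^ 2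
          ≤ (k : ℝ) ^ 2 * DF r c f := by
        refine le_trans (le_of_eq ?_) hA
        exact sum_comp hsG (fun T => (f (fun l => T (τ l)) - f T) ^ 2)
      set D := DF r c f with hD
      have hD0 : 0 ≤ D := DF_nonneg r c f
      set X : (I → J → ℕ) → ℝ := fun T => f (fun l => T (s (τ l))) - f (fun l => T (s l)) with hX
      set Y : (I → J → ℕ) → ℝ := fun T => f (fun l => T (s l)) - f T with hY
      have hXY : (∑ T ∈ TT r c, X T * Y T) ≤ k * D := by
        have h3 := Finset.sum_mul_sq_le_sq_mul_sq (TT r c) X Y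
        have h4 : (∑ T ∈ TT r c, X T * Y T) ^ 2 ≤ (k * D) ^ 2 := by
          calc _ ≤ (∑ T ∈ TT r c, X T ^ 2) * ∑ T ∈ TT r c, Y T ^ 2 := h3
            _ ≤ ((k : ℝ) ^ 2 * D) * D := by
                refine mul_le_mul hA' hB (Finset.sum_nonneg fun T _ => sq_nonneg _)
                  (by positivity)
            _ = (k * D) ^ 2 := by ring
        exact le_of_sq_le_sq h4 (by positivity)
      have h5 : ∑ T ∈ TT r c, (f (fun l => T (σ l)) - f T) ^ 2
          = ∑ T ∈ TT r c, X T ^ 2 + 2 * ∑ T ∈ TT r c, X T * Y T + ∑ T ∈ TT r c, Y T ^ 2 := by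
        rw [Finset.mul_sum, ← Finset.sum_add_distrib, ← Finset.sum_add_distrib]
        refine Finset.sum_congr rfl fun T _ => ?_
        have h6 : f (fun l => T (σ l)) - f T = X T + Y T := by
          rw [hX, hY, hστ]
          simp only [Equiv.Perm.mul_apply]
          ring
        rw [h6]; ring
      rw [h5]
      push_cast
      have h7 : ∑ T ∈ TT r c, X T ^ 2 ≤ (k : ℝ) ^ 2 * D := hA'
      have h8 : ∑ T ∈ TT r c, Y T ^ 2 ≤ D := hB
      nlinarith

theorem support_card_le {r : I → ℕ} (hr : ∀ i, r i ≤ 1) {σ : Equiv.Perm I} (hσ : σ ∈ GP r) :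
    σ.support.card ≤ ∑ i, r i := by
  have h1 : ∑ i, r i = (univ.filter (fun i => r i = 1)).card := by
    rw [Finset.card_filter]
    refine Finset.sum_congr rfl fun i _ => ?_
    have := hr i
    split_ifs with h
    · exact h
    · omega
  rw [h1]
  refine Finset.card_le_card fun i hi => ?_
  rw [Equiv.Perm.mem_support] at hi
  rw [mem_filter]
  refine ⟨mem_univ i, ?_⟩
  have h2 := hr i
  have h3 : r i ≠ 0 := fun h0 => hi ((mem_GP.1 hσ i).2 h0)
  omega

end Un

/-- rows with at most one unit -/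
theorem unit_rows (r : I → ℕ) (hr : ∀ i, r i ≤ 1) (c : J → ℕ) (hrc : ∑ i, r i = sz c) :
    PIn r c ((sz c : ℝ) ^ 2) := by
  intro f
  set Ω := TT r c with hΩ
  rcases Ω.eq_empty_or_nonempty with h0 | ⟨T0, hT0⟩
  · rw [h0]; simp
  set G := Un.GP r with hG
  have hGne : G.Nonempty := ⟨1, by rw [hG, Un.mem_GP]; intro i; exact ⟨rfl, fun _ => rfl⟩⟩
  have hGc : (0 : ℝ) < G.card := by exact_mod_cast hGne.card_pos
  set fb : (I → J → ℕ) → ℝ := fun T => (∑ σ ∈ G, f (fun i => T (σ i))) / G.card with hfb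
  have hconst : ∀ T ∈ Ω, fb T = fb T0 := by
    intro T hT
    obtain ⟨τ, hτ, rfl⟩ := Un.trans hr hT0 hT
    simp only [hfb]
    congr 1
    refine Finset.sum_nbij' (fun σ => τ * σ) (fun σ => τ⁻¹ * σ) ?_ ?_ ?_ ?_ ?_
    · intro σ hσ; exact Un.mul_mem hτ hσ
    · intro σ hσ; exact Un.mul_mem (Un.inv_mem hτ) hσ
    · intro σ _; simp
    · intro σ _; simp
    · intro σ _; rfl
  set m : ℝ := fb T0 with hm
  set D := DF r c f with hD
  have hD0 : 0 ≤ D := Un.DF_nonneg r c f
  have hvar : ∑ T ∈ Ω, (f T - m) ^ 2 ≤ (sz c : ℝ) ^ 2 * D := by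
    have h1 : ∀ T ∈ Ω, (f T - m) ^ 2 ≤ (∑ σ ∈ G, (f (fun i => T (σ i)) - f T) ^ 2) / G.card := by
      intro T hT
      have h2 : f T - m = - ((∑ σ ∈ G, (f (fun i => T (σ i)) - f T)) / G.card) := by
        rw [← hconst T hT, hfb, Finset.sum_sub_distrib, Finset.sum_const, nsmul_eq_mul]
        field_simp
        ring
      rw [h2, neg_sq, div_pow, div_le_div_iff₀ (by positivity) hGc]
      have h4 := sq_sum_le_card_mul_sum_sq (s := G)
        (f := fun σ => f (fun i => T (σ i)) - f T)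
      calc (∑ σ ∈ G, (f (fun i => T (σ i)) - f T)) ^ 2 * G.card
          ≤ (G.card * ∑ σ ∈ G, (f (fun i => T (σ i)) - f T) ^ 2) * G.card := by gcongr
        _ = _ := by ring
    calc ∑ T ∈ Ω, (f T - m) ^ 2
        ≤ ∑ T ∈ Ω, (∑ σ ∈ G, (f (fun i => T (σ i)) - f T) ^ 2) / G.card :=
          Finset.sum_le_sum h1
      _ = (∑ σ ∈ G, ∑ T ∈ Ω, (f (fun i => T (σ i)) - f T) ^ 2) / G.card := by
          rw [← Finset.sum_div, Finset.sum_comm]
      _ ≤ (∑ _σ ∈ G, (sz c : ℝ) ^ 2 * D) / G.card := by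
          gcongr with σ hσ
          exact Un.perm_le hr c f (sz c) σ hσ (by rw [← hrc]; exact Un.support_card_le hr hσ)
      _ = (sz c : ℝ) ^ 2 * D := by
          rw [Finset.sum_const, nsmul_eq_mul]; field_simp
  have hc0 : (0 : ℝ) ≤ Ω.card := by positivity
  have hexp : (Ω.card : ℝ) * ∑ T ∈ Ω, f T ^ 2 - (∑ T ∈ Ω, f T) ^ 2
      ≤ Ω.card * ∑ T ∈ Ω, (f T - m) ^ 2 := by
    have h1 : ∑ T ∈ Ω, (f T - m) ^ 2 = ∑ T ∈ Ω, f T ^ 2 - 2 * m * ∑ T ∈ Ω, f T + Ω.card * m ^ 2 := by
      rw [Finset.mul_sum, ← Finset.sum_sub_distrib, ← nsmul_eq_mul, ← Finset.sum_const,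
        ← Finset.sum_add_distrib]
      refine Finset.sum_congr rfl fun T _ => ?_
      ring
    rw [h1]
    nlinarith [sq_nonneg (∑ T ∈ Ω, f T - Ω.card * m)]
  calc (Ω.card : ℝ) * ∑ T ∈ Ω, f T ^ 2 - (∑ T ∈ Ω, f T) ^ 2
      ≤ Ω.card * ∑ T ∈ Ω, (f T - m) ^ 2 := hexp
    _ ≤ Ω.card * ((sz c : ℝ) ^ 2 * D) := by gcongr
    _ = _ := by ring

end CT
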